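import Crest.Agent.R59.G2

/-! # Row 59, Adm: admissibility is preserved by products and factorisations. -/

set_option autoImplicit false

namespace Crest.Agent.R59
open scoped Classical

variable {M : Type} [AddCommGroup M] {ω : Form M} {A : Cone M}

theorem IsLP.zero : IsLP 0 := by
  simp [IsLP]
theorem IsLP.tp (k : ℤ) : IsLP (tp k) := by
  exact (Set.finite_singleton k).subset HahnSeries.support_single_subset
theorem IsLP.add {a b : K} (ha : IsLP a) (hb : IsLP b) : IsLP (a + b) := by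
  exact (Set.Finite.union ha hb).subset (HahnSeries.support_add_subset a b)
theorem IsLP.neg {a : K} (ha : IsLP a) : IsLP (-a) := by
  simpa [IsLP] using ha
theorem IsLP.mul {a b : K} (ha : IsLP a) (hb : IsLP b) : IsLP (a * b) := by
  exact (Set.Finite.add ha hb).subset HahnSeries.support_mul_subset
theorem IsLP.sum {ι : Type*} {s : Finset ι} {f : ι → K} (h : ∀ i ∈ s, IsLP (f i)) :
    IsLP (∑ i ∈ s, f i) := by
  exact Finset.sum_induction f IsLP (fun _ _ => IsLP.add) IsLP.zero h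

/-- Laurent polynomial coefficients on `S` -/
def LPOn (S : Set M) (f : QT ω A) : Prop := ∀ u ∈ S, IsLP (f.c u)

theorem adm_sub {a b : K} (ha : IsLP a) (hb : IsLP b) : IsLP (a - b) := by
  rw [sub_eq_add_neg]
  exact ha.add hb.neg

theorem adm_one_c (u : M) : IsLP ((1 : QT ω A).c u) := by
  rw [QT.one_c]
  split_ifs
  · exact IsLP.tp 0
  · exact IsLP.zero

theorem adm_mul_c {f g : QT ω A} {d : M}
    (h : ∀ u ∈ A.C, ∀ v ∈ A.C, u + v = d → IsLP (f.c u * g.c v)) : IsLP ((f * g).c d) := by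
  rw [QT.mul_c_sum _ _ _ le_rfl]
  refine IsLP.sum fun u hu => ?_
  rw [mul_assoc]
  by_cases hv : d - u ∈ A.C
  · exact (IsLP.tp _).mul (h u (A.mem_le.1 hu).1 _ hv (add_sub_cancel _ _))
  · rw [g.c_eq_zero hv, mul_zero, mul_zero]
    exact IsLP.zero

theorem adm_ind {P : M → Prop}
    (h : ∀ d ∈ A.C, (∀ u ∈ A.C, A.deg u < A.deg d → P u) → P d) : ∀ d ∈ A.C, P d := by
  intro d hd
  induction hn : (A.deg d).toNat using Nat.strong_induction_on generalizing d with
  | _ n ih =>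
    refine h d hd fun u hu hlt => ih _ ?_ u hu rfl
    have := A.deg_nonneg hu
    omega

theorem adm_lt {u v d : M} (hu : u ∈ A.C) (h0 : u ≠ 0) (h : u + v = d) : A.deg v < A.deg d := by
  have := A.pos u hu h0
  rw [← h, map_add]
  omega

theorem adm_sub_one {f : QT ω A} (h0 : f.c 0 = 1) : (f - 1).c 0 = 0 := by
  simp [h0, QT.one_c]

theorem LPOn.mul {S : Set M} (hS : Lower A S) {f g : QT ω A} (hf : LPOn S f) (hg : LPOn S g) :
    LPOn S (f * g) := by
  refine fun d hd => adm_mul_c fun u hu v hv h => (hf u (hS u hu v hv (h ▸ hd))).mul (hg v ?_)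
  exact hS v hv u hu (by rwa [add_comm, h])
/-- induction on the degree -/
theorem LPOn.inv {S : Set M} (hS : Lower A S) {f : QT ω A} (h0 : f.c 0 = 1) (hf : LPOn S f) :
    LPOn S (inv f) := by
  have e : R59.inv f = 1 - (f - 1) * R59.inv f := by
    rw [sub_mul, mul_inv_self h0, one_mul, sub_sub_cancel]
  have key : ∀ d ∈ A.C, d ∈ S → IsLP ((R59.inv f).c d) := by
    refine adm_ind fun d _ ih hd => ?_
    rw [e, QT.sub_c]
    refine adm_sub (adm_one_c d) (adm_mul_c fun u hu v hv h => ?_)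
    by_cases hu0 : u = 0
    · rw [hu0, adm_sub_one h0, zero_mul]
      exact IsLP.zero
    · exact (adm_sub (hf u (hS u hu v hv (h ▸ hd))) (adm_one_c u)).mul
        (ih v hv (adm_lt hu hu0 h) (hS v hv u hu (by rwa [add_comm, h])))
  intro d hd
  by_cases hC : d ∈ A.C
  · exact key d hC hd
  · rw [QT.c_eq_zero _ hC]
    exact IsLP.zero
/-- `[x^d] (γ⁻¹ f γ) = Σ_u f_u [x^d] (γ⁻¹ x^u γ)` (truncate `f` to `A.le (deg d)`), and
`γ⁻¹ x^u γ = (γ⁻¹ σ_(ω u)(γ)) x^u` (`mono_mul_eq_sig`) -/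
theorem Adi_c_formula {γ : QT ω A} (f : QT ω A) (d : M) :
    (Adi γ f).c d = ∑ u ∈ A.le (A.deg d),
      f.c u * (tp (ω.w d u) * (inv γ * sig (ω.w u) γ).c (d - u)) := by
  have hS := lower_le A.deg (fun u hu => A.deg_nonneg hu) (A.deg d)
  have h1 : Eqv {u | A.deg u ≤ A.deg d} f (∑ u ∈ A.le (A.deg d), f.c u • mono ω A u) := by
    intro v hv
    rw [QT.sum_c, Finset.sum_eq_single v]
    · by_cases hC : v ∈ A.C
      · simp [mono_c hC]
      · simp [f.c_eq_zero hC]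
    · intro u hu huv
      simp [mono_c (A.mem_le.1 hu).1, huv.symm]
    · intro h
      simp [f.c_eq_zero fun hC => h (A.mem_le.2 ⟨hC, hv⟩)]
  rw [Adi, (((Eqv.refl _ (inv γ)).mul hS h1).mul hS (Eqv.refl _ γ)) d (le_refl (A.deg d)),
    Finset.mul_sum, Finset.sum_mul, QT.sum_c]
  refine Finset.sum_congr rfl fun u hu => ?_
  have hC := (A.mem_le.1 hu).1
  rw [mul_smul_comm, smul_mul_assoc, mul_assoc, mono_mul_eq_sig hC, ← mul_assoc, QT.smul_c,
    mul_mono_c hC]

theorem adm_c_zero {a : QT ω A} (h0 : a.c 0 = 1) (ℓ : M →+ ℤ) : (inv a * sig ℓ a).c 0 = 1 := by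
  simp [mul_c_zero, inv_c_zero h0, sig_c, h0]

theorem adm_split {a b : QT ω A} (ha : a.c 0 = 1) (hb : b.c 0 = 1) (ℓ : M →+ ℤ) :
    inv (a * b) * sig ℓ (a * b) = Adi b (inv a * sig ℓ a) * (inv b * sig ℓ b) := by
  rw [inv_mul_rev ha hb, sig_mul, Adi]
  simp only [mul_assoc]
  rw [← mul_assoc b, mul_inv_self hb, one_mul]

theorem adm_Adi {S : Set M} (hS : Lower A S) {b f : QT ω A} (hf : LPOn S f)
    (hb : ∀ ℓ, LPOn S (inv b * sig ℓ b)) : LPOn S (Adi b f) := by
  intro d hd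
  rw [Adi_c_formula]
  refine IsLP.sum fun u hu => ?_
  have hC := (A.mem_le.1 hu).1
  by_cases hv : d - u ∈ A.C
  · exact (hf u (hS u hC _ hv (by rwa [add_sub_cancel]))).mul ((IsLP.tp _).mul
      (hb _ _ (hS _ hv u hC (by rwa [sub_add_cancel]))))
  · rw [QT.c_eq_zero _ hv, mul_zero, mul_zero]
    exact IsLP.zero

theorem adm_mul_top {f g : QT ω A} (hf0 : f.c 0 = 1) (hg0 : g.c 0 = 1) {d : M}
    (hf : LPOn {u | A.deg u < A.deg d} f) (hg : LPOn {u | A.deg u < A.deg d} g) :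
    IsLP ((f * g).c d - f.c d - g.c d) := by
  have e : f * g - f - g = (f - 1) * (g - 1) - 1 := by noncomm_ring
  rw [← QT.sub_c, ← QT.sub_c, e, QT.sub_c]
  refine adm_sub (adm_mul_c fun u hu v hv h => ?_) (adm_one_c d)
  by_cases hu0 : u = 0
  · rw [hu0, adm_sub_one hf0, zero_mul]
    exact IsLP.zero
  by_cases hv0 : v = 0
  · rw [hv0, adm_sub_one hg0, mul_zero]
    exact IsLP.zero
  exact (adm_sub (hf u (adm_lt hv hv0 (by rwa [add_comm]))) (adm_one_c u)).mul
    (adm_sub (hg v (adm_lt hu hu0 h)) (adm_one_c v))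

theorem adm_Adi_top {b f : QT ω A} (hb0 : b.c 0 = 1) (hf0 : f.c 0 = 1) {d : M}
    (hf : LPOn {u | A.deg u < A.deg d} f)
    (hb : ∀ ℓ, LPOn {u | A.deg u < A.deg d} (inv b * sig ℓ b)) :
    IsLP ((Adi b f).c d - f.c d) := by
  have e : Adi b f - f = Adi b (f - 1) - Adi 1 (f - 1) := by
    rw [Adi_sub, Adi_one' hb0, Adi_one, sub_sub_sub_cancel_right]
  rw [← QT.sub_c, e, QT.sub_c, Adi_c_formula, Adi_c_formula, ← Finset.sum_sub_distrib]
  refine IsLP.sum fun u hu => ?_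
  have hC := (A.mem_le.1 hu).1
  rw [inv_one', sig_one, one_mul, ← mul_sub, ← mul_sub, ← QT.sub_c (inv b * _)]
  by_cases hu0 : u = 0
  · rw [hu0, adm_sub_one hf0, zero_mul]
    exact IsLP.zero
  by_cases hv0 : d - u = 0
  · rw [hv0, adm_sub_one (adm_c_zero hb0 _), mul_zero, mul_zero]
    exact IsLP.zero
  by_cases hv : d - u ∈ A.C
  · exact (adm_sub (hf u (adm_lt hv hv0 (sub_add_cancel _ _))) (adm_one_c u)).mul
      ((IsLP.tp _).mul (adm_sub (hb _ _ (adm_lt hC hu0 (add_sub_cancel _ _))) (adm_one_c _)))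
  · rw [QT.c_eq_zero _ hv, mul_zero, mul_zero]
    exact IsLP.zero

theorem admis_one : Admis (1 : QT ω A) := by
  refine ⟨by simp [QT.one_c], fun ℓ u => ?_⟩
  rw [inv_one', sig_one, one_mul]
  exact adm_one_c u
theorem adm_lin {u : M} (hu : u ∈ A.C) (h0 : u ≠ 0) {a : K} (ha : IsLP a) :
    (ser ω A u (1 + PowerSeries.C a * PowerSeries.X)).c 0 = 1 ∧
      LPOn Set.univ (ser ω A u (1 + PowerSeries.C a * PowerSeries.X)) := by
  rw [ser_add hu h0, ser_one, ser_C_mul_X hu h0]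
  refine ⟨by simp [QT.one_c, mono_c hu, h0.symm], fun v _ => ?_⟩
  rw [QT.add_c, QT.smul_c, mono_c hu]
  refine (adm_one_c v).add ?_
  split_ifs
  · rwa [mul_one]
  · rw [mul_zero]
    exact IsLP.zero

theorem adm_step {u : M} (hu : u ∈ A.C) (h0 : u ≠ 0) (s : ℤ) :
    LPOn Set.univ (inv (gen ω A s u) * gen ω A (s + 2) u) := by
  rcases Int.even_or_odd s with hs | hs
  · have e : gen ω A (s + 2) u =
        gen ω A s u * ser ω A u (1 + PowerSeries.C (-tp s) * PowerSeries.X) := by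
      rw [gen, gen, ← ser_mul hu h0, ← Gser_even hs, map_neg, neg_mul, ← sub_eq_add_neg, mul_comm]
    rw [e, ← mul_assoc, inv_mul_self (gen_c_zero _ _), one_mul]
    exact (adm_lin hu h0 (IsLP.tp s).neg).2
  · have e : gen ω A s u =
        gen ω A (s + 2) u * ser ω A u (1 + PowerSeries.C (tp s) * PowerSeries.X) := by
      rw [gen, gen, ← ser_mul hu h0, Gser_odd hs, mul_comm]
    have h := adm_lin (ω := ω) hu h0 (IsLP.tp s)
    rw [e, inv_mul_rev (gen_c_zero _ _) h.1, mul_assoc, inv_mul_self (gen_c_zero _ _), mul_one]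
    exact h.2.inv lower_univ h.1

/-- `sig_gen`; `G_(s+2k) / G_s` is a finite product of `1 ± t^i X` or the inverse of one -/
theorem admis_gen (s : ℤ) (u : M) : Admis (gen ω A s u) := by
  by_cases h : u ∈ A.C ∧ u ≠ 0
  swap
  · rw [G1_junk h]
    exact admis_one
  obtain ⟨hu, h0⟩ := h
  refine ⟨gen_c_zero s u, fun ℓ v => ?_⟩
  rw [sig_gen hu h0]
  have e : ∀ k : ℤ, inv (gen ω A s u) * gen ω A (s + 2 * (k + 1)) u =
      inv (gen ω A s u) * gen ω A (s + 2 * k) u *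
        (inv (gen ω A (s + 2 * k) u) * gen ω A (s + 2 * k + 2) u) := fun k => by
    rw [mul_assoc, ← mul_assoc (gen ω A (s + 2 * k) u), mul_inv_self (gen_c_zero _ _), one_mul,
      mul_add, mul_one, add_assoc]
  have key : ∀ k : ℤ, LPOn Set.univ (inv (gen ω A s u) * gen ω A (s + 2 * k) u) := by
    intro k
    induction k using Int.induction_on with
    | zero =>
      rw [mul_zero, add_zero, inv_mul_self (gen_c_zero _ _)]
      exact fun w _ => adm_one_c w
    | succ k ih =>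
      rw [e]
      exact ih.mul lower_univ (adm_step hu h0 _)
    | pred k ih =>
      have h1 := e (-k - 1)
      have h2 : (inv (gen ω A (s + 2 * (-k - 1)) u) * gen ω A (s + 2 * (-k - 1) + 2) u).c 0 = 1 := by
        rw [mul_c_zero, inv_c_zero (gen_c_zero _ _), gen_c_zero, one_mul]
      rw [sub_add_cancel] at h1
      have h3 := ih.mul lower_univ ((adm_step hu h0 (s + 2 * (-k - 1))).inv lower_univ h2)
      rwa [h1, mul_assoc, mul_inv_self h2, mul_one] at h3
  exact key _ v trivial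
/-- `(ab)⁻¹ σ(ab) = Adi b (a⁻¹ σ a) * (b⁻¹ σ b)` -/
theorem Admis.mul {a b : QT ω A} (ha : Admis a) (hb : Admis b) : Admis (a * b) := by
  refine ⟨by rw [mul_c_zero, ha.1, hb.1, one_mul], fun ℓ u => ?_⟩
  rw [adm_split ha.1 hb.1]
  exact (adm_Adi lower_univ (fun v _ => ha.2 ℓ v) fun ℓ' v _ => hb.2 ℓ' v).mul lower_univ
    (fun v _ => hb.2 ℓ v) u trivial
theorem admis_gprod (L : List (ℤ × M)) : Admis (gprod ω A L) := by
  induction L with
  | nil => exact admis_one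
  | cons p L ih => exact (admis_gen p.1 p.2).mul ih
/-- Induction on the degree, simultaneously for `a_ℓ = g_-⁻¹ σ g_-` and `b_ℓ = g_≥⁻¹ σ g_≥` and all
`ℓ`: `g⁻¹ σ g = Adi g_≥ a_ℓ * b_ℓ` has `d`-coefficient `a_ℓ(d) + b_ℓ(d) +` Laurent polynomial, and
one of `a_ℓ(d)`, `b_ℓ(d)` vanishes (supports).  Then project (`proj_mul`, `proj_inv`). -/
theorem Admis.gzero {g : QT ω A} (hg : Admis g) (θ : M →+ ℚ) : Admis (gzero θ g) := by
  obtain ⟨ha0, hb0, ha, hb, e⟩ := isFac θ hg.1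
  have hz := gzero_c_zero θ hg.1
  rw [R59.gzero] at hz ⊢
  generalize gneg θ g = a at ha0 ha e
  generalize gnn θ g = b at hb0 hb e hz
  have hsa : ∀ ℓ, Supp (inv a * sig ℓ a) (negM θ) := fun ℓ => (ha.inv ha0).mul (ha.diag _)
  have hsb : ∀ ℓ, Supp (inv b * sig ℓ b) (nnM θ) := fun ℓ => (hb.inv hb0).mul (hb.diag _)
  have key : ∀ d ∈ A.C, ∀ ℓ, IsLP ((inv a * sig ℓ a).c d) ∧ IsLP ((inv b * sig ℓ b).c d) := by
    refine adm_ind fun d _ ih ℓ => ?_
    have ih' : ∀ ℓ, LPOn {u | A.deg u < A.deg d} (inv a * sig ℓ a) ∧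
        LPOn {u | A.deg u < A.deg d} (inv b * sig ℓ b) := fun ℓ => by
      constructor <;> intro u hu <;> by_cases hC : u ∈ A.C
      · exact (ih u hC hu ℓ).1
      · rw [QT.c_eq_zero _ hC]
        exact IsLP.zero
      · exact (ih u hC hu ℓ).2
      · rw [QT.c_eq_zero _ hC]
        exact IsLP.zero
    have h0 : (Adi b (inv a * sig ℓ a)).c 0 = 1 := by
      rw [Adi, mul_c_zero, mul_c_zero, inv_c_zero hb0, adm_c_zero ha0, hb0, one_mul, one_mul]
    have h1 := adm_mul_top h0 (adm_c_zero hb0 ℓ) (adm_Adi (lower_lt A.deg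
      (fun u hu => A.deg_nonneg hu) (A.deg d)) (ih' ℓ).1 fun ℓ' => (ih' ℓ').2) (ih' ℓ).2
    have h2 := adm_Adi_top hb0 (adm_c_zero ha0 ℓ) (ih' ℓ).1 fun ℓ' => (ih' ℓ').2
    have h3 := hg.2 ℓ d
    rw [e, adm_split ha0 hb0] at h3
    have h4 : IsLP ((inv a * sig ℓ a).c d + (inv b * sig ℓ b).c d) := by
      convert adm_sub (adm_sub h3 h1) h2 using 1
      ring
    by_cases hd0 : d = 0
    · rw [hd0, adm_c_zero ha0, adm_c_zero hb0]
      exact ⟨IsLP.tp 0, IsLP.tp 0⟩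
    by_cases hθ : θ d < 0
    · have h5 : (inv b * sig ℓ b).c d = 0 := by
        by_contra h5
        exact absurd (hsb ℓ d h5) (not_le.2 hθ)
      rw [h5] at h4 ⊢
      exact ⟨by simpa using h4, IsLP.zero⟩
    · have h5 : (inv a * sig ℓ a).c d = 0 := by
        by_contra h5
        exact (hsa ℓ d h5).elim hd0 hθ
      rw [h5] at h4 ⊢
      exact ⟨IsLP.zero, by simpa using h4⟩
  refine ⟨hz, fun ℓ u => ?_⟩
  have h1 : sig ℓ (proj (zeroM θ) b) = proj (zeroM θ) (sig ℓ b) := by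
    ext1 v
    simp only [sig_c, proj_c, mul_ite, mul_zero]
  rw [h1, ← proj_inv θ hb0 hb, ← proj_mul θ (g := sig ℓ b) (hb.inv hb0) (hb.diag _), proj_c]
  split_ifs
  · by_cases hC : u ∈ A.C
    · exact (key u hC ℓ).2
    · rw [QT.c_eq_zero _ hC]
      exact IsLP.zero
  · exact IsLP.zero
/-- in a commutative situation `b⁻¹ σ b = (a⁻¹ σ a)⁻¹ · (ab)⁻¹ σ(ab)` -/
theorem Admis.cancel {a b : QT ω A} {N : AddSubmonoid M} (hN : ∀ u ∈ N, ∀ v ∈ N, ω.w u v = 0)
    (ha : Supp a N) (hb : Supp b N) (hb0 : b.c 0 = 1) (h1 : Admis a) (h2 : Admis (a * b)) :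
    Admis b := by
  refine ⟨hb0, fun ℓ u => ?_⟩
  have hs : Supp (inv a * sig ℓ a) N := (ha.inv h1.1).mul (ha.diag _)
  have h0 := adm_c_zero h1.1 ℓ
  have e : inv b * sig ℓ b = inv (inv a * sig ℓ a) * (inv (a * b) * sig ℓ (a * b)) := by
    rw [adm_split h1.1 hb0, Adi_of_commute hb0 (commute_of_supp fun u v hu hv =>
      hN u (hb u hu) v (hs v hv)), ← mul_assoc, inv_mul_self h0, one_mul]
  rw [e]
  exact (LPOn.inv lower_univ h0 fun v _ => h1.2 ℓ v).mul lower_univ (fun v _ => h2.2 ℓ v) u trivial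
/-- lowest terms of an admissible element (`ℓ = deg`) -/
theorem Admis.lowest {g : QT ω A} (hg : Admis g) {d : M} (hd : d ≠ 0)
    (h : ∀ u, u ≠ 0 → A.deg u < A.deg d → g.c u = 0) :
    IsLP ((tp (2 * A.deg d) - 1) * g.c d) := by
  have _ := hd
  have e : sig A.deg g - g = g * (inv g * sig A.deg g - 1) := by
    rw [mul_sub, ← mul_assoc, mul_inv_self hg.1, one_mul, mul_one]
  rw [sub_mul, one_mul, ← sig_c, ← QT.sub_c, e]
  refine adm_mul_c fun u _ v hv huv => ?_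
  by_cases hu0 : u = 0
  · rw [hu0, hg.1, one_mul]
    exact adm_sub (hg.2 _ v) (adm_one_c v)
  by_cases hv0 : v = 0
  · rw [hv0, adm_sub_one (adm_c_zero hg.1 _), mul_zero]
    exact IsLP.zero
  rw [h u hu0 (adm_lt hv hv0 (by rwa [add_comm])), zero_mul]
  exact IsLP.zero

end Crest.Agent.R59
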