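import Crest.Agent.R59.C1d

/-! # Row 59, C1: types of finite sets of points -/

set_option autoImplicit false

namespace Crest.Agent.R59
open scoped Classical
open MvPolynomial

namespace Ctx
variable {I P : Type} [Fintype I] [DecidableEq I] [LinearOrder P] (Γ : Ctx I P)

theorem C1_sum_col {M : Type} [AddCommMonoid M] (X : Finset P) (g : I → M) :
    ∑ p ∈ X, g (Γ.col p) = ∑ i, Γ.ty X i • g i := by
  rw [← Finset.sum_fiberwise X Γ.col fun p => g (Γ.col p)]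
  refine Finset.sum_congr rfl fun i _ => ?_
  rw [Finset.sum_congr rfl (g := fun _ => g i) fun p hp => by rw [(Finset.mem_filter.1 hp).2],
    Finset.sum_const]
  rfl

theorem ty_union {Y Z : Finset P} (h : Disjoint Y Z) : Γ.ty (Y ∪ Z) = Γ.ty Y + Γ.ty Z := by
  funext i
  simp only [ty, Pi.add_apply]
  rw [Finset.filter_union, Finset.card_union_of_disjoint (Finset.disjoint_filter_filter h)]
theorem ty_sdiff {Y X : Finset P} (h : Y ⊆ X) : Γ.ty Y + Γ.ty (X \ Y) = Γ.ty X := by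
  rw [← Γ.ty_union Finset.disjoint_sdiff, Finset.union_sdiff_of_subset h]
theorem ty_image {σ : P → P} {X : Finset P} (h : Γ.Adm σ X) : Γ.ty (X.image σ) = Γ.ty X := by
  funext i
  simp only [ty]
  rw [Finset.filter_image, Finset.card_image_of_injOn
    (h.1.mono (Finset.coe_subset.2 (Finset.filter_subset _ _)))]
  congr 1
  exact Finset.filter_congr fun p hp => by rw [h.2 p hp]
theorem ty_eq_zero {X : Finset P} : Γ.ty X = 0 ↔ X = ∅ := by
  constructor
  · intro h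
    refine Finset.eq_empty_of_forall_notMem fun p hp => ?_
    have h1 : Γ.ty X (Γ.col p) = 0 := congrFun h _
    exact Finset.notMem_empty p (Finset.card_eq_zero.1 h1 ▸ Finset.mem_filter.2 ⟨hp, rfl⟩)
  · rintro rfl
    funext i
    simp [ty]
theorem card_eq_ty (X : Finset P) : X.card = ∑ i, Γ.ty X i := by
  have := Γ.C1_sum_col X fun _ => (1 : ℕ)
  simpa using this
theorem exists_ty (a : I → ℕ) : ∃ X, Γ.ty X = a := by
  obtain ⟨X, hX⟩ := Γ.big a
  exact ⟨X, funext hX⟩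
theorem exists_subset_ty {X : Finset P} {c : I → ℕ} (h : c ≤ Γ.ty X) :
    ∃ Y ⊆ X, Γ.ty Y = c := by
  have h1 : ∀ i, ∃ Y ⊆ X.filter fun p => Γ.col p = i, Y.card = c i := fun i =>
    Finset.exists_subset_card_eq (h i)
  choose Y hY hc using h1
  refine ⟨Finset.univ.biUnion Y, Finset.biUnion_subset.2 fun i _ =>
    (hY i).trans (Finset.filter_subset _ _), funext fun i => ?_⟩
  rw [← hc i]
  simp only [ty]
  congr 1
  ext p
  simp only [Finset.mem_filter, Finset.mem_biUnion, Finset.mem_univ, true_and]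
  constructor
  · rintro ⟨⟨j, hj⟩, rfl⟩
    rwa [(Finset.mem_filter.1 (hY j hj)).2]
  · intro hp
    exact ⟨⟨i, hp⟩, (Finset.mem_filter.1 (hY i hp)).2⟩
theorem th_eq (X : Finset P) : Γ.th X = Γ.thT (Γ.ty X) := by
  unfold th thT
  rw [Γ.C1_sum_col X Γ.θ]
  simp only [nsmul_eq_mul]
theorem bb_eq (Y Z : Finset P) : Γ.bb Y Z = Γ.bT (Γ.ty Y) (Γ.ty Z) := by
  unfold bb bT
  rw [Γ.C1_sum_col Y fun i => ∑ q ∈ Z, Γ.b i (Γ.col q)]
  refine Finset.sum_congr rfl fun i _ => ?_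
  rw [Γ.C1_sum_col Z (Γ.b i), smul_eq_mul, Finset.mul_sum]
  simp only [smul_eq_mul, mul_assoc]
theorem ff_eq (X : Finset P) : Γ.ff X = Γ.fT (Γ.ty X) := by
  unfold ff fT
  rw [Finset.card_filter, Γ.C1_sum_col X fun i => if Γ.odd i then 1 else 0]
  simp only [smul_eq_mul, mul_ite, mul_one, mul_zero]
theorem sg_eq (Y Z : Finset P) : Γ.sg Y Z = Γ.sgT (Γ.ty Y) (Γ.ty Z) := by
  unfold sg sgT
  rw [bb_eq, ff_eq, ff_eq]
theorem thT_add (a a' : I → ℕ) : Γ.thT (a + a') = Γ.thT a + Γ.thT a' := by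
  simp only [thT, Pi.add_apply, Nat.cast_add, add_mul, Finset.sum_add_distrib]
theorem thT_zero : Γ.thT 0 = 0 := by
  simp [thT]
theorem bT_add_left (a a' c : I → ℕ) : Γ.bT (a + a') c = Γ.bT a c + Γ.bT a' c := by
  simp only [bT, Pi.add_apply, add_mul, Finset.sum_add_distrib]
theorem bT_add_right (a c c' : I → ℕ) : Γ.bT a (c + c') = Γ.bT a c + Γ.bT a c' := by
  simp only [bT, Pi.add_apply, add_mul, mul_add, Finset.sum_add_distrib]
theorem bT_zero_left (c : I → ℕ) : Γ.bT 0 c = 0 := by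
  simp [bT]
theorem bT_zero_right (c : I → ℕ) : Γ.bT c 0 = 0 := by
  simp [bT]
theorem fT_add (a a' : I → ℕ) : Γ.fT (a + a') = Γ.fT a + Γ.fT a' := by
  unfold fT
  rw [← Finset.sum_add_distrib]
  refine Finset.sum_congr rfl fun i _ => ?_
  split_ifs <;> simp
theorem th_union {Y Z : Finset P} (h : Disjoint Y Z) : Γ.th (Y ∪ Z) = Γ.th Y + Γ.th Z := by
  exact Finset.sum_union h
theorem th_sdiff {Y X : Finset P} (h : Y ⊆ X) : Γ.th (X \ Y) = Γ.th X - Γ.th Y := by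
  rw [eq_sub_iff_add_eq]
  exact Finset.sum_sdiff h
theorem th_empty : Γ.th ∅ = 0 := by
  exact Finset.sum_empty
theorem bb_union_left {Y Y' : Finset P} (h : Disjoint Y Y') (Z : Finset P) :
    Γ.bb (Y ∪ Y') Z = Γ.bb Y Z + Γ.bb Y' Z := by
  exact Finset.sum_union h
theorem bb_union_right (Y : Finset P) {Z Z' : Finset P} (h : Disjoint Z Z') :
    Γ.bb Y (Z ∪ Z') = Γ.bb Y Z + Γ.bb Y Z' := by
  unfold bb
  rw [← Finset.sum_add_distrib]
  exact Finset.sum_congr rfl fun p _ => Finset.sum_union h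
theorem Sym.bb {Γ : Ctx I P} (hS : Γ.Sym) {Y Z : Finset P} (hY : Γ.th Y = 0) (hZ : Γ.th Z = 0) :
    Γ.bb Y Z = Γ.bb Z Y := by
  rw [bb_eq, bb_eq]
  exact hS _ _ (Γ.th_eq Y ▸ hY) (Γ.th_eq Z ▸ hZ)
theorem sgT_self {c : I → ℕ} : Γ.sgT c c = if Γ.oddT c then -1 else 1 := by
  unfold sgT oddT
  have h : Odd (Γ.bT c c + Γ.fT c * Γ.fT c) ↔ Odd (Γ.bT c c + Γ.fT c) := by
    simp only [Nat.odd_add, Nat.even_mul, or_self]
  split_ifs with h1
  · exact (h.2 h1).neg_one_pow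
  · exact (Nat.not_odd_iff_even.1 (mt h.1 h1)).neg_one_pow
theorem sgT_sq (a c : I → ℕ) : Γ.sgT a c * Γ.sgT a c = 1 := by
  unfold sgT
  rw [← mul_pow]
  norm_num
theorem Adm.mono {Γ : Ctx I P} {σ : P → P} {X Y : Finset P} (h : Γ.Adm σ X) (hY : Y ⊆ X) :
    Γ.Adm σ Y := by
  exact ⟨h.1.mono (Finset.coe_subset.2 hY), fun p hp => h.2 p (hY hp)⟩
theorem adm_id (X : Finset P) : Γ.Adm id X := by
  exact ⟨Set.injOn_id _, fun _ _ => rfl⟩
theorem Adm.comp {Γ : Ctx I P} {σ τ : P → P} {X : Finset P} (h : Γ.Adm σ X)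
    (h' : Γ.Adm τ (X.image σ)) : Γ.Adm (τ ∘ σ) X := by
  refine ⟨h'.1.comp h.1 fun p hp => ?_, fun p hp => ?_⟩
  · exact Finset.mem_coe.2 (Finset.mem_image_of_mem σ hp)
  · rw [Function.comp_apply, h'.2 _ (Finset.mem_image_of_mem σ hp), h.2 p hp]
/-- an inverse on the image -/
theorem Adm.exists_inv {Γ : Ctx I P} {σ : P → P} {X : Finset P} (h : Γ.Adm σ X) :
    ∃ τ, Γ.Adm τ (X.image σ) ∧ ∀ p ∈ X, τ (σ p) = p := by
  obtain ⟨τ, key⟩ : ∃ τ : P → P, ∀ p ∈ X, τ (σ p) = p := by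
    refine ⟨fun q => if hq : ∃ p ∈ X, σ p = q then hq.choose else q, fun p hp => ?_⟩
    have hq : ∃ p' ∈ X, σ p' = σ p := ⟨p, hp, rfl⟩
    simp only [dif_pos hq]
    exact h.1 hq.choose_spec.1 hp hq.choose_spec.2
  refine ⟨τ, ⟨fun q hq q' hq' e => ?_, fun q hq => ?_⟩, key⟩
  · obtain ⟨p, hp, rfl⟩ := Finset.mem_image.1 (Finset.mem_coe.1 hq)
    obtain ⟨p', hp', rfl⟩ := Finset.mem_image.1 (Finset.mem_coe.1 hq')
    rw [key p hp, key p' hp'] at e
    rw [e]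
  · obtain ⟨p, hp, rfl⟩ := Finset.mem_image.1 hq
    rw [key p hp, h.2 p hp]
/-- colourwise `Finset.equivOfCardEq` -/
theorem exists_bij {X X' : Finset P} (h : Γ.ty X = Γ.ty X') : (Γ.Bij X X').Nonempty := by
  have h1 : ∀ i, ∃ s : P → P, Set.BijOn s (X.filter fun p => Γ.col p = i : Finset P)
      (X'.filter fun p => Γ.col p = i : Finset P) := fun i => by
    let e := Finset.equivOfCardEq (congrFun h i)
    refine ⟨fun p => if hp : p ∈ X.filter fun p => Γ.col p = i then e ⟨p, hp⟩ else p,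
      fun p hp => ?_, fun p hp q hq hpq => ?_, fun q hq => ?_⟩
    · simp only [dif_pos (Finset.mem_coe.1 hp)]
      exact (e ⟨p, hp⟩).2
    · simp only [dif_pos (Finset.mem_coe.1 hp), dif_pos (Finset.mem_coe.1 hq)] at hpq
      exact congrArg Subtype.val (e.injective (Subtype.ext hpq))
    · refine ⟨e.symm ⟨q, hq⟩, (e.symm ⟨q, hq⟩).2, ?_⟩
      simp only [dif_pos (e.symm ⟨q, hq⟩).2, Subtype.coe_eta, Equiv.apply_symm_apply]
  choose s hs using h1
  have hm : ∀ p ∈ X, s (Γ.col p) p ∈ X' ∧ Γ.col (s (Γ.col p) p) = Γ.col p := fun p hp =>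
    Finset.mem_filter.1 (Finset.mem_coe.1 ((hs (Γ.col p)).mapsTo
      (Finset.mem_coe.2 (Finset.mem_filter.2 ⟨hp, rfl⟩))))
  refine ⟨fun p => if p ∈ X then s (Γ.col p) p else p, ⟨fun p hp q hq e => ?_, fun p hp => ?_⟩,
    ?_, fun p hp => if_neg hp⟩
  · have hp' := Finset.mem_coe.1 hp
    have hq' := Finset.mem_coe.1 hq
    simp only [if_pos hp', if_pos hq'] at e
    have hc : Γ.col q = Γ.col p := by rw [← (hm p hp').2, ← (hm q hq').2, e]
    rw [hc] at e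
    exact (hs (Γ.col p)).injOn (Finset.mem_coe.2 (Finset.mem_filter.2 ⟨hp', rfl⟩))
      (Finset.mem_coe.2 (Finset.mem_filter.2 ⟨hq', hc⟩)) e
  · simp only [if_pos hp]
    exact (hm p hp).2
  · ext q
    rw [Finset.mem_image]
    constructor
    · rintro ⟨p, hp, rfl⟩
      simp only [if_pos hp]
      exact (hm p hp).1
    · intro hq
      obtain ⟨p, hp, e⟩ := (hs (Γ.col q)).surjOn (Finset.mem_coe.2 (Finset.mem_filter.2 ⟨hq, rfl⟩))
      obtain ⟨hp1, hp2⟩ := Finset.mem_filter.1 (Finset.mem_coe.1 hp)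
      refine ⟨p, hp1, ?_⟩
      simp only [if_pos hp1]
      rw [hp2, e]

end Ctx
end Crest.Agent.R59
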