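import Crest.Agent.R59.C9

/-! # Row 59, C10: the chosen generators, their ordered products, family-level filtration
facts. -/

set_option autoImplicit false

namespace Crest.Agent.R59
open scoped Classical
open MvPolynomial

namespace Ctx
variable {I P : Type} [Fintype I] [DecidableEq I] [LinearOrder P] {Γ : Ctx I P}

theorem C10_lift_mono {W W' : Finset P → Submodule ℚ (Rg P)} (h : ∀ X, W X ≤ W' X) :
    lift W ≤ lift W' := fun _ hu => mem_lift.2 fun X => h X (mem_lift.1 hu X)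

theorem C10_Ham_le (a : I → ℕ) (m : ℕ) : Γ.Ham a m ≤ Γ.Ha a := inf_le_left

theorem C10_zero_of_th {a : I → ℕ} (ha : Γ.thT a = 0) {u : Fam P} (hu : u ∈ Γ.Ha a) (X : Finset P)
    (hX : Γ.th X ≠ 0) : u X = 0 :=
  (Γ.mem_Ha.1 hu).2 X fun h => hX (by rw [Γ.th_eq, h, ha])

theorem ub_spec (hS : Γ.Sym) {c : I → ℕ} (hc : c ≠ 0 ∧ Γ.thT c = 0) (m k : ℕ) :
    IsCompl' (Γ.Ham c m ⊓ lift (Γ.DD k)) (Γ.Ham c m ⊓ lift (Γ.FF k))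
      (fun i : Fin (Γ.dV c m k) => Γ.ub ⟨c, hc, m, k, i⟩) := by
  exact isCompl'_cfam (inf_le_inf_left _ (C10_lift_mono (DD_le_FF hS k)))
theorem ub_mem (hS : Γ.Sym) (α : Γ.Ix) : Γ.ub α ∈ Γ.Ham α.c α.m ⊓ lift (Γ.FF α.k) := by
  exact (ub_spec hS α.hc α.m α.k).1 α.i
/-- independence modulo `DD k Y` across all degrees `m` (apply homogeneous components,
`grd_DD`, `mem_lift_of_one`, `equi_DD`) -/
theorem ub_indep (hS : Γ.Sym) {Y : Finset P} {k : ℕ}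
    (x : {α : Γ.Ix // α.c = Γ.ty Y ∧ α.k = k} →₀ ℚ)
    (h : (x.sum fun α r => r • Γ.ub α.1 Y) ∈ Γ.DD k Y) : x = 0 := by
  ext α₀
  obtain ⟨⟨c, hc₀, m, k', i₀⟩, h1, h2⟩ := α₀
  dsimp only at h1 h2
  subst h1 h2
  let e : Fin (Γ.dV (Γ.ty Y) m k') → {α : Γ.Ix // α.c = Γ.ty Y ∧ α.k = k'} :=
    fun i => ⟨⟨Γ.ty Y, hc₀, m, k', i⟩, rfl, rfl⟩
  have he : Function.Injective e := fun i j hij => by
    simpa [e] using hij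
  have hU : (x.sum fun α r => r • Γ.ub α.1) ∈ Γ.Ha (Γ.ty Y) :=
    Submodule.sum_mem _ fun α _ => Submodule.smul_mem _ _
      (by have := C10_Ham_le _ _ (ub_mem hS α.1).1; rwa [α.2.1] at this)
  have hD : (x.sum fun α r => r • Γ.ub α.1) ∈ lift (Γ.DD k') := by
    refine Γ.mem_lift_of_one (equi_DD k') hU rfl ?_
    simpa [Finsupp.sum, Finset.sum_apply] using h
  have hm : hc m (x.sum fun α r => r • Γ.ub α.1) = ∑ i, x (e i) • Γ.ub (e i).1 := by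
    rw [Finsupp.sum_of_support_subset x
      (Finset.subset_union_left (s₂ := Finset.univ.image e)) _ (by simp), map_sum]
    refine (Finset.sum_of_injOn e he.injOn (fun i _ => by simp) ?_ fun i _ => ?_).symm
    · rintro ⟨⟨c', hc', m', k'', i'⟩, h1, h2⟩ _ hn
      dsimp only at h1 h2
      subst h1 h2
      rw [map_smul, Γ.hc_of_mem_Ham (ub_mem hS _).1, if_neg, smul_zero]
      rintro rfl
      exact hn ⟨i', by simp, rfl⟩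
    · rw [map_smul, Γ.hc_of_mem_Ham (ub_mem hS _).1, if_pos rfl]
  have := (ub_spec hS hc₀ m k').2.1 (fun i => x (e i))
    (hm ▸ ⟨Γ.hc_mem_Ham hU m, hc_mem_lift (grd_DD k') hD m⟩)
  exact congrFun this i₀
theorem ub_span (hS : Γ.Sym) {c : I → ℕ} (hc : c ≠ 0 ∧ Γ.thT c = 0) (k : ℕ) :
    Γ.Ha c ⊓ lift (Γ.FF k) ≤ (Γ.Ha c ⊓ lift (Γ.DD k)) ⊔
      Submodule.span ℚ (Γ.ub '' {α | α.c = c ∧ α.k = k}) := by
  rintro u ⟨hu, hF⟩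
  obtain ⟨N, hN⟩ := Γ.exists_sum_hc hu
  rw [← hN]
  refine Submodule.sum_mem _ fun m _ => ?_
  refine sup_le_sup (inf_le_inf_right _ (C10_Ham_le c m)) (Submodule.span_mono ?_)
    ((ub_spec hS hc m k).2.2 ⟨Γ.hc_mem_Ham hu m, hc_mem_lift (Γ.grd_FF k) hF m⟩)
  rintro _ ⟨i, rfl⟩
  exact ⟨_, ⟨rfl, rfl⟩, rfl⟩
/-- a dual functional on `RX Y` -/
theorem exists_ub_dual (hS : Γ.Sym) (α₀ : Γ.Ix) {Y : Finset P} (hY : Γ.ty Y = α₀.c) :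
    ∃ φ : Rg P →ₗ[ℚ] ℚ, (∀ f ∈ Γ.DD α₀.k Y, φ f = 0) ∧ φ (Γ.ub α₀ Y) = 1 ∧
      ∀ α : Γ.Ix, α ≠ α₀ → α.k ≤ α₀.k → φ (Γ.ub α Y) = 0 := by
  obtain ⟨φ, h1, h2⟩ := exists_dual (Γ.DD α₀.k Y)
    (fun α : {α : Γ.Ix // α.c = Γ.ty Y ∧ α.k = α₀.k} => Γ.ub α.1 Y) (ub_indep hS)
    ⟨α₀, hY.symm, rfl⟩
  refine ⟨φ, h1, by simpa using h2 ⟨α₀, hY.symm, rfl⟩, fun α hne hk => ?_⟩
  by_cases hc : α.c = Γ.ty Y
  · rcases hk.eq_or_lt with hk | hk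
    · rw [h2 ⟨α, hc, hk⟩, if_neg]
      exact fun h => hne (congrArg Subtype.val h)
    · exact h1 _ (FF_le_DD _ _ (Γ.FF_mono Y (by omega : (α.k : ℤ) ≤ α₀.k - 1)
        (mem_lift.1 (ub_mem hS α).2 Y)))
  · rw [(Γ.mem_Ha.1 (C10_Ham_le _ _ (ub_mem hS α).1)).2 Y (Ne.symm hc), map_zero]

/-- `FF_mul` termwise -/
theorem sh_mem_FF' (hS : Γ.Sym) {i j : ℤ} {u w : Fam P} (hu0 : ∀ X, Γ.th X ≠ 0 → u X = 0)
    (hw0 : ∀ X, Γ.th X ≠ 0 → w X = 0) (hu : u ∈ lift (Γ.FF i)) (hw : w ∈ lift (Γ.FF j)) :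
    Γ.sh u w ∈ lift (Γ.FF (i + j)) ∧ ∀ X, Γ.th X ≠ 0 → Γ.sh u w X = 0 := by
  refine ⟨mem_lift.2 fun X => Submodule.sum_mem _ fun Y hY => ?_, fun X hX =>
    Finset.sum_eq_zero fun Y hY => ?_⟩
  · have hYX := Finset.mem_powerset.1 hY
    by_cases h1 : Γ.th Y = 0
    · by_cases h2 : Γ.th (X \ Y) = 0
      · have := FF_mul hS Finset.disjoint_sdiff h1 h2 (mem_lift.1 hu Y) (mem_lift.1 hw (X \ Y))
        rwa [Finset.union_sdiff_of_subset hYX] at this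
      · simp [hw0 _ h2]
    · simp [hu0 _ h1]
  · have hYX := Finset.mem_powerset.1 hY
    by_cases h1 : Γ.th Y = 0
    · rw [hw0 (X \ Y) (by rw [Γ.th_sdiff hYX, h1, sub_zero]; exact hX), mul_zero, zero_mul]
    · rw [hu0 _ h1, zero_mul, zero_mul]
theorem sh_mem_FF (hS : Γ.Sym) {a c : I → ℕ} (ha : Γ.thT a = 0) (hc : Γ.thT c = 0) {i j : ℤ}
    {u w : Fam P} (hu : u ∈ Γ.Ha a ⊓ lift (Γ.FF i)) (hw : w ∈ Γ.Ha c ⊓ lift (Γ.FF j)) :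
    Γ.sh u w ∈ Γ.Ha (a + c) ⊓ lift (Γ.FF (i + j)) := by
  exact ⟨Γ.sh_mem_Ha hu.1 hw.1,
    (sh_mem_FF' hS (C10_zero_of_th ha hu.1) (C10_zero_of_th hc hw.1) hu.2 hw.2).1⟩
/-- reindex the second sum by `Y ↦ X \ Y`; `FF_comm` -/
theorem sh_comm_mem (hS : Γ.Sym) {a c : I → ℕ} (ha : Γ.thT a = 0) (hc : Γ.thT c = 0) {i j : ℤ}
    {u w : Fam P} (hu : u ∈ Γ.Ha a ⊓ lift (Γ.FF i)) (hw : w ∈ Γ.Ha c ⊓ lift (Γ.FF j)) :
    Γ.sh u w - Γ.sgT a c • Γ.sh w u ∈ lift (Γ.FF (i + j - 1)) := by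
  refine mem_lift.2 fun X => ?_
  have e : Γ.sh w u X = ∑ Y ∈ X.powerset, u Y * w (X \ Y) * Γ.KK (X \ Y) Y := by
    refine Finset.sum_nbij' (fun Y => X \ Y) (fun Y => X \ Y) (fun Y _ => by simp)
      (fun Y _ => by simp) (fun Y hY => ?_) (fun Y hY => ?_) fun Y hY => ?_
    · exact Finset.sdiff_sdiff_eq_self (Finset.mem_powerset.1 hY)
    · exact Finset.sdiff_sdiff_eq_self (Finset.mem_powerset.1 hY)
    · rw [Finset.sdiff_sdiff_eq_self (Finset.mem_powerset.1 hY), mul_comm (w Y)]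
  rw [Pi.sub_apply, Pi.smul_apply, e, Finset.smul_sum, sh, ← Finset.sum_sub_distrib]
  refine Submodule.sum_mem _ fun Y hY => ?_
  have hYX := Finset.mem_powerset.1 hY
  by_cases h1 : Γ.ty Y = a
  · by_cases h2 : Γ.ty (X \ Y) = c
    · have := FF_comm hS Finset.disjoint_sdiff (by rw [Γ.th_eq, h1, ha])
        (by rw [Γ.th_eq, h2, hc]) (mem_lift.1 hu.2 Y) (mem_lift.1 hw.2 (X \ Y))
      rwa [Finset.union_sdiff_of_subset hYX, Γ.sg_eq, h1, h2, mul_sub, mul_smul_comm] at this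
    · simp [(Γ.mem_Ha.1 hw.1).2 _ h2]
  · simp [(Γ.mem_Ha.1 hu.1).2 _ h1]
theorem thT_tyl (l : List Γ.Ix) : Γ.thT (Γ.tyl l) = 0 := by
  induction l with
  | nil => exact Γ.thT_zero
  | cons α l ih =>
    change Γ.thT (α.c + Γ.tyl l) = 0
    rw [Γ.thT_add, ih, α.hc.2, add_zero]
theorem ul_nil : Γ.ul [] = oneF := rfl
theorem ul_cons (α : Γ.Ix) (l : List Γ.Ix) : Γ.ul (α :: l) = Γ.sh (Γ.ub α) (Γ.ul l) := rfl
theorem ul_append (l l' : List Γ.Ix) : Γ.ul (l ++ l') = Γ.sh (Γ.ul l) (Γ.ul l') := by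
  induction l with
  | nil => rw [List.nil_append, ul_nil, Γ.one_sh]
  | cons α l ih => rw [List.cons_append, ul_cons, ul_cons, ih, Γ.sh_assoc]
theorem ul_mem (hS : Γ.Sym) (l : List Γ.Ix) :
    Γ.ul l ∈ Γ.Ham (Γ.tyl l) (Γ.degl l) ⊓ lift (Γ.FF (Γ.levl l)) := by
  induction l with
  | nil =>
    refine ⟨Γ.oneF_mem, mem_lift.2 fun X => ?_⟩
    rw [ul_nil, oneF]
    split_ifs with hX
    · rw [hX, Γ.FF_empty (Nat.cast_nonneg _)]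
      exact RX_one _
    · exact Submodule.zero_mem _
  | cons α l ih =>
    have h := ub_mem hS α
    refine ⟨Γ.sh_mem_Ham h.1 ih.1, ?_⟩
    have := (sh_mem_FF hS α.hc.2 (thT_tyl l) ⟨C10_Ham_le _ _ h.1, h.2⟩
      ⟨C10_Ham_le _ _ ih.1, ih.2⟩).2
    rwa [← Nat.cast_add] at this
theorem two_degl (hS : Γ.Sym) (l : List Γ.Ix) :
    2 * (Γ.degl l : ℤ) - Γ.bT (Γ.tyl l) (Γ.tyl l) =
      (l.map fun α => 2 * (α.m : ℤ) - Γ.bT α.c α.c).sum := by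
  induction l with
  | nil =>
    change 2 * ((0 : ℕ) : ℤ) - Γ.bT 0 0 = 0
    simp [Γ.bT_zero_left]
  | cons α l ih =>
    rw [List.map_cons, List.sum_cons, ← ih]
    change 2 * ((α.m + Γ.degl l + Γ.bT α.c (Γ.tyl l) : ℕ) : ℤ) -
      Γ.bT (α.c + Γ.tyl l) (α.c + Γ.tyl l) = _
    rw [Γ.bT_add_left, Γ.bT_add_right, Γ.bT_add_right, hS _ _ (thT_tyl l) α.hc.2]
    push_cast
    ring
/-- `mem_of_Av`, `Av_mem_lift`, `Av_mulK_mem` -/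
theorem Ha_DD_le {a : I → ℕ} {k : ℤ} {T : Submodule ℚ (Fam P)}
    (h1 : Γ.Ha a ⊓ lift (Γ.FF (k - 1)) ≤ T)
    (h2 : ∀ c e, c + e = a → c ≠ 0 → e ≠ 0 → Γ.thT c = 0 → Γ.thT e = 0 → ∀ i : ℤ,
      ∀ u ∈ Γ.Ha c ⊓ lift (Γ.FF i), ∀ w ∈ Γ.Ha e ⊓ lift (Γ.FF (k - i)), Γ.sh u w ∈ T) :
    Γ.Ha a ⊓ lift (Γ.DD k) ≤ T := by
  rintro u ⟨hu, hD⟩
  obtain ⟨X, rfl⟩ := Γ.exists_ty a
  refine Γ.mem_of_Av hu rfl (mem_lift.1 hD X) ?_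
  change Γ.DD k X ≤ T.comap (Γ.AvL X)
  refine sup_le (fun f hf => h1 ⟨Γ.Av_mem_Ha (Γ.FF_le _ _ hf), Γ.Av_mem_lift (Γ.equi_FF _) hf⟩)
    (iSup_le fun Y => iSup_le fun hY => iSup_le fun i f hf => ?_)
  obtain ⟨hYX, hY0, hY1, hY2, hY3⟩ := hY
  refine Γ.Av_mulK_mem (Γ.equi_FF i) (Γ.equi_FF (k - i)) (Γ.FF_le i) (Γ.FF_le (k - i)) hYX
    (h2 _ _ (Γ.ty_sdiff hYX) (fun h => hY0 (Γ.ty_eq_zero.1 h)) (fun h => hY1 ?_)
      (Γ.th_eq Y ▸ hY2) (Γ.th_eq (X \ Y) ▸ hY3) i) hf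
  exact hYX.antisymm (Finset.sdiff_eq_empty_iff_subset.1 (Γ.ty_eq_zero.1 h))
theorem Ha_FF_neg {a : I → ℕ} (ha : Γ.thT a = 0) {k : ℤ} (hk : k < 0 ∨ (k ≤ 0 ∧ a ≠ 0)) :
    Γ.Ha a ⊓ lift (Γ.FF k) = Γ.Ha a ⊓ lift Γ.IF := by
  have key : ∀ X, Γ.ty X = a → Γ.FF k X = Γ.IF X := fun X hX =>
    Γ.FF_eq_IF (by rw [Γ.th_eq, hX, ha])
      (hk.imp_right fun h => ⟨h.1, fun h0 => h.2 (hX ▸ Γ.ty_eq_zero.2 h0)⟩)
  refine le_antisymm (fun u hu => ⟨hu.1, mem_lift.2 fun X => ?_⟩)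
    (inf_le_inf_left _ (C10_lift_mono (Γ.IF_le_FF k)))
  by_cases hX : Γ.ty X = a
  · exact key X hX ▸ mem_lift.1 hu.2 X
  · rw [(Γ.mem_Ha.1 hu.1).2 X hX]
    exact Submodule.zero_mem _
theorem Ham_le_FF (a : I → ℕ) (m : ℕ) : Γ.Ham a m ≤ lift (Γ.FF (m + ∑ i, a i : ℕ)) := by
  refine fun u hu => mem_lift.2 fun X => ?_
  obtain ⟨h1, h2⟩ := Γ.mem_Ham.1 hu
  by_cases hX : Γ.ty X = a
  · have := Γ.RXle_le_FF X m (mem_RXle_of_hom ((Γ.mem_Ha.1 h1).1.1 X) (h2 X))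
    rwa [Γ.card_eq_ty X, hX, ← Nat.cast_add] at this
  · rw [(Γ.mem_Ha.1 h1).2 X hX]
    exact Submodule.zero_mem _

end Ctx
end Crest.Agent.R59
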