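import Crest.Agent.R59.C11a

/-! # Row 59, C11: independence, second half -/

set_option autoImplicit false

namespace Crest.Agent.R59
noncomputable section
open scoped Classical
open MvPolynomial

namespace Ctx
variable {I P : Type} [Fintype I] [DecidableEq I] [LinearOrder P] {Γ : Ctx I P}

theorem c11_ub_Ha (hS : Γ.Sym) (α : Γ.Ix) : Γ.ub α ∈ Γ.Ha α.c :=
  ((Γ.mem_Ham).1 (ub_mem hS α).1).1

theorem c11_ul_Ha (hS : Γ.Sym) (l : List Γ.Ix) : Γ.ul l ∈ Γ.Ha (Γ.tyl l) :=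
  ((Γ.mem_Ham).1 (ul_mem hS l).1).1

theorem c11_Ha_RX {a : I → ℕ} {u : Fam P} (hu : u ∈ Γ.Ha a) (X : Finset P) : u X ∈ RX X :=
  ((Γ.mem_Ha).1 hu).1.1 X

theorem c11_Ha_zero {a : I → ℕ} (ha : Γ.thT a = 0) {u : Fam P} (hu : u ∈ Γ.Ha a) (X : Finset P)
    (hX : Γ.th X ≠ 0) : u X = 0 := by
  refine ((Γ.mem_Ha).1 hu).2 X fun h => hX ?_
  rw [Γ.th_eq, h, ha]

theorem c11_mul_mem {Y Z : Finset P} {g f : Rg P} (hg : g ∈ RX Z) (hf : f ∈ RX Y * RX Z) :
    g * f ∈ RX Y * RX Z := by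
  refine Submodule.mul_induction_on hf (fun a ha b hb => ?_) (fun a b ha hb => ?_)
  · have : g * (a * b) = a * (g * b) := by ring
    rw [this]
    exact Submodule.mul_mem_mul ha (RX_mul hg hb)
  · rw [mul_add]
    exact Submodule.add_mem _ ha hb

theorem c11_con_mul {Y Z : Finset P} {φ : Rg P →ₗ[ℚ] ℚ} {c : Rg P →ₗ[ℚ] Rg P}
    (hc : ∀ a ∈ RX Y, ∀ b ∈ RX Z, c (a * b) = φ a • b) {g f : Rg P} (hg : g ∈ RX Z)
    (hf : f ∈ RX Y * RX Z) : c (g * f) = g * c f := by
  refine Submodule.mul_induction_on hf (fun a ha b hb => ?_) (fun a b ha hb => ?_)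
  · have : g * (a * b) = a * (g * b) := by ring
    rw [this, hc a ha _ (RX_mul hg hb), hc a ha b hb, mul_smul_comm]
  · rw [mul_add, map_add, map_add, ha, hb, mul_add]

theorem c11_del_RX (hS : Γ.Sym) (Y : Finset P) (l : List Γ.Ix) :
    ∀ Z : Finset P, Γ.del Y l Z ∈ RX Y * RX Z := by
  induction l with
  | nil => intro Z; exact Submodule.zero_mem _
  | cons α l ih =>
    intro Z
    simp only [del, Pi.add_apply, Pi.smul_apply, sh]
    refine Submodule.add_mem _ (Submodule.mul_mem_mul (c11_Ha_RX (c11_ub_Ha hS α) Y)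
      (c11_Ha_RX (c11_ul_Ha hS l) Z)) (Submodule.smul_mem _ _ (Submodule.sum_mem _ fun W hW => ?_))
    have hW' : W ⊆ Z := Finset.mem_powerset.1 hW
    have h1 : Γ.ub α W * Γ.del Y l (Z \ W) * Γ.KK W (Z \ W) =
        (Γ.ub α W * Γ.KK W (Z \ W)) * Γ.del Y l (Z \ W) := by ring
    rw [h1]
    refine c11_mul_mem (RX_mul (RX_mono hW' (c11_Ha_RX (c11_ub_Ha hS α) W))
      (Γ.KK_mem hW' Finset.sdiff_subset)) ?_
    exact mul_le_mul_right (RX_mono Finset.sdiff_subset) _ (ih (Z \ W))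

/-- `c` is `RX Z`-linear on `RX Y * RX Z` -/
theorem con_del (hS : Γ.Sym) {Y : Finset P} {φ : Rg P →ₗ[ℚ] ℚ} {c : Rg P →ₗ[ℚ] Rg P}
    (hc : ∀ a ∈ RX Y, ∀ Z : Finset P, Disjoint Y Z → ∀ b ∈ RX Z, c (a * b) = φ a • b)
    (l : List Γ.Ix) {Z : Finset P} (hYZ : Disjoint Y Z) :
    c (Γ.del Y l Z) = Γ.delc (Γ.ty Y) (fun α => φ (Γ.ub α Y)) l Z := by
  induction l generalizing Z with
  | nil => simp [del, delc]
  | cons α l ih =>
    simp only [del, delc, Pi.add_apply, Pi.smul_apply, sh, map_add, map_smul, map_sum]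
    rw [hc _ (c11_Ha_RX (c11_ub_Ha hS α) Y) Z hYZ _ (c11_Ha_RX (c11_ul_Ha hS l) Z)]
    congr 2
    refine Finset.sum_congr rfl fun W hW => ?_
    have hW' : W ⊆ Z := Finset.mem_powerset.1 hW
    have h1 : Γ.ub α W * Γ.del Y l (Z \ W) * Γ.KK W (Z \ W) =
        (Γ.ub α W * Γ.KK W (Z \ W)) * Γ.del Y l (Z \ W) := by ring
    rw [h1, c11_con_mul (Y := Y) (Z := Z) (φ := φ) (fun a ha b hb => hc a ha Z hYZ b hb)
      (RX_mul (RX_mono hW' (c11_Ha_RX (c11_ub_Ha hS α) W)) (Γ.KK_mem hW' Finset.sdiff_subset))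
      (mul_le_mul_right (RX_mono Finset.sdiff_subset) _ (c11_del_RX hS Y l (Z \ W))),
      ih (hYZ.mono_right Finset.sdiff_subset)]
    ring

theorem c11_levl_cons (α : Γ.Ix) (l : List Γ.Ix) : Γ.levl (α :: l) = α.k + Γ.levl l := by
  simp [levl]

theorem c11_tyl_cons (α : Γ.Ix) (l : List Γ.Ix) : Γ.tyl (α :: l) = α.c + Γ.tyl l := by
  simp [tyl]

theorem c11_lift_mono {i j : ℤ} (h : i ≤ j) {u : Fam P} (hu : u ∈ lift (Γ.FF i)) :
    u ∈ lift (Γ.FF j) :=
  mem_lift.2 fun X => Γ.FF_mono X h (mem_lift.1 hu X)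

theorem c11_delc_aux (hS : Γ.Sym) (α₀ : Γ.Ix) {r : Γ.Ix → ℚ} (h0 : r α₀ = 1)
    (hr : ∀ α, α ≠ α₀ → α.k ≤ α₀.k → r α = 0) (l : List Γ.Ix) (hl : Γ.PB l) :
    ∃ κ : ℚ, (α₀ ∈ l → κ ≠ 0) ∧ (α₀ ∉ l → κ = 0) ∧ (l.head? = some α₀ → 0 < κ) ∧
      Γ.delc α₀.c r l - κ • Γ.ul (l.erase α₀) ∈ lift (Γ.FF ((Γ.levl l : ℤ) - α₀.k - 1)) ∧
      ∀ X, Γ.th X ≠ 0 → (Γ.delc α₀.c r l - κ • Γ.ul (l.erase α₀)) X = 0 := by
  induction l with
  | nil =>
    refine ⟨0, by simp, by simp, by simp, ?_, ?_⟩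
    · simp [delc]
    · simp [delc]
  | cons α l ih =>
    have hl1 : ∀ β ∈ l, α < β ∨ (α = β ∧ ¬ Γ.oddT α.c) := (List.pairwise_cons.1 hl).1
    have hl2 : Γ.PB l := (List.pairwise_cons.1 hl).2
    obtain ⟨κ, hκ1, hκ2, hκ3, hD, hD0⟩ := ih hl2
    set D := Γ.delc α₀.c r l - κ • Γ.ul (l.erase α₀) with hDdef
    have hdel : Γ.delc α₀.c r l = κ • Γ.ul (l.erase α₀) + D := by rw [hDdef]; abel
    have hsh := sh_mem_FF' hS (c11_Ha_zero α.hc.2 (c11_ub_Ha hS α)) hD0 (ub_mem hS α).2 hD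
    by_cases hα : α = α₀
    · subst hα
      have he : (α :: l).erase α = l := List.erase_cons_head _ _
      by_cases hm : α ∈ l
      · -- `l` starts with `α`
        obtain ⟨l', rfl⟩ : ∃ l', l = α :: l' := by
          cases l with
          | nil => simp at hm
          | cons β l' =>
            have hβ : α = β := by
              rcases hl1 β (by simp) with h | h
              · rcases List.mem_cons.1 hm with h' | h'
                · exact h'
                · rcases (List.pairwise_cons.1 hl2).1 α h' with h'' | h''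
                  · exact absurd (h.trans h'') (lt_irrefl _)
                  · exact h''.1.symm
              · exact h.1
            exact ⟨l', by rw [hβ]⟩
        have hno : ¬ Γ.oddT α.c := by
          rcases hl1 α (by simp) with h | h
          · exact absurd h (lt_irrefl _)
          · exact h.2
        have hs : Γ.sgT α.c α.c = 1 := by rw [Γ.sgT_self, if_neg hno]
        have hκ : 0 < κ := hκ3 (by simp)
        have he' : (α :: l').erase α = l' := List.erase_cons_head _ _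
        have key : Γ.delc α.c r (α :: α :: l') - (1 + κ) • Γ.ul ((α :: α :: l').erase α) =
            Γ.sh (Γ.ub α) D := by
          rw [he, delc, hdel, he', h0, hs, Γ.sh_add_right, Γ.sh_smul_right, ← ul_cons, add_smul]
          simp only [one_smul]
          abel
        refine ⟨1 + κ, fun _ => by positivity, fun h => absurd (by simp) h, fun _ => by positivity,
          ?_, ?_⟩
        · rw [key]
          refine c11_lift_mono (le_of_eq ?_) hsh.1
          rw [c11_levl_cons α (α :: l')]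
          push_cast
          ring
        · rw [key]; exact hsh.2
      · have hκ : κ = 0 := hκ2 hm
        have key : Γ.delc α.c r (α :: l) - (1 : ℚ) • Γ.ul ((α :: l).erase α) =
            Γ.sgT α.c α.c • Γ.sh (Γ.ub α) D := by
          rw [he, delc, hdel, hκ, h0]
          simp
        refine ⟨1, fun _ => one_ne_zero, fun h => absurd (by simp) h, fun _ => one_pos, ?_, ?_⟩
        · rw [key]
          refine Submodule.smul_mem _ _ (c11_lift_mono (le_of_eq ?_) hsh.1)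
          rw [c11_levl_cons α l]
          push_cast
          ring
        · rw [key]
          intro X hX
          rw [Pi.smul_apply, hsh.2 X hX, smul_zero]
    · have he : (α :: l).erase α₀ = α :: l.erase α₀ := List.erase_cons_tail (by simpa using hα)
      have hs : Γ.sgT α.c α₀.c ≠ 0 := by
        intro h
        have := Γ.sgT_sq α.c α₀.c
        rw [h] at this
        simp at this
      have key : Γ.delc α₀.c r (α :: l) - (Γ.sgT α.c α₀.c * κ) • Γ.ul ((α :: l).erase α₀) =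
          r α • Γ.ul l + Γ.sgT α.c α₀.c • Γ.sh (Γ.ub α) D := by
        rw [he, delc, hdel, Γ.sh_add_right, Γ.sh_smul_right, ← ul_cons, smul_add, smul_smul]
        abel
      refine ⟨Γ.sgT α.c α₀.c * κ, fun h => ?_, fun h => ?_, fun h => ?_, ?_, ?_⟩
      · rcases List.mem_cons.1 h with h | h
        · exact absurd h.symm hα
        · exact mul_ne_zero hs (hκ1 h)
      · rw [hκ2 fun h' => h (List.mem_cons_of_mem _ h'), mul_zero]
      · exact absurd (by simpa using h) hα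
      · rw [key]
        refine Submodule.add_mem _ ?_ (Submodule.smul_mem _ _ (c11_lift_mono (le_of_eq ?_) hsh.1))
        · by_cases hk : α.k ≤ α₀.k
          · rw [hr α hα hk, zero_smul]; exact Submodule.zero_mem _
          · refine Submodule.smul_mem _ _ (c11_lift_mono ?_ (ul_mem hS l).2)
            rw [c11_levl_cons α l]
            push_cast
            omega
        · rw [c11_levl_cons α l]
          push_cast
          ring
      · rw [key]
        intro X hX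
        rw [Pi.add_apply, Pi.smul_apply, Pi.smul_apply, hsh.2 X hX,
          c11_Ha_zero (thT_tyl l) (c11_ul_Ha hS l) X hX, smul_zero, smul_zero, add_zero]

/-- For a sorted list, modulo lower filtration only the occurrences of `α₀` survive; they are
consecutive, erasing any of them gives `l.erase α₀`, and the signs agree (even `α₀`) or there is
only one (odd `α₀`).  For the induction strengthen to: `κ > 0` if `l` starts with `α₀`, and the
difference vanishes on sets of nonzero slope (`sh_mem_FF'`). -/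
theorem delc_eq (hS : Γ.Sym) (α₀ : Γ.Ix) {r : Γ.Ix → ℚ} (h0 : r α₀ = 1)
    (hr : ∀ α, α ≠ α₀ → α.k ≤ α₀.k → r α = 0) (hr' : ∀ α, α.c ≠ α₀.c → r α = 0)
    {l : List Γ.Ix} (hl : Γ.PB l) :
    ∃ κ : ℚ, (α₀ ∈ l → κ ≠ 0) ∧ (α₀ ∉ l → κ = 0) ∧
      Γ.delc α₀.c r l - κ • Γ.ul (l.erase α₀) ∈ lift (Γ.FF ((Γ.levl l : ℤ) - α₀.k - 1)) := by
  obtain ⟨κ, h1, h2, -, h4, -⟩ := c11_delc_aux hS α₀ h0 hr l hl
  exact ⟨κ, h1, h2, h4⟩

theorem c11_tyl_erase {α₀ : Γ.Ix} {l : List Γ.Ix} (h : α₀ ∈ l) :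
    Γ.tyl l = α₀.c + Γ.tyl (l.erase α₀) := by
  rw [← c11_tyl_cons]
  exact ((List.perm_cons_erase h).map _).sum_eq

theorem c11_levl_erase {α₀ : Γ.Ix} {l : List Γ.Ix} (h : α₀ ∈ l) :
    Γ.levl l = α₀.k + Γ.levl (l.erase α₀) := by
  rw [← c11_levl_cons]
  exact ((List.perm_cons_erase h).map _).sum_eq

theorem c11_erase_inj {α₀ : Γ.Ix} {l l' : List Γ.Ix} (hl : Γ.PB l) (hl' : Γ.PB l') (h : α₀ ∈ l)
    (h' : α₀ ∈ l') (he : l.erase α₀ = l'.erase α₀) : l = l' := by
  have hp : l.Perm l' := by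
    refine (List.perm_cons_erase h).trans ?_
    rw [he]
    exact (List.perm_cons_erase h').symm
  refine List.Perm.eq_of_pairwise (fun a b _ _ hab hba => ?_) hl hl' hp
  rcases hab with hab | hab
  · rcases hba with hba | hba
    · exact absurd (hab.trans hba) (lt_irrefl _)
    · exact hba.1.symm
  · exact hab.1

theorem c11_indep_aux (hS : Γ.Sym) (n : ℕ) : ∀ (a : I → ℕ) (_ : ∑ i, a i = n) (k : ℕ)
    (x : List Γ.Ix →₀ ℚ) (_ : ∀ l ∈ x.support, Γ.PB l ∧ Γ.tyl l = a ∧ Γ.levl l = k)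
    (_ : (x.sum fun l r => r • Γ.ul l) ∈ lift (Γ.FF ((k : ℤ) - 1))), x = 0 := by
  induction n using Nat.strong_induction_on with
  | _ n ih =>
  intro a han k x hx h
  by_contra hx0
  by_cases hne : (x.support.biUnion fun l => l.toFinset).Nonempty
  swap
  · -- only the empty list occurs
    have hnil : ∀ l ∈ x.support, l = [] := by
      intro l hl
      cases l with
      | nil => rfl
      | cons α l => exact absurd ⟨α, Finset.mem_biUnion.2 ⟨_, hl, by simp⟩⟩ hne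
    obtain ⟨l₀, hl₀⟩ := Finsupp.support_nonempty_iff.2 hx0
    have h₀ := hnil l₀ hl₀
    subst h₀
    have hk : k = 0 := by rw [← (hx _ hl₀).2.2]; simp [levl]
    have hs : x.support = {[]} :=
      Finset.eq_singleton_iff_unique_mem.2 ⟨hl₀, hnil⟩
    have h1 := mem_lift.1 h ∅
    rw [Γ.FF_eq_IF Γ.th_empty (Or.inl (by rw [hk]; norm_num)), Γ.IF_empty, Finsupp.sum, hs,
      Finset.sum_singleton, ul_nil, Submodule.mem_bot] at h1
    have h2 : x [] = 0 := by
      simpa [oneF] using h1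
    exact (Finsupp.mem_support_iff.1 hl₀) h2
  obtain ⟨α₀, hα₀, hmax⟩ := Finset.exists_max_image _ (fun α : Γ.Ix => ∑ i, α.c i) hne
  obtain ⟨l₀, hl₀, hα₀'⟩ := Finset.mem_biUnion.1 hα₀
  have hm₀ : α₀ ∈ l₀ := List.mem_toFinset.1 hα₀'
  set e : I → ℕ := Γ.tyl (l₀.erase α₀) with he
  have hae : a = α₀.c + e := by rw [← (hx l₀ hl₀).2.1, c11_tyl_erase hm₀]
  set k' : ℕ := Γ.levl (l₀.erase α₀) with hk'
  have hke : k = α₀.k + k' := by rw [← (hx l₀ hl₀).2.2, c11_levl_erase hm₀]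
  obtain ⟨X, hX⟩ := Γ.exists_ty a
  obtain ⟨Y, hYX, hY⟩ := Γ.exists_subset_ty (X := X) (c := α₀.c)
    (by rw [hX, hae]; exact le_self_add)
  set Z := X \ Y with hZdef
  have hYZ : Disjoint Y Z := Finset.disjoint_sdiff
  have hZ : Γ.ty Z = e := by
    have := Γ.ty_sdiff hYX
    rw [hY, hX, hae] at this
    exact add_left_cancel this
  have hY0 : Y ≠ ∅ := fun h' => α₀.hc.1 (by rw [← hY, h']; exact Γ.ty_eq_zero.2 rfl)
  have hYt : Γ.th Y = 0 := by rw [Γ.th_eq, hY]; exact α₀.hc.2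
  have hZt : Γ.th Z = 0 := by rw [Γ.th_eq, hZ]; exact thT_tyl _
  have hYc : Y.card = ∑ i, α₀.c i := by rw [Γ.card_eq_ty, hY]
  -- restriction to `Y ∪ Z`
  have h1 : ∑ l ∈ x.support, x l • Γ.ul l (Y ∪ Z) ∈ Γ.NN (k + Γ.bb Y Z) Y Z := by
    have h2 := mem_lift.1 h (Y ∪ Z)
    rw [Finsupp.sum, Finset.sum_apply] at h2
    have h3 := FF_le_GG hS hYZ hYt _ h2
    have h4 : (k : ℤ) - 1 + Γ.bb Y Z = (k + Γ.bb Y Z) - 1 := by ring
    rw [h4] at h3
    exact GG_le_NN _ _ _ h3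
  have h2 : ∑ l ∈ x.support, x l • (Γ.ul l (Y ∪ Z) - Γ.KK Y Z * Γ.del Y l Z) ∈
      Γ.NN (k + Γ.bb Y Z) Y Z := by
    refine Submodule.sum_mem _ fun l hl => Submodule.smul_mem _ _ ?_
    have := ul_sub_del hS hY0 hYt l (fun α hα => by
      rw [hYc]
      exact hmax α (Finset.mem_biUnion.2 ⟨l, hl, List.mem_toFinset.2 hα⟩)) hYZ hZt
    rwa [(hx l hl).2.2] at this
  have h3 : ∑ l ∈ x.support, x l • Γ.del Y l Z ∈ Γ.NN k Y Z := by
    refine nzd_NN hYZ ?_
    have h4 := Submodule.sub_mem _ h1 h2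
    rw [← Finset.sum_sub_distrib] at h4
    rw [Finset.mul_sum]
    convert h4 using 2 with l _
    rw [smul_sub, mul_smul_comm]
    abel
  obtain ⟨φ, hφ1, hφ2, hφ3⟩ := exists_ub_dual hS α₀ hY
  obtain ⟨c, hc⟩ := exists_con Y φ
  have h4 := con_NN hφ1 (fun a ha b hb => hc a ha Z hYZ b hb) h3
  rw [map_sum] at h4
  simp only [map_smul, con_del hS hc _ hYZ, hY] at h4
  have hκ : ∀ l : List Γ.Ix, ∃ κ : ℚ, l ∈ x.support → (α₀ ∈ l → κ ≠ 0) ∧ (α₀ ∉ l → κ = 0) ∧
      Γ.delc α₀.c (fun α => φ (Γ.ub α Y)) l - κ • Γ.ul (l.erase α₀) ∈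
        lift (Γ.FF ((k : ℤ) - α₀.k - 1)) := by
    intro l
    by_cases hl : l ∈ x.support
    · obtain ⟨κ, h5⟩ := delc_eq hS α₀ (r := fun α => φ (Γ.ub α Y)) hφ2 hφ3 (fun α hα => by
        have : Γ.ub α Y = 0 := ((Γ.mem_Ha).1 (c11_ub_Ha hS α)).2 Y (by rw [hY]; exact hα.symm)
        simp only [this, map_zero]) (hx l hl).1
      rw [(hx l hl).2.2] at h5
      exact ⟨κ, fun _ => h5⟩
    · exact ⟨0, fun h' => absurd h' hl⟩
  choose κ hκ using hκ
  set S := x.support.filter fun l => α₀ ∈ l with hSdef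
  set u : Fam P := ∑ l ∈ S, (x l * κ l) • Γ.ul (l.erase α₀) with hu
  have hS' : ∀ l ∈ S, Γ.PB (l.erase α₀) ∧ Γ.tyl (l.erase α₀) = e ∧ Γ.levl (l.erase α₀) = k' := by
    intro l hl
    obtain ⟨hl1, hl2⟩ := Finset.mem_filter.1 hl
    refine ⟨List.Pairwise.sublist List.erase_sublist (hx l hl1).1, ?_, ?_⟩
    · have := c11_tyl_erase hl2
      rw [(hx l hl1).2.1, hae] at this
      exact (add_left_cancel this).symm
    · have := c11_levl_erase hl2
      rw [(hx l hl1).2.2, hke] at this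
      omega
  have huH : u ∈ Γ.Ha e := by
    refine Submodule.sum_mem _ fun l hl => Submodule.smul_mem _ _ ?_
    rw [← (hS' l hl).2.1]
    exact c11_ul_Ha hS _
  have huZ : u Z ∈ Γ.FF ((k : ℤ) - α₀.k - 1) Z := by
    have h5 : ∑ l ∈ x.support, x l • (Γ.delc α₀.c (fun α => φ (Γ.ub α Y)) l Z -
        κ l • Γ.ul (l.erase α₀) Z) ∈ Γ.FF ((k : ℤ) - α₀.k - 1) Z :=
      Submodule.sum_mem _ fun l hl => Submodule.smul_mem _ _ (mem_lift.1 (hκ l hl).2.2 Z)
    have h6 := Submodule.sub_mem _ h4 h5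
    rw [← Finset.sum_sub_distrib] at h6
    have h7 : u Z = ∑ l ∈ x.support, (x l * κ l) • Γ.ul (l.erase α₀) Z := by
      rw [hu, Finset.sum_apply, hSdef, Finset.sum_filter]
      refine Finset.sum_congr rfl fun l hl => ?_
      split_ifs with hm
      · rfl
      · rw [(hκ l hl).2.1 hm, mul_zero, zero_smul]
    rw [h7]
    convert h6 using 2 with l _
    rw [smul_sub, smul_smul]
    abel
  have huL : u ∈ lift (Γ.FF ((k' : ℤ) - 1)) := by
    have h5 : (k : ℤ) - α₀.k - 1 = (k' : ℤ) - 1 := by rw [hke]; push_cast; ring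
    rw [h5] at huZ
    exact Γ.mem_lift_of_one (Γ.equi_FF _) huH hZ huZ
  set x' : List Γ.Ix →₀ ℚ := ∑ l ∈ S, Finsupp.single (l.erase α₀) (x l * κ l) with hx'
  have hlt : ∑ i, e i < n := by
    rw [← han, hae]
    simp only [Pi.add_apply, Finset.sum_add_distrib]
    have : 0 < ∑ i, α₀.c i := by
      rw [← hYc]
      exact Finset.card_pos.2 (Finset.nonempty_iff_ne_empty.2 hY0)
    omega
  have hx'0 : x' = 0 := by
    refine ih _ hlt e rfl k' x' (fun l' hl' => ?_) ?_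
    · obtain ⟨l, hl, hl''⟩ := Finset.mem_biUnion.1 (Finsupp.support_finsetSum hl')
      have := Finsupp.support_single_subset hl''
      rw [Finset.mem_singleton] at this
      rw [this]
      exact hS' l hl
    · have : (x'.sum fun l r => r • Γ.ul l) = u := by
        rw [hx', hu, ← Finsupp.linearCombination_apply, map_sum]
        simp only [Finsupp.linearCombination_single]
      rw [this]
      exact huL
  have hl₀S : l₀ ∈ S := Finset.mem_filter.2 ⟨hl₀, hm₀⟩
  have h8 : x' (l₀.erase α₀) = x l₀ * κ l₀ := by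
    rw [hx', Finsupp.finsetSum_apply, Finset.sum_eq_single l₀]
    · simp
    · intro l hl hne'
      obtain ⟨hl1, hl2⟩ := Finset.mem_filter.1 hl
      rw [Finsupp.single_apply, if_neg]
      exact fun h' => hne' (c11_erase_inj (hx l hl1).1 (hx l₀ hl₀).1 hl2 hm₀ h')
    · exact fun h' => absurd hl₀S h'
  rw [hx'0] at h8
  exact mul_ne_zero (Finsupp.mem_support_iff.1 hl₀) ((hκ l₀ hl₀).1 hm₀) h8.symm

/-- Strong induction on `|a|`.  `a = 0`: only `l = []`, and `1 ∉ FF (-1) ∅ = ⊥`.  Otherwise take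
`α₀` of maximal `|c|` among the entries of the lists in the support, `X` of type `a`, `Y ⊆ X` of
type `c_(α₀)`, `Z = X \ Y`; `FF_le_GG`, `GG_le_NN`, `ul_sub_del`, `nzd_NN`, `exists_ub_dual`,
`exists_con`, `con_NN`, `con_del`, `delc_eq`, `mem_lift_of_one`; `l ↦ l.erase α₀` is injective
on sorted lists containing `α₀`. -/
theorem indep_gr (hS : Γ.Sym) (a : I → ℕ) (k : ℕ) (x : List Γ.Ix →₀ ℚ)
    (hx : ∀ l ∈ x.support, Γ.PB l ∧ Γ.tyl l = a ∧ Γ.levl l = k)
    (h : (x.sum fun l r => r • Γ.ul l) ∈ lift (Γ.FF ((k : ℤ) - 1))) : x = 0 := by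
  exact c11_indep_aux hS _ a rfl k x hx h

end Ctx
end
end Crest.Agent.R59
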