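import Crest.Agent.R59.C10

/-! # Row 59, C11: ordered monomials are independent in the associated graded. -/

set_option autoImplicit false

namespace Crest.Agent.R59
noncomputable section
open scoped Classical
open MvPolynomial

namespace Ctx
variable {I P : Type} [Fintype I] [DecidableEq I] [LinearOrder P]

/-- the "derivative" of `ul l` along `Y`, as a family in the complementary set -/
def del (Γ : Ctx I P) (Y : Finset P) : List Γ.Ix → Fam P
  | [] => 0
  | α :: l => (fun Z => Γ.ub α Y * Γ.ul l Z) +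
      Γ.sgT α.c (Γ.ty Y) • Γ.sh (Γ.ub α) (del Γ Y l)

/-- contracted derivative -/
def delc (Γ : Ctx I P) (t : I → ℕ) (r : Γ.Ix → ℚ) : List Γ.Ix → Fam P
  | [] => 0
  | α :: l => r α • Γ.ul l + Γ.sgT α.c t • Γ.sh (Γ.ub α) (delc Γ t r l)

variable {Γ : Ctx I P}


theorem C11a_ub_zero (hS : Γ.Sym) (α : Γ.Ix) {W : Finset P} (h : Γ.ty W ≠ α.c) :
    Γ.ub α W = 0 :=
  ((Γ.mem_Ha.1 (Γ.mem_Ham.1 (ub_mem hS α).1).1).2 W h)

theorem C11a_ub_FF (hS : Γ.Sym) (α : Γ.Ix) (W : Finset P) : Γ.ub α W ∈ Γ.FF α.k W :=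
  mem_lift.1 (ub_mem hS α).2 W

theorem C11a_ul_FF (hS : Γ.Sym) (l : List Γ.Ix) (W : Finset P) :
    Γ.ul l W ∈ Γ.FF (Γ.levl l) W :=
  mem_lift.1 (ul_mem hS l).2 W

theorem C11a_th_of_ty (α : Γ.Ix) {W : Finset P} (h : Γ.ty W = α.c) : Γ.th W = 0 := by
  rw [Γ.th_eq, h]; exact α.hc.2

theorem C11a_levl_cons (α : Γ.Ix) (l : List Γ.Ix) :
    ((Γ.levl (α :: l) : ℕ) : ℤ) = (α.k : ℤ) + (Γ.levl l : ℤ) := by
  simp [levl]

theorem C11a_del_cons (Y : Finset P) (α : Γ.Ix) (l : List Γ.Ix) (Z : Finset P) :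
    Γ.del Y (α :: l) Z = Γ.ub α Y * Γ.ul l Z + Γ.sgT α.c (Γ.ty Y) •
      ∑ W ∈ Z.powerset, Γ.ub α W * Γ.del Y l (Z \ W) * Γ.KK W (Z \ W) := rfl

/-- the commutator estimate, extended over the tensor filtration -/
theorem C11a_comm (hS : Γ.Sym) {Y W Z : Finset P} (hYW : Disjoint Y W) (hWZ : Disjoint W Z)
    (hY : Γ.th Y = 0) (hW : Γ.th W = 0) (hZ : Γ.th Z = 0) {k m : ℤ} {u d : Rg P}
    (hu : u ∈ Γ.FF k W) (hd : d ∈ Γ.GG m Y Z) :
    u * d * (Γ.KK W Y - Γ.sg W Y • Γ.KK Y W) * Γ.KK W Z ∈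
      Γ.NN (k + m + Γ.bb Y W) Y (W ∪ Z) := by
  apply GG_le_NN
  unfold GG at hd
  refine Submodule.iSup_induction (motive := fun d => u * d * (Γ.KK W Y - Γ.sg W Y • Γ.KK Y W) *
    Γ.KK W Z ∈ Γ.GG (k + m + Γ.bb Y W - 1) Y (W ∪ Z)) _ hd ?_ ?_ ?_
  · intro i d hd
    refine Submodule.mul_induction_on hd ?_ ?_
    · intro f hf g hg
      have h1 := GG_comm hS hYW hY hW hf hu
      have h2 := GG_mul_FF hS hWZ hW hZ h1 hg
      have e1 : i + k + (Γ.bb Y W : ℤ) - 1 + (m - i) = k + m + Γ.bb Y W - 1 := by ring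
      rw [e1] at h2
      convert h2 using 1
      ring
    · intro x y hx hy
      simp only [mul_add, add_mul]
      exact Submodule.add_mem _ hx hy
  · simp
  · intro x y hx hy
    simp only [mul_add, add_mul]
    exact Submodule.add_mem _ hx hy

/-- `del Y l Z` is a signed sum of terms `u_α(Y) · ul l'(Z)` with `levl l' + k_α = levl l` -/
theorem del_mem (hS : Γ.Sym) (Y : Finset P) (l : List Γ.Ix) {Z : Finset P} (hZ : Γ.th Z = 0) :
    Γ.del Y l Z ∈ Γ.GG (Γ.levl l) Y Z := by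
    induction l generalizing Z with
    | nil => exact Submodule.zero_mem _
    | cons α l ih =>
      rw [C11a_del_cons, C11a_levl_cons]
      refine Submodule.add_mem _ (mul_mem_GG (C11a_ub_FF hS α Y) (C11a_ul_FF hS l Z))
        (Submodule.smul_mem _ _ (Submodule.sum_mem _ fun W hW => ?_))
      have hWZ : W ⊆ Z := Finset.mem_powerset.1 hW
      by_cases ht : Γ.ty W = α.c
      · have hW0 := C11a_th_of_ty α ht
        have hZ' : Γ.th (Z \ W) = 0 := by rw [Γ.th_sdiff hWZ, hZ, hW0]; simp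
        have h := FF_mul_GG hS Finset.disjoint_sdiff hW0 hZ' (C11a_ub_FF hS α W) (ih hZ')
        rwa [Finset.union_sdiff_of_subset hWZ] at h
      · rw [C11a_ub_zero hS α ht]; simp

/-- DER.  Induction on `l` (for all `Z`).  In `ul (α :: l) X = Σ_W u_α(W) ul l (X \ W) K(W, X \ W)`
only `W` of type `c_α` occur, `|W| ≤ |Y|`.  `W = Y`: the first term.  `W ⊆ Z`: induction hypothesis
for `Z \ W`, `K(W, X \ W) = K(W, Y) K(W, Z \ W)`, `NN_mul_FF`, `RXle_mul_NN`; to replace `K(W,Y)`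
by `sg • K(Y,W)` use `GG_comm`-type estimate (expand `del Y l (Z \ W)` by `del_mem`),
`GG_mul_FF`, `GG_le_NN`.  Otherwise `split_mem`. -/
theorem ul_sub_del (hS : Γ.Sym) {Y : Finset P} (hY0 : Y ≠ ∅) (hY : Γ.th Y = 0) (l : List Γ.Ix)
    (hl : ∀ α ∈ l, ∑ i, α.c i ≤ Y.card) {Z : Finset P} (hYZ : Disjoint Y Z) (hZ : Γ.th Z = 0) :
    Γ.ul l (Y ∪ Z) - Γ.KK Y Z * Γ.del Y l Z ∈ Γ.NN (Γ.levl l + Γ.bb Y Z) Y Z := by
    induction l generalizing Z with
    | nil =>
      have h0 : Γ.ul [] (Y ∪ Z) = 0 := by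
        have : Y ∪ Z ≠ ∅ := fun h => hY0 (Finset.union_eq_empty.1 h).1
        rw [ul_nil]; simp [oneF, this]
      have h1 : Γ.del Y [] Z = 0 := rfl
      rw [h0, h1]; simp
    | cons α l ih =>
      have hl' : ∀ β ∈ l, ∑ i, β.c i ≤ Y.card := fun β hβ => hl β (List.mem_cons_of_mem _ hβ)
      have hα : ∑ i, α.c i ≤ Y.card := hl α List.mem_cons_self
      have hYnZ : ¬ Y ⊆ Z := by
        intro h
        apply hY0
        have := hYZ.eq_bot_of_le h
        simpa using this
      -- the comparison terms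
      set D : Finset P → Rg P := fun W =>
        (if W = Y then Γ.KK Y Z * (Γ.ub α Y * Γ.ul l Z) else 0) +
        (if W ⊆ Z then Γ.sgT α.c (Γ.ty Y) •
          (Γ.KK Y Z * (Γ.ub α W * Γ.del Y l (Z \ W) * Γ.KK W (Z \ W))) else 0) with hD
      have hsum : Γ.KK Y Z * Γ.del Y (α :: l) Z = ∑ W ∈ (Y ∪ Z).powerset, D W := by
        rw [C11a_del_cons, hD, Finset.sum_add_distrib, Finset.sum_ite_eq',
          if_pos (Finset.mem_powerset.2 Finset.subset_union_left), ← Finset.sum_filter]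
        have hf : (Y ∪ Z).powerset.filter (fun W => W ⊆ Z) = Z.powerset := by
          ext W
          simp only [Finset.mem_filter, Finset.mem_powerset]
          exact ⟨fun h => h.2, fun h => ⟨h.trans Finset.subset_union_right, h⟩⟩
        rw [hf, mul_add, mul_smul_comm, Finset.mul_sum, Finset.smul_sum]
      have hul : Γ.ul (α :: l) (Y ∪ Z) = ∑ W ∈ (Y ∪ Z).powerset,
          Γ.ub α W * Γ.ul l ((Y ∪ Z) \ W) * Γ.KK W ((Y ∪ Z) \ W) := rfl
      rw [hsum, hul, ← Finset.sum_sub_distrib, C11a_levl_cons]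
      refine Submodule.sum_mem _ fun W hW => ?_
      have hWX : W ⊆ Y ∪ Z := Finset.mem_powerset.1 hW
      by_cases hWY : W = Y
      · subst hWY
        have e1 : (W ∪ Z) \ W = Z := by
          rw [Finset.union_sdiff_left, Finset.sdiff_eq_self_of_disjoint hYZ.symm]
        have e2 : D W = Γ.KK W Z * (Γ.ub α W * Γ.ul l Z) := by
          simp only [hD, if_true, if_neg hYnZ, add_zero]
        rw [e1, e2, mul_comm (Γ.KK W Z), sub_self]
        exact Submodule.zero_mem _
      by_cases ht : Γ.ty W = α.c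
      swap
      · have e2 : D W = 0 := by
          simp only [hD, if_neg hWY, C11a_ub_zero hS α ht]
          simp
        rw [e2, C11a_ub_zero hS α ht]; simp
      have hW0 := C11a_th_of_ty α ht
      by_cases hWZ : W ⊆ Z
      · have e2 : D W = Γ.sg W Y •
            (Γ.KK Y Z * (Γ.ub α W * Γ.del Y l (Z \ W) * Γ.KK W (Z \ W))) := by
          simp only [hD, if_neg hWY, if_pos hWZ, zero_add]
          rw [Γ.sg_eq, ht]
        have hYW : Disjoint Y W := hYZ.mono_right hWZ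
        have hYZ' : Disjoint Y (Z \ W) := hYZ.mono_right Finset.sdiff_subset
        have hZ' : Γ.th (Z \ W) = 0 := by rw [Γ.th_sdiff hWZ, hZ, hW0]; simp
        have hU : W ∪ Z \ W = Z := Finset.union_sdiff_of_subset hWZ
        have e1 : (Y ∪ Z) \ W = Y ∪ Z \ W := by
          rw [Finset.union_sdiff_distrib, Finset.sdiff_eq_self_of_disjoint hYW]
        have eK : Γ.KK Y Z = Γ.KK Y W * Γ.KK Y (Z \ W) := by
          rw [← Γ.KK_union_right Y Finset.disjoint_sdiff, hU]
        have eb : Γ.bb Y Z = Γ.bb Y W + Γ.bb Y (Z \ W) := by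
          rw [← Γ.bb_union_right Y Finset.disjoint_sdiff, hU]
        have hIH := ih hl' hYZ' hZ'
        have h1 := NN_mul_FF hS Finset.disjoint_sdiff hW0 hZ' (C11a_ub_FF hS α W) hIH
        rw [hU] at h1
        have h1' := RXle_mul_NN
          (Γ.KK_mem_le (hWZ.trans (Finset.subset_union_right (s₁ := Y))) Finset.subset_union_left) h1
        have h2 := C11a_comm hS hYW Finset.disjoint_sdiff hY hW0 hZ' (C11a_ub_FF hS α W)
          (del_mem hS Y l hZ')
        rw [hU] at h2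
        have h2' := RXle_mul_NN
          (Γ.KK_mem_le (Finset.subset_union_left (s₁ := Y) (s₂ := Z))
            ((Finset.sdiff_subset (s := Z) (t := W)).trans Finset.subset_union_right)) h2
        have es : Γ.bb W Y = Γ.bb Y W := hS.bb hW0 hY
        have i1 : (α.k : ℤ) + ((Γ.levl l : ℤ) + (Γ.bb Y (Z \ W) : ℤ)) + (Γ.bb W Y : ℤ) =
            (α.k : ℤ) + (Γ.levl l : ℤ) + (Γ.bb Y Z : ℤ) := by
          rw [es, eb]; push_cast; ring
        have i2 : (α.k : ℤ) + (Γ.levl l : ℤ) + (Γ.bb Y W : ℤ) + (Γ.bb Y (Z \ W) : ℤ) =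
            (α.k : ℤ) + (Γ.levl l : ℤ) + (Γ.bb Y Z : ℤ) := by
          rw [eb]; push_cast; ring
        rw [i1] at h1'
        rw [i2] at h2'
        have h3 := Submodule.add_mem _ h1' h2'
        rw [e2, e1, Γ.KK_union_right W hYZ', eK]
        convert h3 using 1
        simp only [MvPolynomial.smul_eq_C_mul]
        ring
      · have e2 : D W = 0 := by
          simp only [hD, if_neg hWY, if_neg hWZ, add_zero]
        rw [e2, sub_zero]
        have h1 : W ∩ Y ≠ ∅ := by
          intro h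
          apply hWZ
          intro p hp
          rcases Finset.mem_union.1 (hWX hp) with h' | h'
          · have : p ∈ W ∩ Y := Finset.mem_inter.2 ⟨hp, h'⟩
            rw [h] at this
            simp at this
          · exact h'
        have h2 : Y \ W ≠ ∅ := by
          intro h
          have hsub : Y ⊆ W := Finset.sdiff_eq_empty_iff_subset.1 h
          have hc : W.card ≤ Y.card := by rw [Γ.card_eq_ty W, ht]; exact hα
          exact hWY (Finset.eq_of_subset_of_card_le hsub hc).symm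
        exact split_mem hS hYZ hY hZ hWX hW0 h1 h2 (C11a_ub_FF hS α W) (C11a_ul_FF hS l _)

end Ctx
end
end Crest.Agent.R59
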