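import Crest.Agent.R59.C12b

/-! # Row 59, C12: ordered monomials span; the PBW count; monotonicity of `dU`. -/

set_option autoImplicit false

namespace Crest.Agent.R59
open scoped Classical
open MvPolynomial

namespace Ctx
variable {I P : Type} [Fintype I] [DecidableEq I] [LinearOrder P] {Γ : Ctx I P}

theorem dV_eq_zero (hS : Γ.Sym) {c : I → ℕ} {m k : ℕ} (h : m + ∑ i, c i < k) : Γ.dV c m k = 0 := by
  refine Nat.sub_eq_zero_of_le (Submodule.finrank_mono fun u hu => ⟨hu.1, mem_lift.2 fun X => ?_⟩)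
  refine Γ.FF_le_DD _ X (Γ.FF_mono X ?_ (mem_lift.1 (Ham_le_FF c m hu.1) X))
  omega

/-- multiplication by `p₁` -/
noncomputable def C12_L : Fam P →ₗ[ℚ] Fam P :=
  LinearMap.pi fun Y => LinearMap.mulLeft ℚ (∑ p ∈ Y, (X p : Rg P)) ∘ₗ LinearMap.proj Y

omit [LinearOrder P] in
theorem C12_L_apply (u : Fam P) (Y : Finset P) : C12_L u Y = (∑ p ∈ Y, (X p : Rg P)) * u Y := rfl

theorem C12_L_mem {c : I → ℕ} {m : ℕ} {u : Fam P} (hu : u ∈ Γ.Ham c m) : C12_L u ∈ Γ.Ham c (m + 1) := by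
  obtain ⟨h1, h2⟩ := Γ.mem_Ham.1 hu
  obtain ⟨⟨h3, h4⟩, h5⟩ := Γ.mem_Ha.1 h1
  refine Γ.mem_Ham.2 ⟨Γ.mem_Ha.2 ⟨⟨fun Y => ?_, fun σ Y hσ => ?_⟩, fun Y hY => ?_⟩, fun Y => ?_⟩
  · exact RX_mul (Submodule.sum_mem _ fun p hp => RX_X hp) (h3 Y)
  · rw [C12_L_apply, C12_L_apply, h4 σ Y hσ, Finset.sum_image hσ.1]
    simp only [act, map_mul, map_sum, rename_X, mul_smul_comm]
  · rw [C12_L_apply, h5 Y hY, mul_zero]
  · rw [C12_L_apply, add_comm]
    exact (IsHomogeneous.sum _ _ _ fun p _ => isHomogeneous_X ℚ p).mul (h2 Y)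

theorem C12_weyl {Y : Finset P} (hY : Y ≠ ∅) {k : ℤ} {w : Rg P}
    (h : (∑ p ∈ Y, (X p : Rg P)) * w ∈ Γ.DD (k + 1) Y) : w ∈ Γ.DD k Y := by
  have hc : (Y.card : ℚ) ≠ 0 := by
    exact_mod_cast (Finset.card_pos.2 (Finset.nonempty_iff_ne_empty.2 hY)).ne'
  refine weyl (fun k => Γ.DD k Y) ((Y.card : ℚ)⁻¹ • LinearMap.mulLeft ℚ (∑ p ∈ Y, (X p : Rg P))) (dB Y)
    (fun x => ?_) (fun k x hx => ?_) (fun k x hx => Γ.dB_DD hx) (dB_nilp Y w) ((Γ.DD _ Y).smul_mem _ h)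
  · have e : dB Y (∑ p ∈ Y, (X p : Rg P)) = (Y.card : ℚ) • (1 : Rg P) := by
      rw [map_sum, Finset.sum_congr rfl fun p hp => by rw [dB_X, if_pos hp], Finset.sum_const,
        Nat.cast_smul_eq_nsmul]
    simp only [LinearMap.smul_apply, LinearMap.mulLeft_apply, map_smul]
    rw [dB_mul, e, smul_add, smul_mul_assoc, one_mul, smul_smul, inv_mul_cancel₀ hc, one_smul, add_comm]
  · simp only [LinearMap.smul_apply, LinearMap.mulLeft_apply]
    rw [Finset.sum_mul]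
    exact (Γ.DD _ Y).smul_mem _ (Submodule.sum_mem _ fun p hp => Γ.X_mul_DD hp hx)

/-- multiplication by `p₁ = Σ_{p ∈ X} x_p`; `weyl` with `N = DD · X`, `L = p₁ / |X|`, `D = dB X`;
`finrank_sub_le` -/
theorem dV_le (hS : Γ.Sym) {c : I → ℕ} (hc : c ≠ 0) (m k : ℕ) :
    Γ.dV c m k ≤ Γ.dV c (m + 1) (k + 1) := by
  refine finrank_sub_le (inf_le_inf_left _ fun u hu => mem_lift.2 fun Y => Γ.DD_le_FF hS _ Y (mem_lift.1 hu Y))
    (inf_le_inf_left _ fun u hu => mem_lift.2 fun Y => Γ.DD_le_FF hS _ Y (mem_lift.1 hu Y)) C12_L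
    (fun u hu => ⟨C12_L_mem hu.1, mem_lift.2 fun Y => ?_⟩) fun u hu h => ⟨hu.1, mem_lift.2 fun Y => ?_⟩
  · rw [C12_L_apply, Finset.sum_mul, Nat.cast_succ]
    exact Submodule.sum_mem _ fun p hp => Γ.X_mul_FF hp (mem_lift.1 hu.2 Y)
  · by_cases hY : Y = ∅
    · rw [(Γ.mem_Ha.1 (Γ.mem_Ham.1 hu.1).1).2 Y (by rw [Γ.ty_eq_zero.2 hY]; exact hc.symm)]
      exact Submodule.zero_mem _
    · have := mem_lift.1 h.2 Y
      rw [C12_L_apply, Nat.cast_succ] at this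
      exact C12_weyl hY this

theorem dU_le (hS : Γ.Sym) {c : I → ℕ} (hc : c ≠ 0) (m : ℕ) : Γ.dU c m ≤ Γ.dU c (m + 1) := by
  unfold dU
  rw [show m + 1 + ∑ i, c i + 1 = m + ∑ i, c i + 1 + 1 by omega, Finset.sum_range_succ' _ (m + ∑ i, c i + 1)]
  exact (Finset.sum_le_sum fun k _ => dV_le hS hc m k).trans (Nat.le_add_right _ _)

theorem fib_Ix (hS : Γ.Sym) (c : I → ℕ) (m : ℕ) :
    {α : Γ.Ix | α.c = c ∧ α.m = m}.Finite ∧ {α : Γ.Ix | α.c = c ∧ α.m = m}.ncard =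
      if c ≠ 0 ∧ Γ.thT c = 0 then Γ.dU c m else 0 := by
  split_ifs with h
  · let f : (Σ k : ℕ, Fin (Γ.dV c m k)) → Γ.Ix := fun x => ⟨c, h, m, x.1, x.2⟩
    have hf : Function.Injective f := by
      rintro ⟨k, i⟩ ⟨k', i'⟩ e
      simp only [f, Ix.mk.injEq, true_and] at e
      obtain ⟨rfl, e⟩ := e
      rw [eq_of_heq e]
    have e : {α : Γ.Ix | α.c = c ∧ α.m = m} =
        ↑(((Finset.range (m + ∑ i, c i + 1)).sigma fun k => (Finset.univ : Finset (Fin (Γ.dV c m k)))).map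
          ⟨f, hf⟩) := by
      ext ⟨c', h', m', k, i⟩
      simp only [Set.mem_setOf_eq, Finset.coe_map, Set.mem_image, Finset.mem_coe, Finset.mem_sigma,
        Finset.mem_range, Finset.mem_univ, and_true, Function.Embedding.coeFn_mk]
      constructor
      · rintro ⟨rfl, rfl⟩
        refine ⟨⟨k, i⟩, ?_, rfl⟩
        by_contra hk
        have h0 := dV_eq_zero hS (c := c') (m := m') (k := k) (by simp only at hk; omega)
        have := i.2
        omega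
      · rintro ⟨x, -, e⟩
        exact ⟨(congrArg Ix.c e).symm, (congrArg Ix.m e).symm⟩
    rw [e]
    refine ⟨Finset.finite_toSet _, ?_⟩
    rw [Set.ncard_coe_finset, Finset.card_map, Finset.card_sigma]
    simp [dU]
  · have e : {α : Γ.Ix | α.c = c ∧ α.m = m} = ∅ :=
      Set.eq_empty_of_forall_notMem fun α hα => h (hα.1 ▸ α.hc)
    rw [e]
    simp

end Ctx
end Crest.Agent.R59
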