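import Crest.Agent.R59.C11

/-! # Row 59, C12: ordered monomials span; the PBW count; monotonicity of `dU`. -/

set_option autoImplicit false

namespace Crest.Agent.R59
open scoped Classical
open MvPolynomial

namespace Ctx
variable {I P : Type} [Fintype I] [DecidableEq I] [LinearOrder P] {Γ : Ctx I P}

theorem c12a_van {a : I → ℕ} (ha : Γ.thT a = 0) {u : Fam P} (hu : u ∈ Γ.Ha a) (X : Finset P)
    (hX : Γ.th X ≠ 0) : u X = 0 :=
  (Γ.mem_Ha.1 hu).2 X fun h => hX (by rw [Γ.th_eq, h, ha])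

theorem c12a_ub (hS : Γ.Sym) (α : Γ.Ix) : Γ.ub α ∈ Γ.Ha α.c ⊓ lift (Γ.FF α.k) :=
  ⟨(ub_mem hS α).1.1, (ub_mem hS α).2⟩

theorem c12a_ul (hS : Γ.Sym) (l : List Γ.Ix) :
    Γ.ul l ∈ Γ.Ha (Γ.tyl l) ⊓ lift (Γ.FF (Γ.levl l)) :=
  ⟨(ul_mem hS l).1.1, (ul_mem hS l).2⟩

theorem c12a_levl_cons (α : Γ.Ix) (l : List Γ.Ix) : Γ.levl (α :: l) = α.k + Γ.levl l := by
  simp [levl]

theorem c12a_levl_append (l l' : List Γ.Ix) : Γ.levl (l ++ l') = Γ.levl l + Γ.levl l' := by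
  simp [levl]

theorem c12a_tyl_append (l l' : List Γ.Ix) : Γ.tyl (l ++ l') = Γ.tyl l + Γ.tyl l' := by
  simp [tyl]

theorem c12a_levl_perm {l l' : List Γ.Ix} (h : l.Perm l') : Γ.levl l = Γ.levl l' :=
  (h.map _).sum_eq

theorem c12a_tyl_perm {l l' : List Γ.Ix} (h : l.Perm l') : Γ.tyl l = Γ.tyl l' :=
  (h.map _).sum_eq

theorem c12a_mono {i j : ℤ} (h : i ≤ j) : lift (Γ.FF i) ≤ lift (Γ.FF j) := fun _ hu =>
  mem_lift.2 fun X => Γ.FF_mono X h (mem_lift.1 hu X)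

theorem c12a_IF_le (k : ℤ) : lift Γ.IF ≤ lift (Γ.FF k) := fun _ hu =>
  mem_lift.2 fun X => Γ.IF_le_FF k X (mem_lift.1 hu X)

theorem c12a_sh_sub_left (u u' w : Fam P) (ε : ℚ) :
    Γ.sh (u - ε • u') w = Γ.sh u w - ε • Γ.sh u' w := by
  simp only [← shL_apply, map_sub, map_smul, LinearMap.sub_apply, LinearMap.smul_apply]

theorem c12a_sh_sub_right (u w w' : Fam P) (ε : ℚ) :
    Γ.sh u (w - ε • w') = Γ.sh u w - ε • Γ.sh u w' := by
  simp only [← shL_apply, map_sub, map_smul]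

theorem c12a_sh_span {S S' : Set (Fam P)} {T : Submodule ℚ (Fam P)}
    (h : ∀ u ∈ S, ∀ w ∈ S', Γ.sh u w ∈ T) {u w : Fam P} (hu : u ∈ Submodule.span ℚ S)
    (hw : w ∈ Submodule.span ℚ S') : Γ.sh u w ∈ T :=
  (Submodule.span_le (p := T.comap (Γ.shL.flip w))).2
    (fun u hu => (Submodule.span_le (p := T.comap (Γ.shL u))).2 (fun w hw => h u hu w hw) hw) hu

theorem c12a_span_le (hS : Γ.Sym) (a : I → ℕ) (k : ℤ) :
    Submodule.span ℚ (Γ.ul '' {l | Γ.PB l ∧ Γ.tyl l = a ∧ (Γ.levl l : ℤ) = k}) ≤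
      Γ.Ha a ⊓ lift (Γ.FF k) := by
  refine Submodule.span_le.2 ?_
  rintro _ ⟨l, ⟨-, rfl, rfl⟩, rfl⟩
  exact c12a_ul hS l

/-- splitting an element of `Ha a ⊓ lift (FF k)` along `span_gr` -/
theorem c12a_split (hS : Γ.Sym) {a : I → ℕ} {k : ℤ} {u : Fam P} (hu : u ∈ Γ.Ha a)
    (h : u ∈ lift (Γ.FF (k - 1)) ⊔ Submodule.span ℚ
      (Γ.ul '' {l | Γ.PB l ∧ Γ.tyl l = a ∧ (Γ.levl l : ℤ) = k})) :
    ∃ u₀ ∈ Γ.Ha a ⊓ lift (Γ.FF (k - 1)), ∃ u₁ ∈ Submodule.span ℚ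
      (Γ.ul '' {l | Γ.PB l ∧ Γ.tyl l = a ∧ (Γ.levl l : ℤ) = k}), u₀ + u₁ = u := by
  obtain ⟨u₀, h0, u₁, h1, rfl⟩ := Submodule.mem_sup.1 h
  refine ⟨u₀, ⟨?_, h0⟩, u₁, h1, rfl⟩
  exact (Submodule.add_mem_iff_left _ (c12a_span_le hS a k h1).1).1 hu

/-- induction on `List.Perm` with `sh_comm_mem`, `sh_mem_FF`, `sh_assoc` -/
theorem ul_perm (hS : Γ.Sym) {l l' : List Γ.Ix} (h : l.Perm l') :
    ∃ ε : ℚ, (ε = 1 ∨ ε = -1) ∧ Γ.ul l - ε • Γ.ul l' ∈ lift (Γ.FF ((Γ.levl l : ℤ) - 1)) := by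
  induction h with
  | nil => exact ⟨1, Or.inl rfl, by simp⟩
  | @cons α l l' h ih =>
    obtain ⟨ε, hε, h1⟩ := ih
    refine ⟨ε, hε, ?_⟩
    rw [ul_cons, ul_cons, ← c12a_sh_sub_right, c12a_levl_cons, Nat.cast_add, add_sub_assoc]
    refine (sh_mem_FF' hS (c12a_van α.hc.2 (c12a_ub hS α).1) (fun X hX => ?_)
      (c12a_ub hS α).2 h1).1
    rw [Pi.sub_apply, Pi.smul_apply, c12a_van (thT_tyl l) (c12a_ul hS l).1 X hX,
      c12a_van (thT_tyl l') (c12a_ul hS l').1 X hX, smul_zero, sub_zero]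
  | swap α β l =>
    refine ⟨Γ.sgT β.c α.c, neg_one_pow_eq_or ℚ _, ?_⟩
    rw [ul_cons, ul_cons, ul_cons, ul_cons, ← sh_assoc, ← sh_assoc, ← c12a_sh_sub_left,
      c12a_levl_cons, c12a_levl_cons]
    have h1 := sh_comm_mem hS β.hc.2 α.hc.2 (c12a_ub hS β) (c12a_ub hS α)
    have h2 := (sh_mem_FF' hS (c12a_van β.hc.2 (c12a_ub hS β).1)
      (c12a_van α.hc.2 (c12a_ub hS α).1) (c12a_ub hS β).2 (c12a_ub hS α).2).2
    have h3 := (sh_mem_FF' hS (c12a_van α.hc.2 (c12a_ub hS α).1)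
      (c12a_van β.hc.2 (c12a_ub hS β).1) (c12a_ub hS α).2 (c12a_ub hS β).2).2
    refine c12a_mono (le_of_eq (by push_cast; ring)) (sh_mem_FF' hS (fun X hX => ?_)
      (c12a_van (thT_tyl l) (c12a_ul hS l).1) h1 (c12a_ul hS l).2).1
    rw [Pi.sub_apply, Pi.smul_apply, h2 X hX, h3 X hX, smul_zero, sub_zero]
  | @trans l₁ l₂ l₃ h _ ih ih' =>
    obtain ⟨ε, hε, h1⟩ := ih
    obtain ⟨ε', hε', h2⟩ := ih'
    refine ⟨ε * ε', ?_, ?_⟩
    · rcases hε with rfl | rfl <;> rcases hε' with rfl | rfl <;> norm_num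
    · rw [← c12a_levl_perm h] at h2
      have h3 := Submodule.add_mem _ h1 (Submodule.smul_mem _ ε h2)
      rwa [smul_sub, sub_add_sub_cancel, ← mul_smul] at h3

/-- sort `l`; if an odd generator is repeated, move the two copies to the front: `2 u ≡ 0` -/
theorem ul_mem_span (hS : Γ.Sym) (l : List Γ.Ix) :
    Γ.ul l ∈ lift (Γ.FF ((Γ.levl l : ℤ) - 1)) ⊔ Submodule.span ℚ
      (Γ.ul '' {l' | Γ.PB l' ∧ Γ.tyl l' = Γ.tyl l ∧ Γ.levl l' = Γ.levl l}) := by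
  have hp : l.Perm (l.mergeSort fun α β => decide (α ≤ β)) := (List.mergeSort_perm _ _).symm
  have hs : (l.mergeSort fun α β => decide (α ≤ β)).Pairwise (· ≤ ·) := List.pairwise_mergeSort' _ _
  generalize l.mergeSort (fun α β => decide (α ≤ β)) = l' at hp hs
  by_cases hb : Γ.PB l'
  · obtain ⟨ε, -, h1⟩ := ul_perm hS hp
    rw [← sub_add_cancel (Γ.ul l) (ε • Γ.ul l')]
    exact Submodule.add_mem_sup h1 (Submodule.smul_mem _ _ (Submodule.subset_span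
      ⟨l', ⟨hb, (c12a_tyl_perm hp).symm, (c12a_levl_perm hp).symm⟩, rfl⟩))
  refine Submodule.mem_sup_left ?_
  rw [PB, List.pairwise_iff_forall_sublist] at hb
  push Not at hb
  obtain ⟨α, β, h1, h2, h3⟩ := hb
  obtain rfl : α = β := le_antisymm (List.pairwise_iff_forall_sublist.1 hs h1) h2
  obtain ⟨l'', h4⟩ := h1.exists_perm_append
  obtain ⟨ε, -, h5⟩ := ul_perm hS (hp.trans h4)
  rw [← sub_add_cancel (Γ.ul l) (ε • Γ.ul ([α, α] ++ l''))]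
  refine Submodule.add_mem _ h5 (Submodule.smul_mem _ _ ?_)
  have h6 := sh_comm_mem hS α.hc.2 α.hc.2 (c12a_ub hS α) (c12a_ub hS α)
  rw [sgT_self, if_pos (h3 rfl), neg_smul, one_smul, sub_neg_eq_add,
    ← two_smul ℚ (Γ.sh (Γ.ub α) (Γ.ub α)), Submodule.smul_mem_iff _ two_ne_zero] at h6
  have h7 := (sh_mem_FF' hS (c12a_van α.hc.2 (c12a_ub hS α).1)
    (c12a_van α.hc.2 (c12a_ub hS α).1) (c12a_ub hS α).2 (c12a_ub hS α).2).2
  rw [c12a_levl_perm (hp.trans h4), List.cons_append, List.cons_append, List.nil_append, ul_cons,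
    ul_cons, ← sh_assoc, c12a_levl_cons, c12a_levl_cons]
  exact c12a_mono (le_of_eq (by push_cast; ring)) (sh_mem_FF' hS h7
    (c12a_van (thT_tyl l'') (c12a_ul hS l'').1) h6 (c12a_ul hS l'').2).1

/-- Strong induction on `|a|`: `a = 0` by `Ha_zero`; `k ≤ 0` by `Ha_FF_neg`; otherwise `ub_span`,
`Ha_DD_le`, the induction hypothesis for both factors, `ul_append`, `ul_mem_span`. -/
theorem span_gr (hS : Γ.Sym) {a : I → ℕ} (ha : Γ.thT a = 0) (k : ℤ) :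
    Γ.Ha a ⊓ lift (Γ.FF k) ≤ lift (Γ.FF (k - 1)) ⊔ Submodule.span ℚ
      (Γ.ul '' {l | Γ.PB l ∧ Γ.tyl l = a ∧ (Γ.levl l : ℤ) = k}) := by
  induction hn : ∑ i, a i using Nat.strong_induction_on generalizing a k with
  | _ n ih =>
  by_cases hk : k < 0 ∨ (k ≤ 0 ∧ a ≠ 0)
  · rw [Ha_FF_neg ha hk]
    exact inf_le_right.trans ((c12a_IF_le _).trans le_sup_left)
  by_cases ha0 : a = 0
  · subst ha0
    refine inf_le_left.trans ?_
    rw [Ha_zero, Submodule.span_le, Set.singleton_subset_iff, SetLike.mem_coe, ← Γ.ul_nil]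
    by_cases hk0 : k = 0
    · exact Submodule.mem_sup_right (Submodule.subset_span
        ⟨[], ⟨List.Pairwise.nil, rfl, hk0.symm⟩, rfl⟩)
    · refine Submodule.mem_sup_left (c12a_mono ?_ (c12a_ul hS []).2)
      change (0 : ℤ) ≤ k - 1
      omega
  obtain ⟨m, rfl⟩ : ∃ m : ℕ, k = m := ⟨k.toNat, by omega⟩
  refine (ub_span hS ⟨ha0, ha⟩ m).trans (sup_le (Ha_DD_le (inf_le_right.trans le_sup_left) ?_) ?_)
  · intro c e hce hc0 he0 hc he i u hu w hw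
    have hlt : ∀ c e : I → ℕ, c + e = a → e ≠ 0 → ∑ i, c i < n := by
      intro c e hce he0
      obtain ⟨j, hj⟩ := Function.ne_iff.1 he0
      rw [← hn, ← hce]
      exact Finset.sum_lt_sum (fun i _ => Nat.le_add_right _ _)
        ⟨j, Finset.mem_univ _, Nat.lt_add_of_pos_right (Nat.pos_of_ne_zero hj)⟩
    obtain ⟨u₀, hu₀, u₁, hu₁, rfl⟩ := c12a_split hS hu.1 (ih _ (hlt c e hce he0) hc i rfl hu)
    obtain ⟨w₀, hw₀, w₁, hw₁, hw'⟩ := c12a_split hS hw.1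
      (ih _ (hlt e c ((add_comm _ _).trans hce) hc0) he (m - i) rfl hw)
    rw [sh_add_left]
    refine Submodule.add_mem _ (Submodule.mem_sup_left
      (c12a_mono (le_of_eq (by ring)) (sh_mem_FF hS hc he hu₀ hw).2)) ?_
    rw [← hw', sh_add_right]
    refine Submodule.add_mem _ (Submodule.mem_sup_left (c12a_mono (le_of_eq (by ring))
      (sh_mem_FF hS hc he (c12a_span_le hS c i hu₁) hw₀).2)) (c12a_sh_span ?_ hu₁ hw₁)
    rintro _ ⟨l, ⟨-, h1, h2⟩, rfl⟩ _ ⟨l', ⟨-, h3, h4⟩, rfl⟩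
    have h5 : Γ.levl (l ++ l') = m := by
      rw [c12a_levl_append]
      omega
    have h6 := ul_mem_span hS (l ++ l')
    rw [h5, c12a_tyl_append, h1, h3, hce, ul_append] at h6
    simpa only [Nat.cast_inj] using h6
  · refine le_sup_of_le_right (Submodule.span_mono ?_)
    rintro _ ⟨α, ⟨h1, h2⟩, rfl⟩
    exact ⟨[α], ⟨List.pairwise_singleton _ _, by simpa [tyl] using h1, by simpa [levl] using h2⟩,
      Γ.sh_one _⟩

theorem pbw_span (hS : Γ.Sym) {a : I → ℕ} (ha : Γ.thT a = 0) :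
    Γ.Ha a ≤ lift Γ.IF ⊔ Submodule.span ℚ (Γ.ul '' {l | Γ.PB l ∧ Γ.tyl l = a}) := by
  have key : ∀ k : ℕ, Γ.Ha a ⊓ lift (Γ.FF ((k : ℤ) - 1)) ≤
      lift Γ.IF ⊔ Submodule.span ℚ (Γ.ul '' {l | Γ.PB l ∧ Γ.tyl l = a}) := by
    intro k
    induction k with
    | zero =>
      rw [Ha_FF_neg ha (Or.inl (by norm_num))]
      exact inf_le_right.trans le_sup_left
    | succ k ih =>
      intro u hu
      rw [Nat.cast_succ, add_sub_cancel_right] at hu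
      obtain ⟨u₀, hu₀, u₁, hu₁, rfl⟩ := c12a_split hS hu.1 (span_gr hS ha k hu)
      exact Submodule.add_mem _ (ih hu₀) (Submodule.mem_sup_right (Submodule.span_mono
        (Set.image_mono fun l hl => And.intro hl.1 hl.2.1) hu₁))
  intro u hu
  obtain ⟨X, hX⟩ := Γ.exists_ty a
  obtain ⟨k, hk⟩ := Γ.exists_FF ((Γ.mem_Ha.1 hu).1.1 X)
  refine key (k + 1) ⟨hu, ?_⟩
  rw [Nat.cast_succ, add_sub_cancel_right]
  exact Γ.mem_lift_of_one (Γ.equi_FF k) hu hX hk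

end Ctx
end Crest.Agent.R59
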