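import Crest.Agent.R59.C12a

/-! # Row 59, C12: ordered monomials span; the PBW count; monotonicity of `dU`. -/

set_option autoImplicit false

namespace Crest.Agent.R59
open scoped Classical
open MvPolynomial

namespace Ctx
variable {I P : Type} [Fintype I] [DecidableEq I] [LinearOrder P] {Γ : Ctx I P}

theorem C12b_lift_mono {W W' : Finset P → Submodule ℚ (Rg P)} (h : ∀ X, W X ≤ W' X) :
    lift W ≤ lift W' := fun _ hu => mem_lift.2 fun X => h X (mem_lift.1 hu X)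

theorem C12b_sum {α M : Type} [DecidableEq α] [AddCommMonoid M] (l : List α) (g : α → M) :
    ((Multiset.toFinsupp (l : Multiset α)).sum fun a k => k • g a) = (l.map g).sum := by
  rw [Finset.sum_list_map_count, Finsupp.sum, Multiset.toFinsupp_support, List.toFinset_coe]
  exact Finset.sum_congr rfl fun a _ => by rw [Multiset.toFinsupp_apply, Multiset.coe_count]

theorem C12b_ty (l : List Γ.Ix) :
    ((Multiset.toFinsupp (l : Multiset Γ.Ix)).sum fun α k => k • α.c) = Γ.tyl l :=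
  C12b_sum l fun α => α.c

theorem C12b_wt (hS : Γ.Sym) (l : List Γ.Ix) :
    ((Multiset.toFinsupp (l : Multiset Γ.Ix)).sum
      fun α k => (k : ℤ) * (2 * (α.m : ℤ) - Γ.bT α.c α.c)) =
      2 * (Γ.degl l : ℤ) - Γ.bT (Γ.tyl l) (Γ.tyl l) := by
  rw [two_degl hS, ← C12b_sum]
  simp only [nsmul_eq_mul]

theorem C12b_PB {l : List Γ.Ix} : Γ.PB l ↔ l.Pairwise (· ≤ ·) ∧
    ∀ α, Γ.oddT α.c → Multiset.toFinsupp (l : Multiset Γ.Ix) α ≤ 1 := by
  simp only [Multiset.toFinsupp_apply, Multiset.coe_count]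
  constructor
  · intro h
    refine ⟨h.imp fun h' => h'.elim le_of_lt fun e => e.1.le, fun α hα => ?_⟩
    by_contra hc
    have h1 : [α, α].Sublist l :=
      List.duplicate_iff_sublist.1 (List.duplicate_iff_two_le_count.2 (by omega))
    rcases List.pairwise_iff_forall_sublist.1 h h1 with h2 | h2
    · exact lt_irrefl _ h2
    · exact h2.2 hα
  · rintro ⟨h, h'⟩
    refine List.pairwise_iff_forall_sublist.2 fun {α β} h1 => ?_
    rcases (List.pairwise_iff_forall_sublist.1 h h1).lt_or_eq with h2 | rfl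
    · exact Or.inl h2
    · refine Or.inr ⟨rfl, fun hα => ?_⟩
      have h3 := List.duplicate_iff_two_le_count.1 (List.duplicate_iff_sublist.2 h1)
      have h4 := h' α hα
      omega

theorem C12b_surj (μ : Γ.Ix →₀ ℕ) :
    ∃ l : List Γ.Ix, l.Pairwise (· ≤ ·) ∧ Multiset.toFinsupp (l : Multiset Γ.Ix) = μ :=
  ⟨(Finsupp.toMultiset μ).sort (· ≤ ·), Multiset.pairwise_sort _ _, by
    rw [Multiset.sort_eq, Finsupp.toMultiset_toFinsupp]⟩

/-- look at the top level `k` of the support and use `indep_gr` -/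
theorem pbw_indep (hS : Γ.Sym) (a : I → ℕ) (x : List Γ.Ix →₀ ℚ)
    (hx : ∀ l ∈ x.support, Γ.PB l ∧ Γ.tyl l = a)
    (h : (x.sum fun l r => r • Γ.ul l) ∈ lift Γ.IF) : x = 0 := by
  by_contra h0
  obtain ⟨l₀, hl₀, hmax⟩ := x.support.exists_max_image Γ.levl (Finsupp.support_nonempty_iff.2 h0)
  have e := Finsupp.filter_add_filter_not x fun l => Γ.levl l = Γ.levl l₀
  have h1 : Finsupp.linearCombination ℚ Γ.ul x ∈ lift (Γ.FF ((Γ.levl l₀ : ℤ) - 1)) :=
    C12b_lift_mono (Γ.IF_le_FF _) h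
  have h2 : Finsupp.linearCombination ℚ Γ.ul (x.filter fun l => ¬ Γ.levl l = Γ.levl l₀) ∈
      lift (Γ.FF ((Γ.levl l₀ : ℤ) - 1)) := by
    refine Submodule.sum_mem _ fun l hl => Submodule.smul_mem _ _ ?_
    rw [Finsupp.support_filter, Finset.mem_filter] at hl
    have h3 := hmax l hl.1
    have h4 := hl.2
    exact C12b_lift_mono (fun X => Γ.FF_mono X (by omega)) (ul_mem hS l).2
  rw [← e, map_add] at h1
  have h3 := indep_gr hS a (Γ.levl l₀) (x.filter fun l => Γ.levl l = Γ.levl l₀) (fun l hl => by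
    rw [Finsupp.support_filter, Finset.mem_filter] at hl
    exact ⟨(hx l hl.1).1, (hx l hl.1).2, hl.2⟩) ((Submodule.add_mem_iff_left _ h2).1 h1)
  have h4 := DFunLike.congr_fun h3 l₀
  rw [Finsupp.filter_apply, if_pos rfl] at h4
  exact Finsupp.mem_support_iff.1 hl₀ h4

/-- `ncard_eq_hq`, then the bijection `l ↦ Multiset.toFinsupp l` between sorted lists and
finitely supported functions (`two_degl`) -/
theorem pbw_count (hS : Γ.Sym) {a : I → ℕ} (ha : Γ.thT a = 0) (m : ℕ) :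
    {μ : Γ.Ix →₀ ℕ | (∀ α, Γ.oddT α.c → μ α ≤ 1) ∧ (μ.sum fun α k => k • α.c) = a ∧
      (μ.sum fun α k => (k : ℤ) * (2 * (α.m : ℤ) - Γ.bT α.c α.c)) =
        2 * (m : ℤ) - Γ.bT a a}.ncard = Γ.hF a m := by
  have h := (Γ.ncard_eq_hq Γ.grd_IF (a := a) Γ.ul Γ.degl {l | Γ.PB l ∧ Γ.tyl l = a}
    (fun l hl => hl.2 ▸ (ul_mem hS l).1) (fun x hx => pbw_indep hS a x fun l hl => hx hl)
    (pbw_span hS ha) m).2
  rw [hF, ← h]
  symm
  refine Set.ncard_congr (fun l _ => Multiset.toFinsupp (l : Multiset Γ.Ix)) ?_ ?_ ?_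
  · rintro l ⟨⟨h1, h2⟩, h3⟩
    exact ⟨(C12b_PB.1 h1).2, (C12b_ty l).trans h2, by rw [C12b_wt hS, h2, h3]⟩
  · rintro l l' ⟨⟨h1, -⟩, -⟩ ⟨⟨h1', -⟩, -⟩ e
    exact (Multiset.coe_eq_coe.1 (Multiset.toFinsupp.injective e)).eq_of_pairwise'
      (C12b_PB.1 h1).1 (C12b_PB.1 h1').1
  · rintro μ ⟨h1, h2, h3⟩
    obtain ⟨l, hl, rfl⟩ := C12b_surj μ
    rw [C12b_ty] at h2
    rw [C12b_wt hS, h2] at h3
    exact ⟨l, ⟨⟨C12b_PB.2 ⟨hl, h1⟩, h2⟩, by omega⟩, rfl⟩

/-- parity: a monomial of type `a` always has weight `≡ b(a,a)` and `≥ -b(a,a)` -/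
theorem pbw_weight (hS : Γ.Sym) (μ : Γ.Ix →₀ ℕ) :
    ∃ m : ℕ, (μ.sum fun α k => (k : ℤ) * (2 * (α.m : ℤ) - Γ.bT α.c α.c)) =
      2 * (m : ℤ) - Γ.bT (μ.sum fun α k => k • α.c) (μ.sum fun α k => k • α.c) := by
  obtain ⟨l, -, rfl⟩ := C12b_surj μ
  exact ⟨Γ.degl l, by rw [C12b_wt hS, C12b_ty]⟩

end Ctx
end Crest.Agent.R59
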