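import Crest.Agent.R59.C12

/-! # Row 59, C13: the context without arrows (`b = 0`, `θ = 0`). -/

set_option autoImplicit false
set_option linter.unusedSectionVars false

namespace Crest.Agent.R59
open scoped Classical
open MvPolynomial

section aux
variable {P : Type} [LinearOrder P]

theorem C13_supp {X : Finset P} {f : Rg P} (hf : f ∈ RX X) {d : P →₀ ℕ} (hd : coeff d f ≠ 0) :
    d.support ⊆ X := fun p hp => by
  have h : (↑f.vars : Set P) ⊆ X := mem_supported.1 hf
  exact h ((mem_vars_iff_mem_support p).2 ⟨d, mem_support_iff.2 hd, hp⟩)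

theorem C13_mono {Y : Finset P} {e : ℕ} {d : P →₀ ℕ} (h : d.support ⊆ Y) (he : d.degree ≤ e) :
    (monomial d 1 : Rg P) ∈ RXle Y e := by
  rw [RXle_eq_span]
  exact Submodule.subset_span ⟨d, h, he, rfl⟩

theorem C13_lab (X : Finset P) : ∃ lab : P → ℕ, Set.InjOn lab X :=
  ⟨fun p => if h : p ∈ X then (X.equivFin ⟨p, h⟩ : ℕ) else 0, fun p hp q hq h => by
    have hp' : p ∈ X := hp
    have hq' : q ∈ X := hq
    simp only [dif_pos hp', dif_pos hq'] at h
    exact congrArg Subtype.val (X.equivFin.injective (Fin.ext h))⟩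

theorem C13_Ord {lab : P → ℕ} {X : Finset P} (hl : Set.InjOn lab X) (m : ℕ) {f : Rg P}
    (hf : f ∈ RX X) (h : f ∈ Ord lab X ⊥ m) (d : P →₀ ℕ) (hd : m ≤ d.degree) : coeff d f = 0 := by
  induction m generalizing f d with
  | zero =>
    have : f = 0 := h
    rw [this, coeff_zero]
  | succ m ih =>
    by_contra hc
    obtain ⟨p, hp⟩ : ∃ p, d p ≠ 0 := by
      by_contra c
      have : d = 0 := Finsupp.ext fun p => by_contra fun h => c ⟨p, h⟩
      rw [this, map_zero] at hd
      omega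
    have hpX : p ∈ X := C13_supp hf hc (Finsupp.mem_support_iff.2 hp)
    have hb : blk lab X (lab p) = {p} := by
      ext q
      simp only [blk, Finset.mem_filter, Finset.mem_singleton]
      exact ⟨fun hq => hl hq.1 hpX hq.2, fun hq => by rw [hq]; exact ⟨hpX, rfl⟩⟩
    have e : d - Finsupp.single p 1 + Finsupp.single p 1 = d :=
      tsub_add_cancel_of_le (Finsupp.single_le_iff.2 (Nat.pos_of_ne_zero hp))
    have hdeg : m ≤ (d - Finsupp.single p 1).degree := by
      rw [← e, map_add, Finsupp.degree_single] at hd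
      omega
    have h1 := ih (dB_mem_RX _ hf) (mem_Ord_succ.1 h (lab p)) _ hdeg
    rw [hb] at h1
    simp only [dB, Finset.sum_singleton, Derivation.coeFn_coe] at h1
    rw [coeff_pderiv, e, mul_eq_zero] at h1
    exact h1.elim hc (by positivity)

theorem C13_hom {X : Finset P} {e m : ℕ} {f : Rg P} (hf : f ∈ RXle X e) (h : f.IsHomogeneous m)
    (he : e < m) : f = 0 := by
  by_contra c
  have h1 : f.totalDegree ≤ e := (mem_restrictTotalDegree _ _ _).1 hf.2
  rw [h.totalDegree c] at h1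
  omega

theorem C13_single {p : P} {m : ℕ} {f : Rg P} (hf : f ∈ RX {p}) (h : f.IsHomogeneous m) :
    f = coeff (Finsupp.single p m) f • X p ^ m := by
  ext d
  rw [coeff_smul, X_pow_eq_monomial, coeff_monomial]
  split_ifs with c
  · rw [c, smul_eq_mul, mul_one]
  · rw [smul_zero]
    by_contra hc
    have h1 := Finsupp.support_subset_singleton.1 (C13_supp hf hc)
    have h2 : d.degree = m := by_contra fun h2 => hc (h.coeff_eq_zero h2)
    rw [h1, Finsupp.degree_single] at h2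
    exact c (by rw [h1, h2])

end aux

namespace Ctx
variable {I P : Type} [Fintype I] [DecidableEq I] [LinearOrder P] (Γ : Ctx I P)

theorem zero_sym : Γ.zero.Sym := fun _ _ _ _ => by simp [bT, zero]
theorem C13_th (X : Finset P) : Γ.zero.th X = 0 := by simp [th, zero]
theorem zero_IF (X : Finset P) : Γ.zero.IF X = ⊥ := by
  simp [IF, C13_th]
theorem zero_hF (a : I → ℕ) (m : ℕ) : Γ.zero.hF a m = Γ.hA a m := by
  have h : (Γ.zero.Ham a m ⊓ lift Γ.zero.IF : Submodule ℚ (Fam P)) = ⊥ := by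
    refine eq_bot_iff.2 fun u hu => funext fun X => ?_
    have := mem_lift.1 hu.2 X
    rwa [zero_IF] at this
  rw [hF, hq, h, finrank_bot]
  rfl
theorem C13_FF {X : Finset P} {k : ℤ} {f : Rg P} (hf : f ∈ Γ.zero.FF k X) (d : P →₀ ℕ)
    (hd : k < d.degree + X.card) : coeff d f = 0 := by
  obtain ⟨lab, hl⟩ := C13_lab X
  obtain ⟨h1, h2⟩ := Γ.zero.mem_FF.1 hf
  have h3 := h2 lab fun _ => Γ.C13_th _
  have e1 : Γ.zero.Ipi lab X = ⊥ := by simp [Ipi, zero_IF]
  have e2 : Γ.zero.bpi lab X = 0 := by simp [bpi, zero]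
  rw [e1, e2, Finset.card_image_of_injOn hl] at h3
  exact C13_Ord hl _ h1 h3 d (by omega)
/-- use a labelling injective on `X`; a polynomial of `RX X` killed by all products of `e + 1`
partial derivatives has total degree `≤ e` (characteristic zero; induct on `e`, e.g. with Euler's
identity `IsHomogeneous.sum_X_mul_pderiv` on the top component) -/
theorem zero_FF (X : Finset P) (e : ℕ) : Γ.zero.FF (e + X.card : ℕ) X = RXle X e := by
  refine le_antisymm (fun f hf => ⟨Γ.zero.FF_le _ _ hf,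
    (mem_restrictTotalDegree P e f).2 (Finset.sup_le fun d hd => ?a)⟩) ?b
  case a =>
    by_contra c
    refine mem_support_iff.1 hd (Γ.C13_FF hf d ?_)
    have : e < d.degree := not_le.1 c
    push_cast
    omega
  case b =>
    rw [Nat.cast_add]
    exact Γ.zero.RXle_le_FF X e
theorem zero_FF_lt (X : Finset P) {k : ℤ} (hk : k < X.card) : Γ.zero.FF k X = ⊥ :=
  eq_bot_iff.2 fun _ hf => MvPolynomial.ext _ _ fun d => Γ.C13_FF hf d (by omega)
theorem C13_KK (Y Z : Finset P) : ∃ c : ℚ, c ≠ 0 ∧ Γ.zero.KK Y Z = C c := by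
  refine ⟨∏ p ∈ Y, ∏ q ∈ Z, Γ.zero.o p q, ?_, ?_⟩
  · refine Finset.prod_ne_zero_iff.2 fun p _ => Finset.prod_ne_zero_iff.2 fun q _ h => ?_
    have := Γ.zero.o_sq p q
    rw [h, mul_zero] at this
    exact zero_ne_one this
  · simp only [KK, kap, map_prod]
    refine Finset.prod_congr rfl fun p _ => Finset.prod_congr rfl fun q _ => ?_
    exact (congrArg _ (pow_zero _)).trans (mul_one _)
/-- for `|X| ≥ 2` split a monomial along `{p}` and `X \ {p}`; the kernel is `±1` -/
theorem zero_DD {X : Finset P} (hX : 2 ≤ X.card) (k : ℤ) : Γ.zero.DD k X = Γ.zero.FF k X := by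
  refine le_antisymm (Γ.zero.DD_le_FF Γ.zero_sym k X) ?_
  rcases lt_or_ge k X.card with hk | hk
  · rw [Γ.zero_FF_lt X hk]
    exact bot_le
  obtain ⟨e, rfl⟩ : ∃ e : ℕ, k = (e + X.card : ℕ) := ⟨(k - X.card).toNat, by omega⟩
  obtain ⟨p, hp⟩ : X.Nonempty := Finset.card_pos.1 (by omega)
  have hc := Finset.card_erase_of_mem hp
  rw [zero_FF, RXle_eq_span, Submodule.span_le]
  rintro _ ⟨d, h1, h2, rfl⟩
  have e1 := Finsupp.single_add_erase p d
  have e2 : d p + (d.erase p).degree = d.degree := by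
    conv_rhs => rw [← e1, map_add, Finsupp.degree_single]
  have a1 : (monomial (Finsupp.single p (d p)) 1 : Rg P) ∈ Γ.zero.FF (d p + ({p} : Finset P).card : ℕ) {p} := by
    rw [zero_FF]
    exact C13_mono Finsupp.support_single_subset (Finsupp.degree_single _ _).le
  have a2 : (monomial (d.erase p) 1 : Rg P) ∈ Γ.zero.FF (e - d p + (X.erase p).card : ℕ) (X.erase p) := by
    rw [zero_FF]
    refine C13_mono ?_ (by omega)
    rw [Finsupp.support_erase]
    exact Finset.erase_subset_erase _ h1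
  have a3 := Γ.zero.mul_KK_mem_DD (Finset.disjoint_singleton_left.2 (Finset.notMem_erase p X))
    (Finset.singleton_ne_empty p) (Finset.card_pos.1 (by omega)).ne_empty (Γ.C13_th _) (Γ.C13_th _) a1 a2
  obtain ⟨c, c0, c1⟩ := Γ.C13_KK {p} (X.erase p)
  have e3 : ((d p + ({p} : Finset P).card : ℕ) : ℤ) + (e - d p + (X.erase p).card : ℕ) = (e + X.card : ℕ) := by
    rw [Finset.card_singleton]
    omega
  rw [c1, monomial_mul, e1, one_mul, e3, ← Finset.insert_eq, Finset.insert_erase hp, mul_comm,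
    ← smul_eq_C_mul] at a3
  exact (Submodule.smul_mem_iff _ c0).1 a3
theorem zero_DD_one {X : Finset P} (hX : X.card = 1) (k : ℤ) :
    Γ.zero.DD k X = Γ.zero.FF (k - 1) X := by
  obtain ⟨p, rfl⟩ := Finset.card_eq_one.1 hX
  refine sup_eq_left.2 (iSup₂_le fun Y hY => ?_)
  exact ((Finset.subset_singleton_iff.1 hY.1).elim hY.2.1 hY.2.2.1).elim
theorem C13_card {i : I} {X : Finset P} (h : Γ.ty X = Pi.single i 1) : ∃ p, X = {p} := by
  refine Finset.card_eq_one.1 ?_
  rw [Γ.card_eq_ty, h]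
  simp
/-- the family `{p} ↦ x_p^m` for `col p = i` spans -/
theorem finrank_Ham_single (i : I) (m : ℕ) : Γ.hA (Pi.single i 1) m = 1 := by
  let u : Fam P := fun Y => if Γ.ty Y = Pi.single i 1 then ∑ p ∈ Y, X p ^ m else 0
  have hu : u ∈ Γ.Ham (Pi.single i 1) m := by
    refine Γ.mem_Ham.2 ⟨Γ.mem_Ha.2 ⟨⟨fun Y => ?_, fun σ Y hσ => ?_⟩, fun Y hY => if_neg hY⟩, fun Y => ?_⟩
    · simp only [u]
      split_ifs
      · exact Submodule.sum_mem _ fun p hp => C1b_RX_pow (RX_X hp) m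
      · exact Submodule.zero_mem _
    · simp only [u, Γ.ty_image hσ]
      split_ifs with c
      · obtain ⟨p, rfl⟩ := Γ.C13_card c
        simp [act, eps]
      · simp [act]
    · simp only [u]
      split_ifs
      · exact IsHomogeneous.sum _ _ _ fun p _ => isHomogeneous_X_pow p m
      · exact isHomogeneous_zero _ _ _
  obtain ⟨Y, hY⟩ := Γ.exists_ty (Pi.single i 1)
  obtain ⟨p, rfl⟩ := Γ.C13_card hY
  have e : u {p} = X p ^ m := by simp only [u, if_pos hY, Finset.sum_singleton]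
  refine finrank_eq_one (⟨u, hu⟩ : Γ.Ham (Pi.single i 1) m) (fun h => ?_) fun w => ?_
  · have h1 : u {p} = 0 := congrFun (congrArg Subtype.val h) {p}
    rw [e] at h1
    exact pow_ne_zero m (X_ne_zero p) h1
  · obtain ⟨h1, h2⟩ := Γ.mem_Ham.1 w.2
    refine ⟨coeff (Finsupp.single p m) (w.1 {p}), Subtype.ext (sub_eq_zero.1 ?_)⟩
    refine Γ.eq_zero_of_one (Submodule.sub_mem _ (Submodule.smul_mem _ _ (Γ.mem_Ham.1 hu).1) h1) hY ?_
    change coeff (Finsupp.single p m) (w.1 {p}) • u {p} - w.1 {p} = 0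
    rw [e, ← C13_single ((Γ.mem_Ha.1 h1).1.1 {p}) (h2 {p}), sub_self]
theorem C13_inf {c : I → ℕ} {m : ℕ} {W W' : Finset P → Submodule ℚ (Rg P)}
    (h : ∀ X, Γ.ty X = c → ∀ f ∈ W X, f.IsHomogeneous m → f ∈ W' X) :
    Γ.Ham c m ⊓ lift W ≤ Γ.Ham c m ⊓ lift W' := fun u hu => ⟨hu.1, mem_lift.2 fun X => by
  obtain ⟨h1, h2⟩ := Γ.mem_Ham.1 hu.1
  by_cases hX : Γ.ty X = c
  · exact h X hX _ (mem_lift.1 hu.2 X) (h2 X)
  · rw [(Γ.mem_Ha.1 h1).2 X hX]
    exact Submodule.zero_mem _⟩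
theorem C13_bot {c : I → ℕ} (hc : ∑ i, c i = 1) {m : ℕ} {k : ℤ} (hk : k ≤ m)
    {W : Finset P → Submodule ℚ (Rg P)} (h : ∀ X, X.card = 1 → W X = Γ.zero.FF k X) :
    Γ.zero.Ham c m ⊓ lift W = ⊥ := by
  refine eq_bot_iff.2 ((Γ.zero.C13_inf (W' := fun _ => ⊥) fun X hX f hf hm => ?_).trans
    fun u hu => funext fun X => mem_lift.1 hu.2 X)
  have h1 : X.card = 1 := by rw [Γ.zero.card_eq_ty, hX, hc]
  rw [h X h1] at hf
  rcases lt_or_ge k X.card with h2 | h2
  · rwa [Γ.zero_FF_lt X h2] at hf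
  obtain ⟨e, rfl⟩ : ∃ e : ℕ, k = (e + X.card : ℕ) := ⟨(k - X.card).toNat, by omega⟩
  rw [zero_FF] at hf
  exact C13_hom hf hm (by omega)
theorem zero_dU {c : I → ℕ} (hc : c ≠ 0) (m : ℕ) :
    Γ.zero.dU c m = if ∑ i, c i = 1 then 1 else 0 := by
  split_ifs with h
  · obtain ⟨i, -, hi⟩ := Finset.exists_ne_zero_of_sum_ne_zero (h.trans_ne one_ne_zero)
    have e : c = Pi.single i 1 := by
      have h1 := Finset.add_sum_erase Finset.univ c (Finset.mem_univ i)
      have h2 : ∑ j ∈ Finset.univ.erase i, c j = 0 := by omega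
      funext j
      by_cases hj : j = i
      · rw [hj, Pi.single_eq_same]
        omega
      · rw [Pi.single_eq_of_ne hj]
        exact Finset.sum_eq_zero_iff.1 h2 j (by simp [hj])
    rw [dU, Finset.sum_range_succ, Finset.sum_eq_zero fun k hk => ?_, zero_add, dV,
      inf_eq_left.2 (Γ.zero.Ham_le_FF c m),
      Γ.C13_bot h (k := (m + ∑ i, c i : ℕ) - 1) (by omega) fun X hX => Γ.zero_DD_one hX _, finrank_bot, e]
    · exact Γ.zero.finrank_Ham_single i m
    · have := Finset.mem_range.1 hk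
      rw [dV, Γ.C13_bot h (k := k) (by omega) fun _ _ => rfl, finrank_bot, Nat.zero_sub]
  · have h0 : ∑ i, c i ≠ 0 := fun h0 => hc (funext fun i => Finset.sum_eq_zero_iff.1 h0 i (Finset.mem_univ i))
    refine Finset.sum_eq_zero fun k _ => Nat.sub_eq_zero_of_le ?_
    have : Γ.zero.Ham c m ⊓ lift (Γ.zero.FF k) = Γ.zero.Ham c m ⊓ lift (Γ.zero.DD k) := by
      refine le_antisymm (Γ.zero.C13_inf fun X hX f hf _ => ?_)
        (Γ.zero.C13_inf fun X _ f hf _ => Γ.zero.DD_le_FF Γ.zero_sym _ _ hf)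
      rwa [Γ.zero_DD (by rw [Γ.zero.card_eq_ty, hX]; omega)]
    rw [this]

end Ctx
end Crest.Agent.R59
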