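import Crest.Agent.R59.C1l

/-! # Row 59, C1b: the kernel `KK` -/

set_option autoImplicit false

namespace Crest.Agent.R59
open scoped Classical
open MvPolynomial

namespace Ctx
variable {I P : Type} [Fintype I] [DecidableEq I] [LinearOrder P] (Γ : Ctx I P)
omit [LinearOrder P] in
theorem C1b_RX_pow {X : Finset P} {f : Rg P} (hf : f ∈ RX X) (n : ℕ) : f ^ n ∈ RX X :=
  Subalgebra.pow_mem (MvPolynomial.supported ℚ (X : Set P)) hf n

/-- multiplication by `a` is injective of degree `e` on the graded of `N` -/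
def C1b_NZ (N : ℤ → Submodule ℚ (Rg P)) (a : Rg P) (e : ℕ) : Prop :=
  ∀ (w : Rg P) (k : ℤ), a * w ∈ N (k + e) → w ∈ N k

omit [LinearOrder P] in
theorem C1b_NZ.one (N : ℤ → Submodule ℚ (Rg P)) : C1b_NZ N 1 0 := fun w k h => by simpa using h

omit [LinearOrder P] in
theorem C1b_NZ.C (N : ℤ → Submodule ℚ (Rg P)) {c : ℚ} (hc : c ≠ 0) : C1b_NZ N (C c) 0 := by
  intro w k h
  rw [← smul_eq_C_mul, Nat.cast_zero, add_zero] at h
  exact (Submodule.smul_mem_iff _ hc).1 h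

omit [LinearOrder P] in
theorem C1b_NZ.mul {N : ℤ → Submodule ℚ (Rg P)} {a b : Rg P} {e f : ℕ} (ha : C1b_NZ N a e)
    (hb : C1b_NZ N b f) : C1b_NZ N (a * b) (e + f) := by
  intro w k h
  refine hb w k (ha _ _ ?_)
  rwa [mul_assoc, Nat.cast_add, add_comm (e : ℤ), ← add_assoc] at h

omit [LinearOrder P] in
theorem C1b_NZ.pow {N : ℤ → Submodule ℚ (Rg P)} {a : Rg P} (ha : C1b_NZ N a 1) (n : ℕ) :
    C1b_NZ N (a ^ n) n := by
  induction n with
  | zero => rw [pow_zero]; exact C1b_NZ.one N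
  | succ n ih => rw [pow_succ]; exact ih.mul ha

omit [LinearOrder P] in
theorem C1b_NZ.prod {N : ℤ → Submodule ℚ (Rg P)} (s : Finset P) {a : P → Rg P} {e : P → ℕ}
    (h : ∀ p ∈ s, C1b_NZ N (a p) (e p)) : C1b_NZ N (∏ p ∈ s, a p) (∑ p ∈ s, e p) := by
  induction s using Finset.induction_on with
  | empty => exact C1b_NZ.one N
  | insert p s hp ih =>
    rw [Finset.prod_insert hp, Finset.sum_insert hp]
    exact (h p (Finset.mem_insert_self p s)).mul (ih fun q hq => h q (Finset.mem_insert_of_mem hq))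


theorem KK_empty_left (Z : Finset P) : Γ.KK ∅ Z = 1 := by
  simp [KK]
theorem KK_empty_right (Y : Finset P) : Γ.KK Y ∅ = 1 := by
  simp [KK]
theorem KK_union_left {Y Y' : Finset P} (h : Disjoint Y Y') (Z : Finset P) :
    Γ.KK (Y ∪ Y') Z = Γ.KK Y Z * Γ.KK Y' Z := by
  exact Finset.prod_union h
theorem KK_union_right (Y : Finset P) {Z Z' : Finset P} (h : Disjoint Z Z') :
    Γ.KK Y (Z ∪ Z') = Γ.KK Y Z * Γ.KK Y Z' := by
  simp only [KK, Finset.prod_union h, Finset.prod_mul_distrib]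
theorem KK_mem {Y Z X : Finset P} (hY : Y ⊆ X) (hZ : Z ⊆ X) : Γ.KK Y Z ∈ RX X := by
  refine Finset.prod_induction _ (· ∈ RX X) (fun _ _ => RX_mul) (RX_one X) fun p hp => ?_
  refine Finset.prod_induction _ (· ∈ RX X) (fun _ _ => RX_mul) (RX_one X) fun q hq => ?_
  exact RX_mul (RX_C X _) (C1b_RX_pow ((RX X).sub_mem (RX_X (hZ hq)) (RX_X (hY hp))) _)
theorem KK_hom (Y Z : Finset P) : (Γ.KK Y Z).IsHomogeneous (Γ.bb Y Z) := by
  refine IsHomogeneous.prod _ _ _ fun p _ => IsHomogeneous.prod _ _ _ fun q _ => ?_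
  have h := (isHomogeneous_C P (Γ.o p q)).mul
    (((isHomogeneous_X ℚ q).sub (isHomogeneous_X ℚ p)).pow (Γ.b (Γ.col p) (Γ.col q)))
  rwa [zero_add, one_mul] at h
theorem KK_mem_le {Y Z X : Finset P} (hY : Y ⊆ X) (hZ : Z ⊆ X) :
    Γ.KK Y Z ∈ RXle X (Γ.bb Y Z) := by
  exact mem_RXle_of_hom (Γ.KK_mem hY hZ) (Γ.KK_hom Y Z)
/-- sub-kernels divide -/
theorem KK_dvd {Y Y' Z Z' X : Finset P} (hY : Y' ⊆ Y) (hZ : Z' ⊆ Z) (hYX : Y ⊆ X) (hZX : Z ⊆ X) :
    ∃ r ∈ RX X, Γ.KK Y Z = r * Γ.KK Y' Z' := by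
  refine ⟨Γ.KK (Y \ Y') Z * Γ.KK Y' (Z \ Z'), RX_mul (Γ.KK_mem (Finset.sdiff_subset.trans hYX) hZX)
    (Γ.KK_mem (hY.trans hYX) (Finset.sdiff_subset.trans hZX)), ?_⟩
  rw [mul_assoc, ← Γ.KK_union_right Y' Finset.sdiff_disjoint, Finset.sdiff_union_of_subset hZ,
    ← Γ.KK_union_left Finset.sdiff_disjoint, Finset.sdiff_union_of_subset hY]
theorem dB_KK {B Y Z : Finset P} (h : ∀ p ∈ Y, ∀ q ∈ Z, (p ∈ B ↔ q ∈ B)) :
    dB B (Γ.KK Y Z) = 0 := by
  have hm : ∀ f g : Rg P, dB B f = 0 → dB B g = 0 → dB B (f * g) = 0 := fun f g hf hg => by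
    rw [dB_mul, hf, hg, zero_mul, mul_zero, add_zero]
  refine Finset.prod_induction _ (dB B · = 0) hm (dB_one B) fun p hp => ?_
  refine Finset.prod_induction _ (dB B · = 0) hm (dB_one B) fun q hq => ?_
  refine hm _ _ (dB_C B _) ?_
  have h1 : dB B (X q - X p) = 0 := by
    rw [map_sub, dB_X, dB_X]
    simp only [h p hp q hq, sub_self]
  induction Γ.b (Γ.col p) (Γ.col q) with
  | zero => rw [pow_zero, dB_one]
  | succ n ih => rw [pow_succ]; exact hm _ _ ih h1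
/-- non-zero-divisor lemma: peel off the factors `± (x_q - x_p)` one at a time with `weyl`
(`D = dB Z`); generalise to products over any list of pairs in `Y × Z` -/
theorem nzd (N : ℤ → Submodule ℚ (Rg P)) {Y Z : Finset P} (hYZ : Disjoint Y Z)
    (hx : ∀ p ∈ Y ∪ Z, ∀ k, ∀ f ∈ N k, X p * f ∈ N (k + 1))
    (hD : ∀ k, ∀ f ∈ N k, dB Z f ∈ N (k - 1)) {w : Rg P} {k : ℤ}
    (h : Γ.KK Y Z * w ∈ N (k + Γ.bb Y Z)) : w ∈ N k := by
  refine C1b_NZ.prod Y (fun p hp => C1b_NZ.prod Z fun q hq => ?_) w k h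
  have h1 : C1b_NZ N (X q - X p) 1 := by
    intro w k hw
    refine weyl N (LinearMap.mulLeft ℚ (X q - X p)) (dB Z) (fun x => ?_) (fun k x hx' => ?_) hD
      (dB_nilp Z w) (by simpa using hw)
    · rw [LinearMap.mulLeft_apply, LinearMap.mulLeft_apply, dB_mul, map_sub, dB_X, dB_X, if_pos hq,
        if_neg (Finset.disjoint_left.1 hYZ hp), sub_zero, one_mul, add_comm]
    · rw [LinearMap.mulLeft_apply, sub_mul]
      exact (N _).sub_mem (hx q (Finset.mem_union_right _ hq) k x hx')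
        (hx p (Finset.mem_union_left _ hp) k x hx')
  have h2 : Γ.o p q ≠ 0 := by
    unfold o
    split_ifs <;> norm_num
  have h3 := (C1b_NZ.C N h2).mul (h1.pow (Γ.b (Γ.col p) (Γ.col q)))
  rwa [zero_add] at h3

end Ctx
end Crest.Agent.R59
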