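import Crest.Agent.R59.C1r

/-! # Row 59, C1: types of finite sets of points; `RX`; block derivations `dB`. -/

set_option autoImplicit false

namespace Crest.Agent.R59
open scoped Classical
open MvPolynomial

section noctx
variable {P : Type} [LinearOrder P]

omit [LinearOrder P] in
theorem c1d_apply (B : Finset P) (f : Rg P) : dB B f = ∑ p ∈ B, pderiv p f := by
  simp [dB, LinearMap.sum_apply]
omit [LinearOrder P] in
theorem c1d_ind {Y : Finset P} {Q : Rg P → Prop} (hC : ∀ c, Q (C c)) (hX : ∀ q ∈ Y, Q (X q))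
    (hadd : ∀ f g, Q f → Q g → Q (f + g))
    (hmul : ∀ f ∈ RX Y, ∀ g ∈ RX Y, Q f → Q g → Q (f * g)) {f : Rg P} (hf : f ∈ RX Y) : Q f := by
  have hf' : f ∈ Algebra.adjoin ℚ (X '' (Y : Set P) : Set (Rg P)) := hf
  induction hf' using Algebra.adjoin_induction with
  | mem x hx =>
    obtain ⟨q, hq, rfl⟩ := hx
    exact hX q hq
  | algebraMap r => exact hC r
  | add x y hx hy ihx ihy => exact hadd x y (ihx hx) (ihy hy)
  | mul x y hx hy ihx ihy => exact hmul x hx y hy (ihx hx) (ihy hy)
theorem dB_mul (B : Finset P) (f g : Rg P) : dB B (f * g) = dB B f * g + f * dB B g := by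
  simp only [c1d_apply, pderiv_mul, Finset.sum_add_distrib, Finset.sum_mul, Finset.mul_sum]
theorem dB_X (B : Finset P) (p : P) : dB B (X p) = if p ∈ B then 1 else 0 := by
  rw [c1d_apply]
  split_ifs with h
  · rw [Finset.sum_eq_single p (fun q _ hq => pderiv_X_of_ne hq.symm) (fun h' => absurd h h'),
      pderiv_X_self]
  · exact Finset.sum_eq_zero fun q hq => pderiv_X_of_ne fun e => h (e ▸ hq)
theorem dB_C (B : Finset P) (c : ℚ) : dB B (C c) = 0 := by
  simp only [c1d_apply, pderiv_C, Finset.sum_const_zero]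
theorem dB_one (B : Finset P) : dB B 1 = 0 := by
  exact dB_C B 1
theorem dB_empty : dB (∅ : Finset P) = 0 := by
  exact Finset.sum_empty
theorem dB_union {B B' : Finset P} (h : Disjoint B B') : dB (B ∪ B') = dB B + dB B' := by
  exact Finset.sum_union h
theorem dB_comm (B B' : Finset P) (f : Rg P) : dB B (dB B' f) = dB B' (dB B f) := by
  induction f using MvPolynomial.induction_on with
  | C a => simp only [dB_C, map_zero]
  | add f g hf hg => simp only [map_add, hf, hg]
  | mul_X f q hf =>
    simp only [dB_mul, map_add, hf, dB_X]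
    split_ifs <;> simp only [dB_one, map_zero] <;> ring
theorem dB_mem_RX (B : Finset P) {Y : Finset P} {f : Rg P} (hf : f ∈ RX Y) : dB B f ∈ RX Y := by
  refine c1d_ind (Q := fun f => dB B f ∈ RX Y) (fun c => ?_) (fun q _ => ?_) (fun f g hf hg => ?_)
    (fun f hf g hg hf' hg' => ?_) hf
  · rw [dB_C]
    exact zero_mem _
  · rw [dB_X]
    split_ifs
    · exact RX_one Y
    · exact zero_mem _
  · rw [map_add]
    exact add_mem hf hg
  · rw [dB_mul]
    exact add_mem (RX_mul hf' hg) (RX_mul hf hg')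
theorem dB_inter (B : Finset P) {Y : Finset P} {f : Rg P} (hf : f ∈ RX Y) :
    dB B f = dB (B ∩ Y) f := by
  refine c1d_ind (Q := fun f => dB B f = dB (B ∩ Y) f) (fun c => ?_) (fun q hq => ?_)
    (fun f g hf hg => ?_) (fun f _ g _ hf' hg' => ?_) hf
  · rw [dB_C, dB_C]
  · simp only [dB_X, Finset.mem_inter, hq, and_true]
  · rw [map_add, map_add, hf, hg]
  · rw [dB_mul, dB_mul, hf', hg']
theorem dB_eq_sum_blk (lab : P → ℕ) (Y : Finset P) :
    dB Y = ∑ j ∈ Y.image lab, dB (blk lab Y j) := by
  exact (Finset.sum_fiberwise_of_maps_to (fun p hp => Finset.mem_image_of_mem lab hp) _).symm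
omit [LinearOrder P] in
theorem c1d_hc (B : Finset P) (m : ℕ) (f : Rg P) :
    dB B (homogeneousComponent (m + 1) f) = homogeneousComponent m (dB B f) := by
  rw [c1d_apply, c1d_apply, map_sum]
  refine Finset.sum_congr rfl fun p _ => ?_
  ext d
  simp only [coeff_pderiv, coeff_homogeneousComponent, map_add, Finsupp.degree_single,
    add_left_inj, ite_mul, zero_mul]
theorem dB_nilp (B : Finset P) (f : Rg P) : ∃ r : ℕ, (dB B ^ r) f = 0 := by
  have key : ∀ (r : ℕ) (f : Rg P), (∀ m, r ≤ m → homogeneousComponent m f = 0) →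
      (dB B ^ r) f = 0 := by
    intro r
    induction r with
    | zero =>
      intro f hf
      rw [← sum_homogeneousComponent f, Finset.sum_eq_zero fun m _ => hf m (Nat.zero_le m),
        map_zero]
    | succ r ih =>
      intro f hf
      rw [pow_succ, Module.End.mul_apply]
      refine ih _ fun m hm => ?_
      rw [← c1d_hc, hf _ (Nat.succ_le_succ hm), map_zero]
  exact ⟨f.totalDegree + 1, key _ f fun m hm => homogeneousComponent_eq_zero _ _ hm⟩
theorem dB_hc (B : Finset P) (m : ℕ) (f : Rg P) :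
    dB B (homogeneousComponent (m + 1) f) = homogeneousComponent m (dB B f) := by
  exact c1d_hc B m f
theorem dB_hc_zero (B : Finset P) (f : Rg P) : dB B (homogeneousComponent 0 f) = 0 := by
  rw [homogeneousComponent_zero, dB_C]
theorem rename_dB {σ : P → P} {Y B : Finset P} (hσ : Set.InjOn σ Y) (hB : B ⊆ Y) {f : Rg P}
    (hf : f ∈ RX Y) : rename σ (dB B f) = dB (B.image σ) (rename σ f) := by
  refine c1d_ind (Q := fun f => rename σ (dB B f) = dB (B.image σ) (rename σ f)) (fun c => ?_)
    (fun q hq => ?_) (fun f g hf hg => ?_) (fun f _ g _ hf' hg' => ?_) hf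
  · rw [dB_C, rename_C, dB_C, map_zero]
  · have h : σ q ∈ B.image σ ↔ q ∈ B := by
      refine ⟨fun h => ?_, Finset.mem_image_of_mem σ⟩
      obtain ⟨p, hp, e⟩ := Finset.mem_image.1 h
      rwa [← hσ (hB hp) hq e]
    rw [rename_X, dB_X, dB_X]
    by_cases hqB : q ∈ B
    · rw [if_pos hqB, if_pos (h.2 hqB), map_one]
    · rw [if_neg hqB, if_neg fun h' => hqB (h.1 h'), map_zero]
  · simp only [map_add, hf, hg]
  · simp only [dB_mul, map_add, map_mul, hf', hg']

end noctx

namespace Ctx
variable {I P : Type} [Fintype I] [DecidableEq I] [LinearOrder P] (Γ : Ctx I P)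

end Ctx
end Crest.Agent.R59
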