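import Crest.Agent.R59.C1

/-! # Row 59, C1b: the kernel `KK`; Weyl lemma and non-zero-divisor lemma; contraction;
linear algebra (complements, dual functionals, counting). -/

set_option autoImplicit false

namespace Crest.Agent.R59
open scoped Classical
open MvPolynomial

/-- Weyl lemma.  `∂^m (L w) = L ∂^m w + m ∂^(m-1) w`; show `∂^m w ∈ N (k - m)` by downward
induction on `m`. -/
theorem weyl {E : Type} [AddCommGroup E] [Module ℚ E] (N : ℤ → Submodule ℚ E)
    (L D : E →ₗ[ℚ] E) (hc : ∀ x, D (L x) = L (D x) + x)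
    (hL : ∀ k, ∀ x ∈ N k, L x ∈ N (k + 1)) (hD : ∀ k, ∀ x ∈ N k, D x ∈ N (k - 1))
    {w : E} (hn : ∃ r : ℕ, (D ^ r) w = 0) {k : ℤ} (h : L w ∈ N (k + 1)) : w ∈ N k := by
  have h1 : ∀ m : ℕ, (D ^ (m + 1)) (L w) = L ((D ^ (m + 1)) w) + ((m : ℚ) + 1) • (D ^ m) w := by
    intro m
    induction m with
    | zero => simp [hc]
    | succ m ih =>
      rw [pow_succ' D (m + 1), Module.End.mul_apply, ih, map_add, hc, map_smul, Module.End.mul_apply,
        ← Module.End.mul_apply D (D ^ m), ← pow_succ' D m]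
      push_cast
      module
  have h2 : ∀ m : ℕ, (D ^ m) (L w) ∈ N (k + 1 - m) := by
    intro m
    induction m with
    | zero => simpa using h
    | succ m ih =>
      rw [pow_succ', Module.End.mul_apply, Nat.cast_succ, ← sub_sub]
      exact hD _ _ ih
  obtain ⟨r, hr⟩ := hn
  have h3 : ∀ m ≤ r, (D ^ m) w ∈ N (k - m) := by
    intro m hm
    induction hm using Nat.decreasingInduction with
    | self => rw [hr]; exact zero_mem _
    | of_succ m _ ih =>
      have h4 := h2 (m + 1)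
      have h5 := hL _ _ ih
      have e1 : k + 1 - ((m + 1 : ℕ) : ℤ) = k - m := by push_cast; ring
      have e2 : k - ((m + 1 : ℕ) : ℤ) + 1 = k - m := by push_cast; ring
      rw [e1, h1] at h4
      rw [e2] at h5
      exact (Submodule.smul_mem_iff _ (by positivity)).1 ((Submodule.add_mem_iff_right _ h5).1 h4)
  simpa using h3 0 (Nat.zero_le _)

theorem c1l_finrank_map {E : Type} [AddCommGroup E] [Module ℚ E] (V W : Submodule ℚ E)
    [Module.Finite ℚ V] : Module.finrank ℚ (V.map W.mkQ) =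
      Module.finrank ℚ V - Module.finrank ℚ (V ⊓ W : Submodule ℚ E) := by
  have h1 := LinearMap.finrank_range_add_finrank_ker (W.mkQ ∘ₗ V.subtype)
  have h2 : LinearMap.ker (W.mkQ ∘ₗ V.subtype) = (V ⊓ W).comap V.subtype := by
    ext x
    simp
  rw [LinearMap.range_comp, Submodule.range_subtype, h2,
    (Submodule.comapSubtypeEquivOfLe inf_le_left).finrank_eq] at h1
  omega

theorem exists_isCompl' {E : Type} [AddCommGroup E] [Module ℚ E] {V V' : Submodule ℚ E}
    (h : V ≤ V') [Module.Finite ℚ V'] :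
    ∃ v : Fin (Module.finrank ℚ V' - Module.finrank ℚ V) → E, IsCompl' V V' v := by
  have h1 := c1l_finrank_map V' V
  rw [inf_eq_right.2 h] at h1
  let b := Module.finBasisOfFinrankEq ℚ _ h1
  choose v hv hv' using fun i => Submodule.mem_map.1 (b i).2
  have key : ∀ x : Fin _ → ℚ, V.mkQ (∑ i, x i • v i) = ((∑ i, x i • b i : V'.map V.mkQ) : E ⧸ V) := by
    intro x
    simp only [map_sum, map_smul, hv', Submodule.coe_sum, Submodule.coe_smul]
  refine ⟨v, hv, fun x hx => ?_, fun y hy => ?_⟩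
  · have h2 := key x
    rw [Submodule.mkQ_apply, (Submodule.Quotient.mk_eq_zero V).2 hx, eq_comm,
      Submodule.coe_eq_zero] at h2
    exact funext (Fintype.linearIndependent_iff.1 b.linearIndependent x h2)
  · have h2 := key (b.repr ⟨V.mkQ y, Submodule.mem_map_of_mem hy⟩)
    rw [b.sum_repr, eq_comm] at h2
    rw [← sub_add_cancel y (∑ i, b.repr ⟨V.mkQ y, Submodule.mem_map_of_mem hy⟩ i • v i)]
    exact Submodule.add_mem_sup ((Submodule.Quotient.eq V).1 h2) (Submodule.sum_mem _ fun i _ =>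
      Submodule.smul_mem _ _ (Submodule.subset_span (Set.mem_range_self i)))

theorem isCompl'_cfam {E : Type} [AddCommGroup E] [Module ℚ E] {V V' : Submodule ℚ E}
    (h : V ≤ V') [Module.Finite ℚ V'] :
    IsCompl' V V' (cfam V V' (Module.finrank ℚ V' - Module.finrank ℚ V)) := by
  rw [cfam, dif_pos (exists_isCompl' h)]
  exact (exists_isCompl' h).choose_spec

/-- dual functional: pass to `E ⧸ V`, extend the independent family to a basis -/
theorem exists_dual {E J : Type} [AddCommGroup E] [Module ℚ E] (V : Submodule ℚ E) (v : J → E)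
    (h : ∀ x : J →₀ ℚ, (x.sum fun j c => c • v j) ∈ V → x = 0) (j₀ : J) :
    ∃ φ : E →ₗ[ℚ] ℚ, (∀ f ∈ V, φ f = 0) ∧ ∀ j, φ (v j) = if j = j₀ then 1 else 0 := by
  obtain ⟨g, hg⟩ := (Finsupp.linearCombination ℚ (V.mkQ ∘ v)).exists_leftInverse_of_injective
    (LinearMap.ker_eq_bot'.2 fun x hx => h x (by
      rw [← Finsupp.apply_linearCombination] at hx
      exact (Submodule.Quotient.mk_eq_zero V).1 hx))
  refine ⟨Finsupp.lapply j₀ ∘ₗ g ∘ₗ V.mkQ, fun f hf => ?_, fun j => ?_⟩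
  · simp [(Submodule.Quotient.mk_eq_zero V).2 hf]
  · have h1 := LinearMap.congr_fun hg (Finsupp.single j 1)
    simp only [LinearMap.comp_apply, Finsupp.linearCombination_single, one_smul, Function.comp_apply,
      LinearMap.id_apply] at h1
    simp only [LinearMap.comp_apply, h1, Finsupp.lapply_apply, Finsupp.single_apply]

theorem mem_of_forall_dual {E : Type} [AddCommGroup E] [Module ℚ E] (V : Submodule ℚ E) {f : E}
    (h : ∀ φ : E →ₗ[ℚ] ℚ, (∀ g ∈ V, φ g = 0) → φ f = 0) : f ∈ V := by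
  exact (Subspace.forall_mem_dualAnnihilator_apply_eq_zero_iff V f).1 fun φ hφ =>
    h φ ((Submodule.mem_dualAnnihilator φ).1 hφ)

/-- counting: a family in `V` which is a basis modulo `W` -/
theorem ncard_eq_of_basis_mod {E J : Type} [AddCommGroup E] [Module ℚ E] (V W : Submodule ℚ E)
    [Module.Finite ℚ V] (v : J → E) (T : Set J) (hv : ∀ j ∈ T, v j ∈ V)
    (hi : ∀ x : J →₀ ℚ, (↑x.support : Set J) ⊆ T → (x.sum fun j c => c • v j) ∈ W → x = 0)
    (hs : V ≤ W ⊔ Submodule.span ℚ (v '' T)) :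
    T.Finite ∧ T.ncard =
      Module.finrank ℚ V - Module.finrank ℚ (V ⊓ W : Submodule ℚ E) := by
  have hli : LinearIndependent ℚ fun j : T => W.mkQ (v j) := by
    change LinearIndepOn ℚ (W.mkQ ∘ v) T
    rw [linearIndepOn_iff]
    intro x hx h0
    rw [← Finsupp.apply_linearCombination] at h0
    exact hi x hx ((Submodule.Quotient.mk_eq_zero W).1 h0)
  have hsp : Submodule.span ℚ (Set.range fun j : T => W.mkQ (v j)) = V.map W.mkQ := by
    refine le_antisymm (Submodule.span_le.2 ?_) ((Submodule.map_mono hs).trans ?_)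
    · rintro _ ⟨j, rfl⟩
      exact Submodule.mem_map_of_mem (hv j j.2)
    · rw [Submodule.map_sup, Submodule.mkQ_map_self, bot_sup_eq, Submodule.map_span]
      refine Submodule.span_mono ?_
      rintro _ ⟨_, ⟨j, hj, rfl⟩, rfl⟩
      exact ⟨⟨j, hj⟩, rfl⟩
  have : Module.Finite ℚ (Submodule.span ℚ (Set.range fun j : T => W.mkQ (v j))) := by
    rw [hsp]
    infer_instance
  have hfin : Finite T := Module.Finite.finite_basis (Module.Basis.span hli)
  refine ⟨hfin, ?_⟩
  rw [← c1l_finrank_map, ← hsp, Module.finrank_eq_nat_card_basis (Module.Basis.span hli),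
    Nat.card_coe_set_eq]

/-- an injective map of subquotients -/
theorem finrank_sub_le {E : Type} [AddCommGroup E] [Module ℚ E] {V₀ V W₀ W : Submodule ℚ E}
    (h : V₀ ≤ V) (h' : W₀ ≤ W) [Module.Finite ℚ V] [Module.Finite ℚ W] (L : E →ₗ[ℚ] E)
    (hL : ∀ x ∈ V, L x ∈ W) (hi : ∀ x ∈ V, L x ∈ W₀ → x ∈ V₀) :
    Module.finrank ℚ V - Module.finrank ℚ V₀ ≤ Module.finrank ℚ W - Module.finrank ℚ W₀ := by
  have h1 := LinearMap.finrank_range_add_finrank_ker (W₀.mkQ ∘ₗ L ∘ₗ V.subtype)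
  have h2 := c1l_finrank_map W W₀
  rw [inf_eq_right.2 h'] at h2
  have h3 : LinearMap.range (W₀.mkQ ∘ₗ L ∘ₗ V.subtype) ≤ W.map W₀.mkQ := by
    rintro _ ⟨x, rfl⟩
    exact Submodule.mem_map_of_mem (hL x x.2)
  have h4 : LinearMap.ker (W₀.mkQ ∘ₗ L ∘ₗ V.subtype) ≤ V₀.comap V.subtype := fun x hx =>
    hi x x.2 ((Submodule.Quotient.mk_eq_zero W₀).1 hx)
  have h5 := Submodule.finrank_mono h3
  have h6 := Submodule.finrank_mono h4
  rw [(Submodule.comapSubtypeEquivOfLe h).finrank_eq] at h6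
  omega

variable {P : Type} [LinearOrder P]

/-- contraction: `x^d ↦ φ(x^(d|Y)) x^(d|Yᶜ)` (`Finsupp.filter`, `MvPolynomial.basisMonomials` or
`Finsupp.lsum`) -/
theorem exists_con (Y : Finset P) (φ : Rg P →ₗ[ℚ] ℚ) :
    ∃ c : Rg P →ₗ[ℚ] Rg P, ∀ a ∈ RX Y, ∀ Z : Finset P, Disjoint Y Z → ∀ b ∈ RX Z,
      c (a * b) = φ a • b := by
  obtain ⟨c, hc⟩ : ∃ c : Rg P →ₗ[ℚ] Rg P, ∀ d, c (monomial d 1) =
      φ (monomial (d.filter (· ∈ Y)) 1) • monomial (d.filter (· ∉ Y)) 1 :=
    ⟨(basisMonomials P ℚ).constr ℚ _, fun d => (basisMonomials P ℚ).constr_basis ℚ _ d⟩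
  have hs : ∀ (X : Finset P), ∀ a ∈ RX X, ∀ d ∈ a.support, ∀ p, p ∉ X → d p = 0 := by
    intro X a ha d hd p hp
    by_contra h
    exact hp (mem_supported.1 ha ((mem_vars_iff_mem_support _).2 ⟨d, hd, Finsupp.mem_support_iff.2 h⟩))
  refine ⟨c, fun a ha Z hZ b hb => ?_⟩
  rw [a.as_sum, b.as_sum, Finset.sum_mul_sum, map_sum, map_sum, Finset.sum_smul]
  refine Finset.sum_congr rfl fun d hd => ?_
  rw [map_sum, Finset.smul_sum]
  refine Finset.sum_congr rfl fun e he => ?_
  have e1 : (d + e).filter (· ∈ Y) = d := by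
    ext p
    by_cases hp : p ∈ Y
    · simp [hp, hs Z b hb e he p (Finset.disjoint_left.1 hZ hp)]
    · simp [hp, hs Y a ha d hd p hp]
  have e2 : (d + e).filter (· ∉ Y) = e := by
    ext p
    by_cases hp : p ∈ Y
    · simp [hp, hs Z b hb e he p (Finset.disjoint_left.1 hZ hp)]
    · simp [hp, hs Y a ha d hd p hp]
  have e3 : ∀ (s : P →₀ ℕ) (r : ℚ), monomial s r = r • (monomial s 1 : Rg P) := fun s r => by
    rw [smul_monomial, smul_eq_mul, mul_one]
  rw [monomial_mul, e3 (d + e), map_smul, hc, e1, e2, e3 d (coeff d a), e3 e (coeff e b), map_smul,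
    smul_smul, smul_smul, smul_eq_mul, mul_right_comm]

namespace Ctx
variable {I : Type} [Fintype I] [DecidableEq I] (Γ : Ctx I P)

end Ctx
end Crest.Agent.R59
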