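import Crest.Agent.R59.CDefs

/-! # Row 59, C1: types of finite sets of points; `RX`; block derivations `dB`. -/

set_option autoImplicit false

namespace Crest.Agent.R59
open scoped Classical
open MvPolynomial

section noctx
variable {P : Type} [LinearOrder P]

theorem mem_lift {W : Finset P → Submodule ℚ (Rg P)} {u : Fam P} :
    u ∈ lift W ↔ ∀ X, u X ∈ W X := by
  simp [lift, Submodule.mem_pi]
theorem mem_mulK {N : Submodule ℚ (Rg P)} {k f : Rg P} : f ∈ mulK N k ↔ ∃ g ∈ N, g * k = f := by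
  simp [mulK]
theorem hc_apply (m : ℕ) (u : Fam P) (X : Finset P) :
    hc m u X = homogeneousComponent m (u X) := rfl
theorem RX_mul {X : Finset P} {f g : Rg P} (hf : f ∈ RX X) (hg : g ∈ RX X) : f * g ∈ RX X := by
  exact Subalgebra.mul_mem (supported ℚ (X : Set P)) hf hg
theorem RX_one (X : Finset P) : (1 : Rg P) ∈ RX X := by
  exact Subalgebra.one_mem (supported ℚ (X : Set P))
theorem RX_C (X : Finset P) (c : ℚ) : (C c : Rg P) ∈ RX X := by
  exact Subalgebra.algebraMap_mem (supported ℚ (X : Set P)) c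
theorem RX_X {Y : Finset P} {p : P} (hp : p ∈ Y) : (X p : Rg P) ∈ RX Y := by
  exact X_mem_supported.2 (Finset.mem_coe.2 hp)
theorem RX_mono {X Y : Finset P} (h : X ⊆ Y) : RX X ≤ RX Y := by
  exact fun f hf => supported_mono (Finset.coe_subset.2 h) hf
theorem RX_mul_self (X : Finset P) : RX X * RX X = RX X := by
  refine le_antisymm (Submodule.mul_le.2 fun f hf g hg => RX_mul hf hg) fun f hf => ?_
  rw [← mul_one f]
  exact Submodule.mul_mem_mul hf (RX_one X)
theorem RX_union (Y Z : Finset P) : RX (Y ∪ Z) = RX Y * RX Z := by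
  unfold RX supported
  rw [Finset.coe_union, Set.image_union, Algebra.adjoin_union_coe_submodule]
theorem RX_empty : RX (∅ : Finset P) = Submodule.span ℚ {1} := by
  unfold RX
  rw [Finset.coe_empty, supported_empty, Algebra.toSubmodule_bot, Submodule.one_eq_span]
theorem c1r_mem_RX {Y : Finset P} {f : Rg P} : f ∈ RX Y ↔ ∀ d ∈ f.support, d.support ⊆ Y := by
  refine (mem_supported (s := (Y : Set P)) (p := f)).trans ⟨fun h d hd p hp => ?_, fun h p hp => ?_⟩
  · exact h ((mem_vars_iff_mem_support p).2 ⟨d, hd, hp⟩)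
  · obtain ⟨d, hd, hp⟩ := (mem_vars_iff_mem_support p).1 hp
    exact h d hd hp
theorem c1r_monomial {Y : Finset P} {d : P →₀ ℕ} (hd : d.support ⊆ Y) (c : ℚ) :
    (monomial d c : Rg P) ∈ RX Y :=
  c1r_mem_RX.2 fun d' hd' => by
    rwa [Finset.mem_singleton.1 (support_monomial_subset hd')]
omit [LinearOrder P] in
theorem c1r_mem_span (S : Set (Rg P)) (f : Rg P) (h : ∀ d ∈ f.support, monomial d 1 ∈ S) :
    f ∈ Submodule.span ℚ S := by
  rw [f.as_sum]
  refine Submodule.sum_mem _ fun d hd => ?_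
  have : (monomial d (coeff d f) : Rg P) = coeff d f • monomial d 1 := by
    rw [smul_monomial, smul_eq_mul, mul_one]
  rw [this]
  exact Submodule.smul_mem _ _ (Submodule.subset_span (h d hd))
/-- `RX X` is spanned by the monomials in the variables of `X` -/
theorem RX_eq_span (Y : Finset P) :
    RX Y = Submodule.span ℚ {f | ∃ d : P →₀ ℕ, d.support ⊆ Y ∧ f = monomial d 1} := by
  refine le_antisymm (fun f hf => c1r_mem_span _ f fun d hd => ?_) (Submodule.span_le.2 ?_)
  · exact ⟨d, c1r_mem_RX.1 hf d hd, rfl⟩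
  · rintro _ ⟨d, hd, rfl⟩
    exact c1r_monomial hd 1
theorem RXle_eq_span (Y : Finset P) (e : ℕ) : RXle Y e =
    Submodule.span ℚ {f | ∃ d : P →₀ ℕ, d.support ⊆ Y ∧ d.degree ≤ e ∧ f = monomial d 1} := by
  refine le_antisymm (fun f hf => c1r_mem_span _ f fun d hd => ?_) (Submodule.span_le.2 ?_)
  · exact ⟨d, c1r_mem_RX.1 hf.1 d hd,
      (le_totalDegree hd).trans ((mem_restrictTotalDegree _ _ _).1 hf.2), rfl⟩
  · rintro _ ⟨d, hd, he, rfl⟩
    exact ⟨c1r_monomial hd 1, (mem_restrictTotalDegree _ _ _).2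
      ((totalDegree_monomial_le d 1).trans he)⟩
theorem exists_RXle {Y : Finset P} {f : Rg P} (hf : f ∈ RX Y) : ∃ e, f ∈ RXle Y e := by
  exact ⟨f.totalDegree, hf, (mem_restrictTotalDegree _ _ _).2 le_rfl⟩
theorem mem_RXle_of_hom {Y : Finset P} {f : Rg P} (hf : f ∈ RX Y) {e : ℕ}
    (h : f.IsHomogeneous e) : f ∈ RXle Y e := by
  exact ⟨hf, (mem_restrictTotalDegree _ _ _).2 h.totalDegree_le⟩
/-- multiplication by a polynomial of degree `≤ e` raises a filtration by `e` -/
theorem RXle_mul_mem {Y : Finset P} (N : ℤ → Submodule ℚ (Rg P)) (hN : Monotone N)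
    (hx : ∀ p ∈ Y, ∀ k, ∀ f ∈ N k, X p * f ∈ N (k + 1)) {e : ℕ} {a : Rg P} (ha : a ∈ RXle Y e)
    {k : ℤ} {f : Rg P} (hf : f ∈ N k) : a * f ∈ N (k + e) := by
  have key : ∀ d : P →₀ ℕ, d.support ⊆ Y → ∀ k, ∀ f ∈ N k,
      (monomial d 1 : Rg P) * f ∈ N (k + (d.degree : ℕ)) := by
    intro d
    induction d using Finsupp.induction_linear with
    | zero =>
      intro _ k f hf
      simpa using hf
    | add d d' h1 h2 =>
      intro hd k f hf
      have h3 := h1 ((Finsupp.support_mono le_self_add).trans hd) _ _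
        (h2 ((Finsupp.support_mono le_add_self).trans hd) k f hf)
      rw [← mul_assoc, monomial_mul, one_mul] at h3
      rw [map_add, Nat.cast_add, add_comm (d.degree : ℤ), ← add_assoc]
      exact h3
    | single p n =>
      intro hd k f hf
      rw [← X_pow_eq_monomial, Finsupp.degree_single]
      rcases Nat.eq_zero_or_pos n with rfl | hn
      · simpa using hf
      have hp : p ∈ Y := hd (Finsupp.mem_support_iff.2 (by simpa using hn.ne'))
      clear hd hn
      induction n with
      | zero => simpa using hf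
      | succ n ih =>
        rw [pow_succ', mul_assoc, Nat.cast_succ, ← add_assoc]
        exact hx p hp _ _ ih
  rw [RXle_eq_span] at ha
  induction ha using Submodule.span_induction with
  | mem a ha =>
    obtain ⟨d, hd, he, rfl⟩ := ha
    exact hN (by omega) (key d hd k f hf)
  | zero => simp
  | add a b _ _ ha hb =>
    rw [add_mul]
    exact Submodule.add_mem _ ha hb
  | smul c a _ ha =>
    rw [smul_mul_assoc]
    exact Submodule.smul_mem _ _ ha
theorem rename_mem_RX (σ : P → P) {Y : Finset P} {f : Rg P} (hf : f ∈ RX Y) :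
    rename σ f ∈ RX (Y.image σ) := by
  refine mem_supported.2 (Finset.coe_subset.2 ((vars_rename σ f).trans (Finset.image_subset_image ?_)))
  exact Finset.coe_subset.1 (mem_supported.1 hf)
theorem rename_congr {σ τ : P → P} {Y : Finset P} (h : ∀ p ∈ Y, σ p = τ p) {f : Rg P}
    (hf : f ∈ RX Y) : rename σ f = rename τ f := by
  refine hom_congr_vars (f₁ := (rename σ : Rg P →ₐ[ℚ] Rg P).toRingHom)
    (f₂ := (rename τ : Rg P →ₐ[ℚ] Rg P).toRingHom) ?_ (fun p hp _ => ?_) rfl
  · ext1
    simp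
  · have := h p (mem_supported.1 hf hp)
    simp [this]
theorem grd_RX (Y : Finset P) : Grd (RX Y) := by
  intro m f hf
  refine c1r_mem_RX.2 fun d hd => c1r_mem_RX.1 hf d ?_
  rw [support_homogeneousComponent] at hd
  exact (Finset.mem_filter.1 hd).1
theorem Grd.mul {N N' : Submodule ℚ (Rg P)} (h : Grd N) (h' : Grd N') : Grd (N * N') := by
  intro m f hf
  refine Submodule.mul_induction_on hf (fun a ha b hb => ?_) fun x y hx hy => ?_
  · rw [← sum_homogeneousComponent a, ← sum_homogeneousComponent b, Finset.sum_mul_sum, map_sum]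
    refine Submodule.sum_mem _ fun i _ => ?_
    rw [map_sum]
    refine Submodule.sum_mem _ fun j _ => ?_
    rw [homogeneousComponent_of_mem ((homogeneousComponent_isHomogeneous i a).mul
      (homogeneousComponent_isHomogeneous j b))]
    split_ifs
    · exact Submodule.mul_mem_mul (h i a ha) (h' j b hb)
    · exact Submodule.zero_mem _
  · rw [map_add]
    exact Submodule.add_mem _ hx hy
theorem Grd.mulK {N : Submodule ℚ (Rg P)} (h : Grd N) {k : Rg P} {e : ℕ}
    (hk : k.IsHomogeneous e) : Grd (mulK N k) := by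
  intro m f hf
  obtain ⟨g, hg, rfl⟩ := mem_mulK.1 hf
  rw [← sum_homogeneousComponent g, Finset.sum_mul, map_sum]
  refine Submodule.sum_mem _ fun i _ => ?_
  rw [homogeneousComponent_of_mem ((homogeneousComponent_isHomogeneous i g).mul hk)]
  split_ifs
  · exact mem_mulK.2 ⟨_, h i g hg, rfl⟩
  · exact Submodule.zero_mem _
theorem Grd.iSup {ι : Sort*} {N : ι → Submodule ℚ (Rg P)} (h : ∀ i, Grd (N i)) :
    Grd (⨆ i, N i) := by
  intro m f hf
  have : (⨆ i, N i) ≤ (⨆ i, N i).comap (homogeneousComponent m) :=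
    iSup_le fun i g hg => Submodule.mem_iSup_of_mem i (h i m g hg)
  exact this hf
theorem Grd.iInf {ι : Sort*} {N : ι → Submodule ℚ (Rg P)} (h : ∀ i, Grd (N i)) :
    Grd (⨅ i, N i) := by
  intro m f hf
  rw [Submodule.mem_iInf] at hf ⊢
  exact fun i => h i m f (hf i)
theorem Grd.sup {N N' : Submodule ℚ (Rg P)} (h : Grd N) (h' : Grd N') : Grd (N ⊔ N') := by
  intro m f hf
  obtain ⟨a, ha, b, hb, rfl⟩ := Submodule.mem_sup.1 hf
  rw [map_add]
  exact Submodule.add_mem_sup (h m a ha) (h' m b hb)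
theorem Grd.inf {N N' : Submodule ℚ (Rg P)} (h : Grd N) (h' : Grd N') : Grd (N ⊓ N') := by
  exact fun m f hf => ⟨h m f hf.1, h' m f hf.2⟩
theorem finite_RX_hom (Y : Finset P) (m : ℕ) :
    Module.Finite ℚ (RX Y ⊓ homogeneousSubmodule P ℚ m : Submodule ℚ (Rg P)) := by
  have h1 : FiniteDimensional ℚ (Submodule.span ℚ
      ((fun d => (monomial d 1 : Rg P)) '' (Y.finsuppAntidiag m : Set (P →₀ ℕ)))) :=
    FiniteDimensional.span_of_finite ℚ ((Finset.finite_toSet _).image _)
  refine Submodule.finiteDimensional_of_le (S₂ := Submodule.span ℚ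
      ((fun d => (monomial d 1 : Rg P)) '' (Y.finsuppAntidiag m : Set (P →₀ ℕ)))) fun f hf => ?_
  refine c1r_mem_span _ f fun d hd => ⟨d, ?_, rfl⟩
  have h2 := c1r_mem_RX.1 hf.1 d hd
  have h3 : d.degree = m := by
    by_contra h
    exact mem_support_iff.1 hd (IsHomogeneous.coeff_eq_zero hf.2 h)
  rw [Finset.mem_coe, Finset.mem_finsuppAntidiag]
  refine ⟨?_, h2⟩
  rw [← h3, Finsupp.degree_apply]
  exact (Finset.sum_subset h2 fun p _ hp => Finsupp.notMem_support_iff.1 hp).symm

end noctx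
end Crest.Agent.R59
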