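import Crest.Agent.R59.C2a

/-! # Row 59, C2: signs, the twisted action, the shuffle product. -/

set_option autoImplicit false

namespace Crest.Agent.R59
open scoped Classical
open MvPolynomial

namespace Ctx
variable {I P : Type} [Fintype I] [DecidableEq I] [LinearOrder P] (Γ : Ctx I P)

theorem c2_act_sum {ι : Type} (σ : P → P) (X : Finset P) (s : Finset ι) (f : ι → Rg P) :
    Γ.act σ X (∑ i ∈ s, f i) = ∑ i ∈ s, Γ.act σ X (f i) := by
  unfold act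
  rw [map_sum, Finset.smul_sum]

theorem mem_Ha {a : I → ℕ} {u : Fam P} :
    u ∈ Γ.Ha a ↔ u ∈ Γ.HH ∧ ∀ X, Γ.ty X ≠ a → u X = 0 := by
  unfold Ha
  rw [Submodule.mem_inf, mem_lift]
  refine and_congr Iff.rfl (forall_congr' fun X => ?_)
  by_cases h : Γ.ty X = a
  · simp [h]
  · simp [h]
theorem mem_Ham {a : I → ℕ} {m : ℕ} {u : Fam P} :
    u ∈ Γ.Ham a m ↔ u ∈ Γ.Ha a ∧ ∀ X, (u X).IsHomogeneous m := by
  unfold Ham
  rw [Submodule.mem_inf, mem_lift]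
  simp only [mem_homogeneousSubmodule]
theorem sh_mem_HH {u w : Fam P} (hu : u ∈ Γ.HH) (hw : w ∈ Γ.HH) : Γ.sh u w ∈ Γ.HH := by
  refine ⟨fun X => ?_, fun σ X h => ?_⟩
  · refine Submodule.sum_mem _ fun Y hY => ?_
    have hYX : Y ⊆ X := Finset.mem_powerset.1 hY
    exact RX_mul (RX_mul (RX_mono hYX (hu.1 Y)) (RX_mono Finset.sdiff_subset (hw.1 _)))
      (Γ.KK_mem hYX Finset.sdiff_subset)
  · unfold sh
    rw [Finset.powerset_image, Finset.sum_image (Finset.image_injOn_powerset_of_injOn h.1),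
      Γ.c2_act_sum]
    refine Finset.sum_congr rfl fun Y hY => ?_
    have hYX : Y ⊆ X := Finset.mem_powerset.1 hY
    have hU : Y ∪ X \ Y = X := Finset.union_sdiff_of_subset hYX
    have h1 := Γ.act_mul_KK (σ := σ) (Y := Y) (Z := X \ Y) Finset.disjoint_sdiff
      (by rw [hU]; exact h) (u Y) (w (X \ Y))
    rw [hU] at h1
    rw [h1, ← Finset.image_sdiff_of_injOn h.1 hYX, hu.2 σ Y (h.mono hYX),
      hw.2 σ (X \ Y) (h.mono Finset.sdiff_subset)]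
theorem sh_mem_Ha {a c : I → ℕ} {u w : Fam P} (hu : u ∈ Γ.Ha a) (hw : w ∈ Γ.Ha c) :
    Γ.sh u w ∈ Γ.Ha (a + c) := by
  rw [mem_Ha] at hu hw ⊢
  refine ⟨Γ.sh_mem_HH hu.1 hw.1, fun X hX => ?_⟩
  refine Finset.sum_eq_zero fun Y hY => ?_
  have hYX : Y ⊆ X := Finset.mem_powerset.1 hY
  by_cases h1 : Γ.ty Y = a
  · by_cases h2 : Γ.ty (X \ Y) = c
    · exact absurd (by rw [← Γ.ty_sdiff hYX, h1, h2]) hX
    · rw [hw.2 _ h2]; simp
  · rw [hu.2 _ h1]; simp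
theorem sh_mem_Ham {a c : I → ℕ} {m m' : ℕ} {u w : Fam P} (hu : u ∈ Γ.Ham a m)
    (hw : w ∈ Γ.Ham c m') : Γ.sh u w ∈ Γ.Ham (a + c) (m + m' + Γ.bT a c) := by
  rw [mem_Ham] at hu hw ⊢
  refine ⟨Γ.sh_mem_Ha hu.1 hw.1, fun X => ?_⟩
  refine IsHomogeneous.sum _ _ _ fun Y _ => ?_
  by_cases h1 : Γ.ty Y = a
  · by_cases h2 : Γ.ty (X \ Y) = c
    · have h3 := Γ.KK_hom Y (X \ Y)
      rw [Γ.bb_eq, h1, h2] at h3
      exact ((hu.2 Y).mul (hw.2 _)).mul h3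
    · rw [(Γ.mem_Ha.1 hw.1).2 _ h2, mul_zero, zero_mul]; exact isHomogeneous_zero _ _ _
  · rw [(Γ.mem_Ha.1 hu.1).2 _ h1, zero_mul, zero_mul]; exact isHomogeneous_zero _ _ _
theorem oneF_mem : (oneF : Fam P) ∈ Γ.Ham 0 0 := by
  rw [mem_Ham, mem_Ha]
  refine ⟨⟨⟨fun X => ?_, fun σ X _ => ?_⟩, fun X hX => ?_⟩, fun X => ?_⟩
  · unfold oneF
    split_ifs
    · exact RX_one X
    · exact Submodule.zero_mem _
  · by_cases hX : X = ∅
    · subst hX
      simp [oneF, act, eps]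
    · have : X.image σ ≠ ∅ := by simpa using hX
      simp [oneF, act, hX]
  · have : X ≠ ∅ := fun h => hX (Γ.ty_eq_zero.2 h)
    simp [oneF, this]
  · unfold oneF
    split_ifs
    · exact isHomogeneous_one _ _
    · exact isHomogeneous_zero _ _ _
theorem Ha_zero : Γ.Ha 0 = Submodule.span ℚ {oneF} := by
  apply le_antisymm
  · intro u hu
    rw [mem_Ha] at hu
    have h1 := hu.1.1 ∅
    rw [RX_empty, Submodule.mem_span_singleton] at h1
    obtain ⟨c, hc⟩ := h1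
    rw [Submodule.mem_span_singleton]
    refine ⟨c, funext fun X => ?_⟩
    by_cases hX : X = ∅
    · subst hX
      simp [oneF, hc]
    · rw [hu.2 X fun h => hX (Γ.ty_eq_zero.1 h)]
      simp [oneF, hX]
  · rw [Submodule.span_le, Set.singleton_subset_iff]
    exact (Γ.mem_Ham.1 Γ.oneF_mem).1
/-- a family of type `a` is determined, for membership in an equivariant family of subspaces, by
one value -/
theorem mem_lift_of_one {W : Finset P → Submodule ℚ (Rg P)} (hW : Γ.Equi W) {a : I → ℕ}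
    {u : Fam P} (hu : u ∈ Γ.Ha a) {X : Finset P} (hX : Γ.ty X = a) (h : u X ∈ W X) :
    u ∈ lift W := by
  rw [mem_Ha] at hu
  rw [mem_lift]
  intro X'
  by_cases h' : Γ.ty X' = a
  · obtain ⟨σ, hσ, him, -⟩ := Γ.exists_bij (hX.trans h'.symm)
    rw [← him, hu.1.2 σ X hσ]
    exact Submodule.smul_mem _ _ (hW σ X hσ _ h)
  · rw [hu.2 X' h']
    exact Submodule.zero_mem _
theorem eq_zero_of_one {a : I → ℕ} {u : Fam P} (hu : u ∈ Γ.Ha a) {X : Finset P}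
    (hX : Γ.ty X = a) (h : u X = 0) : u = 0 := by
  have hW : Γ.Equi (fun _ => ⊥) := by
    intro σ Y _ f hf
    rw [Submodule.mem_bot] at hf ⊢
    rw [hf, map_zero]
  have h1 := Γ.mem_lift_of_one hW hu hX (by rw [h]; exact Submodule.zero_mem _)
  rw [mem_lift] at h1
  exact funext fun Y => (Submodule.mem_bot ℚ).1 (h1 Y)
instance finite_Ham (a : I → ℕ) (m : ℕ) : Module.Finite ℚ (Γ.Ham a m) := by
  obtain ⟨X, hX⟩ := Γ.exists_ty a
  haveI := finite_RX_hom X m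
  let L : Γ.Ham a m →ₗ[ℚ] (RX X ⊓ homogeneousSubmodule P ℚ m : Submodule ℚ (Rg P)) :=
    LinearMap.codRestrict _ ((LinearMap.proj X : Fam P →ₗ[ℚ] Rg P) ∘ₗ (Γ.Ham a m).subtype)
      fun u => ⟨(Γ.mem_Ha.1 (Γ.mem_Ham.1 u.2).1).1.1 X, (Γ.mem_Ham.1 u.2).2 X⟩
  refine Module.Finite.of_injective L ?_
  rw [injective_iff_map_eq_zero]
  intro u hu
  have h1 : (u : Fam P) X = 0 := congrArg Subtype.val hu
  exact Subtype.ext (Γ.eq_zero_of_one (Γ.mem_Ham.1 u.2).1 hX h1)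
instance finite_Ham_inf (a : I → ℕ) (m : ℕ) (V : Submodule ℚ (Fam P)) :
    Module.Finite ℚ (Γ.Ham a m ⊓ V : Submodule ℚ (Fam P)) := by
  exact Submodule.finiteDimensional_inf_left _ _
theorem hc_mem_Ham {a : I → ℕ} {u : Fam P} (hu : u ∈ Γ.Ha a) (m : ℕ) : hc m u ∈ Γ.Ham a m := by
  rw [mem_Ha] at hu
  rw [mem_Ham, mem_Ha]
  refine ⟨⟨⟨fun X => grd_RX X m _ (hu.1.1 X), fun σ X h => ?_⟩, fun X hX => ?_⟩, fun X => ?_⟩
  · rw [hc_apply, hc_apply, hu.1.2 σ X h]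
    unfold act
    rw [map_smul, rename_homogeneousComponent]
  · rw [hc_apply, hu.2 X hX, map_zero]
  · exact homogeneousComponent_isHomogeneous _ _
theorem hc_of_mem_Ham {a : I → ℕ} {m : ℕ} {u : Fam P} (hu : u ∈ Γ.Ham a m) (m' : ℕ) :
    hc m' u = if m' = m then u else 0 := by
  funext X
  rw [hc_apply, homogeneousComponent_of_mem ((Γ.mem_Ham.1 hu).2 X)]
  split_ifs <;> rfl
theorem hc_mem_lift {W : Finset P → Submodule ℚ (Rg P)} (hW : ∀ X, Grd (W X)) {u : Fam P}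
    (hu : u ∈ lift W) (m : ℕ) : hc m u ∈ lift W := by
  rw [mem_lift] at hu ⊢
  exact fun X => hW X m _ (hu X)
theorem exists_sum_hc {a : I → ℕ} {u : Fam P} (hu : u ∈ Γ.Ha a) :
    ∃ N : ℕ, ∑ m ∈ Finset.range N, hc m u = u := by
  obtain ⟨X, hX⟩ := Γ.exists_ty a
  refine ⟨(u X).totalDegree + 1, ?_⟩
  rw [← sub_eq_zero]
  refine Γ.eq_zero_of_one (a := a) (Submodule.sub_mem _ (Submodule.sum_mem _ fun m _ =>
    (Γ.mem_Ham.1 (Γ.hc_mem_Ham hu m)).1) hu) hX ?_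
  rw [Pi.sub_apply, Finset.sum_apply]
  simp only [hc_apply]
  rw [sum_homogeneousComponent, sub_self]
/-- counting with a homogeneous basis modulo a graded subspace (`ncard_eq_of_basis_mod` after
applying `hc m`) -/
theorem ncard_eq_hq {W : Finset P → Submodule ℚ (Rg P)} (hW : ∀ X, Grd (W X)) {J : Type}
    {a : I → ℕ} (v : J → Fam P) (dg : J → ℕ) (T : Set J) (hv : ∀ j ∈ T, v j ∈ Γ.Ham a (dg j))
    (hi : ∀ x : J →₀ ℚ, (↑x.support : Set J) ⊆ T → (x.sum fun j c => c • v j) ∈ lift W → x = 0)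
    (hs : Γ.Ha a ≤ lift W ⊔ Submodule.span ℚ (v '' T)) (m : ℕ) :
    {j | j ∈ T ∧ dg j = m}.Finite ∧ {j | j ∈ T ∧ dg j = m}.ncard = Γ.hq W a m := by
  refine ncard_eq_of_basis_mod (Γ.Ham a m) (lift W) v _ (fun j hj => hj.2 ▸ hv j hj.1)
    (fun x hx => hi x fun j hj => (hx hj).1) ?_
  intro u hu
  obtain ⟨w, hw, s, hs', hws⟩ := Submodule.mem_sup.1 (hs (Γ.mem_Ham.1 hu).1)
  have h1 : u = hc m w + hc m s := by
    rw [← map_add, hws, Γ.hc_of_mem_Ham hu, if_pos rfl]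
  rw [h1]
  refine Submodule.add_mem_sup (hc_mem_lift hW hw m) ?_
  have h2 : Submodule.span ℚ (v '' T) ≤
      (Submodule.span ℚ (v '' {j | j ∈ T ∧ dg j = m})).comap (hc m) := by
    rw [Submodule.span_le]
    rintro _ ⟨j, hj, rfl⟩
    rw [SetLike.mem_coe, Submodule.mem_comap, Γ.hc_of_mem_Ham (hv j hj)]
    split_ifs with h
    · exact Submodule.subset_span ⟨j, ⟨hj, h.symm⟩, rfl⟩
    · exact Submodule.zero_mem _
  exact h2 hs'

end Ctx
end Crest.Agent.R59
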