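import Crest.Agent.R59.C1b

/-! # Row 59, C2: signs, the twisted action, the shuffle product. -/

set_option autoImplicit false

namespace Crest.Agent.R59
open scoped Classical
open MvPolynomial

/-- a product of a symmetric function over the pairs of `X` does not depend on the order used -/
theorem c2a_prod_reorder {P : Type} [LinearOrder P] (X : Finset P) (σ : P → P)
    (hσ : ∀ p ∈ X, ∀ q ∈ X, σ p = σ q → p = q) (F : P → P → ℚ)
    (hF : ∀ p ∈ X, ∀ q ∈ X, p ≠ q → F p q = F q p) :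
    (∏ p ∈ X, ∏ q ∈ X, if σ p < σ q then F p q else 1) =
      ∏ p ∈ X, ∏ q ∈ X, if p < q then F p q else 1 := by
  have e1 : (∏ p ∈ X, ∏ q ∈ X, if σ p < σ q then F p q else 1) =
      (∏ p ∈ X, ∏ q ∈ X, if σ p < σ q ∧ p < q then F p q else 1) *
        ∏ p ∈ X, ∏ q ∈ X, if σ p < σ q ∧ q < p then F p q else 1 := by
    rw [← Finset.prod_mul_distrib]
    refine Finset.prod_congr rfl fun p _ => ?_
    rw [← Finset.prod_mul_distrib]
    refine Finset.prod_congr rfl fun q _ => ?_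
    by_cases h1 : σ p < σ q
    · have hne : p ≠ q := fun e => by rw [e] at h1; exact lt_irrefl _ h1
      rcases lt_or_gt_of_ne hne with h2 | h2
      · simp [h1, h2, not_lt_of_gt h2]
      · simp [h1, h2, not_lt_of_gt h2]
    · simp [h1]
  rw [e1, Finset.prod_comm (s := X) (t := X)
    (f := fun p q => if σ p < σ q ∧ q < p then F p q else 1), ← Finset.prod_mul_distrib]
  refine Finset.prod_congr rfl fun p hp => ?_
  rw [← Finset.prod_mul_distrib]
  refine Finset.prod_congr rfl fun q hq => ?_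
  by_cases h1 : p < q
  · have hne : σ p ≠ σ q := fun e => (ne_of_lt h1) (hσ p hp q hq e)
    rcases lt_or_gt_of_ne hne with h2 | h2
    · simp [h1, h2, not_lt_of_gt h2]
    · simp [h1, h2, not_lt_of_gt h2, hF p hp q hq (ne_of_lt h1)]
  · simp [h1]

namespace Ctx
variable {I P : Type} [Fintype I] [DecidableEq I] [LinearOrder P] (Γ : Ctx I P)

theorem o_sq (p q : P) : Γ.o p q * Γ.o p q = 1 := by
  unfold o
  split_ifs <;> norm_num
theorem c2a_o_of_lt {p q : P} (h : p < q) : Γ.o p q = 1 := by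
  unfold o
  rw [if_neg]
  rintro ⟨-, -, h'⟩
  exact lt_asymm h h'
theorem c2a_E_symm {p q p' q' : P} (h : p ≠ q) (h' : p' ≠ q') (hp : Γ.col p' = Γ.col p)
    (hq : Γ.col q' = Γ.col q) : Γ.o p q * Γ.o p' q' = Γ.o q p * Γ.o q' p' := by
  unfold o
  rw [hp, hq]
  by_cases a : Γ.odd (Γ.col p)
  · by_cases b : Γ.odd (Γ.col q)
    · rcases lt_or_gt_of_ne h with h1 | h1 <;> rcases lt_or_gt_of_ne h' with h2 | h2 <;>
        simp [a, b, h1, h2, not_lt_of_gt h1, not_lt_of_gt h2]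
    · simp [b]
  · simp [a]
theorem eps_sq (σ : P → P) (X : Finset P) : Γ.eps σ X * Γ.eps σ X = 1 := by
  unfold eps
  rw [← Finset.prod_mul_distrib]
  refine Finset.prod_eq_one fun p _ => ?_
  rw [← Finset.prod_mul_distrib]
  refine Finset.prod_eq_one fun q _ => ?_
  split_ifs
  · exact Γ.o_sq _ _
  · norm_num
theorem eps_congr {σ τ : P → P} {X : Finset P} (h : ∀ p ∈ X, σ p = τ p) :
    Γ.eps σ X = Γ.eps τ X := by
  unfold eps
  refine Finset.prod_congr rfl fun p hp => Finset.prod_congr rfl fun q hq => ?_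
  rw [h p hp, h q hq]
theorem eps_id (X : Finset P) : Γ.eps id X = 1 := by
  unfold eps
  refine Finset.prod_eq_one fun p _ => Finset.prod_eq_one fun q _ => ?_
  split_ifs with hpq
  · exact Γ.c2a_o_of_lt hpq
  · rfl
/-- `E(p,q) = o p q * o (τ p) (τ q)` is symmetric for `p ≠ q` in the image; a product of a
symmetric function over the pairs `p < q` of `X` can be reindexed along `σ` -/
theorem eps_comp {σ τ : P → P} {X : Finset P} (h : Γ.Adm σ X) (h' : Γ.Adm τ (X.image σ)) :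
    Γ.eps (τ ∘ σ) X = Γ.eps τ (X.image σ) * Γ.eps σ X := by
  have hσ : ∀ p ∈ X, ∀ q ∈ X, σ p = σ q → p = q := fun p hp q hq e => h.1 hp hq e
  have key : Γ.eps τ (X.image σ) = ∏ p ∈ X, ∏ q ∈ X,
      if p < q then Γ.o (σ p) (σ q) * Γ.o (τ (σ p)) (τ (σ q)) else 1 := by
    unfold eps
    rw [Finset.prod_image hσ]
    have e1 : ∀ p ∈ X, (∏ q ∈ X.image σ, if σ p < q then Γ.o (τ (σ p)) (τ q) else 1) =
        ∏ q ∈ X, if σ p < σ q then Γ.o (σ p) (σ q) * Γ.o (τ (σ p)) (τ (σ q)) else 1 := by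
      intro p _
      rw [Finset.prod_image hσ]
      refine Finset.prod_congr rfl fun q _ => ?_
      split_ifs with hpq
      · rw [Γ.c2a_o_of_lt hpq, one_mul]
      · rfl
    rw [Finset.prod_congr rfl e1]
    refine c2a_prod_reorder X σ hσ
      (fun p q => Γ.o (σ p) (σ q) * Γ.o (τ (σ p)) (τ (σ q))) ?_
    intro p hp q hq hne
    have hp' : σ p ∈ X.image σ := Finset.mem_image_of_mem σ hp
    have hq' : σ q ∈ X.image σ := Finset.mem_image_of_mem σ hq
    have h1 : σ p ≠ σ q := fun e => hne (hσ p hp q hq e)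
    have h2 : τ (σ p) ≠ τ (σ q) := fun e => h1 (h'.1 hp' hq' e)
    exact Γ.c2a_E_symm h1 h2 (h'.2 _ hp') (h'.2 _ hq')
  rw [key]
  unfold eps
  rw [← Finset.prod_mul_distrib]
  refine Finset.prod_congr rfl fun p _ => ?_
  rw [← Finset.prod_mul_distrib]
  refine Finset.prod_congr rfl fun q _ => ?_
  split_ifs with hpq
  · simp only [Function.comp]
    rw [mul_right_comm, Γ.o_sq, one_mul]
  · norm_num
theorem act_comp {σ τ : P → P} {X : Finset P} (h : Γ.Adm σ X) (h' : Γ.Adm τ (X.image σ))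
    (f : Rg P) : Γ.act (τ ∘ σ) X f = Γ.act τ (X.image σ) (Γ.act σ X f) := by
  unfold act
  rw [Γ.eps_comp h h', map_smul, rename_rename, smul_smul]
theorem act_congr {σ τ : P → P} {X : Finset P} (h : ∀ p ∈ X, σ p = τ p) {f : Rg P}
    (hf : f ∈ RX X) : Γ.act σ X f = Γ.act τ X f := by
  unfold act
  rw [Γ.eps_congr h, rename_congr h hf]
theorem act_id (X : Finset P) (f : Rg P) : Γ.act id X f = f := by
  unfold act
  rw [Γ.eps_id, one_smul, rename_id, AlgHom.id_apply]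
theorem c2a_rename_KK {σ : P → P} {Y Z : Finset P} (h : Γ.Adm σ (Y ∪ Z)) :
    rename σ (Γ.KK Y Z) = (∏ p ∈ Y, ∏ q ∈ Z, Γ.o p q * Γ.o (σ p) (σ q)) •
      Γ.KK (Y.image σ) (Z.image σ) := by
  have hY : ∀ p ∈ Y, ∀ q ∈ Y, σ p = σ q → p = q := fun p hp q hq e =>
    h.1 (Finset.mem_coe.2 (Finset.mem_union_left _ hp))
      (Finset.mem_coe.2 (Finset.mem_union_left _ hq)) e
  have hZ : ∀ p ∈ Z, ∀ q ∈ Z, σ p = σ q → p = q := fun p hp q hq e =>
    h.1 (Finset.mem_coe.2 (Finset.mem_union_right _ hp))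
      (Finset.mem_coe.2 (Finset.mem_union_right _ hq)) e
  unfold KK
  rw [Finset.prod_image hY, map_prod, smul_eq_C_mul, map_prod, ← Finset.prod_mul_distrib]
  refine Finset.prod_congr rfl fun p hp => ?_
  rw [Finset.prod_image hZ, map_prod, map_prod, ← Finset.prod_mul_distrib]
  refine Finset.prod_congr rfl fun q hq => ?_
  unfold kap
  rw [h.2 p (Finset.mem_union_left _ hp), h.2 q (Finset.mem_union_right _ hq), ← mul_assoc,
    ← map_mul C, mul_assoc (Γ.o p q), Γ.o_sq, mul_one]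
  simp only [map_mul, map_pow, map_sub, rename_C, rename_X]
theorem c2a_eps_union {σ : P → P} {Y Z : Finset P} (hYZ : Disjoint Y Z) (h : Γ.Adm σ (Y ∪ Z)) :
    Γ.eps σ (Y ∪ Z) * ∏ p ∈ Y, ∏ q ∈ Z, Γ.o p q * Γ.o (σ p) (σ q) =
      Γ.eps σ Y * Γ.eps σ Z := by
  have key : ((∏ p ∈ Y, ∏ q ∈ Z, if p < q then Γ.o (σ p) (σ q) else 1) *
      ∏ q ∈ Z, ∏ p ∈ Y, if q < p then Γ.o (σ q) (σ p) else 1) *
      ∏ p ∈ Y, ∏ q ∈ Z, Γ.o p q * Γ.o (σ p) (σ q) = 1 := by
    rw [Finset.prod_comm (s := Z) (t := Y), ← Finset.prod_mul_distrib, ← Finset.prod_mul_distrib]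
    refine Finset.prod_eq_one fun p hp => ?_
    rw [← Finset.prod_mul_distrib, ← Finset.prod_mul_distrib]
    refine Finset.prod_eq_one fun q hq => ?_
    have hne : p ≠ q := fun e => Finset.disjoint_left.1 hYZ hp (e ▸ hq)
    have hp' : p ∈ Y ∪ Z := Finset.mem_union_left _ hp
    have hq' : q ∈ Y ∪ Z := Finset.mem_union_right _ hq
    have hne' : σ p ≠ σ q := fun e => hne (h.1 (Finset.mem_coe.2 hp') (Finset.mem_coe.2 hq') e)
    rcases lt_or_gt_of_ne hne with h1 | h1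
    · rw [if_pos h1, if_neg (not_lt_of_gt h1), Γ.c2a_o_of_lt h1, mul_one, one_mul, Γ.o_sq]
    · rw [if_neg (not_lt_of_gt h1), if_pos h1, one_mul,
        Γ.c2a_E_symm hne hne' (h.2 p hp') (h.2 q hq'), Γ.c2a_o_of_lt h1, one_mul, Γ.o_sq]
  unfold eps
  rw [Finset.prod_union hYZ]
  simp only [Finset.prod_union hYZ, Finset.prod_mul_distrib] at key ⊢
  linear_combination
    ((∏ p ∈ Y, ∏ q ∈ Y, if p < q then Γ.o (σ p) (σ q) else 1) *
      ∏ p ∈ Z, ∏ q ∈ Z, if p < q then Γ.o (σ p) (σ q) else 1) * key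
/-- equivariance of the product -/
theorem act_mul_KK {σ : P → P} {Y Z : Finset P} (hYZ : Disjoint Y Z) (h : Γ.Adm σ (Y ∪ Z))
    (f g : Rg P) : Γ.act σ (Y ∪ Z) (f * g * Γ.KK Y Z) =
      Γ.act σ Y f * Γ.act σ Z g * Γ.KK (Y.image σ) (Z.image σ) := by
  unfold act
  rw [map_mul, map_mul, Γ.c2a_rename_KK h, smul_mul_smul_comm, mul_smul_comm, smul_smul,
    Γ.c2a_eps_union hYZ h, smul_mul_assoc]
theorem rename_KK {σ : P → P} {Y Z : Finset P} (hYZ : Disjoint Y Z) (h : Γ.Adm σ (Y ∪ Z)) :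
    ∃ c : ℚ, rename σ (Γ.KK Y Z) = c • Γ.KK (Y.image σ) (Z.image σ) := by
  have _ := hYZ
  exact ⟨_, Γ.c2a_rename_KK h⟩

theorem sh_add_left (u u' w : Fam P) : Γ.sh (u + u') w = Γ.sh u w + Γ.sh u' w := by
  funext X
  simp only [sh, Pi.add_apply, add_mul, Finset.sum_add_distrib]
theorem sh_add_right (u w w' : Fam P) : Γ.sh u (w + w') = Γ.sh u w + Γ.sh u w' := by
  funext X
  simp only [sh, Pi.add_apply, add_mul, mul_add, Finset.sum_add_distrib]
theorem sh_smul_left (c : ℚ) (u w : Fam P) : Γ.sh (c • u) w = c • Γ.sh u w := by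
  funext X
  simp only [sh, Pi.smul_apply, smul_mul_assoc, Finset.smul_sum]
theorem sh_smul_right (c : ℚ) (u w : Fam P) : Γ.sh u (c • w) = c • Γ.sh u w := by
  funext X
  simp only [sh, Pi.smul_apply, smul_mul_assoc, mul_smul_comm, Finset.smul_sum]
/-- the product as a bilinear map -/
noncomputable def shL : Fam P →ₗ[ℚ] Fam P →ₗ[ℚ] Fam P :=
  LinearMap.mk₂ ℚ Γ.sh Γ.sh_add_left Γ.sh_smul_left Γ.sh_add_right Γ.sh_smul_right
theorem shL_apply (u w : Fam P) : Γ.shL u w = Γ.sh u w := rfl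
theorem sh_one (u : Fam P) : Γ.sh u oneF = u := by
  funext X
  unfold sh
  rw [Finset.sum_eq_single X]
  · simp [oneF, KK]
  · intro Y hY hne
    have : X \ Y ≠ ∅ := by
      intro e
      exact hne (Finset.Subset.antisymm (Finset.mem_powerset.1 hY)
        (Finset.sdiff_eq_empty_iff_subset.1 e))
    simp only [oneF, if_neg this, mul_zero, zero_mul]
  · intro hX
    exact absurd (Finset.mem_powerset_self X) hX
theorem one_sh (u : Fam P) : Γ.sh oneF u = u := by
  funext X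
  unfold sh
  rw [Finset.sum_eq_single ∅]
  · simp [oneF, KK]
  · intro Y _ hne
    simp only [oneF, if_neg hne, zero_mul]
  · intro hX
    exact absurd (Finset.empty_mem_powerset X) hX
/-- `Finset.sum_sigma'`, `Finset.sum_bij'` with `(Y, W) ↦ (W, Y \ W)` -/
theorem sh_assoc (u v w : Fam P) : Γ.sh (Γ.sh u v) w = Γ.sh u (Γ.sh v w) := by
  funext X
  simp only [sh, Finset.sum_mul, Finset.mul_sum]
  rw [Finset.sum_sigma', Finset.sum_sigma']
  refine Finset.sum_bij' (fun x _ => ⟨x.2, x.1 \ x.2⟩) (fun x _ => ⟨x.1 ∪ x.2, x.1⟩)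
    ?_ ?_ ?_ ?_ ?_
  · rintro ⟨W, Y⟩ hx
    simp only [Finset.mem_sigma, Finset.mem_powerset] at hx ⊢
    exact ⟨hx.2.trans hx.1, Finset.sdiff_subset_sdiff hx.1 (Finset.Subset.refl _)⟩
  · rintro ⟨Y, V⟩ hx
    simp only [Finset.mem_sigma, Finset.mem_powerset] at hx ⊢
    exact ⟨Finset.union_subset hx.1 (hx.2.trans Finset.sdiff_subset), Finset.subset_union_left⟩
  · rintro ⟨W, Y⟩ hx
    simp only [Finset.mem_sigma, Finset.mem_powerset] at hx
    simp only [Finset.union_sdiff_of_subset hx.2]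
  · rintro ⟨Y, V⟩ hx
    simp only [Finset.mem_sigma, Finset.mem_powerset] at hx
    have hd : Disjoint Y V := Finset.disjoint_of_subset_right hx.2 Finset.disjoint_sdiff
    simp only [Finset.union_sdiff_cancel_left hd]
  · rintro ⟨W, Y⟩ hx
    simp only [Finset.mem_sigma, Finset.mem_powerset] at hx
    obtain ⟨hW, hY⟩ := hx
    have e1 : (X \ Y) \ (W \ Y) = X \ W := by
      ext a
      simp only [Finset.mem_sdiff]
      constructor
      · rintro ⟨⟨h1, h2⟩, h3⟩
        exact ⟨h1, fun h4 => h3 ⟨h4, h2⟩⟩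
      · rintro ⟨h1, h2⟩
        exact ⟨⟨h1, fun h3 => h2 (hY h3)⟩, fun h3 => h2 h3.1⟩
    have e2 : Γ.KK W (X \ W) = Γ.KK Y (X \ W) * Γ.KK (W \ Y) (X \ W) := by
      rw [← Γ.KK_union_left Finset.disjoint_sdiff, Finset.union_sdiff_of_subset hY]
    have e3 : Γ.KK Y (X \ Y) = Γ.KK Y (W \ Y) * Γ.KK Y (X \ W) := by
      have hd : Disjoint (W \ Y) (X \ W) :=
        Finset.disjoint_of_subset_left Finset.sdiff_subset Finset.disjoint_sdiff
      rw [← Γ.KK_union_right Y hd]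
      congr 1
      ext a
      simp only [Finset.mem_sdiff, Finset.mem_union]
      constructor
      · rintro ⟨h1, h2⟩
        by_cases h3 : a ∈ W
        · exact Or.inl ⟨h3, h2⟩
        · exact Or.inr ⟨h1, h3⟩
      · rintro (⟨h1, h2⟩ | ⟨h1, h2⟩)
        · exact ⟨hW h1, h2⟩
        · exact ⟨h1, fun h3 => h2 (hY h3)⟩
    simp only [e1, e2, e3]
    ring

end Ctx
end Crest.Agent.R59
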