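import Crest.Agent.R59.C2

/-! # Row 59, C3: averaging. -/

set_option autoImplicit false

namespace Crest.Agent.R59
open scoped Classical
open MvPolynomial

namespace Ctx
variable {I P : Type} [Fintype I] [DecidableEq I] [LinearOrder P] (Γ : Ctx I P)

/-- restriction of a map to `X`, extended by the identity -/
noncomputable def c3res (X : Finset P) (σ : P → P) : P → P := fun p => if p ∈ X then σ p else p

theorem c3res_of_mem {X : Finset P} (σ : P → P) {p : P} (h : p ∈ X) : c3res X σ p = σ p := by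
  simp [c3res, h]

theorem c3res_of_notMem {X : Finset P} (σ : P → P) {p : P} (h : p ∉ X) : c3res X σ p = p := by
  simp [c3res, h]

theorem c3adm_congr {σ τ : P → P} {X : Finset P} (h : Γ.Adm σ X) (e : ∀ p ∈ X, τ p = σ p) :
    Γ.Adm τ X := by
  refine ⟨fun p hp q hq hpq => h.1 hp hq ?_, fun p hp => by rw [e p hp]; exact h.2 p hp⟩
  rw [← e p hp, ← e q hq]; exact hpq

theorem c3res_mem {σ : P → P} {X : Finset P} (h : Γ.Adm σ X) :
    c3res X σ ∈ Γ.Bij X (X.image σ) :=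
  ⟨Γ.c3adm_congr h fun _ hp => c3res_of_mem σ hp,
    Finset.image_congr fun _ hp => c3res_of_mem σ hp, fun _ hp => c3res_of_notMem σ hp⟩

theorem c3comp_mem {X X' : Finset P} {τ σ : P → P} (hτ : Γ.Adm τ X') (hσ : σ ∈ Γ.Bij X X') :
    c3res X (τ ∘ σ) ∈ Γ.Bij X (X'.image τ) := by
  obtain ⟨h1, h2, -⟩ := hσ
  have h3 : Γ.Adm (τ ∘ σ) X := h1.comp (h2 ▸ hτ)
  have := Γ.c3res_mem h3
  rwa [← Finset.image_image, h2] at this

theorem c3comp_bijOn (X : Finset P) {X' : Finset P} {τ : P → P} (hτ : Γ.Adm τ X') :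
    Set.BijOn (fun σ => c3res X (τ ∘ σ)) (Γ.Bij X X') (Γ.Bij X (X'.image τ)) := by
  refine ⟨fun σ hσ => Γ.c3comp_mem hτ hσ, ?_, ?_⟩
  · intro σ₁ h₁ σ₂ h₂ e
    funext p
    by_cases hp : p ∈ X
    · have e' := congrFun e p
      simp only [c3res_of_mem _ hp, Function.comp] at e'
      refine hτ.1 ?_ ?_ e'
      · rw [← h₁.2.1]; exact Finset.mem_coe.2 (Finset.mem_image_of_mem _ hp)
      · rw [← h₂.2.1]; exact Finset.mem_coe.2 (Finset.mem_image_of_mem _ hp)
    · rw [h₁.2.2 p hp, h₂.2.2 p hp]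
  · intro ρ hρ
    obtain ⟨τ', h1, h2⟩ := hτ.exists_inv
    have h3 : (X'.image τ).image τ' = X' := by
      rw [Finset.image_image]
      exact (Finset.image_congr (g := id) fun p hp => h2 p hp).trans Finset.image_id
    have h4 := Γ.c3comp_mem h1 hρ
    rw [h3] at h4
    refine ⟨_, h4, ?_⟩
    funext p
    by_cases hp : p ∈ X
    · have h5 : ρ p ∈ X'.image τ := by
        rw [← hρ.2.1]; exact Finset.mem_image_of_mem _ hp
      obtain ⟨q, hq, e⟩ := Finset.mem_image.1 h5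
      simp only [c3res_of_mem _ hp, Function.comp, ← e, h2 q hq]
    · simp only [c3res_of_notMem _ hp, hρ.2.2 p hp]

theorem c3act_sum {ι : Type} (s : Finset ι) (σ : P → P) (X : Finset P) (f : ι → Rg P) :
    Γ.act σ X (∑ i ∈ s, f i) = ∑ i ∈ s, Γ.act σ X (f i) := by
  simp only [act, map_sum, Finset.smul_sum]

theorem c3ty_of_mem {X X' : Finset P} {σ : P → P} (h : σ ∈ Γ.Bij X X') : Γ.ty X' = Γ.ty X := by
  rw [← h.2.1]; exact Γ.ty_image h.1

theorem Bij_finite (X X' : Finset P) : (Γ.Bij X X').Finite := by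
  refine (Set.finite_range (fun g : X → X' => fun p => if h : p ∈ X then (g ⟨p, h⟩ : P) else p)).subset ?_
  intro σ hσ
  refine ⟨fun p => ⟨σ p, hσ.2.1 ▸ Finset.mem_image_of_mem σ p.2⟩, ?_⟩
  funext p
  by_cases hp : p ∈ X
  · simp [hp]
  · simp [hp, hσ.2.2 p hp]
theorem Av_apply (X : Finset P) (f : Rg P) (X' : Finset P) :
    Γ.Av X f X' = ∑ σ ∈ (Γ.Bij_finite X X').toFinset, Γ.act σ X f := by
  unfold Av
  exact finsum_mem_eq_finite_toFinset_sum _ _
theorem Av_add (X : Finset P) (f g : Rg P) : Γ.Av X (f + g) = Γ.Av X f + Γ.Av X g := by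
  funext X'
  simp only [Pi.add_apply, Av_apply, act, map_add, smul_add, Finset.sum_add_distrib]
theorem Av_smul (X : Finset P) (c : ℚ) (f : Rg P) : Γ.Av X (c • f) = c • Γ.Av X f := by
  funext X'
  simp only [Pi.smul_apply, Av_apply, act, map_smul, Finset.smul_sum, smul_comm c]
/-- averaging as a linear map -/
noncomputable def AvL (X : Finset P) : Rg P →ₗ[ℚ] Fam P where
  toFun := Γ.Av X
  map_add' := Γ.Av_add X
  map_smul' := Γ.Av_smul X
theorem AvL_apply (X : Finset P) (f : Rg P) : Γ.AvL X f = Γ.Av X f := rfl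
/-- for `τ` admissible on `X'`, `σ ↦ (τ ∘ σ on X, id elsewhere)` is a bijection
`Bij X X' → Bij X (τ X')` (`Adm.exists_inv`, `act_comp`, `act_congr`) -/
theorem Av_mem_Ha {X : Finset P} {f : Rg P} (hf : f ∈ RX X) : Γ.Av X f ∈ Γ.Ha (Γ.ty X) := by
  rw [mem_Ha]
  refine ⟨⟨fun X' => ?_, fun τ X' hτ => ?_⟩, fun X' hX' => ?_⟩
  · rw [Av_apply]
    refine Submodule.sum_mem _ fun σ hσ => ?_
    rw [Set.Finite.mem_toFinset] at hσ
    rw [← hσ.2.1]
    exact Submodule.smul_mem _ _ (rename_mem_RX σ hf)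
  · rw [Av_apply, Av_apply, c3act_sum]
    symm
    have hb := Γ.c3comp_bijOn X hτ
    refine Finset.sum_nbij (fun σ => c3res X (τ ∘ σ)) ?_ ?_ ?_ ?_
    · intro σ hσ
      rw [Set.Finite.mem_toFinset] at hσ ⊢
      exact hb.mapsTo hσ
    · simpa using hb.injOn
    · simpa using hb.surjOn
    · intro σ hσ
      rw [Set.Finite.mem_toFinset] at hσ
      have h2 := hσ.2.1
      rw [Γ.act_congr (τ := τ ∘ σ) (fun p hp => c3res_of_mem _ hp) hf,
        Γ.act_comp hσ.1 (h2 ▸ hτ), h2]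
  · rw [Av_apply]
    refine Finset.sum_eq_zero fun σ hσ => ?_
    rw [Set.Finite.mem_toFinset] at hσ
    exact absurd (Γ.c3ty_of_mem hσ) hX'
theorem Av_mem_lift {W : Finset P → Submodule ℚ (Rg P)} (hW : Γ.Equi W) {X : Finset P}
    {f : Rg P} (hf : f ∈ W X) : Γ.Av X f ∈ lift W := by
  rw [mem_lift]
  intro X'
  rw [Av_apply]
  refine Submodule.sum_mem _ fun σ hσ => ?_
  rw [Set.Finite.mem_toFinset] at hσ
  rw [← hσ.2.1]
  exact Submodule.smul_mem _ _ (hW σ X hσ.1 f hf)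
/-- `Av X (u X) X' = |Bij X X'| • u X'`, and `|Bij X X'| = |Bij X X|` for `ty X' = ty X` -/
theorem Av_self {a : I → ℕ} {u : Fam P} (hu : u ∈ Γ.Ha a) {X : Finset P} (hX : Γ.ty X = a) :
    ∃ c : ℚ, c ≠ 0 ∧ Γ.Av X (u X) = c • u := by
  rw [mem_Ha] at hu
  refine ⟨((Γ.Bij_finite X X).toFinset.card : ℚ), ?_, ?_⟩
  · have : (Γ.Bij_finite X X).toFinset.Nonempty := by
      rw [Set.Finite.toFinset_nonempty]; exact Γ.exists_bij rfl
    exact_mod_cast this.card_pos.ne'
  · funext X'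
    have e1 : Γ.Av X (u X) X' = ((Γ.Bij_finite X X').toFinset.card : ℚ) • u X' := by
      rw [Av_apply, Nat.cast_smul_eq_nsmul, ← Finset.sum_const]
      refine Finset.sum_congr rfl fun σ hσ => ?_
      rw [Set.Finite.mem_toFinset] at hσ
      rw [← hu.1.2 σ X hσ.1, hσ.2.1]
    rw [e1, Pi.smul_apply]
    by_cases h : Γ.ty X' = a
    · obtain ⟨τ, hτ⟩ := Γ.exists_bij (hX.trans h.symm)
      have hb := Γ.c3comp_bijOn X hτ.1
      rw [hτ.2.1] at hb
      have : (Γ.Bij_finite X X).toFinset.card = (Γ.Bij_finite X X').toFinset.card := by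
        refine Finset.card_nbij (fun σ => c3res X (τ ∘ σ)) ?_ ?_ ?_
        · simpa using hb.mapsTo
        · simpa using hb.injOn
        · simpa using hb.surjOn
      rw [this]
    · rw [hu.2 X' h, smul_zero, smul_zero]
/-- `Bij (Y ∪ Z) X' ≃ Σ Y' ⊆ X', Bij Y Y' × Bij Z (X' \ Y')` via restriction / gluing
(`Finset.piecewise`); `act_mul_KK` -/
theorem Av_mul {Y Z : Finset P} (hYZ : Disjoint Y Z) {f g : Rg P} (hf : f ∈ RX Y)
    (hg : g ∈ RX Z) : Γ.Av (Y ∪ Z) (f * g * Γ.KK Y Z) = Γ.sh (Γ.Av Y f) (Γ.Av Z g) := by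
  funext X'
  rw [Av_apply, sh]
  rw [← Finset.sum_fiberwise_of_maps_to (t := X'.powerset) (g := fun σ => Y.image σ)]
  swap
  · intro σ hσ
    rw [Set.Finite.mem_toFinset] at hσ
    rw [Finset.mem_powerset, ← hσ.2.1]
    exact Finset.image_subset_image Finset.subset_union_left
  refine Finset.sum_congr rfl fun Y' hY' => ?_
  rw [Finset.mem_powerset] at hY'
  rw [Av_apply, Av_apply, Finset.sum_mul_sum, ← Finset.sum_product', Finset.sum_mul]
  have himZ : ∀ σ ∈ Γ.Bij (Y ∪ Z) X', Y.image σ = Y' → Z.image σ = X' \ Y' := by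
    intro σ hσ e
    rw [← hσ.2.1, ← e, Finset.image_union]
    symm
    apply Finset.union_sdiff_cancel_left
    rw [Finset.disjoint_left]
    intro x hx hx'
    obtain ⟨p, hp, rfl⟩ := Finset.mem_image.1 hx
    obtain ⟨q, hq, e'⟩ := Finset.mem_image.1 hx'
    have := hσ.1.1 (Finset.mem_coe.2 (Finset.mem_union_right Y hq))
      (Finset.mem_coe.2 (Finset.mem_union_left Z hp)) e'
    exact Finset.disjoint_left.1 hYZ hp (this ▸ hq)
  refine Finset.sum_nbij' (fun σ => (c3res Y σ, c3res Z σ))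
    (fun ab => fun p => if p ∈ Y then ab.1 p else ab.2 p) ?_ ?_ ?_ ?_ ?_
  · intro σ hσ
    simp only [Finset.mem_filter, Set.Finite.mem_toFinset] at hσ
    simp only [Finset.mem_product, Set.Finite.mem_toFinset]
    constructor
    · rw [← hσ.2]; exact Γ.c3res_mem (hσ.1.1.mono Finset.subset_union_left)
    · rw [← himZ σ hσ.1 hσ.2]; exact Γ.c3res_mem (hσ.1.1.mono Finset.subset_union_right)
  · rintro ⟨α, β⟩ hab
    simp only [Finset.mem_product, Set.Finite.mem_toFinset] at hab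
    obtain ⟨⟨ha1, ha2, ha3⟩, hb1, hb2, hb3⟩ := hab
    simp only [Finset.mem_filter, Set.Finite.mem_toFinset]
    have hY : ∀ p ∈ Y, (if p ∈ Y then α p else β p) = α p := fun p hp => if_pos hp
    have hZ : ∀ p ∈ Z, (if p ∈ Y then α p else β p) = β p := fun p hp =>
      if_neg (Finset.disjoint_right.1 hYZ hp)
    have iY : Y.image (fun p => if p ∈ Y then α p else β p) = Y' :=
      (Finset.image_congr fun p hp => hY p hp).trans ha2
    have iZ : Z.image (fun p => if p ∈ Y then α p else β p) = X' \ Y' :=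
      (Finset.image_congr fun p hp => hZ p hp).trans hb2
    have mY : ∀ p ∈ Y, α p ∈ Y' := fun p hp => ha2 ▸ Finset.mem_image_of_mem α hp
    have mZ : ∀ p ∈ Z, β p ∉ Y' := fun p hp =>
      (Finset.mem_sdiff.1 (hb2 ▸ Finset.mem_image_of_mem β hp)).2
    refine ⟨⟨⟨?_, ?_⟩, ?_, ?_⟩, iY⟩
    · intro p hp q hq e
      simp only [Finset.coe_union, Set.mem_union, Finset.mem_coe] at hp hq
      rcases hp with hp | hp <;> rcases hq with hq | hq
      · simp only [hY p hp, hY q hq] at e; exact ha1.1 hp hq e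
      · simp only [hY p hp, hZ q hq] at e; exact absurd (e ▸ mY p hp) (mZ q hq)
      · simp only [hZ p hp, hY q hq] at e; exact absurd (e ▸ mY q hq) (mZ p hp)
      · simp only [hZ p hp, hZ q hq] at e; exact hb1.1 hp hq e
    · intro p hp
      rcases Finset.mem_union.1 hp with hp | hp
      · simp only [hY p hp]; exact ha1.2 p hp
      · simp only [hZ p hp]; exact hb1.2 p hp
    · rw [Finset.image_union, iY, iZ, Finset.union_sdiff_of_subset hY']
    · intro p hp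
      rw [Finset.mem_union, not_or] at hp
      simp only [if_neg hp.1]; exact hb3 p hp.2
  · intro σ hσ
    simp only [Finset.mem_filter, Set.Finite.mem_toFinset] at hσ
    funext p
    by_cases hp : p ∈ Y
    · simp only [if_pos hp, c3res_of_mem _ hp]
    · simp only [if_neg hp]
      by_cases hq : p ∈ Z
      · exact c3res_of_mem _ hq
      · rw [c3res_of_notMem _ hq, hσ.1.2.2 p (by simp [hp, hq])]
  · rintro ⟨α, β⟩ hab
    simp only [Finset.mem_product, Set.Finite.mem_toFinset] at hab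
    obtain ⟨⟨ha1, ha2, ha3⟩, hb1, hb2, hb3⟩ := hab
    refine Prod.ext ?_ ?_
    · funext p
      by_cases hp : p ∈ Y
      · simp only [c3res_of_mem _ hp, if_pos hp]
      · simp only [c3res_of_notMem _ hp, ha3 p hp]
    · funext p
      by_cases hp : p ∈ Z
      · simp only [c3res_of_mem _ hp, if_neg (Finset.disjoint_right.1 hYZ hp)]
      · simp only [c3res_of_notMem _ hp, hb3 p hp]
  · intro σ hσ
    simp only [Finset.mem_filter, Set.Finite.mem_toFinset] at hσ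
    rw [Γ.act_mul_KK hYZ hσ.1.1, himZ σ hσ.1 hσ.2, hσ.2,
      Γ.act_congr (σ := c3res Y σ) (τ := σ) (fun p hp => c3res_of_mem _ hp) hf,
      Γ.act_congr (σ := c3res Z σ) (τ := σ) (fun p hp => c3res_of_mem _ hp) hg]
/-- the averaging principle -/
theorem mem_of_Av {a : I → ℕ} {u : Fam P} (hu : u ∈ Γ.Ha a) {X : Finset P} (hX : Γ.ty X = a)
    {W : Submodule ℚ (Rg P)} (h : u X ∈ W) {T : Submodule ℚ (Fam P)}
    (hT : ∀ f ∈ W, Γ.Av X f ∈ T) : u ∈ T := by
  obtain ⟨c, hc, e⟩ := Γ.Av_self hu hX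
  have := hT _ h
  rw [e] at this
  exact (T.smul_mem_iff hc).1 this
/-- products of subspaces: the averages of `W₁ Y · W₂ Z · K` -/
theorem Av_mulK_mem {W₁ W₂ : Finset P → Submodule ℚ (Rg P)} (h₁ : Γ.Equi W₁) (h₂ : Γ.Equi W₂)
    (h₁' : ∀ X, W₁ X ≤ RX X) (h₂' : ∀ X, W₂ X ≤ RX X) {Y X : Finset P} (hY : Y ⊆ X)
    {T : Submodule ℚ (Fam P)}
    (hT : ∀ u ∈ Γ.Ha (Γ.ty Y) ⊓ lift W₁, ∀ w ∈ Γ.Ha (Γ.ty (X \ Y)) ⊓ lift W₂, Γ.sh u w ∈ T)
    {f : Rg P} (hf : f ∈ mulK (W₁ Y * W₂ (X \ Y)) (Γ.KK Y (X \ Y))) : Γ.Av X f ∈ T := by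
  obtain ⟨g, hg, rfl⟩ := mem_mulK.1 hf
  refine Submodule.mul_induction_on hg (fun a ha b hb => ?_) (fun a b ha hb => ?_)
  · have e := Γ.Av_mul (Finset.disjoint_sdiff (s := Y) (t := X)) (h₁' _ ha) (h₂' _ hb)
    rw [Finset.union_sdiff_of_subset hY] at e
    rw [e]
    exact hT _ ⟨Γ.Av_mem_Ha (h₁' _ ha), Γ.Av_mem_lift h₁ ha⟩ _
      ⟨Γ.Av_mem_Ha (h₂' _ hb), Γ.Av_mem_lift h₂ hb⟩
  · rw [add_mul, Av_add]
    exact T.add_mem ha hb
theorem equi_RX : Γ.Equi RX := by
  intro σ X _ f hf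
  exact rename_mem_RX σ hf

end Ctx
end Crest.Agent.R59
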