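import Crest.Agent.R59.C3

/-! # Row 59, C4: the ideals `IF`, `IT`. -/

set_option autoImplicit false

namespace Crest.Agent.R59
open scoped Classical
open MvPolynomial

namespace Ctx
variable {I P : Type} [Fintype I] [DecidableEq I] [LinearOrder P] (Γ : Ctx I P)

theorem c4_le {X : Finset P} {Q : Finset P → Prop} {T : Submodule ℚ (Rg P)}
    (h : ∀ W, Q W → ∀ a ∈ RX X, a * Γ.KK W (X \ W) ∈ T) :
    (⨆ (W : Finset P) (_ : Q W), mulK (RX X) (Γ.KK W (X \ W))) ≤ T := by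
  refine iSup₂_le fun W hW f hf => ?_
  obtain ⟨g, hg, rfl⟩ := mem_mulK.1 hf
  exact h W hW g hg

theorem c4_mem {X : Finset P} {Q : Finset P → Prop} {W : Finset P} (hW : Q W) {a : Rg P}
    (ha : a ∈ RX X) :
    a * Γ.KK W (X \ W) ∈ ⨆ (W : Finset P) (_ : Q W), mulK (RX X) (Γ.KK W (X \ W)) := by
  refine Submodule.mem_iSup_of_mem W (Submodule.mem_iSup_of_mem hW ?_)
  exact mem_mulK.2 ⟨a, ha, rfl⟩

theorem c4_IF_map {E : Type} [AddCommGroup E] [Module ℚ E] (L : Rg P →ₗ[ℚ] E) {X : Finset P}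
    {T : Submodule ℚ E}
    (h : ∀ W, W ⊆ X → Γ.th W < 0 → ∀ a ∈ RX X, L (a * Γ.KK W (X \ W)) ∈ T) {f : Rg P}
    (hf : f ∈ Γ.IF X) : L f ∈ T :=
  Γ.c4_le (Q := fun W => W ⊆ X ∧ Γ.th W < 0) (T := T.comap L)
    (fun W hW a ha => h W hW.1 hW.2 a ha) hf

theorem c4_IT_map {E : Type} [AddCommGroup E] [Module ℚ E] (L : Rg P →ₗ[ℚ] E) {X : Finset P}
    {T : Submodule ℚ E}
    (h : ∀ W, W ⊆ X → W ≠ X → 0 ≤ Γ.th (X \ W) → ∀ a ∈ RX X, L (a * Γ.KK W (X \ W)) ∈ T)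
    {f : Rg P} (hf : f ∈ Γ.IT X) : L f ∈ T :=
  Γ.c4_le (Q := fun W => W ⊆ X ∧ W ≠ X ∧ 0 ≤ Γ.th (X \ W)) (T := T.comap L)
    (fun W hW a ha => h W hW.1 hW.2.1 hW.2.2 a ha) hf

theorem c4_memIF {X W : Finset P} (hW : W ⊆ X) (h : Γ.th W < 0) {a : Rg P} (ha : a ∈ RX X) :
    a * Γ.KK W (X \ W) ∈ Γ.IF X :=
  Γ.c4_mem (Q := fun W => W ⊆ X ∧ Γ.th W < 0) ⟨hW, h⟩ ha

theorem c4_memIT {X W : Finset P} (hW : W ⊆ X) (hne : W ≠ X) (h : 0 ≤ Γ.th (X \ W))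
    {a : Rg P} (ha : a ∈ RX X) : a * Γ.KK W (X \ W) ∈ Γ.IT X :=
  Γ.c4_mem (Q := fun W => W ⊆ X ∧ W ≠ X ∧ 0 ≤ Γ.th (X \ W)) ⟨hW, hne, h⟩ ha

theorem c4_th_image {σ : P → P} {X : Finset P} (h : Γ.Adm σ X) :
    Γ.th (X.image σ) = Γ.th X := by
  rw [Γ.th_eq, Γ.th_eq, Γ.ty_image h]

theorem c4_image_sdiff {σ : P → P} {X W : Finset P} (h : Γ.Adm σ X) (hW : W ⊆ X) :
    (X \ W).image σ = X.image σ \ W.image σ :=
  Finset.image_sdiff_of_injOn h.1 hW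

theorem c4_rename {σ : P → P} {X W : Finset P} (h : Γ.Adm σ X) (hW : W ⊆ X) {a : Rg P}
    (ha : a ∈ RX X) : ∃ a' ∈ RX (X.image σ), rename σ (a * Γ.KK W (X \ W)) =
      a' * Γ.KK (W.image σ) (X.image σ \ W.image σ) := by
  obtain ⟨c, hc⟩ := Γ.rename_KK (σ := σ) (Y := W) (Z := X \ W) Finset.disjoint_sdiff
    (by rwa [Finset.union_sdiff_of_subset hW])
  refine ⟨c • rename σ a, (RX _).smul_mem c (rename_mem_RX σ ha), ?_⟩
  rw [map_mul, hc, Γ.c4_image_sdiff h hW, smul_mul_assoc, mul_smul_comm]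

theorem c4_dB_KK {B X W : Finset P} (h : X ⊆ B ∨ Disjoint B X) (hW : W ⊆ X) :
    dB B (Γ.KK W (X \ W)) = 0 := by
  refine Γ.dB_KK fun p hp q hq => ?_
  have hp' := hW hp
  have hq' := Finset.sdiff_subset hq
  rcases h with h | h
  · exact iff_of_true (h hp') (h hq')
  · exact iff_of_false (fun hb => Finset.disjoint_left.1 h hb hp')
      (fun hb => Finset.disjoint_left.1 h hb hq')

omit [Fintype I] [DecidableEq I] in
theorem c4_mul_RX {N : Submodule ℚ (Rg P)} {X : Finset P} {a f : Rg P} (ha : a ∈ RX X)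
    (hf : f ∈ N * RX X) : a * f ∈ N * RX X := by
  refine Submodule.mul_induction_on hf (fun u hu v hv => ?_) (fun x y hx hy => ?_)
  · rw [mul_left_comm]
    exact Submodule.mul_mem_mul hu (RX_mul ha hv)
  · rw [mul_add]
    exact Submodule.add_mem _ hx hy

/-- reduction for the two `IF_mul_KK` lemmas -/
theorem c4_mulK_le {B X : Finset P} (hB : B ⊆ X) {k : Rg P} {N : Submodule ℚ (Rg P)}
    (h : ∀ W, W ⊆ B → Γ.th W < 0 → Γ.KK W (B \ W) * k ∈ N * RX X) :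
    mulK (Γ.IF B * RX X) k ≤ N * RX X := by
  intro f hf
  obtain ⟨g, hg, rfl⟩ := mem_mulK.1 hf
  refine Submodule.mul_induction_on hg (fun u hu v hv => ?_) (fun x y hx hy => ?_)
  · have : (LinearMap.mulRight ℚ (v * k)) u ∈ N * RX X := by
      refine Γ.c4_IF_map _ (fun W hW hth a ha => ?_) hu
      have e : (LinearMap.mulRight ℚ (v * k)) (a * Γ.KK W (B \ W)) =
          (a * v) * (Γ.KK W (B \ W) * k) := by
        rw [LinearMap.mulRight_apply]; ring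
      rw [e]
      exact c4_mul_RX (RX_mul (RX_mono hB ha) hv) (h W hW hth)
    rwa [LinearMap.mulRight_apply, ← mul_assoc] at this
  · rw [add_mul]
    exact Submodule.add_mem _ hx hy

theorem c4_KK_mem_IF_mul {B W X : Finset P} (hB : B ⊆ X) (hW : W ⊆ X) (h : Γ.th (W ∩ B) < 0) :
    Γ.KK W (X \ W) ∈ Γ.IF B * RX X := by
  obtain ⟨r, hr, e⟩ := Γ.KK_dvd (Y := W) (Y' := W ∩ B) (Z := X \ W) (Z' := B \ (W ∩ B)) (X := X)
    Finset.inter_subset_left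
    (fun q hq => by
      simp only [Finset.mem_sdiff, Finset.mem_inter, not_and] at hq ⊢
      exact ⟨hB hq.1, fun hw => hq.2 hw hq.1⟩) hW Finset.sdiff_subset
  rw [e, mul_comm r]
  refine Submodule.mul_mem_mul ?_ hr
  have := Γ.c4_memIF (X := B) (W := W ∩ B) Finset.inter_subset_right h (RX_one B)
  rwa [one_mul] at this

theorem c4_exists_blk (lab : P → ℕ) {X W : Finset P} (hW : W ⊆ X) (h : Γ.th W < 0) :
    ∃ j, Γ.th (W ∩ blk lab X j) < 0 := by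
  by_contra hcon
  push Not at hcon
  have e : Γ.th W = ∑ j ∈ W.image lab, Γ.th (W ∩ blk lab X j) := by
    unfold th
    rw [← Finset.sum_fiberwise_of_maps_to (s := W) (t := W.image lab) (g := lab)
      (fun p hp => Finset.mem_image_of_mem lab hp)]
    refine Finset.sum_congr rfl fun j _ => Finset.sum_congr ?_ fun _ _ => rfl
    ext p
    simp only [blk, Finset.mem_filter, Finset.mem_inter]
    exact ⟨fun hp => ⟨hp.1, hW hp.1, hp.2⟩, fun hp => ⟨hp.1, hp.2.2⟩⟩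
  have : 0 ≤ Γ.th W := e ▸ Finset.sum_nonneg fun j _ => hcon j
  exact absurd h (not_lt.2 this)

omit [Fintype I] [DecidableEq I] in
theorem c4_dB_mul {B : Finset P} {N N' : Submodule ℚ (Rg P)} (h : ∀ f ∈ N, dB B f ∈ N)
    (h' : ∀ f ∈ N', dB B f ∈ N') {f : Rg P} (hf : f ∈ N * N') : dB B f ∈ N * N' := by
  refine Submodule.mul_induction_on hf (fun u hu v hv => ?_) (fun x y hx hy => ?_)
  · rw [dB_mul]
    exact Submodule.add_mem _ (Submodule.mul_mem_mul (h u hu) hv)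
      (Submodule.mul_mem_mul hu (h' v hv))
  · rw [map_add]
    exact Submodule.add_mem _ hx hy

theorem c4_Av_mem {X W : Finset P} (hW : W ⊆ X) {T : Submodule ℚ (Fam P)}
    (hT : ∀ u ∈ Γ.Ha (Γ.ty W), ∀ w ∈ Γ.Ha (Γ.ty (X \ W)), Γ.sh u w ∈ T) {a : Rg P}
    (ha : a ∈ RX X) : Γ.AvL X (a * Γ.KK W (X \ W)) ∈ T := by
  rw [AvL_apply]
  refine Γ.Av_mulK_mem (W₁ := RX) (W₂ := RX) Γ.equi_RX Γ.equi_RX (fun _ => le_rfl)
    (fun _ => le_rfl) hW (fun u hu w hw => hT u hu.1 w hw.1) (mem_mulK.2 ⟨a, ?_, rfl⟩)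
  rwa [← RX_union, Finset.union_sdiff_of_subset hW]

theorem IF_le (X : Finset P) : Γ.IF X ≤ RX X := by
  exact Γ.c4_le (Q := fun W => W ⊆ X ∧ Γ.th W < 0) fun W hW a ha =>
    RX_mul ha (Γ.KK_mem hW.1 Finset.sdiff_subset)
theorem IT_le (X : Finset P) : Γ.IT X ≤ RX X := by
  exact Γ.c4_le (Q := fun W => W ⊆ X ∧ W ≠ X ∧ 0 ≤ Γ.th (X \ W)) fun W hW a ha =>
    RX_mul ha (Γ.KK_mem hW.1 Finset.sdiff_subset)
theorem IF_mul {X : Finset P} {a f : Rg P} (ha : a ∈ RX X) (hf : f ∈ Γ.IF X) :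
    a * f ∈ Γ.IF X := by
  refine Γ.c4_IF_map (LinearMap.mulLeft ℚ a) (fun W hW h b hb => ?_) hf
  rw [LinearMap.mulLeft_apply, ← mul_assoc]
  exact Γ.c4_memIF hW h (RX_mul ha hb)
theorem IT_mul {X : Finset P} {a f : Rg P} (ha : a ∈ RX X) (hf : f ∈ Γ.IT X) :
    a * f ∈ Γ.IT X := by
  refine Γ.c4_IT_map (LinearMap.mulLeft ℚ a) (fun W hW hne h b hb => ?_) hf
  rw [LinearMap.mulLeft_apply, ← mul_assoc]
  exact Γ.c4_memIT hW hne h (RX_mul ha hb)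
theorem mul_KK_mem_IF {X W : Finset P} (hW : W ⊆ X) (h : Γ.th W < 0) {a : Rg P} (ha : a ∈ RX X) :
    a * Γ.KK W (X \ W) ∈ Γ.IF X := by
  exact Γ.c4_memIF hW h ha
theorem mul_KK_mem_IT {X W : Finset P} (hW : W ⊆ X) (hne : W ≠ X) (h : 0 ≤ Γ.th (X \ W))
    {a : Rg P} (ha : a ∈ RX X) : a * Γ.KK W (X \ W) ∈ Γ.IT X := by
  exact Γ.c4_memIT hW hne h ha
theorem IF_empty : Γ.IF ∅ = ⊥ := by
  refine le_bot_iff.1 (Γ.c4_le (Q := fun W => W ⊆ ∅ ∧ Γ.th W < 0) fun W hW a _ => ?_)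
  obtain ⟨h1, h2⟩ := hW
  rw [Finset.subset_empty.1 h1, Γ.th_empty] at h2
  exact absurd h2 (lt_irrefl _)
theorem IT_empty : Γ.IT ∅ = ⊥ := by
  refine le_bot_iff.1 (Γ.c4_le (Q := fun W => W ⊆ ∅ ∧ W ≠ ∅ ∧ 0 ≤ Γ.th (∅ \ W)) fun W hW a _ => ?_)
  exact absurd (Finset.subset_empty.1 hW.1) hW.2.1
theorem IF_eq_of_neg {X : Finset P} (h : Γ.th X < 0) : Γ.IF X = RX X := by
  refine le_antisymm (Γ.IF_le X) fun a ha => ?_
  have := Γ.c4_memIF (Finset.Subset.refl X) h ha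
  rwa [Finset.sdiff_self, Γ.KK_empty_right, mul_one] at this
theorem IT_eq_of_nonneg {X : Finset P} (hX : X ≠ ∅) (h : 0 ≤ Γ.th X) : Γ.IT X = RX X := by
  refine le_antisymm (Γ.IT_le X) fun a ha => ?_
  have := Γ.c4_memIT (Finset.empty_subset X) hX.symm (by rwa [Finset.sdiff_empty]) ha
  rwa [Γ.KK_empty_left, mul_one] at this
theorem equi_IF : Γ.Equi Γ.IF := by
  intro σ X h f hf
  refine Γ.c4_IF_map (rename σ : Rg P →ₐ[ℚ] Rg P).toLinearMap (fun W hW hth a ha => ?_) hf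
  obtain ⟨a', ha', e⟩ := Γ.c4_rename h hW ha
  rw [AlgHom.toLinearMap_apply, e]
  exact Γ.c4_memIF (Finset.image_subset_image hW) (by rwa [Γ.c4_th_image (h.mono hW)]) ha'
theorem equi_IT : Γ.Equi Γ.IT := by
  intro σ X h f hf
  refine Γ.c4_IT_map (rename σ : Rg P →ₐ[ℚ] Rg P).toLinearMap (fun W hW hne hth a ha => ?_) hf
  obtain ⟨a', ha', e⟩ := Γ.c4_rename h hW ha
  rw [AlgHom.toLinearMap_apply, e]
  refine Γ.c4_memIT (Finset.image_subset_image hW) (fun hh => hne ?_) ?_ ha'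
  · have h0 : (X \ W).image σ = ∅ := by rw [Γ.c4_image_sdiff h hW, hh, Finset.sdiff_self]
    rw [Finset.image_eq_empty, Finset.sdiff_eq_empty_iff_subset] at h0
    exact Finset.Subset.antisymm hW h0
  · rwa [← Γ.c4_image_sdiff h hW, Γ.c4_th_image (h.mono Finset.sdiff_subset)]
theorem grd_IF (X : Finset P) : Grd (Γ.IF X) := by
  exact Grd.iSup fun W => Grd.iSup fun _ => (grd_RX X).mulK (Γ.KK_hom _ _)
theorem grd_IT (X : Finset P) : Grd (Γ.IT X) := by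
  exact Grd.iSup fun W => Grd.iSup fun _ => (grd_RX X).mulK (Γ.KK_hom _ _)
theorem dB_IF {B X : Finset P} (h : X ⊆ B ∨ Disjoint B X) {f : Rg P} (hf : f ∈ Γ.IF X) :
    dB B f ∈ Γ.IF X := by
  refine Γ.c4_IF_map (dB B) (fun W hW hth a ha => ?_) hf
  rw [dB_mul, Γ.c4_dB_KK h hW, mul_zero, add_zero]
  exact Γ.c4_memIF hW hth (dB_mem_RX B ha)
theorem dB_IT {B X : Finset P} (h : X ⊆ B ∨ Disjoint B X) {f : Rg P} (hf : f ∈ Γ.IT X) :
    dB B f ∈ Γ.IT X := by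
  refine Γ.c4_IT_map (dB B) (fun W hW hne hth a ha => ?_) hf
  rw [dB_mul, Γ.c4_dB_KK h hW, mul_zero, add_zero]
  exact Γ.c4_memIT hW hne hth (dB_mem_RX B ha)
/-- `K(W, Y \ W) K(Y, Z)` is divisible by `K(W, (Y ∪ Z) \ W)` -/
theorem IF_mul_KK_left {Y Z X : Finset P} (hYZ : Disjoint Y Z) (hX : Y ∪ Z ⊆ X) :
    mulK (Γ.IF Y * RX X) (Γ.KK Y Z) ≤ Γ.IF (Y ∪ Z) * RX X := by
  have hY : Y ⊆ X := Finset.subset_union_left.trans hX
  have hZ : Z ⊆ X := Finset.subset_union_right.trans hX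
  refine Γ.c4_mulK_le hY fun W hW hth => ?_
  obtain ⟨r, hr, e⟩ := Γ.KK_dvd (Y := Y) (Y' := W) (Z := Z) (Z' := Z) (X := X) hW
    (Finset.Subset.refl Z) hY hZ
  have hs : (Y ∪ Z) \ W = (Y \ W) ∪ Z := by
    ext p
    simp only [Finset.mem_sdiff, Finset.mem_union]
    constructor
    · rintro ⟨h1 | h1, h2⟩
      · exact Or.inl ⟨h1, h2⟩
      · exact Or.inr h1
    · rintro (⟨h1, h2⟩ | h1)
      · exact ⟨Or.inl h1, h2⟩
      · exact ⟨Or.inr h1, fun hw => Finset.disjoint_left.1 hYZ (hW hw) h1⟩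
  have hm := Γ.c4_memIF (X := Y ∪ Z) (hW.trans Finset.subset_union_left) hth (RX_one _)
  rw [one_mul, hs, Γ.KK_union_right W (Finset.disjoint_of_subset_left Finset.sdiff_subset hYZ)]
    at hm
  rw [e, mul_left_comm, mul_comm r]
  exact Submodule.mul_mem_mul hm hr
/-- `K(W, Z \ W) K(Y, Z)` is divisible by `K(Y ∪ W, Z \ W)` -/
theorem IF_mul_KK_right {Y Z X : Finset P} (hYZ : Disjoint Y Z) (hX : Y ∪ Z ⊆ X)
    (hY : Γ.th Y ≤ 0) : mulK (Γ.IF Z * RX X) (Γ.KK Y Z) ≤ Γ.IF (Y ∪ Z) * RX X := by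
  have hY' : Y ⊆ X := Finset.subset_union_left.trans hX
  have hZ : Z ⊆ X := Finset.subset_union_right.trans hX
  refine Γ.c4_mulK_le hZ fun W hW hth => ?_
  obtain ⟨r, hr, e⟩ := Γ.KK_dvd (Y := Y) (Y' := Y) (Z := Z) (Z' := Z \ W) (X := X)
    (Finset.Subset.refl Y) Finset.sdiff_subset hY' hZ
  have hYW : Disjoint Y W := Finset.disjoint_of_subset_right hW hYZ
  have hs : (Y ∪ Z) \ (Y ∪ W) = Z \ W := by
    ext p
    simp only [Finset.mem_sdiff, Finset.mem_union, not_or]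
    constructor
    · rintro ⟨h1 | h1, h2, h3⟩
      · exact absurd h1 h2
      · exact ⟨h1, h3⟩
    · rintro ⟨h1, h2⟩
      exact ⟨Or.inr h1, fun hy => Finset.disjoint_left.1 hYZ hy h1, h2⟩
  have hm := Γ.c4_memIF (X := Y ∪ Z) (W := Y ∪ W) (Finset.union_subset_union_right hW)
    (by rw [Γ.th_union hYW]; linarith) (RX_one _)
  rw [one_mul, hs, Γ.KK_union_left hYW] at hm
  rw [e, mul_left_comm, mul_comm r, mul_comm (Γ.KK W (Z \ W))]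
  exact Submodule.mul_mem_mul hm hr
theorem IF_mul_RX (X : Finset P) : Γ.IF X * RX X = Γ.IF X := by
  refine le_antisymm (Submodule.mul_le.2 fun u hu v hv => ?_) fun f hf => ?_
  · rw [mul_comm]
    exact Γ.IF_mul hv hu
  · have := Submodule.mul_mem_mul hf (RX_one X)
    rwa [mul_one] at this
/-- `θ(W) < 0` forces `θ(W ∩ B) < 0` for some block `B` -/
theorem IF_le_Ipi (lab : P → ℕ) (X : Finset P) : Γ.IF X ≤ Γ.Ipi lab X := by
  refine Γ.c4_le (Q := fun W => W ⊆ X ∧ Γ.th W < 0) fun W hW a ha => ?_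
  obtain ⟨j, hj⟩ := Γ.c4_exists_blk lab hW.1 hW.2
  exact Submodule.mem_iSup_of_mem j
    (c4_mul_RX ha (Γ.c4_KK_mem_IF_mul (Finset.filter_subset _ _) hW.1 hj))
/-- if `θ(W ∩ B) < 0` then `K(W, X \ W)` lies in the ideal of `B ⊆ X` -/
theorem KK_mem_IF_mul {B W X : Finset P} (hB : B ⊆ X) (hW : W ⊆ X) (h : Γ.th (W ∩ B) < 0) :
    Γ.KK W (X \ W) ∈ Γ.IF B * RX X := by
  exact Γ.c4_KK_mem_IF_mul hB hW h

/-- the subspace `N(Y) = IT(Y) R(Z) + R(Y) IF(Z)` -/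
noncomputable def NH (Y Z : Finset P) : Submodule ℚ (Rg P) := Γ.IT Y * RX Z ⊔ RX Y * Γ.IF Z

theorem NH_mul {Y Z : Finset P} {a f : Rg P} (ha : a ∈ RX (Y ∪ Z)) (hf : f ∈ Γ.NH Y Z) :
    a * f ∈ Γ.NH Y Z := by
  rw [RX_union] at ha
  have key : (RX Y * RX Z) * Γ.NH Y Z ≤ Γ.NH Y Z := by
    unfold NH
    rw [Submodule.mul_sup, mul_mul_mul_comm, mul_mul_mul_comm (RX Y) (RX Z) (RX Y), RX_mul_self,
      RX_mul_self]
    refine sup_le_sup (mul_le_mul' ?_ le_rfl) (mul_le_mul' le_rfl ?_)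
    · exact Submodule.mul_le.2 fun u hu v hv => Γ.IT_mul hu hv
    · exact Submodule.mul_le.2 fun u hu v hv => Γ.IF_mul hu hv
  exact key (Submodule.mul_mem_mul ha hf)
/-- If `θ(Y' \ Y) < 0` use `IF (X \ Y)`; otherwise `θ(Y ∩ Y') ≤ θ(Y') ≤ θ(Y)` and `Y ∩ Y' ≠ Y`,
use `IT Y` (`KK_dvd`). -/
theorem KK_mem_NH {X Y Y' : Finset P} (hY : Y ⊆ X) (hY' : Y' ⊆ X) (hne : Y' ≠ Y)
    (hk : Γ.th Y' < Γ.th Y ∨ (Γ.th Y' = Γ.th Y ∧ Y'.card ≤ Y.card)) :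
    Γ.KK Y' (X \ Y') ∈ Γ.NH Y (X \ Y) := by
  have hXu : Y ∪ (X \ Y) = X := Finset.union_sdiff_of_subset hY
  by_cases hneg : Γ.th (Y' \ Y) < 0
  · obtain ⟨r, hr, e⟩ := Γ.KK_dvd (Y := Y') (Y' := Y' \ Y) (Z := X \ Y')
      (Z' := (X \ Y) \ (Y' \ Y)) (X := X) Finset.sdiff_subset
      (fun q hq => by
        simp only [Finset.mem_sdiff, not_and, not_not] at hq ⊢
        exact ⟨hq.1.1, fun hy => hq.1.2 (hq.2 hy)⟩) hY' Finset.sdiff_subset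
    rw [e]
    refine Γ.NH_mul (by rwa [hXu]) (Submodule.mem_sup_right ?_)
    have hm := Γ.c4_memIF (X := X \ Y) (W := Y' \ Y) (Finset.sdiff_subset_sdiff hY' le_rfl) hneg
      (RX_one _)
    have := Submodule.mul_mem_mul (RX_one Y) hm
    rwa [one_mul, one_mul] at this
  · have hnn : 0 ≤ Γ.th (Y' \ Y) := not_lt.1 hneg
    have h1 : Γ.th (Y' \ (Y ∩ Y')) = Γ.th Y' - Γ.th (Y ∩ Y') :=
      Γ.th_sdiff Finset.inter_subset_right
    rw [Finset.sdiff_inter_self_right] at h1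
    have h2 : Γ.th (Y \ (Y ∩ Y')) = Γ.th Y - Γ.th (Y ∩ Y') :=
      Γ.th_sdiff Finset.inter_subset_left
    have hle : Γ.th Y' ≤ Γ.th Y := hk.elim le_of_lt fun h => h.1.le
    have hWne : Y ∩ Y' ≠ Y := by
      intro hh
      have hsub : Y ⊆ Y' := hh ▸ Finset.inter_subset_right
      rw [hh] at h1
      rcases hk with hk | hk
      · linarith
      · exact hne (Finset.eq_of_subset_of_card_le hsub hk.2).symm
    obtain ⟨r, hr, e⟩ := Γ.KK_dvd (Y := Y') (Y' := Y ∩ Y') (Z := X \ Y')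
      (Z' := Y \ (Y ∩ Y')) (X := X) Finset.inter_subset_right
      (fun q hq => by
        simp only [Finset.mem_sdiff, Finset.mem_inter, not_and] at hq ⊢
        exact ⟨hY hq.1, hq.2 hq.1⟩) hY' Finset.sdiff_subset
    rw [e]
    refine Γ.NH_mul (by rwa [hXu]) (Submodule.mem_sup_left ?_)
    have hm := Γ.c4_memIT (X := Y) (W := Y ∩ Y') Finset.inter_subset_left hWne
      (by rw [h2]; linarith) (RX_one _)
    have := Submodule.mul_mem_mul hm (RX_one (X \ Y))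
    rwa [one_mul, mul_one] at this
/-- `nzd` with the constant filtration -/
theorem nzd_NH {Y Z : Finset P} (hYZ : Disjoint Y Z) {w : Rg P} (h : Γ.KK Y Z * w ∈ Γ.NH Y Z) :
    w ∈ Γ.NH Y Z := by
  refine Γ.nzd (fun _ => Γ.NH Y Z) hYZ (fun p hp _ f hf => Γ.NH_mul (RX_X hp) hf)
    (fun _ f hf => ?_) (k := 0) h
  obtain ⟨u, hu, v, hv, rfl⟩ := Submodule.mem_sup.1 hf
  rw [map_add]
  refine Submodule.add_mem _ (Submodule.mem_sup_left ?_) (Submodule.mem_sup_right ?_)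
  · exact c4_dB_mul (fun g hg => Γ.dB_IT (Or.inr hYZ.symm) hg) (fun g hg => dB_mem_RX Z hg) hu
  · exact c4_dB_mul (fun g hg => dB_mem_RX Z hg)
      (fun g hg => Γ.dB_IF (Or.inl (Finset.Subset.refl Z)) hg) hv

/-- `mem_of_Av`, `Av_mulK_mem` with `RX X = RX W * RX (X \ W)` -/
theorem Ha_IF_le (a : I → ℕ) {T : Submodule ℚ (Fam P)}
    (hT : ∀ c e, c + e = a → Γ.thT c < 0 → ∀ u ∈ Γ.Ha c, ∀ w ∈ Γ.Ha e, Γ.sh u w ∈ T) :
    Γ.Ha a ⊓ lift Γ.IF ≤ T := by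
  intro u hu
  obtain ⟨X, hX⟩ := Γ.exists_ty a
  refine Γ.mem_of_Av hu.1 hX (mem_lift.1 hu.2 X) fun f hf => ?_
  refine Γ.c4_IF_map (Γ.AvL X) (fun W hW hth b hb => ?_) hf
  exact Γ.c4_Av_mem hW (hT _ _ (by rw [Γ.ty_sdiff hW, hX]) (by rwa [← Γ.th_eq])) hb
theorem Ha_IT_le (a : I → ℕ) {T : Submodule ℚ (Fam P)}
    (hT : ∀ c e, c + e = a → e ≠ 0 → 0 ≤ Γ.thT e → ∀ u ∈ Γ.Ha c, ∀ w ∈ Γ.Ha e, Γ.sh u w ∈ T) :
    Γ.Ha a ⊓ lift Γ.IT ≤ T := by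
  intro u hu
  obtain ⟨X, hX⟩ := Γ.exists_ty a
  refine Γ.mem_of_Av hu.1 hX (mem_lift.1 hu.2 X) fun f hf => ?_
  refine Γ.c4_IT_map (Γ.AvL X) (fun W hW hne hth b hb => ?_) hf
  refine Γ.c4_Av_mem hW (hT _ _ (by rw [Γ.ty_sdiff hW, hX]) (fun h0 => hne ?_)
    (by rwa [← Γ.th_eq])) hb
  rw [Γ.ty_eq_zero, Finset.sdiff_eq_empty_iff_subset] at h0
  exact Finset.Subset.antisymm hW h0

end Ctx
end Crest.Agent.R59
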