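import Crest.Agent.R59.C5a

/-! # Row 59, C5: the torsion-pair (Harder–Narasimhan) decomposition of the shuffle algebra. -/

set_option autoImplicit false

namespace Crest.Agent.R59
noncomputable section
open scoped Classical
open MvPolynomial

namespace Ctx
variable {I P : Type} [Fintype I] [DecidableEq I] [LinearOrder P] (Γ : Ctx I P)

theorem c5_qb_mem (W : Finset P → Submodule ℚ (Rg P)) (a : I → ℕ) (m : ℕ)
    (i : Fin (Γ.hq W a m)) : Γ.qb W a m i ∈ Γ.Ham a m := (Γ.qb_spec W a m).1 i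

theorem c5_qb_RX (W : Finset P → Submodule ℚ (Rg P)) (a : I → ℕ) (m : ℕ)
    (i : Fin (Γ.hq W a m)) (X : Finset P) : Γ.qb W a m i X ∈ RX X :=
  (Γ.mem_Ha.1 (Γ.mem_Ham.1 (Γ.c5_qb_mem W a m i)).1).1.1 X

theorem c5_qb_zero (W : Finset P → Submodule ℚ (Rg P)) (a : I → ℕ) (m : ℕ)
    (i : Fin (Γ.hq W a m)) {X : Finset P} (hX : Γ.ty X ≠ a) : Γ.qb W a m i X = 0 :=
  (Γ.mem_Ha.1 (Γ.mem_Ham.1 (Γ.c5_qb_mem W a m i)).1).2 X hX

theorem c5_con_NH {Y Z : Finset P} (φ : Rg P →ₗ[ℚ] ℚ) (hφ : ∀ f ∈ Γ.IT Y, φ f = 0)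
    (c : Rg P →ₗ[ℚ] Rg P) (hc : ∀ a ∈ RX Y, ∀ b ∈ RX Z, c (a * b) = φ a • b) {w : Rg P}
    (hw : w ∈ Γ.NH Y Z) : c w ∈ Γ.IF Z := by
  have : Γ.NH Y Z ≤ (Γ.IF Z).comap c := by
    refine sup_le (Submodule.mul_le.2 fun a ha b hb => ?_) (Submodule.mul_le.2 fun a ha b hb => ?_)
    · rw [Submodule.mem_comap, hc a (Γ.IT_le Y ha) b hb, hφ a ha, zero_smul]
      exact Submodule.zero_mem _
    · rw [Submodule.mem_comap, hc a ha b (Γ.IF_le Z hb)]
      exact Submodule.smul_mem _ _ hb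
  exact this hw

/-- the value of a product at `X`, modulo `NH Y (X \ Y)` -/
theorem c5_hb_sub {X Y : Finset P} (hY : Y ⊆ X) (j : Γ.HIx)
    (hk : Γ.thT j.c < Γ.th Y ∨ (Γ.thT j.c = Γ.th Y ∧ ∑ i, j.c i ≤ Y.card)) :
    Γ.hb j X - Γ.KK Y (X \ Y) * (Γ.qb Γ.IT j.c j.r.1 j.r.2 Y * Γ.qb Γ.IF j.e j.s.1 j.s.2 (X \ Y)) ∈
      Γ.NH Y (X \ Y) := by
  unfold hb sh
  rw [← Finset.add_sum_erase _ _ (Finset.mem_powerset.2 hY), mul_comm (Γ.KK Y (X \ Y)),
    add_sub_cancel_left]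
  refine Submodule.sum_mem _ fun Y' hY' => ?_
  obtain ⟨hne, hY'⟩ := Finset.mem_erase.1 hY'
  rw [Finset.mem_powerset] at hY'
  by_cases ht : Γ.ty Y' = j.c
  · refine Γ.NH_mul ?_ (Γ.KK_mem_NH hY hY' hne ?_)
    · rw [Finset.union_sdiff_of_subset hY]
      exact RX_mul (RX_mono hY' (Γ.c5_qb_RX _ _ _ _ _))
        (RX_mono Finset.sdiff_subset (Γ.c5_qb_RX _ _ _ _ _))
    · rw [Γ.th_eq Y', Γ.card_eq_ty Y', ht]
      exact hk
  · rw [Γ.c5_qb_zero _ _ _ _ ht, zero_mul, zero_mul]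
    exact Submodule.zero_mem _

/-- Take `c` of maximal key among the types in the support, `Y ⊆ X` of type `c`; evaluate at `X`
modulo `NH Y (X \ Y)` (`KK_mem_NH`, `NH_mul`, `nzd_NH`); contract (`exists_con`) with a functional
dual to `r_β(Y)` killing `IT Y` (`exists_dual`, `qb_indep`); conclude with `qb_indep` for `IF`. -/
theorem hn_indep (a : I → ℕ) (x : Γ.HIx →₀ ℚ) (hx : ∀ j ∈ x.support, j.c + j.e = a)
    (h : (x.sum fun j c => c • Γ.hb j) = 0) : x = 0 := by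
  by_contra hx0
  obtain ⟨⟨c, e, r0, s0⟩, hj0, hmax⟩ := Finset.exists_max_image x.support
    (fun j => toLex (Γ.thT j.c, ∑ i, j.c i)) (Finsupp.support_nonempty_iff.2 hx0)
  have hce : c + e = a := hx _ hj0
  obtain ⟨X, hX⟩ := Γ.exists_ty a
  obtain ⟨Y, hY, hYc⟩ := Γ.exists_subset_ty (X := X) (c := c) (by
    rw [hX, ← hce]
    exact le_self_add)
  have hZe : Γ.ty (X \ Y) = e := by
    have := Γ.ty_sdiff hY
    rw [hYc, hX, ← hce] at this
    exact add_left_cancel this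
  have hdis : Disjoint Y (X \ Y) := Finset.disjoint_sdiff
  -- the reduced sum
  have hw : ∑ j ∈ x.support, x j •
      (Γ.qb Γ.IT j.c j.r.1 j.r.2 Y * Γ.qb Γ.IF j.e j.s.1 j.s.2 (X \ Y)) ∈ Γ.NH Y (X \ Y) := by
    refine Γ.nzd_NH hdis ?_
    have h1 : ∑ j ∈ x.support, x j • Γ.hb j X = 0 := by
      have := congrFun h X
      rwa [Finsupp.sum, Finset.sum_apply] at this
    have h2 : ∑ j ∈ x.support, x j • (Γ.hb j X - Γ.KK Y (X \ Y) *
        (Γ.qb Γ.IT j.c j.r.1 j.r.2 Y * Γ.qb Γ.IF j.e j.s.1 j.s.2 (X \ Y))) ∈ Γ.NH Y (X \ Y) := by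
      refine Submodule.sum_mem _ fun j hj => Submodule.smul_mem _ _ (Γ.c5_hb_sub hY j ?_)
      have := Prod.Lex.toLex_le_toLex.1 (hmax j hj)
      rwa [Γ.th_eq Y, Γ.card_eq_ty Y, hYc]
    simp only [smul_sub, Finset.sum_sub_distrib, h1, zero_sub, neg_mem_iff] at h2
    simpa only [Finset.mul_sum, mul_smul_comm] using h2
  obtain ⟨φ, hφ, hφ'⟩ := exists_dual (Γ.IT Y)
    (fun ρ : Σ m, Fin (Γ.hq Γ.IT c m) => Γ.qb Γ.IT c ρ.1 ρ.2 Y)
    (fun y hy => Γ.qb_indep Γ.equi_IT Γ.grd_IT hYc y hy) r0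
  obtain ⟨con, hcon⟩ := exists_con Y φ
  have h3 := Γ.c5_con_NH φ hφ con (fun a ha b hb => hcon a ha _ hdis b hb) hw
  rw [map_sum] at h3
  have hinj : Function.Injective
      (fun s : Σ m, Fin (Γ.hq Γ.IF e m) => (⟨c, e, r0, s⟩ : Γ.HIx)) := by
    intro s s' hs
    cases hs
    rfl
  have h4 := Γ.qb_indep Γ.equi_IF Γ.grd_IF hZe (x.comapDomain _ hinj.injOn) (by
    rw [Finsupp.sum, Finsupp.comapDomain_support]
    rw [← Finset.sum_preimage _ x.support hinj.injOn] at h3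
    · convert h3 using 2 with s
      rw [map_smul, hcon _ (Γ.c5_qb_RX _ _ _ _ _) _ hdis _ (Γ.c5_qb_RX _ _ _ _ _)]
      have := hφ' r0
      rw [if_pos rfl] at this
      dsimp only
      rw [this, one_smul]
      rfl
    · rintro ⟨c', e', r', s'⟩ hj hr
      rw [map_smul, hcon _ (Γ.c5_qb_RX _ _ _ _ _) _ hdis _ (Γ.c5_qb_RX _ _ _ _ _)]
      dsimp only
      by_cases hc : c' = c
      · subst hc
        have he : e' = e := add_left_cancel ((hx _ hj).trans hce.symm)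
        subst he
        have := hφ' r'
        rw [if_neg (fun hrr => hr ⟨s', by rw [hrr]⟩)] at this
        rw [this, zero_smul, smul_zero]
      · rw [Γ.c5_qb_zero _ _ _ _ (fun hh => hc (hh.symm.trans hYc)), map_zero, zero_smul,
          smul_zero])
  have h5 := DFunLike.congr_fun h4 s0
  exact Finsupp.mem_support_iff.1 hj0 h5

/-- `ncard_eq_hq` with `W = ⊥` -/
theorem hn_count (a : I → ℕ) (m : ℕ) :
    Γ.hA a m = ∑ c ∈ Finset.Iic a, ∑ m₁ ∈ Finset.range (m + 1), ∑ m₂ ∈ Finset.range (m + 1),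
        if m₁ + m₂ + Γ.bT c (a - c) = m then Γ.hT c m₁ * Γ.hF (a - c) m₂ else 0 := by
  have hbot : (lift fun _ : Finset P => (⊥ : Submodule ℚ (Rg P))) = ⊥ := by
    refine eq_bot_iff.2 fun u hu => ?_
    rw [Submodule.mem_bot]
    exact funext fun X => (Submodule.mem_bot ℚ).1 (mem_lift.1 hu X)
  have h1 := (Γ.ncard_eq_hq (W := fun _ => ⊥) (fun X k f hf => by
      rw [(Submodule.mem_bot ℚ).1 hf, map_zero]
      exact Submodule.zero_mem _) (a := a) Γ.hb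
    (fun j => j.r.1 + j.s.1 + Γ.bT j.c j.e) {j | j.c + j.e = a}
    (fun j hj => by
      have := Γ.sh_mem_Ham (Γ.c5_qb_mem Γ.IT j.c j.r.1 j.r.2) (Γ.c5_qb_mem Γ.IF j.e j.s.1 j.s.2)
      rwa [show j.c + j.e = a from hj] at this)
    (fun x hx h => Γ.hn_indep a x (fun j hj => hx hj) (by rwa [hbot, Submodule.mem_bot] at h))
    ((Γ.hn_span a).trans le_sup_right) m).2
  have h2 : Γ.hq (fun _ => ⊥) a m = Γ.hA a m := by
    unfold hq hA
    rw [hbot, inf_bot_eq, finrank_bot, Nat.sub_zero]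
  rw [← h2, ← h1]
  let D : Finset ((I → ℕ) × ℕ × ℕ) :=
    (Finset.Iic a ×ˢ Finset.range (m + 1) ×ˢ Finset.range (m + 1)).filter
      fun t => t.2.1 + t.2.2 + Γ.bT t.1 (a - t.1) = m
  let g : (Σ t : (I → ℕ) × ℕ × ℕ, Fin (Γ.hT t.1 t.2.1) × Fin (Γ.hF (a - t.1) t.2.2)) → Γ.HIx :=
    fun u => ⟨u.1.1, a - u.1.1, ⟨u.1.2.1, u.2.1⟩, ⟨u.1.2.2, u.2.2⟩⟩
  have hg : Function.Injective g := by
    rintro ⟨⟨c, m1, m2⟩, i, k⟩ ⟨⟨c', m1', m2'⟩, i', k'⟩ h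
    simp only [g, HIx.mk.injEq] at h
    obtain ⟨rfl, -, h1, h2⟩ := h
    cases h1
    cases h2
    rfl
  have h3 : {j : Γ.HIx | j ∈ {j : Γ.HIx | j.c + j.e = a} ∧ j.r.1 + j.s.1 + Γ.bT j.c j.e = m} =
      g '' ((D.sigma fun _ => Finset.univ : Finset (Σ t : (I → ℕ) × ℕ × ℕ,
        Fin (Γ.hT t.1 t.2.1) × Fin (Γ.hF (a - t.1) t.2.2))) : Set _) := by
    ext ⟨c, e, ⟨m1, i⟩, ⟨m2, k⟩⟩
    constructor
    · rintro ⟨hce, hm⟩
      have hce' : c + e = a := hce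
      have hm' : m1 + m2 + Γ.bT c e = m := hm
      obtain rfl : e = a - c := by rw [← hce', add_tsub_cancel_left]
      refine ⟨⟨(c, m1, m2), i, k⟩, ?_, rfl⟩
      simp only [D, Finset.coe_sigma, Set.mem_sigma_iff, Finset.mem_coe, Finset.mem_filter,
        Finset.mem_product, Finset.mem_Iic, Finset.mem_range, Finset.mem_univ, and_true]
      exact ⟨⟨hce' ▸ le_self_add, by omega, by omega⟩, hm'⟩
    · rintro ⟨⟨⟨c', m1', m2'⟩, i', k'⟩, hu, he⟩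
      simp only [D, Finset.coe_sigma, Set.mem_sigma_iff, Finset.mem_coe, Finset.mem_filter,
        Finset.mem_product, Finset.mem_Iic, Finset.mem_range, Finset.mem_univ, and_true] at hu
      rw [← he]
      exact ⟨add_tsub_cancel_of_le hu.1.1, hu.2⟩
  rw [h3, Set.ncard_image_of_injective _ hg, Set.ncard_coe_finset, Finset.card_sigma]
  simp only [Finset.card_univ, Fintype.card_prod, Fintype.card_fin, D, Finset.sum_filter,
    Finset.sum_product]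

theorem c5_hq_eq_zero {W : Finset P → Submodule ℚ (Rg P)} {c : I → ℕ}
    (h : ∀ X, Γ.ty X = c → W X = RX X) (m : ℕ) : Γ.hq W c m = 0 := by
  have : Γ.Ham c m ≤ lift W := fun u hu => mem_lift.2 fun X => by
    have hu' := Γ.mem_Ha.1 (Γ.mem_Ham.1 hu).1
    by_cases hX : Γ.ty X = c
    · rw [h X hX]
      exact hu'.1.1 X
    · rw [hu'.2 X hX]
      exact Submodule.zero_mem _
  unfold hq
  rw [inf_eq_left.2 this, Nat.sub_self]

theorem c5_hq_zero {W : Finset P → Submodule ℚ (Rg P)} (h : W ∅ = ⊥) (m : ℕ) :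
    Γ.hq W 0 m = if m = 0 then 1 else 0 := by
  have h1 : Γ.Ham 0 m ⊓ lift W = ⊥ := by
    refine eq_bot_iff.2 fun u hu => ?_
    rw [Submodule.mem_bot]
    refine Γ.eq_zero_of_one (Γ.mem_Ham.1 hu.1).1 (Γ.ty_eq_zero.2 rfl) ?_
    have := mem_lift.1 hu.2 ∅
    rwa [h, Submodule.mem_bot] at this
  have h0 : Γ.Ham 0 0 = Submodule.span ℚ {oneF} :=
    le_antisymm (fun u hu => Γ.Ha_zero ▸ (Γ.mem_Ham.1 hu).1)
      ((Submodule.span_singleton_le_iff_mem _ _).2 Γ.oneF_mem)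
  unfold hq
  rw [h1, finrank_bot, Nat.sub_zero]
  split_ifs with hm
  · subst hm
    rw [h0]
    refine finrank_span_singleton fun hh => ?_
    have := congrFun hh ∅
    simp [oneF] at this
  · have h2 : Γ.Ham 0 m = ⊥ := by
      refine eq_bot_iff.2 fun u hu => ?_
      have hu0 : u ∈ Γ.Ham 0 0 := by
        rw [h0, ← Γ.Ha_zero]
        exact (Γ.mem_Ham.1 hu).1
      have a1 := Γ.hc_of_mem_Ham hu m
      have a2 := Γ.hc_of_mem_Ham hu0 m
      rw [if_pos rfl] at a1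
      rw [if_neg hm] at a2
      rw [Submodule.mem_bot, ← a1, a2]
    rw [h2, finrank_bot]

theorem hT_ne_zero {c : I → ℕ} {m : ℕ} (h : Γ.hT c m ≠ 0) : c = 0 ∨ Γ.thT c < 0 := by
  by_contra hc
  rw [not_or, not_lt] at hc
  refine h (Γ.c5_hq_eq_zero (fun X hX => Γ.IT_eq_of_nonneg (fun h0 => hc.1 ?_) ?_) m)
  · rw [← hX, Γ.ty_eq_zero.2 h0]
  · rw [Γ.th_eq, hX]
    exact hc.2
theorem hF_ne_zero {c : I → ℕ} {m : ℕ} (h : Γ.hF c m ≠ 0) : 0 ≤ Γ.thT c := by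
  by_contra hc
  rw [not_le] at hc
  refine h (Γ.c5_hq_eq_zero (fun X hX => Γ.IF_eq_of_neg ?_) m)
  rw [Γ.th_eq, hX]
  exact hc
theorem hT_zero (m : ℕ) : Γ.hT 0 m = if m = 0 then 1 else 0 := Γ.c5_hq_zero Γ.IT_empty m
theorem hF_zero (m : ℕ) : Γ.hF 0 m = if m = 0 then 1 else 0 := Γ.c5_hq_zero Γ.IF_empty m

end Ctx
end
end Crest.Agent.R59
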