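import Crest.Agent.R59.C4

/-! # Row 59, C5: the torsion-pair (Harder–Narasimhan) decomposition of the shuffle algebra. -/

set_option autoImplicit false

namespace Crest.Agent.R59
noncomputable section
open scoped Classical
open MvPolynomial

namespace Ctx
variable {I P : Type} [Fintype I] [DecidableEq I] [LinearOrder P] (Γ : Ctx I P)

/-- chosen basis of `Ham a m` modulo `lift W` -/
def qb (W : Finset P → Submodule ℚ (Rg P)) (a : I → ℕ) (m : ℕ) : Fin (Γ.hq W a m) → Fam P :=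
  cfam (Γ.Ham a m ⊓ lift W) (Γ.Ham a m) _

theorem qb_spec (W : Finset P → Submodule ℚ (Rg P)) (a : I → ℕ) (m : ℕ) :
    IsCompl' (Γ.Ham a m ⊓ lift W) (Γ.Ham a m) (Γ.qb W a m) :=
  isCompl'_cfam (V := Γ.Ham a m ⊓ lift W) (V' := Γ.Ham a m) inf_le_left

theorem C5a_Ham_le (a : I → ℕ) (m : ℕ) : Γ.Ham a m ≤ Γ.Ha a := inf_le_left

theorem C5a_qb_mem (W : Finset P → Submodule ℚ (Rg P)) (a : I → ℕ) (m : ℕ)
    (i : Fin (Γ.hq W a m)) : Γ.qb W a m i ∈ Γ.Ham a m := (Γ.qb_spec W a m).1 i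

/-- all degrees at once (`exists_sum_hc`) -/
theorem qb_span (W : Finset P → Submodule ℚ (Rg P)) (a : I → ℕ) :
    Γ.Ha a ≤ (Γ.Ha a ⊓ lift W) ⊔
      Submodule.span ℚ (Set.range fun x : Σ m, Fin (Γ.hq W a m) => Γ.qb W a x.1 x.2) := by
  intro u hu
  obtain ⟨N, hN⟩ := Γ.exists_sum_hc hu
  rw [← hN]
  refine Submodule.sum_mem _ fun m _ => ?_
  have h1 := (Γ.qb_spec W a m).2.2 (Γ.hc_mem_Ham hu m)
  refine SetLike.le_def.1 (sup_le_sup ?_ ?_) h1
  · exact inf_le_inf_right _ (Γ.C5a_Ham_le a m)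
  · refine Submodule.span_mono ?_
    rintro _ ⟨i, rfl⟩
    exact ⟨⟨m, i⟩, rfl⟩

/-- all degrees at once (apply `hc m`), evaluated at one `X` (`mem_lift_of_one`) -/
theorem qb_indep {W : Finset P → Submodule ℚ (Rg P)} (hW : Γ.Equi W) (hG : ∀ X, Grd (W X))
    {a : I → ℕ} {X : Finset P} (hX : Γ.ty X = a) (x : (Σ m, Fin (Γ.hq W a m)) →₀ ℚ)
    (h : (x.sum fun j c => c • Γ.qb W a j.1 j.2 X) ∈ W X) : x = 0 := by
  set u : Fam P := ∑ j ∈ x.support, x j • Γ.qb W a j.1 j.2 with hu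
  have huA : u ∈ Γ.Ha a := Submodule.sum_mem _ fun j _ =>
    Submodule.smul_mem _ _ (Γ.C5a_Ham_le a j.1 (Γ.C5a_qb_mem W a j.1 j.2))
  have huX : u X ∈ W X := by
    have : u X = x.sum fun j c => c • Γ.qb W a j.1 j.2 X := by
      rw [hu, Finset.sum_apply]; rfl
    rw [this]; exact h
  have huW : u ∈ lift W := Γ.mem_lift_of_one hW huA hX huX
  ext ⟨m, i⟩
  have h1 : hc m u ∈ Γ.Ham a m ⊓ lift W := ⟨Γ.hc_mem_Ham huA m, hc_mem_lift hG huW m⟩
  have h2 : hc m u = ∑ i : Fin (Γ.hq W a m), x ⟨m, i⟩ • Γ.qb W a m i := by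
    let f : (Σ m, Fin (Γ.hq W a m)) → Fam P :=
      fun j => x j • (if m = j.1 then Γ.qb W a j.1 j.2 else 0)
    have e1 : hc m u = ∑ j ∈ x.support, f j := by
      rw [hu, map_sum]
      refine Finset.sum_congr rfl fun j _ => ?_
      rw [map_smul, Γ.hc_of_mem_Ham (Γ.C5a_qb_mem W a j.1 j.2) m]
    have e2 : ∑ i : Fin (Γ.hq W a m), x ⟨m, i⟩ • Γ.qb W a m i =
        ∑ j ∈ Finset.univ.map (Function.Embedding.sigmaMk m), f j := by
      rw [Finset.sum_map]
      refine Finset.sum_congr rfl fun i _ => ?_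
      simp [f]
    rw [e1, e2]
    have e3 : ∑ j ∈ x.support, f j =
        ∑ j ∈ x.support ∪ Finset.univ.map (Function.Embedding.sigmaMk m), f j := by
      refine Finset.sum_subset Finset.subset_union_left fun j _ hj => ?_
      simp [f, Finsupp.notMem_support_iff.1 hj]
    have e4 : ∑ j ∈ Finset.univ.map (Function.Embedding.sigmaMk m), f j =
        ∑ j ∈ x.support ∪ Finset.univ.map (Function.Embedding.sigmaMk m), f j := by
      refine Finset.sum_subset Finset.subset_union_right fun j _ hj => ?_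
      have : m ≠ j.1 := by
        intro hm
        apply hj
        obtain ⟨m', i'⟩ := j
        simp only at hm
        subst hm
        exact Finset.mem_map.2 ⟨i', Finset.mem_univ _, rfl⟩
      simp [f, this]
    rw [e3, e4]
  rw [h2] at h1
  exact congrFun ((Γ.qb_spec W a m).2.1 (fun i => x ⟨m, i⟩) h1) i

/-- index set of the products -/
structure HIx where
  c : I → ℕ
  e : I → ℕ
  r : Σ m, Fin (Γ.hT c m)
  s : Σ m, Fin (Γ.hF e m)

/-- the products `r_β * s_γ` -/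
def hb (j : Γ.HIx) : Fam P := Γ.sh (Γ.qb Γ.IT j.c j.r.1 j.r.2) (Γ.qb Γ.IF j.e j.s.1 j.s.2)

/-- the key `(thT c, |c|)` -/
def C5a_key (c : I → ℕ) : ℚ ×ₗ ℕ := toLex (Γ.thT c, ∑ i, c i)

theorem C5a_span_step (a c e : I → ℕ) (hce : c + e = a)
    (ih : ∀ c' e', c' + e' = a → Γ.C5a_key c' < Γ.C5a_key c → ∀ u ∈ Γ.Ha c', ∀ w ∈ Γ.Ha e',
      Γ.sh u w ∈ Submodule.span ℚ (Γ.hb '' {j | j.c + j.e = a}))
    {u w : Fam P} (hu : u ∈ Γ.Ha c) (hw : w ∈ Γ.Ha e) :
    Γ.sh u w ∈ Submodule.span ℚ (Γ.hb '' {j | j.c + j.e = a}) := by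
  set S := Submodule.span ℚ (Γ.hb '' {j | j.c + j.e = a}) with hS
  obtain ⟨uT, huT, uS, huS, rfl⟩ := Submodule.mem_sup.1 (Γ.qb_span Γ.IT c hu)
  obtain ⟨wF, hwF, wS, hwS, hww⟩ := Submodule.mem_sup.1 (Γ.qb_span Γ.IF e hw)
  have huS' : uS ∈ Γ.Ha c := by
    have := (Γ.Ha c).sub_mem hu huT.1
    simpa using this
  rw [Γ.sh_add_left]
  refine S.add_mem ?_ ?_
  · have : Γ.Ha c ⊓ lift Γ.IT ≤ S.comap (Γ.shL.flip w) := by
      refine Γ.Ha_IT_le c fun c' e' hc' he' hθ u' hu' w' hw' => ?_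
      rw [Submodule.mem_comap, LinearMap.flip_apply, Γ.shL_apply, Γ.sh_assoc]
      refine ih c' (e' + e) (by rw [← add_assoc, hc', hce]) ?_ u' hu' _ (Γ.sh_mem_Ha hw' hw)
      unfold C5a_key
      rw [Prod.Lex.toLex_lt_toLex, ← hc', Γ.thT_add]
      rcases hθ.lt_or_eq with h1 | h1
      · left; simpa using h1
      · right
        refine ⟨by simp [← h1], ?_⟩
        obtain ⟨i, hi⟩ : ∃ i, e' i ≠ 0 := by
          by_contra hcon
          push Not at hcon
          exact he' (funext hcon)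
        refine Finset.sum_lt_sum (fun i _ => by simp) ⟨i, Finset.mem_univ _, ?_⟩
        simp only [Pi.add_apply]
        omega
    exact this huT
  · rw [← hww, Γ.sh_add_right]
    refine S.add_mem ?_ ?_
    · have : Γ.Ha e ⊓ lift Γ.IF ≤ S.comap (Γ.shL uS) := by
        refine Γ.Ha_IF_le e fun c' e' hc' hθ u' hu' w' hw' => ?_
        rw [Submodule.mem_comap, Γ.shL_apply, ← Γ.sh_assoc]
        refine ih (c + c') e' (by rw [add_assoc, hc', hce]) ?_ _ (Γ.sh_mem_Ha huS' hu') w' hw'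
        unfold C5a_key
        rw [Prod.Lex.toLex_lt_toLex, Γ.thT_add]
        left; simpa using hθ
      exact this hwF
    · have h1 : Submodule.span ℚ (Set.range fun x : Σ m, Fin (Γ.hq Γ.IT c m) =>
          Γ.qb Γ.IT c x.1 x.2) ≤ S.comap (Γ.shL.flip wS) := by
        rw [Submodule.span_le]
        rintro _ ⟨r, rfl⟩
        have h2 : Submodule.span ℚ (Set.range fun x : Σ m, Fin (Γ.hq Γ.IF e m) =>
            Γ.qb Γ.IF e x.1 x.2) ≤ S.comap (Γ.shL (Γ.qb Γ.IT c r.1 r.2)) := by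
          rw [Submodule.span_le]
          rintro _ ⟨s, rfl⟩
          exact Submodule.subset_span ⟨⟨c, e, r, s⟩, hce, rfl⟩
        exact h2 hwS
      exact h1 huS

/-- Show `sh (Ha c) (Ha e) ⊆ span` for `c + e = a` by well-founded induction on the key
`(thT c, |c|)` (finitely many `c ≤ a`), using `qb_span`, `Ha_IT_le`, `Ha_IF_le`, `sh_assoc`;
finally `u = sh oneF u`. -/
theorem hn_span (a : I → ℕ) :
    Γ.Ha a ≤ Submodule.span ℚ (Γ.hb '' {j | j.c + j.e = a}) := by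
  have key : ∀ n : ℕ, ∀ c e, c + e = a →
      ((Finset.Iic a).filter fun c' => Γ.C5a_key c' < Γ.C5a_key c).card = n →
      ∀ u ∈ Γ.Ha c, ∀ w ∈ Γ.Ha e,
        Γ.sh u w ∈ Submodule.span ℚ (Γ.hb '' {j | j.c + j.e = a}) := by
    intro n
    induction n using Nat.strong_induction_on with
    | _ n ih =>
      intro c e hce hn u hu w hw
      refine Γ.C5a_span_step a c e hce (fun c' e' hce' hk => ?_) hu hw
      refine ih _ ?_ c' e' hce' rfl
      rw [← hn]
      refine Finset.card_lt_card ⟨fun d hd => ?_, fun hsub => ?_⟩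
      · rw [Finset.mem_filter] at hd ⊢
        exact ⟨hd.1, hd.2.trans hk⟩
      · have h1 : c' ∈ (Finset.Iic a).filter fun d => Γ.C5a_key d < Γ.C5a_key c :=
          Finset.mem_filter.2 ⟨Finset.mem_Iic.2 (hce' ▸ le_self_add), hk⟩
        exact lt_irrefl _ (Finset.mem_filter.1 (hsub h1)).2
  intro u hu
  have := key _ 0 a (zero_add a) rfl oneF (Γ.C5a_Ham_le 0 0 Γ.oneF_mem) u hu
  rwa [Γ.one_sh] at this

end Ctx
end
end Crest.Agent.R59
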