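import Crest.Agent.R59.C6a

/-! # Row 59, C6: basic properties of `FF` -/

set_option autoImplicit false

namespace Crest.Agent.R59
noncomputable section
open scoped Classical
open MvPolynomial

namespace Ctx
variable {I P : Type} [Fintype I] [DecidableEq I] [LinearOrder P] (Γ : Ctx I P)

theorem c6_mem_Ipi {lab : P → ℕ} {X : Finset P} (j : ℕ) {f g : Rg P} (hf : f ∈ Γ.IF (blk lab X j))
    (hg : g ∈ RX X) : f * g ∈ Γ.Ipi lab X :=
  (le_iSup (fun j : ℕ => Γ.IF (blk lab X j) * RX X) j) (Submodule.mul_mem_mul hf hg)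
theorem Ipi_le (lab : P → ℕ) (X : Finset P) : Γ.Ipi lab X ≤ RX X := by
  refine iSup_le fun j => Submodule.mul_le.2 fun f hf g hg => ?_
  exact RX_mul (RX_mono (blk_subset lab X j) (Γ.IF_le _ hf)) hg
theorem Ipi_mul {lab : P → ℕ} {X : Finset P} {a f : Rg P} (ha : a ∈ RX X) (hf : f ∈ Γ.Ipi lab X) :
    a * f ∈ Γ.Ipi lab X := by
  have h : Γ.Ipi lab X ≤ (Γ.Ipi lab X).comap (LinearMap.mulLeft ℚ a) := by
    refine iSup_le fun j => Submodule.mul_le.2 fun f hf g hg => ?_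
    rw [Submodule.mem_comap, LinearMap.mulLeft_apply, mul_left_comm]
    exact Γ.c6_mem_Ipi j hf (RX_mul ha hg)
  exact h hf
theorem stab_Ipi (lab : P → ℕ) (X : Finset P) : Stab lab X (Γ.Ipi lab X) := by
  intro i
  have h : Γ.Ipi lab X ≤ (Γ.Ipi lab X).comap (dB (blk lab X i)) := by
    refine iSup_le fun j => Submodule.mul_le.2 fun f hf g hg => ?_
    rw [Submodule.mem_comap, dB_mul]
    refine Submodule.add_mem _ (Γ.c6_mem_Ipi j (Γ.dB_IF ?_ hf) hg)
      (Γ.c6_mem_Ipi j hf (dB_mem_RX _ hg))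
    by_cases hij : i = j
    · exact Or.inl (by rw [hij])
    · refine Or.inr (Finset.disjoint_left.2 fun p h1 h2 => hij ?_)
      exact (Finset.mem_filter.1 h1).2.symm.trans (Finset.mem_filter.1 h2).2
  exact fun f hf => h hf
theorem grd_Ipi (lab : P → ℕ) (X : Finset P) : Grd (Γ.Ipi lab X) := by
  exact Grd.iSup fun j => (Γ.grd_IF _).mul (grd_RX _)
theorem th_eq_sum_blk (lab : P → ℕ) (X : Finset P) :
    Γ.th X = ∑ j ∈ X.image lab, Γ.th (blk lab X j) := by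
  exact (Finset.sum_fiberwise_of_maps_to (fun p hp => Finset.mem_image_of_mem lab hp) _).symm
/-- mixed version of `bpi` -/
def bcross (lab : P → ℕ) (Y Z : Finset P) : ℕ :=
  ∑ p ∈ Y, ∑ q ∈ Z, if lab p ≠ lab q then Γ.b (Γ.col p) (Γ.col q) else 0
theorem c6_group (lab : P → ℕ) (Y Z : Finset P) (c : ℕ → ℕ → Prop) [∀ i j, Decidable (c i j)] :
    ∑ p ∈ Y, ∑ q ∈ Z, (if c (lab p) (lab q) then Γ.b (Γ.col p) (Γ.col q) else 0) =
      ∑ i ∈ Y.image lab, ∑ j ∈ Z.image lab,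
        if c i j then Γ.bb (blk lab Y i) (blk lab Z j) else 0 := by
  rw [← Finset.sum_fiberwise_of_maps_to (fun p hp => Finset.mem_image_of_mem lab hp)]
  refine Finset.sum_congr rfl fun i _ => ?_
  have h : ∀ p ∈ Y.filter fun p => lab p = i,
      ∑ q ∈ Z, (if c (lab p) (lab q) then Γ.b (Γ.col p) (Γ.col q) else 0) =
      ∑ j ∈ Z.image lab, ∑ q ∈ Z.filter fun q => lab q = j,
        (if c i j then Γ.b (Γ.col p) (Γ.col q) else 0) := by
    intro p hp
    rw [← Finset.sum_fiberwise_of_maps_to (fun p hp => Finset.mem_image_of_mem lab hp)]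
    refine Finset.sum_congr rfl fun j _ => Finset.sum_congr rfl fun q hq => ?_
    rw [(Finset.mem_filter.1 hp).2, (Finset.mem_filter.1 hq).2]
  rw [Finset.sum_congr rfl h, Finset.sum_comm]
  refine Finset.sum_congr rfl fun j _ => ?_
  split_ifs
  · rfl
  · simp
/-- group by pairs of labels and use `Sym.bb` on the blocks -/
theorem bpi_union {Γ : Ctx I P} (hS : Γ.Sym) {lab : P → ℕ} {Y Z : Finset P} (hYZ : Disjoint Y Z)
    (hY : Γ.Sl0 lab Y) (hZ : Γ.Sl0 lab Z) :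
    Γ.bpi lab (Y ∪ Z) = Γ.bpi lab Y + Γ.bpi lab Z + Γ.bcross lab Y Z := by
  have h1 : ∑ q ∈ Z, ∑ p ∈ Y, (if lab q < lab p then Γ.b (Γ.col q) (Γ.col p) else 0) =
      ∑ p ∈ Y, ∑ q ∈ Z, (if lab q < lab p then Γ.b (Γ.col p) (Γ.col q) else 0) := by
    rw [Γ.c6_group lab Z Y fun i j => i < j, Γ.c6_group lab Y Z fun i j => j < i, Finset.sum_comm]
    refine Finset.sum_congr rfl fun i _ => Finset.sum_congr rfl fun j _ => ?_
    rw [hS.bb (hZ j) (hY i)]
  have h2 : Γ.bcross lab Y Z =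
      ∑ p ∈ Y, ∑ q ∈ Z, (if lab p < lab q then Γ.b (Γ.col p) (Γ.col q) else 0) +
      ∑ p ∈ Y, ∑ q ∈ Z, (if lab q < lab p then Γ.b (Γ.col p) (Γ.col q) else 0) := by
    rw [← Finset.sum_add_distrib]
    refine Finset.sum_congr rfl fun p _ => ?_
    rw [← Finset.sum_add_distrib]
    refine Finset.sum_congr rfl fun q _ => ?_
    rcases lt_trichotomy (lab p) (lab q) with h | h | h
    · simp [h, h.ne, h.le.not_gt]
    · simp [h]
    · simp [h, h.ne', h.le.not_gt]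
  rw [h2, ← h1]
  simp only [bpi, Finset.sum_union hYZ, Finset.sum_add_distrib]
  ring

theorem mem_FF {k : ℤ} {X : Finset P} {f : Rg P} : f ∈ Γ.FF k X ↔ f ∈ RX X ∧
    ∀ lab, Γ.Sl0 lab X →
      f ∈ Ord lab X (Γ.Ipi lab X) (k + Γ.bpi lab X - (X.image lab).card + 1).toNat := by
  simp only [FF, Submodule.mem_inf, Submodule.mem_iInf]
theorem FF_le (k : ℤ) (X : Finset P) : Γ.FF k X ≤ RX X := by
  exact inf_le_left
theorem FF_mono (X : Finset P) : Monotone fun k => Γ.FF k X := by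
  intro k k' hk f hf
  rw [Γ.mem_FF] at hf ⊢
  refine ⟨hf.1, fun lab hl => Ord_mono (Γ.stab_Ipi lab X) ?_ (hf.2 lab hl)⟩
  omega
theorem IF_le_FF (k : ℤ) (X : Finset P) : Γ.IF X ≤ Γ.FF k X := by
  intro f hf
  rw [Γ.mem_FF]
  exact ⟨Γ.IF_le X hf, fun lab _ =>
    Ord_mono (Γ.stab_Ipi lab X) (Nat.zero_le _) (Γ.IF_le_Ipi lab X hf)⟩
/-- constant labelling -/
theorem FF_eq_IF {k : ℤ} {X : Finset P} (hX : Γ.th X = 0) (hk : k < 0 ∨ (k ≤ 0 ∧ X ≠ ∅)) :
    Γ.FF k X = Γ.IF X := by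
  refine le_antisymm (fun f hf => ?_) (Γ.IF_le_FF k X)
  have h0 : blk (fun _ => 0) X 0 = X := by simp [blk]
  have h1 : ∀ j, j ≠ 0 → blk (fun _ => 0) X j = ∅ := fun j hj => by simp [blk, hj.symm]
  have hs : Γ.Sl0 (fun _ => 0) X := by
    intro j
    by_cases hj : j = 0
    · rw [hj, h0, hX]
    · rw [h1 j hj, Γ.th_empty]
  have h2 := (Γ.mem_FF.1 hf).2 _ hs
  have hb : Γ.bpi (fun _ => 0) X = 0 := by simp [bpi]
  have h3 : (k + Γ.bpi (fun _ => 0) X - (X.image fun _ => (0 : ℕ)).card + 1).toNat = 0 := by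
    rw [hb]
    rcases hk with hk | ⟨hk, hne⟩
    · omega
    · have : 0 < (X.image fun _ => (0 : ℕ)).card :=
        Finset.card_pos.2 ((Finset.nonempty_iff_ne_empty.2 hne).image _)
      omega
  rw [h3] at h2
  have h4 : Γ.Ipi (fun _ => 0) X ≤ Γ.IF X := by
    refine iSup_le fun j => ?_
    by_cases hj : j = 0
    · rw [hj, h0, Γ.IF_mul_RX]
    · rw [h1 j hj, Γ.IF_empty, Submodule.bot_mul]
      exact bot_le
  exact h4 h2
theorem FF_empty {k : ℤ} (hk : 0 ≤ k) : Γ.FF k ∅ = RX ∅ := by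
  refine le_antisymm (Γ.FF_le k ∅) fun f hf => Γ.mem_FF.2 ⟨hf, fun lab _ => ?_⟩
  have h : (k + Γ.bpi lab ∅ - ((∅ : Finset P).image lab).card + 1).toNat =
      (k + Γ.bpi lab ∅).toNat + 1 := by
    rw [Finset.image_empty, Finset.card_empty]
    omega
  rw [h, mem_Ord_succ]
  intro j
  have : blk lab (∅ : Finset P) j = ∅ := by simp [blk]
  rw [this, dB_empty, LinearMap.zero_apply]
  exact Submodule.zero_mem _
theorem X_mul_FF {X : Finset P} {p : P} (hp : p ∈ X) {k : ℤ} {f : Rg P} (hf : f ∈ Γ.FF k X) :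
    MvPolynomial.X p * f ∈ Γ.FF (k + 1) X := by
  rw [Γ.mem_FF] at hf ⊢
  refine ⟨RX_mul (RX_X hp) hf.1, fun lab hl => ?_⟩
  have h1 : (MvPolynomial.X p : Rg P) ∈ Ord lab X ⊥ ((1 : ℤ) + 1).toNat :=
    mem_Ord_bot lab X (mem_RXle_of_hom (RX_X hp) (isHomogeneous_X ℚ p))
  have h2 := Ord_mul (N₁ := ⊥) (N₂ := Γ.Ipi lab X) (N := Γ.Ipi lab X) (R₁ := RX X) (R₂ := RX X)
    (Γ.stab_Ipi lab X) (stab_RX lab X X) (stab_RX lab X X)
    (fun a ha _ g _ => by
      rw [(Submodule.mem_bot ℚ).1 ha, zero_mul]; exact Submodule.zero_mem _)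
    (fun a ha g hg _ => Γ.Ipi_mul ha hg) h1 (RX_X hp) (hf.2 lab hl) hf.1
  convert h2 using 3
  ring
theorem RXle_le_FF (X : Finset P) (e : ℕ) : RXle X e ≤ Γ.FF (e + X.card) X := by
  intro f hf
  refine Γ.mem_FF.2 ⟨hf.1, fun lab _ => ?_⟩
  refine Ord_mono (Γ.stab_Ipi lab X) ?_ (Ord_mono_left bot_le _ (mem_Ord_bot lab X hf))
  have := Finset.card_image_le (s := X) (f := lab)
  omega
theorem exists_FF {X : Finset P} {f : Rg P} (hf : f ∈ RX X) : ∃ k : ℕ, f ∈ Γ.FF k X := by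
  obtain ⟨e, he⟩ := exists_RXle hf
  exact ⟨e + X.card, by push_cast; exact Γ.RXle_le_FF X e he⟩
/-- `dB_eq_sum_blk` -/
theorem dB_FF {X : Finset P} {k : ℤ} {f : Rg P} (hf : f ∈ Γ.FF k X) :
    dB X f ∈ Γ.FF (k - 1) X := by
  rw [Γ.mem_FF] at hf ⊢
  refine ⟨dB_mem_RX _ hf.1, fun lab hl => ?_⟩
  rw [dB_eq_sum_blk lab X, LinearMap.sum_apply]
  refine Submodule.sum_mem _ fun j _ => ?_
  have h := hf.2 lab hl
  by_cases hn : 1 ≤ k + Γ.bpi lab X - (X.image lab).card + 1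
  · have e : (k + Γ.bpi lab X - (X.image lab).card + 1).toNat =
        (k - 1 + Γ.bpi lab X - (X.image lab).card + 1).toNat + 1 := by omega
    rw [e, mem_Ord_succ] at h
    exact h j
  · have e : (k + Γ.bpi lab X - (X.image lab).card + 1).toNat = 0 := by omega
    have e' : (k - 1 + Γ.bpi lab X - (X.image lab).card + 1).toNat = 0 := by omega
    rw [e] at h
    rw [e']
    exact Γ.stab_Ipi lab X j f h
theorem grd_FF (k : ℤ) (X : Finset P) : Grd (Γ.FF k X) := by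
  exact (grd_RX X).inf (Grd.iInf fun lab => Grd.iInf fun _ => grd_Ord (Γ.grd_Ipi lab X) _)
/-- pull a labelling of `σ X` back along `σ` (`rename_dB`, `equi_IF`) -/
theorem equi_FF (k : ℤ) : Γ.Equi (Γ.FF k) := by
  intro σ X hσ f hf
  rw [Γ.mem_FF] at hf ⊢
  refine ⟨rename_mem_RX σ hf.1, fun lab hl => ?_⟩
  have hb : ∀ j, blk lab (X.image σ) j = (blk (lab ∘ σ) X j).image σ := fun j => by
    simp only [blk, Finset.filter_image]
    rfl
  have hs : Γ.Sl0 (lab ∘ σ) X := by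
    intro j
    have := hl j
    rwa [hb, Γ.th_eq, Γ.ty_image (hσ.mono (blk_subset _ _ _)), ← Γ.th_eq] at this
  have hp : Γ.bpi lab (X.image σ) = Γ.bpi (lab ∘ σ) X := by
    unfold bpi
    rw [Finset.sum_image hσ.1]
    refine Finset.sum_congr rfl fun p hp => ?_
    rw [Finset.sum_image hσ.1]
    refine Finset.sum_congr rfl fun q hq => ?_
    rw [hσ.2 p hp, hσ.2 q hq]
    rfl
  have hI : Γ.Ipi (lab ∘ σ) X ≤ (Γ.Ipi lab (X.image σ)).comap (rename σ).toLinearMap := by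
    refine iSup_le fun j => Submodule.mul_le.2 fun a ha g hg => ?_
    rw [Submodule.mem_comap, AlgHom.toLinearMap_apply, map_mul]
    refine Γ.c6_mem_Ipi j ?_ (rename_mem_RX σ hg)
    rw [hb]
    exact Γ.equi_IF σ _ (hσ.mono (blk_subset _ _ _)) a ha
  have hO : ∀ (m : ℕ) (g : Rg P), g ∈ RX X → g ∈ Ord (lab ∘ σ) X (Γ.Ipi (lab ∘ σ) X) m →
      rename σ g ∈ Ord lab (X.image σ) (Γ.Ipi lab (X.image σ)) m := by
    intro m
    induction m with
    | zero => exact fun g _ hg => hI hg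
    | succ m ih =>
      intro g hg hg'
      rw [mem_Ord_succ] at hg' ⊢
      intro j
      rw [hb, ← rename_dB hσ.1 (blk_subset _ _ _) hg]
      exact ih _ (dB_mem_RX _ hg) (hg' j)
  rw [hp, Finset.image_image]
  exact hO _ f hf.1 (hf.2 _ hs)

end Ctx
end
end Crest.Agent.R59
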