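import Crest.Agent.R59.C4

/-! # Row 59, C6: the order filtration `Ord` and basic properties of `FF`. -/

set_option autoImplicit false

namespace Crest.Agent.R59
noncomputable section
open scoped Classical
open MvPolynomial

section noctx
variable {P : Type} [LinearOrder P]

/-- iterated block derivations -/
def dL (lab : P → ℕ) (X : Finset P) : List ℕ → Rg P →ₗ[ℚ] Rg P
  | [] => LinearMap.id
  | j :: js => dL lab X js ∘ₗ dB (blk lab X j)

theorem c6a_succ {lab : P → ℕ} {X : Finset P} {N : Submodule ℚ (Rg P)} {m : ℕ} {f : Rg P} :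
    f ∈ Ord lab X N (m + 1) ↔ ∀ j, dB (blk lab X j) f ∈ Ord lab X N m := by
  simp only [Ord, Submodule.mem_iInf, Submodule.mem_comap]

theorem mem_Ord_iff {lab : P → ℕ} {X : Finset P} {N : Submodule ℚ (Rg P)} {m : ℕ} {f : Rg P} :
    f ∈ Ord lab X N m ↔ ∀ js : List ℕ, js.length = m → dL lab X js f ∈ N := by
  induction m generalizing f with
  | zero =>
    constructor
    · intro h js hjs
      rw [List.length_eq_zero_iff.1 hjs]
      exact h
    · intro h
      exact h [] rfl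
  | succ m ih =>
    rw [c6a_succ]
    constructor
    · intro h js hjs
      cases js with
      | nil => simp at hjs
      | cons j js => exact ih.1 (h j) js (by simpa using hjs)
    · intro h j
      exact ih.2 fun js hjs => h (j :: js) (by simp [hjs])
theorem mem_Ord_succ {lab : P → ℕ} {X : Finset P} {N : Submodule ℚ (Rg P)} {m : ℕ} {f : Rg P} :
    f ∈ Ord lab X N (m + 1) ↔ ∀ j, dB (blk lab X j) f ∈ Ord lab X N m := c6a_succ
/-- `N` is stable under the block derivations -/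
def Stab (lab : P → ℕ) (X : Finset P) (N : Submodule ℚ (Rg P)) : Prop :=
  ∀ j, ∀ f ∈ N, dB (blk lab X j) f ∈ N
theorem Ord_mono {lab : P → ℕ} {X : Finset P} {N : Submodule ℚ (Rg P)} (h : Stab lab X N) :
    Monotone (Ord lab X N) := by
  refine monotone_nat_of_le_succ fun m => ?_
  induction m with
  | zero => exact fun f hf => mem_Ord_succ.2 fun j => h j f hf
  | succ m ih => exact fun f hf => mem_Ord_succ.2 fun j => ih (mem_Ord_succ.1 hf j)
theorem Ord_mono_left {lab : P → ℕ} {X : Finset P} {N N' : Submodule ℚ (Rg P)} (h : N ≤ N')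
    (m : ℕ) : Ord lab X N m ≤ Ord lab X N' m := by
  induction m with
  | zero => exact h
  | succ m ih => exact fun f hf => mem_Ord_succ.2 fun j => ih (mem_Ord_succ.1 hf j)

theorem c6a_mul {lab : P → ℕ} {X : Finset P} {N₁ N₂ N R₁ R₂ : Submodule ℚ (Rg P)}
    (hN : Stab lab X N) (hR₁ : Stab lab X R₁) (hR₂ : Stab lab X R₂)
    (h₁ : ∀ f ∈ N₁, f ∈ R₁ → ∀ g ∈ R₂, f * g ∈ N) (h₂ : ∀ f ∈ R₁, ∀ g ∈ N₂, g ∈ R₂ → f * g ∈ N)
    (n : ℕ) : ∀ (m₁ m₂ : ℕ) (f g : Rg P), (m₁ = 0 ∨ m₂ = 0 ∨ m₁ + m₂ ≤ n + 1) →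
      f ∈ Ord lab X N₁ m₁ → f ∈ R₁ → g ∈ Ord lab X N₂ m₂ → g ∈ R₂ → f * g ∈ Ord lab X N n := by
  have h0 : ∀ (n m₁ m₂ : ℕ) (f g : Rg P), (m₁ = 0 ∨ m₂ = 0) →
      f ∈ Ord lab X N₁ m₁ → f ∈ R₁ → g ∈ Ord lab X N₂ m₂ → g ∈ R₂ → f * g ∈ Ord lab X N n := by
    intro n m₁ m₂ f g hm hf hf' hg hg'
    refine Ord_mono hN (Nat.zero_le n) ?_
    rcases hm with rfl | rfl
    · exact h₁ f hf hf' g hg'
    · exact h₂ f hf' g hg hg'
  induction n with
  | zero => exact fun m₁ m₂ f g hm => h0 0 m₁ m₂ f g (by omega)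
  | succ n ih =>
    intro m₁ m₂ f g hm hf hf' hg hg'
    by_cases hz : m₁ = 0 ∨ m₂ = 0
    · exact h0 _ m₁ m₂ f g hz hf hf' hg hg'
    · obtain ⟨a, rfl⟩ : ∃ a, m₁ = a + 1 := ⟨m₁ - 1, by omega⟩
      obtain ⟨b, rfl⟩ : ∃ b, m₂ = b + 1 := ⟨m₂ - 1, by omega⟩
      refine mem_Ord_succ.2 fun j => ?_
      rw [dB_mul]
      exact Submodule.add_mem _
        (ih a (b + 1) _ g (by omega) (mem_Ord_succ.1 hf j) (hR₁ j f hf') hg hg')
        (ih (a + 1) b f _ (by omega) hf hf' (mem_Ord_succ.1 hg j) (hR₂ j g hg'))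

/-- Leibniz rule, integer form (`deg ≤ d₁` times `deg ≤ d₂` has `deg ≤ d₁ + d₂`; negative degree
means membership in the ideal).  Induct on `m₁ + m₂` for natural orders first. -/
theorem Ord_mul {lab : P → ℕ} {X : Finset P} {N₁ N₂ N R₁ R₂ : Submodule ℚ (Rg P)}
    (hN : Stab lab X N) (hR₁ : Stab lab X R₁) (hR₂ : Stab lab X R₂)
    (h₁ : ∀ f ∈ N₁, f ∈ R₁ → ∀ g ∈ R₂, f * g ∈ N) (h₂ : ∀ f ∈ R₁, ∀ g ∈ N₂, g ∈ R₂ → f * g ∈ N)
    {d₁ d₂ : ℤ} {f g : Rg P} (hf : f ∈ Ord lab X N₁ (d₁ + 1).toNat) (hf' : f ∈ R₁)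
    (hg : g ∈ Ord lab X N₂ (d₂ + 1).toNat) (hg' : g ∈ R₂) :
    f * g ∈ Ord lab X N (d₁ + d₂ + 1).toNat :=
  c6a_mul hN hR₁ hR₂ h₁ h₂ _ _ _ f g (by omega) hf hf' hg hg'
/-- on `RX Y` the derivations of the blocks of `X ⊇ Y` are those of the blocks of `Y` -/
theorem mem_Ord_subset {lab : P → ℕ} {X Y : Finset P} (hY : Y ⊆ X) {N : Submodule ℚ (Rg P)}
    {m : ℕ} {f : Rg P} (hf : f ∈ RX Y) : f ∈ Ord lab X N m ↔ f ∈ Ord lab Y N m := by
  induction m generalizing f with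
  | zero => exact Iff.rfl
  | succ m ih =>
    rw [mem_Ord_succ, mem_Ord_succ]
    refine forall_congr' fun j => ?_
    have hb : blk lab X j ∩ Y = blk lab Y j := by
      ext p
      simp only [blk, Finset.mem_inter, Finset.mem_filter]
      exact ⟨fun h => ⟨h.2, h.1.2⟩, fun h => ⟨⟨hY h.1, h.2⟩, h.1⟩⟩
    rw [dB_inter (blk lab X j) hf, hb]
    exact ih (dB_mem_RX _ hf)

theorem c6a_hc (lab : P → ℕ) (X : Finset P) (i : ℕ) (f : Rg P) :
    homogeneousComponent i f ∈ Ord lab X ⊥ (i + 1) := by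
  induction i generalizing f with
  | zero =>
    refine mem_Ord_succ.2 fun j => ?_
    rw [dB_hc_zero]
    exact Submodule.zero_mem _
  | succ i ih =>
    refine mem_Ord_succ.2 fun j => ?_
    rw [dB_hc]
    exact ih _

/-- a polynomial of total degree `≤ e` is killed by `e + 1` derivations -/
theorem mem_Ord_bot (lab : P → ℕ) (X : Finset P) {Y : Finset P} {e : ℕ} {f : Rg P}
    (hf : f ∈ RXle Y e) : f ∈ Ord lab X ⊥ (e + 1) := by
  have hd : f.totalDegree ≤ e := (mem_restrictTotalDegree P e f).1 hf.2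
  have hs : Stab lab X (⊥ : Submodule ℚ (Rg P)) := fun j g hg => by
    rw [(Submodule.mem_bot ℚ).1 hg, map_zero]
    exact Submodule.zero_mem _
  rw [← sum_homogeneousComponent f]
  refine Submodule.sum_mem _ fun i hi => Ord_mono hs ?_ (c6a_hc lab X i f)
  have := Finset.mem_range.1 hi
  omega
theorem grd_Ord {lab : P → ℕ} {X : Finset P} {N : Submodule ℚ (Rg P)} (h : Grd N) (m : ℕ) :
    Grd (Ord lab X N m) := by
  induction m with
  | zero => exact h
  | succ m ih =>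
    intro k f hf
    refine mem_Ord_succ.2 fun j => ?_
    cases k with
    | zero =>
      rw [dB_hc_zero]
      exact Submodule.zero_mem _
    | succ k =>
      rw [dB_hc]
      exact ih k _ (mem_Ord_succ.1 hf j)
theorem stab_RX (lab : P → ℕ) (X Y : Finset P) : Stab lab X (RX Y) :=
  fun _ _ hf => dB_mem_RX _ hf
theorem blk_subset (lab : P → ℕ) (X : Finset P) (j : ℕ) : blk lab X j ⊆ X :=
  Finset.filter_subset _ _

end noctx

namespace Ctx
variable {I P : Type} [Fintype I] [DecidableEq I] [LinearOrder P] (Γ : Ctx I P)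

end Ctx
end
end Crest.Agent.R59
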