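import Crest.Agent.R59.C7a

/-! # Row 59, C7: the filtration is multiplicative and the graded product is supercommutative. -/

set_option autoImplicit false

namespace Crest.Agent.R59
open scoped Classical
open MvPolynomial

namespace Ctx
variable {I P : Type} [Fintype I] [DecidableEq I] [LinearOrder P] {Γ : Ctx I P}

/-- same symbol of order `m` -/
def c7Sy (lab : P → ℕ) (W : Finset P) (m : ℕ) (f g : Rg P) : Prop :=
  f ∈ Ord lab W ⊥ (m + 1) ∧ g ∈ Ord lab W ⊥ (m + 1) ∧ f - g ∈ Ord lab W ⊥ m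

theorem c7_ord_mul {lab : P → ℕ} {W : Finset P} {d₁ d₂ : ℤ} {f g : Rg P}
    (hf : f ∈ Ord lab W ⊥ (d₁ + 1).toNat) (hg : g ∈ Ord lab W ⊥ (d₂ + 1).toNat) :
    f * g ∈ Ord lab W ⊥ (d₁ + d₂ + 1).toNat := by
  refine Ord_mul (N₁ := ⊥) (N₂ := ⊥) (R₁ := ⊤) (R₂ := ⊤) ?_ ?_ ?_ ?_ ?_ hf trivial hg trivial
  · intro j f hf
    rw [(Submodule.mem_bot ℚ).1 hf]; simp
  · intro j f _; trivial
  · intro j f _; trivial
  · intro f hf _ g _
    rw [(Submodule.mem_bot ℚ).1 hf]; simp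
  · intro f _ g hg _
    rw [(Submodule.mem_bot ℚ).1 hg]; simp

theorem c7_ord_mul' {lab : P → ℕ} {W : Finset P} {m₁ m₂ : ℕ} {f g : Rg P}
    (hf : f ∈ Ord lab W ⊥ m₁) (hg : g ∈ Ord lab W ⊥ (m₂ + 1)) :
    f * g ∈ Ord lab W ⊥ (m₁ + m₂) := by
  have h := c7_ord_mul (lab := lab) (W := W) (d₁ := (m₁ : ℤ) - 1) (d₂ := m₂) (f := f) (g := g)
    (by rwa [show ((m₁ : ℤ) - 1 + 1).toNat = m₁ by omega])
    (by rwa [show ((m₂ : ℤ) + 1).toNat = m₂ + 1 by omega])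
  rwa [show ((m₁ : ℤ) - 1 + m₂ + 1).toNat = m₁ + m₂ by omega] at h

theorem c7Sy.mul {lab : P → ℕ} {W : Finset P} {m₁ m₂ : ℕ} {f₁ g₁ f₂ g₂ : Rg P}
    (h₁ : c7Sy lab W m₁ f₁ g₁) (h₂ : c7Sy lab W m₂ f₂ g₂) :
    c7Sy lab W (m₁ + m₂) (f₁ * f₂) (g₁ * g₂) := by
  refine ⟨?_, ?_, ?_⟩
  · have := c7_ord_mul' h₁.1 h₂.1
    rwa [show m₁ + 1 + m₂ = m₁ + m₂ + 1 by ring] at this
  · have := c7_ord_mul' h₁.2.1 h₂.2.1
    rwa [show m₁ + 1 + m₂ = m₁ + m₂ + 1 by ring] at this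
  · have a := c7_ord_mul' h₁.2.2 h₂.1
    have b := c7_ord_mul' h₂.2.2 h₁.2.1
    rw [add_comm m₂ m₁] at b
    convert Submodule.add_mem _ a b using 1
    ring

theorem c7Sy_C (lab : P → ℕ) (W : Finset P) (c : ℚ) : c7Sy lab W 0 (C c) (C c) := by
  have h : (C c : Rg P) ∈ Ord lab W ⊥ (0 + 1) := by
    rw [mem_Ord_succ]
    intro j
    rw [dB_C]
    exact Submodule.zero_mem _
  refine ⟨h, h, ?_⟩
  rw [sub_self]
  exact Submodule.zero_mem _

theorem c7Sy_one (lab : P → ℕ) (W : Finset P) : c7Sy lab W 0 1 1 := by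
  simpa using c7Sy_C lab W 1

theorem c7Sy.pow {lab : P → ℕ} {W : Finset P} {f g : Rg P} (h : c7Sy lab W 1 f g) (n : ℕ) :
    c7Sy lab W n (f ^ n) (g ^ n) := by
  induction n with
  | zero => simpa using c7Sy_one lab W
  | succ n ih => rw [pow_succ, pow_succ]; exact ih.mul h

theorem c7Sy_prod {ι : Type*} {lab : P → ℕ} {W : Finset P} (s : Finset ι) {m : ι → ℕ}
    {f g : ι → Rg P} (h : ∀ i ∈ s, c7Sy lab W (m i) (f i) (g i)) :
    c7Sy lab W (∑ i ∈ s, m i) (∏ i ∈ s, f i) (∏ i ∈ s, g i) := by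
  induction s using Finset.induction_on with
  | empty => simpa using c7Sy_one lab W
  | insert a s ha ih =>
    rw [Finset.sum_insert ha, Finset.prod_insert ha, Finset.prod_insert ha]
    exact (h a (Finset.mem_insert_self _ _)).mul
      (ih fun i hi => h i (Finset.mem_insert_of_mem hi))

theorem c7_X_mem (lab : P → ℕ) (W : Finset P) (p : P) : (X p : Rg P) ∈ Ord lab W ⊥ (1 + 1) := by
  rw [mem_Ord_succ]
  intro j
  rw [dB_X]
  split_ifs
  · exact (c7Sy_one lab W).1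
  · exact Submodule.zero_mem _

theorem c7Sy_lin {lab : P → ℕ} {W : Finset P} {p q r s : P} (hp : p ∈ W) (hq : q ∈ W)
    (hr : r ∈ W) (hs : s ∈ W) (hrp : lab r = lab p) (hsq : lab s = lab q) :
    c7Sy lab W 1 (X q - X p) (X s - X r) := by
  refine ⟨Submodule.sub_mem _ (c7_X_mem _ _ _) (c7_X_mem _ _ _),
    Submodule.sub_mem _ (c7_X_mem _ _ _) (c7_X_mem _ _ _), ?_⟩
  rw [show (1 : ℕ) = 0 + 1 from rfl, mem_Ord_succ]
  intro j
  have : dB (blk lab W j) ((X q - X p) - (X s - X r) : Rg P) = 0 := by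
    simp only [map_sub, dB_X, blk, Finset.mem_filter, hp, hq, hr, hs, true_and, hrp, hsq]
    ring
  rw [this]
  exact Submodule.zero_mem _

theorem c7_bb_eq_sum (lab : P → ℕ) (Y Z : Finset P) :
    Γ.bb Y Z = ∑ t ∈ Y.image lab, ∑ t' ∈ Z.image lab, Γ.bb (blk lab Y t) (blk lab Z t') := by
  unfold bb blk
  rw [← Finset.sum_fiberwise_of_maps_to (s := Y) (t := Y.image lab) (g := lab)
    (fun p hp => Finset.mem_image_of_mem _ hp)]
  refine Finset.sum_congr rfl fun t _ => ?_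
  rw [Finset.sum_comm (s := Z.image lab)]
  refine Finset.sum_congr rfl fun p _ => ?_
  rw [Finset.sum_fiberwise_of_maps_to (s := Z) (t := Z.image lab) (g := lab)
    (fun p hp => Finset.mem_image_of_mem _ hp)]

theorem c7_prod_blk (lab : P → ℕ) (ζ : ℕ → Rg P) (Y Z : Finset P) :
    (∏ p ∈ Y, ∏ q ∈ Z, (ζ (lab q) - ζ (lab p)) ^ Γ.b (Γ.col p) (Γ.col q)) =
      ∏ t ∈ Y.image lab, ∏ t' ∈ Z.image lab,
        (ζ t' - ζ t) ^ Γ.bb (blk lab Y t) (blk lab Z t') := by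
  unfold bb blk
  rw [← Finset.prod_fiberwise_of_maps_to (s := Y) (t := Y.image lab) (g := lab)
    (fun p hp => Finset.mem_image_of_mem _ hp)]
  refine Finset.prod_congr rfl fun t _ => ?_
  simp only [← Finset.prod_pow_eq_pow_sum]
  rw [Finset.prod_comm (s := Z.image lab)]
  refine Finset.prod_congr rfl fun p hp => ?_
  rw [← Finset.prod_fiberwise_of_maps_to (s := Z) (t := Z.image lab) (g := lab)
    (fun p hp => Finset.mem_image_of_mem _ hp)]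
  refine Finset.prod_congr rfl fun t' _ => Finset.prod_congr rfl fun q hq => ?_
  rw [(Finset.mem_filter.1 hp).2, (Finset.mem_filter.1 hq).2]

theorem c7_KK_sy {lab : P → ℕ} {W : Finset P} {ζ : ℕ → Rg P}
    (h : ∀ p ∈ W, ∀ q ∈ W, c7Sy lab W 1 (X q - X p) (ζ (lab q) - ζ (lab p)))
    {Y Z : Finset P} (hY : Y ⊆ W) (hZ : Z ⊆ W) :
    c7Sy lab W (Γ.bb Y Z) (Γ.KK Y Z) (C (∏ p ∈ Y, ∏ q ∈ Z, Γ.o p q) *
      ∏ t ∈ Y.image lab, ∏ t' ∈ Z.image lab,
        (ζ t' - ζ t) ^ Γ.bb (blk lab Y t) (blk lab Z t')) := by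
  rw [← c7_prod_blk]
  have e : (C (∏ p ∈ Y, ∏ q ∈ Z, Γ.o p q) *
      ∏ p ∈ Y, ∏ q ∈ Z, (ζ (lab q) - ζ (lab p)) ^ Γ.b (Γ.col p) (Γ.col q) : Rg P) =
      ∏ p ∈ Y, ∏ q ∈ Z, C (Γ.o p q) * (ζ (lab q) - ζ (lab p)) ^ Γ.b (Γ.col p) (Γ.col q) := by
    simp only [map_prod, Finset.prod_mul_distrib]
  rw [e]
  unfold KK bb
  refine c7Sy_prod Y fun p hp => c7Sy_prod Z fun q hq => ?_
  have := (c7Sy_C lab W (Γ.o p q)).mul ((h p (hY hp) q (hZ hq)).pow (Γ.b (Γ.col p) (Γ.col q)))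
  rw [zero_add] at this
  exact this

theorem c7_sign {Y Z : Finset P} (hYZ : Disjoint Y Z) :
    (∏ p ∈ Y, ∏ q ∈ Z, Γ.o p q) = (-1) ^ (Γ.ff Y * Γ.ff Z) * ∏ p ∈ Z, ∏ q ∈ Y, Γ.o p q := by
  have e : ((-1 : ℚ)) ^ (Γ.ff Y * Γ.ff Z) =
      ∏ p ∈ Y, ∏ q ∈ Z, if Γ.odd (Γ.col p) ∧ Γ.odd (Γ.col q) then (-1 : ℚ) else 1 := by
    unfold ff
    rw [Finset.card_filter, Finset.card_filter, Finset.sum_mul_sum, ← Finset.prod_pow_eq_pow_sum]
    refine Finset.prod_congr rfl fun p _ => ?_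
    rw [← Finset.prod_pow_eq_pow_sum]
    refine Finset.prod_congr rfl fun q _ => ?_
    by_cases h1 : Γ.odd (Γ.col p) <;> by_cases h2 : Γ.odd (Γ.col q) <;> simp [h1, h2]
  rw [e, Finset.prod_comm (s := Z), ← Finset.prod_mul_distrib]
  refine Finset.prod_congr rfl fun p hp => ?_
  rw [← Finset.prod_mul_distrib]
  refine Finset.prod_congr rfl fun q hq => ?_
  have hne : p ≠ q := fun h => Finset.disjoint_left.1 hYZ hp (h ▸ hq)
  unfold o
  by_cases h1 : Γ.odd (Γ.col p) <;> by_cases h2 : Γ.odd (Γ.col q) <;> simp [h1, h2]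
  rcases lt_or_gt_of_ne hne with h | h
  · simp [h, not_lt.2 h.le]
  · simp [h, not_lt.2 h.le]

/-- Symbol calculus when no label occurs both in `Y` and in `Z`: choose a representative
`ζ_t = x_(rep t)` of each block; `(x_q - x_p) - (ζ_(lab q) - ζ_(lab p))` is killed by all block
derivations, so modulo `Ord ⊥ b` the product of the `(x_q - x_p)^b(p,q)` equals
`∏ (ζ_t' - ζ_t)^(bb Y_t Z_t')`; use `Sym.bb` on blocks, and
`∏ o p q * ∏ o q p = (-1)^(ff Y * ff Z)`. -/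
theorem KK_sub_mem (hS : Γ.Sym) {lab : P → ℕ} {Y Z : Finset P} (hYZ : Disjoint Y Z)
    (hY : Γ.Sl0 lab Y) (hZ : Γ.Sl0 lab Z) (hd : Disjoint (Y.image lab) (Z.image lab)) :
    Γ.KK Y Z - Γ.sg Y Z • Γ.KK Z Y ∈ Ord lab (Y ∪ Z) ⊥ (Γ.bb Y Z) := by

  obtain ⟨ρ, hρ⟩ : ∃ ρ : ℕ → P ⊕ Unit, ∀ p ∈ Y ∪ Z, ∃ r ∈ Y ∪ Z, ρ (lab p) = Sum.inl r ∧
      lab r = lab p := by
    refine ⟨fun t => if h : ∃ r ∈ Y ∪ Z, lab r = t then Sum.inl h.choose else Sum.inr (), ?_⟩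
    intro p hp
    have h : ∃ r ∈ Y ∪ Z, lab r = lab p := ⟨p, hp, rfl⟩
    exact ⟨h.choose, h.choose_spec.1, by simp only [dif_pos h], h.choose_spec.2⟩
  set ζ : ℕ → Rg P := fun t => Sum.elim (fun r => (X r : Rg P)) (fun _ => 0) (ρ t) with hζ
  have hsy : ∀ p ∈ Y ∪ Z, ∀ q ∈ Y ∪ Z,
      c7Sy lab (Y ∪ Z) 1 (X q - X p) (ζ (lab q) - ζ (lab p)) := by
    intro p hp q hq
    obtain ⟨r, hr, hr1, hr2⟩ := hρ p hp
    obtain ⟨s, hs, hs1, hs2⟩ := hρ q hq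
    have e1 : ζ (lab p) = X r := by simp only [hζ, hr1, Sum.elim_inl]
    have e2 : ζ (lab q) = X s := by simp only [hζ, hs1, Sum.elim_inl]
    rw [e1, e2]
    exact c7Sy_lin hp hq hr hs hr2 hs2
  have h1 := c7_KK_sy (Γ := Γ) (ζ := ζ) hsy (Y := Y) (Z := Z) Finset.subset_union_left
    Finset.subset_union_right
  have h2 := c7_KK_sy (Γ := Γ) (ζ := ζ) hsy (Y := Z) (Z := Y) Finset.subset_union_right
    Finset.subset_union_left
  have hthY : Γ.th Y = 0 := by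
    rw [Γ.th_eq_sum_blk lab]; exact Finset.sum_eq_zero fun t _ => hY t
  have hthZ : Γ.th Z = 0 := by
    rw [Γ.th_eq_sum_blk lab]; exact Finset.sum_eq_zero fun t _ => hZ t
  have hbb : Γ.bb Z Y = Γ.bb Y Z := hS.bb hthZ hthY
  rw [hbb] at h2
  set Q : Rg P := ∏ t ∈ Y.image lab, ∏ t' ∈ Z.image lab,
    (ζ t' - ζ t) ^ Γ.bb (blk lab Y t) (blk lab Z t') with hQ
  have hQ' : (∏ t' ∈ Z.image lab, ∏ t ∈ Y.image lab,
      (ζ t - ζ t') ^ Γ.bb (blk lab Z t') (blk lab Y t)) = (-1) ^ Γ.bb Y Z * Q := by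
    rw [Finset.prod_comm, hQ, c7_bb_eq_sum (Γ := Γ) lab Y Z, ← Finset.prod_pow_eq_pow_sum,
      ← Finset.prod_mul_distrib]
    refine Finset.prod_congr rfl fun t _ => ?_
    rw [← Finset.prod_pow_eq_pow_sum, ← Finset.prod_mul_distrib]
    refine Finset.prod_congr rfl fun t' _ => ?_
    rw [hS.bb (hZ t') (hY t), ← mul_pow]
    congr 1
    ring
  rw [hQ'] at h2
  have hsign : Γ.sg Y Z • (C (∏ p ∈ Z, ∏ q ∈ Y, Γ.o p q) * ((-1) ^ Γ.bb Y Z * Q) : Rg P) =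
      C (∏ p ∈ Y, ∏ q ∈ Z, Γ.o p q) * Q := by
    rw [c7_sign hYZ, sg, smul_eq_C_mul, pow_add]
    simp only [map_mul, map_pow, map_neg, map_one]
    have : ((-1 : Rg P) ^ Γ.bb Y Z) * (-1) ^ Γ.bb Y Z = 1 := by
      rw [← mul_pow]; simp
    linear_combination ((-1 : Rg P) ^ (Γ.ff Y * Γ.ff Z) *
      C (∏ p ∈ Z, ∏ q ∈ Y, Γ.o p q) * Q) * this
  have h3 := Submodule.sub_mem _ h1.2.2 (Submodule.smul_mem _ (Γ.sg Y Z) h2.2.2)
  rw [smul_sub, hsign] at h3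
  convert h3 using 1
  ring

theorem c7_common (hS : Γ.Sym) {lab : P → ℕ} {Y Z : Finset P} (hYZ : Disjoint Y Z)
    (hY : Γ.Sl0 lab Y) (hZ : Γ.Sl0 lab Z) {i j : ℤ} {f g : Rg P} (hf : f ∈ Γ.FF i Y)
    (hg : g ∈ Γ.FF j Z)
    (hc : ((Y ∪ Z).image lab).card + 1 ≤ (Y.image lab).card + (Z.image lab).card) :
    f * g * Γ.KK Y Z ∈ Ord lab (Y ∪ Z) (Γ.Ipi lab (Y ∪ Z))
      (i + j - 1 + Γ.bpi lab (Y ∪ Z) - ((Y ∪ Z).image lab).card + 1).toNat := by
  obtain ⟨κ, hκ, e⟩ := KK_eq_in_mul_cross (Γ := Γ) lab Y Z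
  have h := mul_Kin_mem (e := (Γ.bcross lab Y Z : ℤ)) hYZ hY hf hg hZ hκ.1
    (by
      rw [show ((Γ.bcross lab Y Z : ℤ) + 1).toNat = Γ.bcross lab Y Z + 1 by omega]
      exact mem_Ord_bot lab _ hκ)
  rw [← e] at h
  refine Ord_mono (Γ.stab_Ipi lab (Y ∪ Z)) ?_ h
  rw [bpi_union hS hYZ hY hZ]
  push_cast
  omega

/-- F4.  For a labelling of slope zero: not `Sl0 lab Y` → both kernels in `Ipi`; a common label →
`|π_Y| + |π_Z| ≥ |π| + 1` in `mul_Kin_mem`; disjoint labels → `K_in = 1` and `KK_sub_mem`. -/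
theorem FF_comm (hS : Γ.Sym) {Y Z : Finset P} (hYZ : Disjoint Y Z) (hY : Γ.th Y = 0)
    (hZ : Γ.th Z = 0) {i j : ℤ} {f g : Rg P} (hf : f ∈ Γ.FF i Y) (hg : g ∈ Γ.FF j Z) :
    f * g * (Γ.KK Y Z - Γ.sg Y Z • Γ.KK Z Y) ∈ Γ.FF (i + j - 1) (Y ∪ Z) := by

  have hfR : f ∈ RX (Y ∪ Z) := RX_mono Finset.subset_union_left (Γ.FF_le _ _ hf)
  have hgR : g ∈ RX (Y ∪ Z) := RX_mono Finset.subset_union_right (Γ.FF_le _ _ hg)
  have hκR : Γ.KK Y Z - Γ.sg Y Z • Γ.KK Z Y ∈ RX (Y ∪ Z) :=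
    Submodule.sub_mem _ (Γ.KK_mem Finset.subset_union_left Finset.subset_union_right)
      (Submodule.smul_mem _ _ (Γ.KK_mem Finset.subset_union_right Finset.subset_union_left))
  rw [mem_FF]
  refine ⟨RX_mul (RX_mul hfR hgR) hκR, fun lab hl => ?_⟩
  by_cases hlY : Γ.Sl0 lab Y
  · have hlZ : Γ.Sl0 lab Z := sl0_of_union hYZ hl hlY
    by_cases hd : Disjoint (Y.image lab) (Z.image lab)
    · have hin : (∏ t ∈ (Y ∪ Z).image lab, Γ.KK (blk lab Y t) (blk lab Z t)) = 1 := by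
        refine Finset.prod_eq_one fun t _ => ?_
        by_cases ht : t ∈ Y.image lab
        · have : blk lab Z t = ∅ := by
            unfold blk
            rw [Finset.filter_eq_empty_iff]
            intro q hq h
            exact Finset.disjoint_left.1 hd ht (h ▸ Finset.mem_image_of_mem _ hq)
          rw [this, KK_empty_right]
        · have : blk lab Y t = ∅ := by
            unfold blk
            rw [Finset.filter_eq_empty_iff]
            intro q hq h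
            exact ht (h ▸ Finset.mem_image_of_mem _ hq)
          rw [this, KK_empty_left]
      have hcr : Γ.bcross lab Y Z = Γ.bb Y Z := by
        unfold bcross bb
        refine Finset.sum_congr rfl fun p hp => Finset.sum_congr rfl fun q hq => ?_
        rw [if_pos]
        intro h
        exact Finset.disjoint_left.1 hd (Finset.mem_image_of_mem _ hp)
          (h ▸ Finset.mem_image_of_mem _ hq)
      have h := mul_Kin_mem (e := (Γ.bb Y Z : ℤ) - 1) hYZ hlY hf hg hlZ hκR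
        (by
          rw [show ((Γ.bb Y Z : ℤ) - 1 + 1).toNat = Γ.bb Y Z by omega]
          exact KK_sub_mem hS hYZ hlY hlZ hd)
      rw [hin, one_mul] at h
      have hc : ((Y ∪ Z).image lab).card = (Y.image lab).card + (Z.image lab).card := by
        rw [Finset.image_union, Finset.card_union_of_disjoint hd]
      rw [bpi_union hS hYZ hlY hlZ, hcr, hc]
      convert h using 3
      push_cast
      ring
    · have hc : ((Y ∪ Z).image lab).card + 1 ≤ (Y.image lab).card + (Z.image lab).card := by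
        rw [Finset.image_union, ← Finset.card_union_add_card_inter]
        have : ((Y.image lab) ∩ (Z.image lab)).Nonempty := by
          rwa [Finset.nonempty_iff_ne_empty, Ne, ← Finset.disjoint_iff_inter_eq_empty]
        have := this.card_pos
        omega
      have h1 := c7_common hS hYZ hlY hlZ hf hg hc
      have h2 := c7_common hS hYZ.symm hlZ hlY hg hf (by rw [Finset.union_comm]; omega)
      rw [Finset.union_comm Z Y, add_comm j i] at h2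
      convert Submodule.sub_mem _ h1 (Submodule.smul_mem _ (Γ.sg Y Z) h2) using 1
      rw [mul_sub, mul_smul_comm, mul_comm g f]
  · have hlZ : ¬ Γ.Sl0 lab Z := fun h =>
      hlY (sl0_of_union hYZ.symm (by rwa [Finset.union_comm]) h)
    have h1 := KK_mem_Ipi hYZ hY hlY
    have h2 := KK_mem_Ipi hYZ.symm hZ hlZ
    rw [Finset.union_comm Z Y] at h2
    have h3 := Γ.Ipi_mul (RX_mul hfR hgR)
      (Submodule.sub_mem _ h1 (Submodule.smul_mem _ (Γ.sg Y Z) h2))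
    exact Ord_mono (Γ.stab_Ipi lab (Y ∪ Z)) (Nat.zero_le _) h3

end Ctx
end Crest.Agent.R59
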