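import Crest.Agent.R59.C6

/-! # Row 59, C7: the filtration is multiplicative and the graded product is supercommutative. -/

set_option autoImplicit false

namespace Crest.Agent.R59
open scoped Classical
open MvPolynomial

namespace Ctx
variable {I P : Type} [Fintype I] [DecidableEq I] [LinearOrder P] {Γ : Ctx I P}

omit [LinearOrder P] in
theorem c7a_blk_eq_empty {lab : P → ℕ} {Y : Finset P} {j : ℕ} (hj : j ∉ Y.image lab) :
    blk lab Y j = ∅ := by
  unfold blk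
  rw [Finset.filter_eq_empty_iff]
  intro p hp hpj
  exact hj (Finset.mem_image.2 ⟨p, hp, hpj⟩)

theorem c7a_blk_inter {lab : P → ℕ} {Y X : Finset P} (hY : Y ⊆ X) (j : ℕ) :
    blk lab X j ∩ Y = blk lab Y j := by
  ext p
  simp only [blk, Finset.mem_inter, Finset.mem_filter]
  exact ⟨fun h => ⟨h.2, h.1.2⟩, fun h => ⟨⟨hY h.1, h.2⟩, h.1⟩⟩

theorem c7a_blk_union (lab : P → ℕ) (Y Z : Finset P) (j : ℕ) :
    blk lab (Y ∪ Z) j = blk lab Y j ∪ blk lab Z j := by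
  unfold blk
  rw [Finset.filter_union]

theorem c7a_blk_disj {lab : P → ℕ} {Y Z : Finset P} (hYZ : Disjoint Y Z) (j : ℕ) :
    Disjoint (blk lab Y j) (blk lab Z j) :=
  hYZ.mono (blk_subset _ _ _) (blk_subset _ _ _)

theorem c7a_le_Ipi (lab : P → ℕ) (X : Finset P) (j : ℕ) :
    Γ.IF (blk lab X j) * RX X ≤ Γ.Ipi lab X :=
  le_iSup (fun j : ℕ => Γ.IF (blk lab X j) * RX X) j

theorem c7a_stab_mul {lab : P → ℕ} {X : Finset P} {N R : Submodule ℚ (Rg P)}
    (hN : Stab lab X N) (hR : Stab lab X R) : Stab lab X (N * R) := by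
  intro j f hf
  refine Submodule.mul_induction_on hf (fun a ha b hb => ?_) (fun a b ha hb => ?_)
  · rw [dB_mul]
    exact Submodule.add_mem _ (Submodule.mul_mem_mul (hN j a ha) hb)
      (Submodule.mul_mem_mul ha (hR j b hb))
  · rw [map_add]; exact Submodule.add_mem _ ha hb

omit [LinearOrder P] in
theorem c7a_stab_sup {lab : P → ℕ} {X : Finset P} {N R : Submodule ℚ (Rg P)}
    (hN : Stab lab X N) (hR : Stab lab X R) : Stab lab X (N ⊔ R) := by
  intro j f hf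
  obtain ⟨a, ha, b, hb, rfl⟩ := Submodule.mem_sup.1 hf
  rw [map_add]
  exact Submodule.add_mem_sup (hN j a ha) (hR j b hb)

theorem c7a_stab_Ipi {lab : P → ℕ} {X Y : Finset P} (hY : Y ⊆ X) :
    Stab lab X (Γ.Ipi lab Y) := by
  intro j f hf
  rw [dB_inter _ (Γ.Ipi_le lab Y hf), c7a_blk_inter hY]
  exact Γ.stab_Ipi lab Y j f hf

theorem c7a_prod_mem {ι : Type} {X : Finset P} (T : Finset ι) (F : ι → Rg P)
    (h : ∀ t ∈ T, F t ∈ RX X) : ∏ t ∈ T, F t ∈ RX X :=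
  Finset.prod_induction F (fun x => x ∈ RX X) (fun _ _ ha hb => RX_mul ha hb) (RX_one X) h

theorem c7a_Kin_mem (lab : P → ℕ) (Y Z : Finset P) (T : Finset ℕ) :
    ∏ t ∈ T, Γ.KK (blk lab Y t) (blk lab Z t) ∈ RX (Y ∪ Z) :=
  c7a_prod_mem T _ fun _ _ => Γ.KK_mem ((blk_subset _ _ _).trans Finset.subset_union_left)
    ((blk_subset _ _ _).trans Finset.subset_union_right)

theorem c7a_dB_Kin (lab : P → ℕ) (Y Z : Finset P) (T : Finset ℕ) (j : ℕ) :
    dB (blk lab (Y ∪ Z) j) (∏ t ∈ T, Γ.KK (blk lab Y t) (blk lab Z t)) = 0 := by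
  refine Finset.prod_induction _ (fun x => dB (blk lab (Y ∪ Z) j) x = 0) ?_ (dB_one _) ?_
  · intro a b ha hb
    rw [dB_mul, ha, hb]; simp
  · intro t _
    apply Γ.dB_KK
    intro p hp q hq
    simp only [blk, Finset.mem_filter, Finset.mem_union] at hp hq ⊢
    simp [hp.1, hq.1, hp.2, hq.2]

/-- an ideal generated on one block of `W` times the inner kernel lies in `Ipi` -/
theorem c7a_mul_Kin {lab : P → ℕ} {Y Z W : Finset P} (hW : W ⊆ Y ∪ Z)
    (h : ∀ j, mulK (Γ.IF (blk lab W j) * RX (Y ∪ Z)) (Γ.KK (blk lab Y j) (blk lab Z j)) ≤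
      Γ.IF (blk lab Y j ∪ blk lab Z j) * RX (Y ∪ Z)) {a : Rg P}
    (ha : a ∈ Γ.Ipi lab W * RX (Y ∪ Z)) :
    a * ∏ t ∈ (Y ∪ Z).image lab, Γ.KK (blk lab Y t) (blk lab Z t) ∈ Γ.Ipi lab (Y ∪ Z) := by
  have key : Γ.Ipi lab W * RX (Y ∪ Z) ≤ (Γ.Ipi lab (Y ∪ Z)).comap
      (LinearMap.mulRight ℚ (∏ t ∈ (Y ∪ Z).image lab, Γ.KK (blk lab Y t) (blk lab Z t))) := by
    unfold Ipi
    rw [Submodule.iSup_mul]
    refine iSup_le fun j => ?_
    have h1 : Γ.IF (blk lab W j) * RX W * RX (Y ∪ Z) ≤ Γ.IF (blk lab W j) * RX (Y ∪ Z) := by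
      rw [mul_assoc]
      refine mul_le_mul_right ?_ _
      exact Submodule.mul_le.2 fun a ha b hb => RX_mul (RX_mono hW ha) hb
    refine h1.trans fun a ha => ?_
    rw [Submodule.mem_comap, LinearMap.mulRight_apply]
    by_cases hj : j ∈ (Y ∪ Z).image lab
    · rw [← Finset.mul_prod_erase _ _ hj, ← mul_assoc, mul_comm]
      refine Γ.Ipi_mul (c7a_Kin_mem lab Y Z _) ?_
      refine c7a_le_Ipi lab (Y ∪ Z) j ?_
      rw [c7a_blk_union]
      exact h j (mem_mulK.2 ⟨a, ha, rfl⟩)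
    · have hj' : j ∉ W.image lab := fun hh => hj (Finset.image_subset_image hW hh)
      rw [c7a_blk_eq_empty hj', Γ.IF_empty, Submodule.bot_mul, Submodule.mem_bot] at ha
      rw [ha, zero_mul]
      exact Submodule.zero_mem _
  exact key ha

/-- prefix lemma: if some block of `Y` is not of slope zero then one has negative slope, and the
kernel lies in `Ipi` (`KK_mem_IF_mul`) -/
theorem KK_mem_Ipi {lab : P → ℕ} {Y Z : Finset P} (hYZ : Disjoint Y Z) (hY : Γ.th Y = 0)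
    (h : ¬ Γ.Sl0 lab Y) : Γ.KK Y Z ∈ Γ.Ipi lab (Y ∪ Z) := by
  have hneg : ∃ j, Γ.th (blk lab Y j) < 0 := by
    by_contra hcon
    push Not at hcon
    apply h
    intro j
    by_cases hj : j ∈ Y.image lab
    · have hs := Γ.th_eq_sum_blk lab Y
      rw [hY] at hs
      exact (Finset.sum_eq_zero_iff_of_nonneg fun t _ => hcon t).1 hs.symm j hj
    · rw [c7a_blk_eq_empty hj, Γ.th_empty]
  obtain ⟨j, hj⟩ := hneg
  have hW : Y ∩ blk lab (Y ∪ Z) j = blk lab Y j := by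
    rw [Finset.inter_comm]; exact c7a_blk_inter Finset.subset_union_left j
  have hK := Γ.KK_mem_IF_mul (B := blk lab (Y ∪ Z) j) (W := Y) (X := Y ∪ Z)
    (blk_subset _ _ _) Finset.subset_union_left (by rw [hW]; exact hj)
  rw [Finset.union_sdiff_cancel_left hYZ] at hK
  exact c7a_le_Ipi lab (Y ∪ Z) j hK

theorem sl0_of_union {lab : P → ℕ} {Y Z : Finset P} (hYZ : Disjoint Y Z)
    (h : Γ.Sl0 lab (Y ∪ Z)) (hY : Γ.Sl0 lab Y) : Γ.Sl0 lab Z := by
  intro j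
  have h1 := h j
  rw [c7a_blk_union, Γ.th_union (c7a_blk_disj hYZ j), hY j, zero_add] at h1
  exact h1

/-- Core estimate for one labelling.  Write `K(Y,Z) = K_in · K_cross`, `K_in = ∏_j K(Y_j, Z_j)`
(killed by all block derivations, `dB_KK`), `K_cross ∈ RXle (bcross)`.  With
`N' = Ipi Y · R + Ipi Z · R` use `Ord_mul` for `f g`, then for `(f g) · K_in` (`N' K_in ⊆ Ipi`, by
`IF_mul_KK_left/right`), then for `K_cross` (`mem_Ord_bot`). `κ` is `K_cross` or any replacement. -/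
theorem mul_Kin_mem {lab : P → ℕ} {Y Z : Finset P} (hYZ : Disjoint Y Z) (hY : Γ.Sl0 lab Y)
    {i j e : ℤ} {f g κ : Rg P} (hf : f ∈ Γ.FF i Y) (hg : g ∈ Γ.FF j Z) (hZ : Γ.Sl0 lab Z)
    (hκ : κ ∈ RX (Y ∪ Z)) (hκ' : κ ∈ Ord lab (Y ∪ Z) ⊥ (e + 1).toNat) :
    f * g * ((∏ t ∈ (Y ∪ Z).image lab, Γ.KK (blk lab Y t) (blk lab Z t)) * κ) ∈
      Ord lab (Y ∪ Z) (Γ.Ipi lab (Y ∪ Z))
        (i + j + e + Γ.bpi lab Y + Γ.bpi lab Z - (Y.image lab).card - (Z.image lab).card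
          + 1).toNat := by
  obtain ⟨hfR, hf⟩ := Γ.mem_FF.1 hf
  obtain ⟨hgR, hg⟩ := Γ.mem_FF.1 hg
  have hYX : Y ⊆ Y ∪ Z := Finset.subset_union_left
  have hZX : Z ⊆ Y ∪ Z := Finset.subset_union_right
  have hf1 := (mem_Ord_subset hYX hfR).2 (hf lab hY)
  have hg1 := (mem_Ord_subset hZX hgR).2 (hg lab hZ)
  have hR : Stab lab (Y ∪ Z) (RX (Y ∪ Z)) := stab_RX _ _ _
  have hN' : Stab lab (Y ∪ Z) (Γ.Ipi lab Y * RX (Y ∪ Z) ⊔ Γ.Ipi lab Z * RX (Y ∪ Z)) :=
    c7a_stab_sup (c7a_stab_mul (c7a_stab_Ipi hYX) hR) (c7a_stab_mul (c7a_stab_Ipi hZX) hR)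
  have h1 := Ord_mul hN' hR hR
    (fun a ha _ b hb => Submodule.mem_sup_left (Submodule.mul_mem_mul ha hb))
    (fun a ha b hb _ => Submodule.mem_sup_right (by
      rw [mul_comm a b]; exact Submodule.mul_mem_mul hb ha))
    hf1 (RX_mono hYX hfR) hg1 (RX_mono hZX hgR)
  have hfg : f * g ∈ RX (Y ∪ Z) := RX_mul (RX_mono hYX hfR) (RX_mono hZX hgR)
  set Kin := ∏ t ∈ (Y ∪ Z).image lab, Γ.KK (blk lab Y t) (blk lab Z t) with hKin
  have hKd : ∀ t, dB (blk lab (Y ∪ Z) t) Kin = 0 := fun t => c7a_dB_Kin lab Y Z _ t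
  have hK0 : Kin ∈ Ord lab (Y ∪ Z) ⊥ ((0 : ℤ) + 1).toNat := by
    change Kin ∈ Ord lab (Y ∪ Z) ⊥ (0 + 1)
    rw [mem_Ord_succ]
    intro t
    rw [hKd t]
    exact Submodule.zero_mem _
  have hKs : Stab lab (Y ∪ Z) (Submodule.span ℚ {Kin}) := by
    intro t a ha
    obtain ⟨c, rfl⟩ := Submodule.mem_span_singleton.1 ha
    rw [map_smul, hKd t, smul_zero]
    exact Submodule.zero_mem _
  have hI : Stab lab (Y ∪ Z) (Γ.Ipi lab (Y ∪ Z)) := Γ.stab_Ipi _ _
  have h2 := Ord_mul (N₂ := ⊥) hI hR hKs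
    (fun a ha _ b hb => by
      obtain ⟨c, rfl⟩ := Submodule.mem_span_singleton.1 hb
      rw [mul_smul_comm]
      refine Submodule.smul_mem _ c ?_
      obtain ⟨a₁, ha₁, a₂, ha₂, rfl⟩ := Submodule.mem_sup.1 ha
      rw [add_mul]
      refine Submodule.add_mem _ ?_ ?_
      · exact c7a_mul_Kin hYX (fun t => Γ.IF_mul_KK_left (c7a_blk_disj hYZ t)
          (Finset.union_subset_union (blk_subset _ _ _) (blk_subset _ _ _))) ha₁
      · exact c7a_mul_Kin hZX (fun t => Γ.IF_mul_KK_right (c7a_blk_disj hYZ t)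
          (Finset.union_subset_union (blk_subset _ _ _) (blk_subset _ _ _)) (hY t).le) ha₂)
    (fun a _ b hb _ => by
      rw [(Submodule.mem_bot ℚ).1 hb, mul_zero]; exact Submodule.zero_mem _)
    h1 hfg hK0 (Submodule.mem_span_singleton_self Kin)
  have hfgK : f * g * Kin ∈ RX (Y ∪ Z) := RX_mul hfg (c7a_Kin_mem lab Y Z _)
  have h3 := Ord_mul (N₂ := ⊥) hI hR hR
    (fun a ha _ b hb => by rw [mul_comm]; exact Γ.Ipi_mul hb ha)
    (fun a _ b hb _ => by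
      rw [(Submodule.mem_bot ℚ).1 hb, mul_zero]; exact Submodule.zero_mem _)
    h2 hfgK hκ' hκ
  rw [← mul_assoc]
  convert h3 using 3
  ring

theorem KK_eq_in_mul_cross (lab : P → ℕ) (Y Z : Finset P) :
    ∃ κ ∈ RXle (Y ∪ Z) (Γ.bcross lab Y Z),
      Γ.KK Y Z = (∏ t ∈ (Y ∪ Z).image lab, Γ.KK (blk lab Y t) (blk lab Z t)) * κ := by
  have hkap : ∀ p q, Γ.kap p q = Γ.KK {p} {q} := fun p q => by simp [KK]
  refine ⟨∏ p ∈ Y, ∏ q ∈ Z, if lab p ≠ lab q then Γ.kap p q else 1, ?_, ?_⟩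
  · refine mem_RXle_of_hom ?_ ?_
    · refine c7a_prod_mem _ _ fun p hp => c7a_prod_mem _ _ fun q hq => ?_
      split_ifs
      · rw [hkap]
        exact Γ.KK_mem (by simp [hp]) (by simp [hq])
      · exact RX_one _
    · unfold bcross
      refine IsHomogeneous.prod _ _ _ fun p _ => IsHomogeneous.prod _ _ _ fun q _ => ?_
      split_ifs
      · have := Γ.KK_hom {p} {q}
        rw [← hkap] at this
        simpa [bb] using this
      · exact isHomogeneous_one _ _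
  · have h1 : ∏ t ∈ (Y ∪ Z).image lab, Γ.KK (blk lab Y t) (blk lab Z t) =
        ∏ p ∈ Y, ∏ q ∈ Z, if lab p = lab q then Γ.kap p q else 1 := by
      rw [← Finset.prod_fiberwise_of_maps_to (s := Y) (t := (Y ∪ Z).image lab) (g := lab)
        (fun p hp => Finset.mem_image_of_mem _ (Finset.mem_union_left _ hp))]
      refine Finset.prod_congr rfl fun t _ => ?_
      unfold KK blk
      refine Finset.prod_congr rfl fun p hp => ?_
      rw [Finset.prod_filter]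
      refine Finset.prod_congr rfl fun q _ => ?_
      rw [(Finset.mem_filter.1 hp).2]
      by_cases hq : lab q = t
      · rw [if_pos hq, if_pos hq.symm]
      · rw [if_neg hq, if_neg fun hh => hq hh.symm]
    rw [h1, ← Finset.prod_mul_distrib]
    unfold KK
    refine Finset.prod_congr rfl fun p _ => ?_
    rw [← Finset.prod_mul_distrib]
    refine Finset.prod_congr rfl fun q _ => ?_
    by_cases hq : lab p = lab q
    · simp [hq]
    · simp [hq]

/-- F3 -/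
theorem FF_mul (hS : Γ.Sym) {Y Z : Finset P} (hYZ : Disjoint Y Z) (hY : Γ.th Y = 0)
    (hZ : Γ.th Z = 0) {i j : ℤ} {f g : Rg P} (hf : f ∈ Γ.FF i Y) (hg : g ∈ Γ.FF j Z) :
    f * g * Γ.KK Y Z ∈ Γ.FF (i + j) (Y ∪ Z) := by
  have hYX : Y ⊆ Y ∪ Z := Finset.subset_union_left
  have hZX : Z ⊆ Y ∪ Z := Finset.subset_union_right
  have hfg : f * g ∈ RX (Y ∪ Z) :=
    RX_mul (RX_mono hYX (Γ.FF_le _ _ hf)) (RX_mono hZX (Γ.FF_le _ _ hg))
  refine Γ.mem_FF.2 ⟨RX_mul hfg (Γ.KK_mem hYX hZX), fun lab hl => ?_⟩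
  have hmono := Ord_mono (Γ.stab_Ipi lab (Y ∪ Z))
  by_cases hY' : Γ.Sl0 lab Y
  · have hZ' := sl0_of_union hYZ hl hY'
    obtain ⟨κ, hκ, hK⟩ := KK_eq_in_mul_cross (Γ := Γ) lab Y Z
    have hκ' : κ ∈ Ord lab (Y ∪ Z) ⊥ ((Γ.bcross lab Y Z : ℤ) + 1).toNat := by
      have := mem_Ord_bot lab (Y ∪ Z) hκ
      convert this using 2
      omega
    have h := mul_Kin_mem hYZ hY' hf hg hZ' hκ.1 hκ'
    rw [← hK] at h
    refine hmono ?_ h
    apply Int.toNat_le_toNat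
    have hc : ((Y ∪ Z).image lab).card ≤ (Y.image lab).card + (Z.image lab).card := by
      rw [Finset.image_union]; exact Finset.card_union_le _ _
    rw [bpi_union hS hYZ hY' hZ']
    push_cast
    omega
  · exact hmono (Nat.zero_le _) (Γ.Ipi_mul hfg (KK_mem_Ipi hYZ hY hY'))

end Ctx
end Crest.Agent.R59
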