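import Crest.Agent.R59.C8a

/-! # Row 59, C8: T1, second half -/

set_option autoImplicit false

namespace Crest.Agent.R59
noncomputable section
open scoped Classical
open MvPolynomial

section noctx
variable {P : Type} [LinearOrder P]

/-- tensor lemma, finite version -/
theorem c8_tensor_fin {Y Z : Finset P} (hYZ : Disjoint Y Z) {A₀ A B₀ : Submodule ℚ (Rg P)}
    (hA₀ : A₀ ≤ RX Y) (hA : A ≤ RX Y) (s : Finset (Rg P)) (hs : (s : Set (Rg P)) ⊆ A) :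
    ∀ f ∈ (A₀ ⊔ Submodule.span ℚ (s : Set (Rg P))) * RX Z,
      (∀ φ : Rg P →ₗ[ℚ] ℚ, (∀ g ∈ A₀, φ g = 0) → ∀ c : Rg P →ₗ[ℚ] Rg P,
        (∀ a ∈ RX Y, ∀ b ∈ RX Z, c (a * b) = φ a • b) → c f ∈ B₀) →
      f ∈ A₀ * RX Z ⊔ A * B₀ := by
  induction s using Finset.induction_on with
  | empty =>
    intro f hf _
    rw [Finset.coe_empty, Submodule.span_empty, sup_bot_eq] at hf
    exact Submodule.mem_sup_left hf
  | insert a s _ ih =>
    intro f hf h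
    rw [Finset.coe_insert] at hs hf
    have haA : a ∈ A := hs (Set.mem_insert _ _)
    have hsA : (s : Set (Rg P)) ⊆ A := (Set.subset_insert _ _).trans hs
    have hle : A₀ ⊔ Submodule.span ℚ (s : Set (Rg P)) ≤ RX Y :=
      sup_le hA₀ (Submodule.span_le.2 (hsA.trans hA))
    by_cases ha : a ∈ A₀ ⊔ Submodule.span ℚ (s : Set (Rg P))
    · have h1 : A₀ ⊔ Submodule.span ℚ (insert a (s : Set (Rg P))) ≤
          A₀ ⊔ Submodule.span ℚ (s : Set (Rg P)) :=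
        sup_le le_sup_left (Submodule.span_le.2 (Set.insert_subset ha
          fun x hx => Submodule.mem_sup_right (Submodule.subset_span hx)))
      exact ih hsA f (mul_le_mul_left h1 (RX Z) hf) h
    · obtain ⟨φ, hφ, hφa⟩ : ∃ φ : Rg P →ₗ[ℚ] ℚ,
          (∀ g ∈ A₀ ⊔ Submodule.span ℚ (s : Set (Rg P)), φ g = 0) ∧ φ a ≠ 0 := by
        by_contra hcon
        exact ha (mem_of_forall_dual _ fun φ hφ => by
          by_contra h0
          exact hcon ⟨φ, hφ, h0⟩)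
      rw [Submodule.span_insert, sup_comm (Submodule.span ℚ {a}), ← sup_assoc, Submodule.sup_mul,
        Submodule.mem_sup] at hf
      obtain ⟨f', hf', g, hg, rfl⟩ := hf
      obtain ⟨b, hb, rfl⟩ := Submodule.mem_span_singleton_mul.1 hg
      obtain ⟨c, hc⟩ := exists_con Y φ
      have hcf' : c f' = 0 := by
        have : (A₀ ⊔ Submodule.span ℚ (s : Set (Rg P))) * RX Z ≤ LinearMap.ker c :=
          Submodule.mul_le.2 fun x hx y hy => by
            rw [LinearMap.mem_ker, hc x (hle hx) Z hYZ y hy, hφ x hx, zero_smul]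
        exact this hf'
      have hbB : b ∈ B₀ := by
        have h1 := h φ (fun g hg => hφ g (Submodule.mem_sup_left hg)) c
          (fun x hx y hy => hc x hx Z hYZ y hy)
        rw [map_add, hcf', zero_add, hc a (hA haA) Z hYZ b hb] at h1
        exact (Submodule.smul_mem_iff _ hφa).1 h1
      refine Submodule.add_mem _ (ih hsA f' hf' fun ψ hψ c' hc' => ?_)
        (Submodule.mem_sup_right (Submodule.mul_mem_mul haA hbB))
      have h1 := h ψ hψ c' hc'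
      rw [map_add, hc' a (hA haA) b hb] at h1
      exact (Submodule.add_mem_iff_left _ (Submodule.smul_mem _ _ hbB)).1 h1

/-- tensor lemma -/
theorem c8_tensor {Y Z : Finset P} (hYZ : Disjoint Y Z) {A₀ A B₀ : Submodule ℚ (Rg P)}
    (hA₀ : A₀ ≤ RX Y) (hA : A ≤ RX Y) {f : Rg P} (hf : f ∈ A * RX Z)
    (h : ∀ φ : Rg P →ₗ[ℚ] ℚ, (∀ g ∈ A₀, φ g = 0) → ∀ c : Rg P →ₗ[ℚ] Rg P,
        (∀ a ∈ RX Y, ∀ b ∈ RX Z, c (a * b) = φ a • b) → c f ∈ B₀) :
    f ∈ A₀ * RX Z ⊔ A * B₀ := by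
  obtain ⟨T, T', hT, hT', hf'⟩ := Submodule.mem_span_mul_finite_of_mem_mul hf
  refine c8_tensor_fin hYZ hA₀ hA T hT f ?_ h
  rw [← Submodule.span_mul_span] at hf'
  exact mul_le_mul' le_sup_right (Submodule.span_le.2 hT') hf'

end noctx

namespace Ctx
variable {I P : Type} [Fintype I] [DecidableEq I] [LinearOrder P] {Γ : Ctx I P}

theorem c8_con {Y Z : Finset P} (hYZ : Disjoint Y Z) {k : ℤ} {f : Rg P} (hf : f ∈ Γ.HG k Y Z)
    (N : ℤ) {φ : Rg P →ₗ[ℚ] ℚ} (hφ : ∀ g ∈ Γ.FF (N - 1) Y, φ g = 0) {c : Rg P →ₗ[ℚ] Rg P}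
    (hc : ∀ a ∈ RX Y, ∀ b ∈ RX Z, c (a * b) = φ a • b) : c f ∈ Γ.FF (k - N) Z := by
  have h1 : f ∈ RX (Z ∪ Y) := by
    rw [Finset.union_comm]
    exact (c8a_mem_HG.1 hf).1
  refine Γ.mem_FF.2 ⟨c8a_con_mem hc h1, fun labZ hZ => mem_Ord_iff.2 fun js hjs => ?_⟩
  refine mem_of_forall_dual _ fun ℓ hℓ => ?_
  obtain ⟨c', hc'⟩ := exists_con Z ℓ
  have h2 := con_mem_FF hYZ hf hZ js hℓ (fun b hb a ha => hc' b hb Y hYZ.symm a ha)
  have h3 := hφ _ (Γ.FF_mono Y (show _ ≤ N - 1 by omega) h2)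
  rw [c8a_con_dL hYZ.symm hc labZ js h1, ← h3]
  have h4 := c8a_ind (Y := Z) (Z := Y) (N := LinearMap.eqLocus (ℓ ∘ₗ c) (φ ∘ₗ c'))
    (fun a ha b hb => by
      rw [LinearMap.mem_eqLocus, LinearMap.comp_apply, LinearMap.comp_apply, hc a ha b hb,
        mul_comm a b, hc' b hb Y hYZ.symm a ha, map_smul, map_smul, smul_eq_mul, smul_eq_mul,
        mul_comm]) (c8a_dL_mem labZ Z js h1)
  exact h4

theorem c8_step {Y Z : Finset P} (hYZ : Disjoint Y Z) (hY : Γ.th Y = 0) (k : ℤ) (n : ℕ) :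
    ∀ f ∈ Γ.FF ((n : ℤ) - 1) Y * RX Z, f ∈ Γ.HG k Y Z → f ∈ Γ.GG k Y Z := by
  induction n with
  | zero =>
    intro f hf _
    refine Submodule.mul_le.2 (fun a ha b hb => ?_) hf
    obtain ⟨j, hj⟩ := Γ.exists_FF hb
    rw [Γ.FF_eq_IF hY (Or.inl (by norm_num))] at ha
    refine Submodule.mem_iSup_of_mem (k - j) (Submodule.mul_mem_mul (Γ.IF_le_FF _ _ ha) ?_)
    rwa [sub_sub_cancel]
  | succ n ih =>
    intro f hf hH
    rw [Nat.cast_succ, add_sub_cancel_right] at hf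
    have h1 := c8_tensor hYZ (Γ.FF_le ((n : ℤ) - 1) Y) (Γ.FF_le n Y) hf
      (fun φ hφ c hc => c8_con hYZ hH n hφ hc)
    obtain ⟨f₁, hf₁, f₂, hf₂, rfl⟩ := Submodule.mem_sup.1 h1
    have h2 : f₂ ∈ Γ.GG k Y Z := Submodule.mem_iSup_of_mem (n : ℤ) hf₂
    exact Submodule.add_mem _
      (ih f₁ hf₁ ((Submodule.add_mem_iff_left _ (GG_le_HG hYZ k h2)).1 hH)) h2

/-- Induction on `N` for `f ∈ FF N Y * RX Z` (start: `FF (-1) Y = IF Y ≤ FF i Y` for all `i`, and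
`exists_FF`).  Step: write `f = f₁ + Σ c_α w_α` with `f₁ ∈ FF (N-1) Y * RX Z` and `c_α ∈ FF N Y`
independent modulo `FF (N-1) Y` (basis of a complement of `FF (N-1) Y` in `FF N Y`); by
`con_mem_FF` and `mem_of_forall_dual`, `w_α ∈ FF (k - N) Z`; then `f₁ ∈ HG k` by `GG_le_HG`. -/
theorem HG_le_GG {Y Z : Finset P} (hYZ : Disjoint Y Z) (hY : Γ.th Y = 0) (k : ℤ) :
    Γ.HG k Y Z ≤ Γ.GG k Y Z := by
  intro f hf
  have h1 : RX (Y ∪ Z) ≤ ⨆ n : ℕ, Γ.FF ((n : ℤ) - 1) Y * RX Z := by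
    rw [RX_union]
    refine Submodule.mul_le.2 fun a ha b hb => ?_
    obtain ⟨j, hj⟩ := Γ.exists_FF ha
    refine Submodule.mem_iSup_of_mem (j + 1) (Submodule.mul_mem_mul ?_ hb)
    rwa [Nat.cast_succ, add_sub_cancel_right]
  have hmono : Monotone fun n : ℕ => Γ.FF ((n : ℤ) - 1) Y * RX Z := fun n m hnm =>
    mul_le_mul_left (Γ.FF_mono Y (show (n : ℤ) - 1 ≤ (m : ℤ) - 1 by omega)) _
  obtain ⟨n, hn⟩ := (Submodule.mem_iSup_of_directed _ hmono.directed_le).1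
    (h1 (c8a_mem_HG.1 hf).1)
  exact c8_step hYZ hY k n f hn hf

/-- T1 -/
theorem FF_le_GG (hS : Γ.Sym) {Y Z : Finset P} (hYZ : Disjoint Y Z) (hY : Γ.th Y = 0) (k : ℤ) :
    Γ.FF k (Y ∪ Z) ≤ Γ.GG (k + Γ.bb Y Z) Y Z :=
  (FF_le_HG hS hYZ k).trans (HG_le_GG hYZ hY _)

end Ctx
end
end Crest.Agent.R59
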