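import Crest.Agent.R59.C7

/-! # Row 59, C8: the restriction of `FF k (Y ∪ Z)` lies in the tensor filtration (T1). -/

set_option autoImplicit false
set_option linter.unusedSectionVars false

namespace Crest.Agent.R59
noncomputable section
open scoped Classical
open MvPolynomial

section noctx
variable {P : Type} [LinearOrder P]

theorem c8a_dL_append (lab : P → ℕ) (X : Finset P) (js js' : List ℕ) (f : Rg P) :
    dL lab X (js ++ js') f = dL lab X js' (dL lab X js f) := by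
  induction js generalizing f with
  | nil => rfl
  | cons j js ih => exact ih _

theorem c8a_dL_map {lab lab' : P → ℕ} {X X' : Finset P} {φ : ℕ → ℕ}
    (h : ∀ j, blk lab X (φ j) = blk lab' X' j) (js : List ℕ) (f : Rg P) :
    dL lab X (js.map φ) f = dL lab' X' js f := by
  induction js generalizing f with
  | nil => rfl
  | cons j js ih =>
    show dL lab X (js.map φ) (dB (blk lab X (φ j)) f) = dL lab' X' js (dB (blk lab' X' j) f)
    rw [h, ih]

theorem c8a_dL_mem (lab : P → ℕ) (X : Finset P) (js : List ℕ) {W : Finset P} {f : Rg P}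
    (hf : f ∈ RX W) : dL lab X js f ∈ RX W := by
  induction js generalizing f with
  | nil => exact hf
  | cons j js ih => exact ih (dB_mem_RX _ hf)

theorem c8a_blk_union (lab : P → ℕ) (Y Z : Finset P) (j : ℕ) :
    blk lab (Y ∪ Z) j = blk lab Y j ∪ blk lab Z j := Finset.filter_union _ _ _

/-- induction over `RX (Y ∪ Z) = RX Z * RX Y` -/
theorem c8a_ind {Y Z : Finset P} {N : Submodule ℚ (Rg P)}
    (h : ∀ b ∈ RX Z, ∀ a ∈ RX Y, b * a ∈ N) : RX (Y ∪ Z) ≤ N := by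
  rw [Finset.union_comm, RX_union]
  exact Submodule.mul_le.2 h

variable {Y Z : Finset P} {ℓ : Rg P →ₗ[ℚ] ℚ} {c : Rg P →ₗ[ℚ] Rg P}

theorem c8a_con_mem (hc : ∀ b ∈ RX Z, ∀ a ∈ RX Y, c (b * a) = ℓ b • a) {f : Rg P}
    (hf : f ∈ RX (Y ∪ Z)) : c f ∈ RX Y :=
  c8a_ind (N := (RX Y).comap c) (fun b hb a ha => by
    rw [Submodule.mem_comap, hc b hb a ha]
    exact Submodule.smul_mem _ _ ha) hf

theorem c8a_con_dB (hYZ : Disjoint Y Z) (hc : ∀ b ∈ RX Z, ∀ a ∈ RX Y, c (b * a) = ℓ b • a)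
    {B : Finset P} (hB : B ⊆ Y) {f : Rg P} (hf : f ∈ RX (Y ∪ Z)) : dB B (c f) = c (dB B f) := by
  have := c8a_ind (N := LinearMap.eqLocus (dB B ∘ₗ c) (c ∘ₗ dB B)) (fun b hb a ha => by
    have h0 : dB B b = 0 := by
      rw [dB_inter B hb, Finset.disjoint_iff_inter_eq_empty.1 (Finset.disjoint_of_subset_left hB hYZ),
        dB_empty, LinearMap.zero_apply]
    rw [LinearMap.mem_eqLocus, LinearMap.comp_apply, LinearMap.comp_apply, dB_mul, h0, zero_mul, zero_add,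
      hc b hb a ha, hc b hb _ (dB_mem_RX B ha), map_smul]) hf
  exact this

theorem c8a_con_dL (hYZ : Disjoint Y Z) (hc : ∀ b ∈ RX Z, ∀ a ∈ RX Y, c (b * a) = ℓ b • a)
    (lab : P → ℕ) (js : List ℕ) {f : Rg P} (hf : f ∈ RX (Y ∪ Z)) :
    dL lab Y js (c f) = c (dL lab Y js f) := by
  induction js generalizing f with
  | nil => rfl
  | cons j js ih =>
    show dL lab Y js (dB (blk lab Y j) (c f)) = c (dL lab Y js (dB (blk lab Y j) f))
    rw [c8a_con_dB hYZ hc (blk_subset lab Y j) hf, ih (dB_mem_RX _ hf)]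

/-- the glued labelling -/
def c8aGlue (Y : Finset P) (labY labZ : P → ℕ) (p : P) : ℕ :=
  if p ∈ Y then 2 * labY p else 2 * labZ p + 1

theorem c8aGlue_left {labY labZ : P → ℕ} {p : P} (hp : p ∈ Y) : c8aGlue Y labY labZ p = 2 * labY p :=
  if_pos hp

theorem c8aGlue_right (hYZ : Disjoint Y Z) {labY labZ : P → ℕ} {p : P} (hp : p ∈ Z) :
    c8aGlue Y labY labZ p = 2 * labZ p + 1 :=
  if_neg (Finset.disjoint_right.1 hYZ hp)

theorem c8a_blk_YY (labY labZ : P → ℕ) (j : ℕ) : blk (c8aGlue Y labY labZ) Y (2 * j) = blk labY Y j :=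
  Finset.filter_congr fun p hp => by rw [c8aGlue_left hp]; omega

theorem c8a_blk_YZ (labY labZ : P → ℕ) (j : ℕ) : blk (c8aGlue Y labY labZ) Y (2 * j + 1) = ∅ :=
  Finset.filter_eq_empty_iff.2 fun p hp => by rw [c8aGlue_left hp]; omega

theorem c8a_blk_ZY (hYZ : Disjoint Y Z) (labY labZ : P → ℕ) (j : ℕ) :
    blk (c8aGlue Y labY labZ) Z (2 * j) = ∅ :=
  Finset.filter_eq_empty_iff.2 fun p hp => by rw [c8aGlue_right hYZ hp]; omega

theorem c8a_blk_ZZ (hYZ : Disjoint Y Z) (labY labZ : P → ℕ) (j : ℕ) :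
    blk (c8aGlue Y labY labZ) Z (2 * j + 1) = blk labZ Z j :=
  Finset.filter_congr fun p hp => by rw [c8aGlue_right hYZ hp]; omega

theorem c8a_blk_even (hYZ : Disjoint Y Z) (labY labZ : P → ℕ) (j : ℕ) :
    blk (c8aGlue Y labY labZ) (Y ∪ Z) (2 * j) = blk labY Y j := by
  rw [c8a_blk_union, c8a_blk_YY, c8a_blk_ZY hYZ, Finset.union_empty]

theorem c8a_blk_odd (hYZ : Disjoint Y Z) (labY labZ : P → ℕ) (j : ℕ) :
    blk (c8aGlue Y labY labZ) (Y ∪ Z) (2 * j + 1) = blk labZ Z j := by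
  rw [c8a_blk_union, c8a_blk_YZ, c8a_blk_ZZ hYZ, Finset.empty_union]

theorem c8a_image_left (labY labZ : P → ℕ) :
    Y.image (c8aGlue Y labY labZ) = (Y.image labY).image fun j => 2 * j := by
  rw [Finset.image_image]
  exact Finset.image_congr fun p hp => c8aGlue_left hp

theorem c8a_image_right (hYZ : Disjoint Y Z) (labY labZ : P → ℕ) :
    Z.image (c8aGlue Y labY labZ) = (Z.image labZ).image fun j => 2 * j + 1 := by
  rw [Finset.image_image]
  exact Finset.image_congr fun p hp => c8aGlue_right hYZ hp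

end noctx

namespace Ctx
variable {I P : Type} [Fintype I] [DecidableEq I] [LinearOrder P]

/-- the tensor filtration described by conditions -/
def HG (Γ : Ctx I P) (k : ℤ) (Y Z : Finset P) : Submodule ℚ (Rg P) :=
  RX (Y ∪ Z) ⊓ ⨅ (lab : P → ℕ)
    (_ : Γ.Sl0 lab Y ∧ Γ.Sl0 lab Z ∧ Disjoint (Y.image lab) (Z.image lab)),
    Ord lab (Y ∪ Z) (Γ.Ipi lab (Y ∪ Z))
      (k + Γ.bpi lab Y + Γ.bpi lab Z - (Y.image lab).card - (Z.image lab).card + 1).toNat

variable {Γ : Ctx I P}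

theorem c8a_mem_HG {k : ℤ} {Y Z : Finset P} {f : Rg P} : f ∈ Γ.HG k Y Z ↔ f ∈ RX (Y ∪ Z) ∧
    ∀ lab : P → ℕ, Γ.Sl0 lab Y → Γ.Sl0 lab Z → Disjoint (Y.image lab) (Z.image lab) →
      f ∈ Ord lab (Y ∪ Z) (Γ.Ipi lab (Y ∪ Z))
        (k + Γ.bpi lab Y + Γ.bpi lab Z - (Y.image lab).card - (Z.image lab).card + 1).toNat := by
  simp only [HG, Submodule.mem_inf, Submodule.mem_iInf, and_imp]

/-- `bpi_union`, `bcross = bb` for disjoint labels -/
theorem FF_le_HG (hS : Γ.Sym) {Y Z : Finset P} (hYZ : Disjoint Y Z) (k : ℤ) :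
    Γ.FF k (Y ∪ Z) ≤ Γ.HG (k + Γ.bb Y Z) Y Z := by
  intro f hf
  obtain ⟨h1, h2⟩ := Γ.mem_FF.1 hf
  refine c8a_mem_HG.2 ⟨h1, fun lab hY hZ hd => ?_⟩
  have h3 : Γ.Sl0 lab (Y ∪ Z) := fun j => by
    rw [c8a_blk_union, Γ.th_union (Y := blk lab Y j) (Z := blk lab Z j) (Finset.disjoint_filter_filter hYZ),
      hY j, hZ j, add_zero]
  have h4 : Γ.bcross lab Y Z = Γ.bb Y Z :=
    Finset.sum_congr rfl fun p hp => Finset.sum_congr rfl fun q hq => if_pos fun e : lab p = lab q =>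
      Finset.disjoint_left.1 hd (Finset.mem_image_of_mem lab hp) (e ▸ Finset.mem_image_of_mem lab hq)
  have h5 := h2 lab h3
  rw [bpi_union hS hYZ hY hZ, h4, Finset.image_union, Finset.card_union_of_disjoint hd] at h5
  convert h5 using 3
  push_cast
  ring

/-- `mul_Kin_mem` with `κ = 1`, `K_in = 1` -/
theorem GG_le_HG {Y Z : Finset P} (hYZ : Disjoint Y Z) (k : ℤ) : Γ.GG k Y Z ≤ Γ.HG k Y Z := by
  refine iSup_le fun i => Submodule.mul_le.2 fun f hf g hg => c8a_mem_HG.2 ⟨?_, fun lab hY hZ hd => ?_⟩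
  · exact RX_mul (RX_mono Finset.subset_union_left (Γ.FF_le _ _ hf))
      (RX_mono Finset.subset_union_right (Γ.FF_le _ _ hg))
  · have h1 : (1 : Rg P) ∈ Ord lab (Y ∪ Z) ⊥ ((0 : ℤ) + 1).toNat :=
      mem_Ord_succ.2 fun j => by rw [dB_one]; exact Submodule.zero_mem _
    have h2 := mul_Kin_mem hYZ hY hf hg hZ (RX_one _) h1
    have h3 : ∏ t ∈ (Y ∪ Z).image lab, Γ.KK (blk lab Y t) (blk lab Z t) = 1 := by
      refine Finset.prod_eq_one fun t _ => ?_
      by_cases ht : t ∈ Y.image lab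
      · have : blk lab Z t = ∅ := Finset.filter_eq_empty_iff.2 fun q hq e =>
          Finset.disjoint_left.1 hd ht (e ▸ Finset.mem_image_of_mem lab hq)
        rw [this, KK_empty_right]
      · have : blk lab Y t = ∅ := Finset.filter_eq_empty_iff.2 fun q hq e =>
          ht (e ▸ Finset.mem_image_of_mem lab hq)
        rw [this, KK_empty_left]
    rw [h3, mul_one, mul_one] at h2
    convert h2 using 3
    ring

theorem c8a_con_Ipi {Y Z : Finset P} (hYZ : Disjoint Y Z) {labY labZ : P → ℕ}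
    {ℓ : Rg P →ₗ[ℚ] ℚ} (hℓ : ∀ g ∈ Γ.Ipi labZ Z, ℓ g = 0) {c : Rg P →ₗ[ℚ] Rg P}
    (hc : ∀ b ∈ RX Z, ∀ a ∈ RX Y, c (b * a) = ℓ b • a) :
    Γ.Ipi (c8aGlue Y labY labZ) (Y ∪ Z) ≤ (Γ.Ipi labY Y).comap c := by
  refine iSup_le fun j => Submodule.mul_le.2 fun u hu r hr => ?_
  refine c8a_ind (N := ((Γ.Ipi labY Y).comap c).comap (LinearMap.mulLeft ℚ u)) (fun b hb a ha => ?_) hr
  rw [Submodule.mem_comap, Submodule.mem_comap, LinearMap.mulLeft_apply]
  obtain ⟨t, rfl | rfl⟩ := Nat.even_or_odd' j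
  · rw [c8a_blk_even hYZ] at hu
    rw [mul_left_comm, hc b hb _ (RX_mul (RX_mono (blk_subset _ _ _) (Γ.IF_le _ hu)) ha)]
    exact Submodule.smul_mem _ _ (Submodule.mem_iSup_of_mem t (Submodule.mul_mem_mul hu ha))
  · rw [c8a_blk_odd hYZ] at hu
    rw [← mul_assoc, hc _ (RX_mul (RX_mono (blk_subset _ _ _) (Γ.IF_le _ hu)) hb) a ha,
      hℓ _ (Submodule.mem_iSup_of_mem t (Submodule.mul_mem_mul hu hb)), zero_smul]
    exact Submodule.zero_mem _

/-- Contraction of a derivative.  Given `labY`, glue `lab p = 2 labY p` on `Y`,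
`2 labZ p + 1` off `Y`; `bpi`, the number of labels and the blocks are those of `labY`, `labZ`;
`c` commutes with the derivations of blocks of `Y` on `RX Y * RX Z`, and maps
`Ipi lab (Y ∪ Z)` into `Ipi labY Y` (blocks in `Z` are killed by `ℓ`). -/
theorem con_mem_FF {Y Z : Finset P} (hYZ : Disjoint Y Z) {k : ℤ} {f : Rg P}
    (hf : f ∈ Γ.HG k Y Z) {labZ : P → ℕ} (hZ : Γ.Sl0 labZ Z) (js : List ℕ)
    {ℓ : Rg P →ₗ[ℚ] ℚ} (hℓ : ∀ g ∈ Γ.Ipi labZ Z, ℓ g = 0) {c : Rg P →ₗ[ℚ] Rg P}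
    (hc : ∀ b ∈ RX Z, ∀ a ∈ RX Y, c (b * a) = ℓ b • a) :
    c (dL labZ Z js f) ∈ Γ.FF (k + Γ.bpi labZ Z - (Z.image labZ).card - js.length) Y := by
  obtain ⟨h1, h2⟩ := c8a_mem_HG.1 hf
  have h3 := c8a_dL_mem labZ Z js h1
  refine Γ.mem_FF.2 ⟨c8a_con_mem hc h3, fun labY hY => mem_Ord_iff.2 fun js' hjs => ?_⟩
  have s1 : Γ.Sl0 (c8aGlue Y labY labZ) Y := fun j => by
    obtain ⟨t, rfl | rfl⟩ := Nat.even_or_odd' j
    · rw [c8a_blk_YY, hY t]
    · rw [c8a_blk_YZ, th_empty]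
  have s2 : Γ.Sl0 (c8aGlue Y labY labZ) Z := fun j => by
    obtain ⟨t, rfl | rfl⟩ := Nat.even_or_odd' j
    · rw [c8a_blk_ZY hYZ, th_empty]
    · rw [c8a_blk_ZZ hYZ, hZ t]
  have s3 : Disjoint (Y.image (c8aGlue Y labY labZ)) (Z.image (c8aGlue Y labY labZ)) := by
    rw [c8a_image_left, c8a_image_right hYZ, Finset.disjoint_left]
    intro t ht ht'
    obtain ⟨a, -, rfl⟩ := Finset.mem_image.1 ht
    obtain ⟨b, -, hb⟩ := Finset.mem_image.1 ht'
    omega
  have b1 : Γ.bpi (c8aGlue Y labY labZ) Y = Γ.bpi labY Y :=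
    Finset.sum_congr rfl fun p hp => Finset.sum_congr rfl fun q hq => by
      rw [c8aGlue_left hp, c8aGlue_left hq]
      exact if_congr (by omega) rfl rfl
  have b2 : Γ.bpi (c8aGlue Y labY labZ) Z = Γ.bpi labZ Z :=
    Finset.sum_congr rfl fun p hp => Finset.sum_congr rfl fun q hq => by
      rw [c8aGlue_right hYZ hp, c8aGlue_right hYZ hq]
      exact if_congr (by omega) rfl rfl
  have c1 : (Y.image (c8aGlue Y labY labZ)).card = (Y.image labY).card := by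
    rw [c8a_image_left, Finset.card_image_of_injective _ fun a b (h : 2 * a = 2 * b) => by omega]
  have c2 : (Z.image (c8aGlue Y labY labZ)).card = (Z.image labZ).card := by
    rw [c8a_image_right hYZ,
      Finset.card_image_of_injective _ fun a b (h : 2 * a + 1 = 2 * b + 1) => by omega]
  have h4 := h2 _ s1 s2 s3
  rw [b1, b2, c1, c2] at h4
  have h5 := mem_Ord_iff.1 (Ord_mono (Γ.stab_Ipi _ _) (show _ ≤ js.length + js'.length by omega) h4)
    ((js.map fun j => 2 * j + 1) ++ js'.map fun j => 2 * j) (by simp)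
  rw [c8a_dL_append, c8a_dL_map (c8a_blk_even hYZ labY labZ), c8a_dL_map (c8a_blk_odd hYZ labY labZ)] at h5
  rw [c8a_con_dL hYZ hc labY js' h3]
  exact c8a_con_Ipi hYZ hℓ hc h5

end Ctx
end
end Crest.Agent.R59
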