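import Crest.Agent.R59.C9a

/-! # Row 59, C9: decomposables `DD`, the filtrations `GG`, `NN`, and the splitting lemma. -/

set_option autoImplicit false

namespace Crest.Agent.R59
open scoped Classical
open MvPolynomial

namespace Ctx
variable {I P : Type} [Fintype I] [DecidableEq I] [LinearOrder P] {Γ : Ctx I P}

/-- induction principle for `⨆ i, A i * B i` -/
theorem c9_ind {A B : ℤ → Submodule ℚ (Rg P)} {N : Submodule ℚ (Rg P)} (L : Rg P →ₗ[ℚ] Rg P)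
    (h : ∀ i, ∀ a ∈ A i, ∀ b ∈ B i, L (a * b) ∈ N) {n : Rg P} (hn : n ∈ ⨆ i, A i * B i) :
    L n ∈ N := by
  have : (⨆ i, A i * B i) ≤ N.comap L :=
    iSup_le fun i => Submodule.mul_le.2 fun a ha b hb => h i a ha b hb
  exact this hn

theorem c9_ind' {A B : ℤ → Submodule ℚ (Rg P)} {N : Submodule ℚ (Rg P)} (w : Rg P)
    (h : ∀ i, ∀ a ∈ A i, ∀ b ∈ B i, a * b * w ∈ N) {n : Rg P} (hn : n ∈ ⨆ i, A i * B i) :
    n * w ∈ N :=
  c9_ind (LinearMap.mulRight ℚ w) h hn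

theorem c9_RX_mul {X : Finset P} {N : Submodule ℚ (Rg P)} {a m : Rg P} (ha : a ∈ RX X)
    (hm : m ∈ N * RX X) : a * m ∈ N * RX X := by
  have : N * RX X ≤ (N * RX X).comap (LinearMap.mulLeft ℚ a) := by
    refine Submodule.mul_le.2 fun u hu v hv => ?_
    have e : a * (u * v) = u * (a * v) := by ring
    show a * (u * v) ∈ N * RX X
    rw [e]
    exact Submodule.mul_mem_mul hu (RX_mul ha hv)
  exact this hm

/-- multiplying the `Z`-factor by a product in the shuffle sense -/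
theorem NN_mul_FF (hS : Γ.Sym) {Y W Z : Finset P} (hWZ : Disjoint W Z) (hW : Γ.th W = 0)
    (hZ : Γ.th Z = 0) {k i : ℤ} {f n : Rg P} (hf : f ∈ Γ.FF i W) (hn : n ∈ Γ.NN k Y Z) :
    f * n * Γ.KK W Z ∈ Γ.NN (i + k) Y (W ∪ Z) := by
  have e : f * n * Γ.KK W Z = n * (f * Γ.KK W Z) := by ring
  rw [e]
  refine c9_ind' _ (fun i' a ha b hb => ?_) hn
  have h := mul_mem_NN ha (FF_mul hS hWZ hW hZ hf hb)
  have e1 : a * b * (f * Γ.KK W Z) = a * (f * b * Γ.KK W Z) := by ring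
  have e2 : i' + (i + (k - i')) = i + k := by ring
  rw [e1, ← e2]
  exact h
theorem GG_mul_FF (hS : Γ.Sym) {Y W Z : Finset P} (hWZ : Disjoint W Z) (hW : Γ.th W = 0)
    (hZ : Γ.th Z = 0) {k i : ℤ} {n g : Rg P} (hn : n ∈ Γ.GG k Y W) (hg : g ∈ Γ.FF i Z) :
    n * g * Γ.KK W Z ∈ Γ.GG (k + i) Y (W ∪ Z) := by
  rw [mul_assoc]
  refine c9_ind' _ (fun i' a ha b hb => ?_) hn
  have h := mul_mem_GG ha (FF_mul hS hWZ hW hZ hb hg)
  have e1 : a * b * (g * Γ.KK W Z) = a * (b * g * Γ.KK W Z) := by ring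
  have e2 : i' + (k - i' + i) = k + i := by ring
  rw [e1, ← e2]
  exact h
theorem FF_mul_GG (hS : Γ.Sym) {Y W Z : Finset P} (hWZ : Disjoint W Z) (hW : Γ.th W = 0)
    (hZ : Γ.th Z = 0) {k i : ℤ} {f n : Rg P} (hf : f ∈ Γ.FF i W) (hn : n ∈ Γ.GG k Y Z) :
    f * n * Γ.KK W Z ∈ Γ.GG (i + k) Y (W ∪ Z) := by
  have e : f * n * Γ.KK W Z = n * (f * Γ.KK W Z) := by ring
  rw [e]
  refine c9_ind' _ (fun i' a ha b hb => ?_) hn
  have h := mul_mem_GG ha (FF_mul hS hWZ hW hZ hf hb)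
  have e1 : a * b * (f * Γ.KK W Z) = a * (f * b * Γ.KK W Z) := by ring
  have e2 : i' + (i + (k - i')) = i + k := by ring
  rw [e1, ← e2]
  exact h
/-- F4' = `FF_comm` + `FF_le_GG` -/
theorem GG_comm (hS : Γ.Sym) {Y W : Finset P} (hYW : Disjoint Y W) (hY : Γ.th Y = 0)
    (hW : Γ.th W = 0) {i j : ℤ} {f g : Rg P} (hf : f ∈ Γ.FF i Y) (hg : g ∈ Γ.FF j W) :
    f * g * (Γ.KK W Y - Γ.sg W Y • Γ.KK Y W) ∈ Γ.GG (i + j + Γ.bb Y W - 1) Y W := by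
  have h := FF_comm hS hYW.symm hW hY hg hf
  rw [Finset.union_comm, mul_comm g f] at h
  have h2 := FF_le_GG hS hYW hY _ h
  have e : j + i - 1 + (Γ.bb Y W : ℤ) = i + j + Γ.bb Y W - 1 := by ring
  rwa [e] at h2
/-- SPLIT.  Pieces `A = W ∩ Y`, `B = Y \ W`, `C = W ∩ Z`, `E = Z \ W`;
`K(W, X \ W) = K(A,B) K(C,E) K(A,E) K(C,B)`.  If `θ A < 0` or `θ C < 0` use `KK_mem_IF_mul`,
`IF_mul_le_NN`.  Otherwise all four have slope zero: expand `f ∈ GG (i + b(A,C)) A C`,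
`g ∈ GG (j + b(B,E)) B E` (`FF_le_GG`), use `mul_KK_mem_DD` on `Y`, `FF_mul` on `Z`,
`RXle_mul_NN` for the cross factors, and `b(C,B) = b(B,C)`. -/
theorem split_mem (hS : Γ.Sym) {Y Z W : Finset P} (hYZ : Disjoint Y Z) (hY : Γ.th Y = 0)
    (hZ : Γ.th Z = 0) (hW : W ⊆ Y ∪ Z) (hW0 : Γ.th W = 0) (h1 : W ∩ Y ≠ ∅) (h2 : Y \ W ≠ ∅)
    {i j : ℤ} {f g : Rg P} (hf : f ∈ Γ.FF i W) (hg : g ∈ Γ.FF j ((Y ∪ Z) \ W)) :
    f * g * Γ.KK W ((Y ∪ Z) \ W) ∈ Γ.NN (i + j + Γ.bb Y Z) Y Z := by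
  have hfg : f * g ∈ RX (Y ∪ Z) :=
    RX_mul (RX_mono hW (Γ.FF_le _ _ hf)) (RX_mono Finset.sdiff_subset (Γ.FF_le _ _ hg))
  by_cases hA : Γ.th (W ∩ Y) < 0
  · exact IF_mul_le_NN _ Y Z (Submodule.mem_sup_left
      (c9_RX_mul hfg (Γ.KK_mem_IF_mul Finset.subset_union_left hW hA)))
  by_cases hC : Γ.th (W ∩ Z) < 0
  · exact IF_mul_le_NN _ Y Z (Submodule.mem_sup_right
      (c9_RX_mul hfg (Γ.KK_mem_IF_mul Finset.subset_union_right hW hC)))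
  have hd := Finset.disjoint_left.1 hYZ
  obtain ⟨A, hA'⟩ : ∃ A, A = W ∩ Y := ⟨_, rfl⟩
  obtain ⟨B, hB'⟩ : ∃ B, B = Y \ W := ⟨_, rfl⟩
  obtain ⟨C', hC'⟩ : ∃ C', C' = W ∩ Z := ⟨_, rfl⟩
  obtain ⟨E, hE'⟩ : ∃ E, E = Z \ W := ⟨_, rfl⟩
  have eW : W = A ∪ C' := by
    ext p
    have := @hW p
    simp only [hA', hC', Finset.mem_union, Finset.mem_inter] at this ⊢
    tauto
  have eW' : (Y ∪ Z) \ W = B ∪ E := by
    ext p
    simp only [hB', hE', Finset.mem_union, Finset.mem_sdiff]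
    tauto
  have eY : Y = A ∪ B := by
    ext p
    simp only [hA', hB', Finset.mem_union, Finset.mem_inter, Finset.mem_sdiff]
    tauto
  have eZ : Z = C' ∪ E := by
    ext p
    simp only [hC', hE', Finset.mem_union, Finset.mem_inter, Finset.mem_sdiff]
    tauto
  have dAC : Disjoint A C' := by
    rw [hA', hC']
    exact hYZ.mono Finset.inter_subset_right Finset.inter_subset_right
  have dBE : Disjoint B E := by
    rw [hB', hE']
    exact hYZ.mono Finset.sdiff_subset Finset.sdiff_subset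
  have dAB : Disjoint A B := by
    rw [hA', hB', Finset.disjoint_left]
    intro p hp hq
    exact (Finset.mem_sdiff.1 hq).2 (Finset.mem_inter.1 hp).1
  have dCE : Disjoint C' E := by
    rw [hC', hE', Finset.disjoint_left]
    intro p hp hq
    exact (Finset.mem_sdiff.1 hq).2 (Finset.mem_inter.1 hp).1
  rw [← hA'] at hA h1
  rw [← hC'] at hC
  rw [← hB'] at h2
  have t1 : Γ.th A + Γ.th C' = 0 := by rw [← Γ.th_union dAC, ← eW, hW0]
  have t2 : Γ.th A + Γ.th B = 0 := by rw [← Γ.th_union dAB, ← eY, hY]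
  have t3 : Γ.th C' + Γ.th E = 0 := by rw [← Γ.th_union dCE, ← eZ, hZ]
  have tA : Γ.th A = 0 := by linarith [not_lt.1 hA, not_lt.1 hC]
  have tC : Γ.th C' = 0 := by linarith
  have tB : Γ.th B = 0 := by linarith
  have tE : Γ.th E = 0 := by linarith
  have sA : A ⊆ Y ∪ Z := by rw [hA']; exact Finset.inter_subset_right.trans Finset.subset_union_left
  have sB : B ⊆ Y ∪ Z := by rw [hB']; exact Finset.sdiff_subset.trans Finset.subset_union_left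
  have sC : C' ⊆ Y ∪ Z := by
    rw [hC']; exact Finset.inter_subset_right.trans Finset.subset_union_right
  have sE : E ⊆ Y ∪ Z := by rw [hE']; exact Finset.sdiff_subset.trans Finset.subset_union_right
  have eb : (Γ.bb Y Z : ℤ) = Γ.bb A C' + Γ.bb B E + Γ.bb A E + Γ.bb C' B := by
    have : Γ.bb (A ∪ B) (C' ∪ E) = Γ.bb A C' + Γ.bb B E + Γ.bb A E + Γ.bb C' B := by
      rw [Γ.bb_union_left dAB, Γ.bb_union_right _ dCE, Γ.bb_union_right _ dCE, hS.bb tC tB]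
      ring
    rw [← eY, ← eZ] at this
    exact_mod_cast this
  have eK : Γ.KK W ((Y ∪ Z) \ W) = Γ.KK A B * Γ.KK A E * (Γ.KK C' B * Γ.KK C' E) := by
    have : Γ.KK (A ∪ C') (B ∪ E) = Γ.KK A B * Γ.KK A E * (Γ.KK C' B * Γ.KK C' E) := by
      rw [Γ.KK_union_left dAC, Γ.KK_union_right _ dBE, Γ.KK_union_right _ dBE]
    rw [eW', ← this, ← eW]
  rw [eK]
  rw [eW'] at hg
  rw [eW] at hf
  have hf' := FF_le_GG hS dAC tA _ hf
  have hg' := FF_le_GG hS dBE tB _ hg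
  rw [mul_assoc]
  refine c9_ind' _ (fun i₁ a ha c hc => ?_) hf'
  rw [mul_left_comm]
  refine c9_ind' _ (fun j₁ b hb e he => ?_) hg'
  have m1 := mul_KK_mem_DD dAB h1 h2 tA tB ha hb
  have m2 := FF_mul hS dCE tC tE hc he
  rw [← eY] at m1
  rw [← eZ] at m2
  have m3 := RXle_mul_NN (Γ.KK_mem_le sC sB) (RXle_mul_NN (Γ.KK_mem_le sA sE) (mul_mem_NN m1 m2))
  have e1 : b * e * (a * c * (Γ.KK A B * Γ.KK A E * (Γ.KK C' B * Γ.KK C' E))) =
      Γ.KK C' B * (Γ.KK A E * (a * b * Γ.KK A B * (c * e * Γ.KK C' E))) := by ring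
  have e2 : i₁ + j₁ + (i + (Γ.bb A C' : ℤ) - i₁ + (j + (Γ.bb B E : ℤ) - j₁)) + (Γ.bb A E : ℤ) +
      (Γ.bb C' B : ℤ) = i + j + Γ.bb Y Z := by
    rw [eb]; ring
  rw [e1, ← e2]
  exact m3
/-- contraction of `NN` with a functional killing `DD k₀ Y` -/
theorem con_NN {Y Z : Finset P} {k₀ k : ℤ} {φ : Rg P →ₗ[ℚ] ℚ} (hφ : ∀ f ∈ Γ.DD k₀ Y, φ f = 0)
    {c : Rg P →ₗ[ℚ] Rg P} (hc : ∀ a ∈ RX Y, ∀ b ∈ RX Z, c (a * b) = φ a • b) {f : Rg P}
    (hf : f ∈ Γ.NN k Y Z) : c f ∈ Γ.FF (k - k₀ - 1) Z := by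
  refine c9_ind c (fun i a ha b hb => ?_) hf
  rw [hc a (DD_le_RX _ _ ha) b (Γ.FF_le _ _ hb)]
  by_cases hi : i ≤ k₀
  · rw [hφ a (DD_mono Y hi ha), zero_smul]
    exact Submodule.zero_mem _
  · exact Submodule.smul_mem _ _ (Γ.FF_mono Z (show k - i ≤ k - k₀ - 1 by omega) hb)

end Ctx
end Crest.Agent.R59
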