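import Crest.Agent.R59.C8

/-! # Row 59, C9: decomposables `DD`, the filtrations `GG`, `NN`, and the splitting lemma. -/

set_option autoImplicit false

namespace Crest.Agent.R59
open scoped Classical
open MvPolynomial

namespace Ctx
variable {I P : Type} [Fintype I] [DecidableEq I] [LinearOrder P] {Γ : Ctx I P}

/-- induction principle for `DD` -/
theorem C9a_DD_le {k : ℤ} {X : Finset P} {T : Submodule ℚ (Rg P)} (h1 : Γ.FF (k - 1) X ≤ T)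
    (h2 : ∀ Y Z : Finset P, Disjoint Y Z → Y ∪ Z = X → Y ≠ ∅ → Z ≠ ∅ → Γ.th Y = 0 → Γ.th Z = 0 →
      ∀ i j : ℤ, i + j = k → ∀ f ∈ Γ.FF i Y, ∀ g ∈ Γ.FF j Z, f * g * Γ.KK Y Z ∈ T) :
    Γ.DD k X ≤ T := by
  refine sup_le h1 (iSup_le fun Y => iSup_le fun hY => iSup_le fun i => ?_)
  obtain ⟨hYX, hY0, hne, hY, hZ⟩ := hY
  intro w hw
  obtain ⟨v, hv, rfl⟩ := mem_mulK.1 hw
  refine Submodule.mul_induction_on hv (fun f hf g hg => ?_) fun x y hx hy => ?_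
  · refine h2 Y (X \ Y) Finset.disjoint_sdiff (Finset.union_sdiff_of_subset hYX) hY0 ?_ hY hZ i
      (k - i) (by ring) f hf g hg
    intro e
    exact hne (Finset.Subset.antisymm hYX (Finset.sdiff_eq_empty_iff_subset.1 e))
  · rw [add_mul]
    exact T.add_mem hx hy

/-- induction principle for `NN` -/
theorem C9a_NN_le {k : ℤ} {Y Z : Finset P} {T : Submodule ℚ (Rg P)}
    (h : ∀ i j : ℤ, i + j = k → ∀ f ∈ Γ.DD i Y, ∀ g ∈ Γ.FF j Z, f * g ∈ T) :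
    Γ.NN k Y Z ≤ T :=
  iSup_le fun i => Submodule.mul_le.2 fun f hf g hg => h i (k - i) (by ring) f hf g hg

theorem FF_le_DD (k : ℤ) (X : Finset P) : Γ.FF (k - 1) X ≤ Γ.DD k X := by
  exact le_sup_left
theorem DD_le_FF (hS : Γ.Sym) (k : ℤ) (X : Finset P) : Γ.DD k X ≤ Γ.FF k X := by
  refine C9a_DD_le (Γ.FF_mono X (by omega : k - 1 ≤ k)) ?_
  rintro Y Z hYZ rfl - - hY hZ i j rfl f hf g hg
  exact FF_mul hS hYZ hY hZ hf hg
theorem DD_le_RX (k : ℤ) (X : Finset P) : Γ.DD k X ≤ RX X := by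
  refine C9a_DD_le (Γ.FF_le _ X) ?_
  rintro Y Z - rfl - - - - i j - f hf g hg
  exact RX_mul (RX_mul (RX_mono Finset.subset_union_left (Γ.FF_le _ _ hf))
    (RX_mono Finset.subset_union_right (Γ.FF_le _ _ hg)))
    (Γ.KK_mem Finset.subset_union_left Finset.subset_union_right)
theorem C9a_mul_KK_mem_DD {Y Z : Finset P} (hYZ : Disjoint Y Z) (hY0 : Y ≠ ∅) (hZ0 : Z ≠ ∅)
    (hY : Γ.th Y = 0) (hZ : Γ.th Z = 0) {i j k : ℤ} (hk : i + j = k) {f g : Rg P}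
    (hf : f ∈ Γ.FF i Y) (hg : g ∈ Γ.FF j Z) : f * g * Γ.KK Y Z ∈ Γ.DD k (Y ∪ Z) := by
  subst hk
  have e : (Y ∪ Z) \ Y = Z := Finset.union_sdiff_cancel_left hYZ
  have hne : Y ≠ Y ∪ Z := by
    intro h
    apply hZ0
    rw [← e, ← h, Finset.sdiff_self]
  refine Submodule.mem_sup_right (Submodule.mem_iSup_of_mem Y (Submodule.mem_iSup_of_mem
    ⟨Finset.subset_union_left, hY0, hne, hY, by rw [e, hZ]⟩ (Submodule.mem_iSup_of_mem i ?_)))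
  rw [e, add_sub_cancel_left]
  exact mem_mulK.2 ⟨f * g, Submodule.mul_mem_mul hf hg, rfl⟩
theorem DD_mono (X : Finset P) : Monotone fun k => Γ.DD k X := by
  intro k k' hk
  refine C9a_DD_le ((Γ.FF_mono X (by omega : k - 1 ≤ k' - 1)).trans (FF_le_DD k' X)) ?_
  rintro Y Z hYZ rfl hY0 hZ0 hY hZ i j rfl f hf g hg
  exact C9a_mul_KK_mem_DD hYZ hY0 hZ0 hY hZ (j := k' - i) (by ring) hf
    (Γ.FF_mono Z (by omega : j ≤ k' - i) hg)
theorem mul_KK_mem_DD {Y Z : Finset P} (hYZ : Disjoint Y Z) (hY0 : Y ≠ ∅) (hZ0 : Z ≠ ∅)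
    (hY : Γ.th Y = 0) (hZ : Γ.th Z = 0) {i j : ℤ} {f g : Rg P} (hf : f ∈ Γ.FF i Y)
    (hg : g ∈ Γ.FF j Z) : f * g * Γ.KK Y Z ∈ Γ.DD (i + j) (Y ∪ Z) := by
  exact C9a_mul_KK_mem_DD hYZ hY0 hZ0 hY hZ rfl hf hg
theorem X_mul_DD {X : Finset P} {p : P} (hp : p ∈ X) {k : ℤ} {f : Rg P} (hf : f ∈ Γ.DD k X) :
    MvPolynomial.X p * f ∈ Γ.DD (k + 1) X := by
  have : Γ.DD k X ≤ (Γ.DD (k + 1) X).comap (LinearMap.mulLeft ℚ (MvPolynomial.X p)) := by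
    refine C9a_DD_le (fun f hf => ?_) ?_
    · have h1 := Γ.X_mul_FF hp hf
      rw [show k - 1 + 1 = k + 1 - 1 by ring] at h1
      exact FF_le_DD (k + 1) X h1
    · rintro Y Z hYZ rfl hY0 hZ0 hY hZ i j rfl f hf g hg
      rw [Submodule.mem_comap, LinearMap.mulLeft_apply]
      rcases Finset.mem_union.1 hp with hp | hp
      · rw [← mul_assoc, ← mul_assoc]
        exact C9a_mul_KK_mem_DD hYZ hY0 hZ0 hY hZ (by ring) (Γ.X_mul_FF hp hf) hg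
      · rw [← mul_assoc, mul_left_comm]
        exact C9a_mul_KK_mem_DD hYZ hY0 hZ0 hY hZ (by ring) hf (Γ.X_mul_FF hp hg)
  exact this hf
theorem dB_DD {X : Finset P} {k : ℤ} {f : Rg P} (hf : f ∈ Γ.DD k X) :
    dB X f ∈ Γ.DD (k - 1) X := by
  have : Γ.DD k X ≤ (Γ.DD (k - 1) X).comap (dB X) := by
    refine C9a_DD_le (fun f hf => FF_le_DD (k - 1) X (Γ.dB_FF hf)) ?_
    rintro Y Z hYZ rfl hY0 hZ0 hY hZ i j rfl f hf g hg
    have hK : dB (Y ∪ Z) (Γ.KK Y Z) = 0 := Γ.dB_KK fun p hp q hq =>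
      iff_of_true (Finset.mem_union_left _ hp) (Finset.mem_union_right _ hq)
    rw [Submodule.mem_comap, dB_mul, hK, mul_zero, add_zero, dB_mul,
      dB_inter _ (Γ.FF_le _ _ hf), dB_inter _ (Γ.FF_le _ _ hg), Finset.union_inter_cancel_left,
      Finset.union_inter_cancel_right, add_mul]
    exact Submodule.add_mem _
      (C9a_mul_KK_mem_DD hYZ hY0 hZ0 hY hZ (by ring) (Γ.dB_FF hf) hg)
      (C9a_mul_KK_mem_DD hYZ hY0 hZ0 hY hZ (by ring) hf (Γ.dB_FF hg))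
  exact this hf
theorem grd_DD (k : ℤ) (X : Finset P) : Grd (Γ.DD k X) := by
  exact Grd.sup (Γ.grd_FF _ _) (Grd.iSup fun Y => Grd.iSup fun _ => Grd.iSup fun i =>
    Grd.mulK (Grd.mul (Γ.grd_FF _ _) (Γ.grd_FF _ _)) (Γ.KK_hom _ _))
theorem equi_DD (k : ℤ) : Γ.Equi (Γ.DD k) := by
  intro σ X hσ f hf
  have : Γ.DD k X ≤ (Γ.DD k (X.image σ)).comap (rename σ : Rg P →ₐ[ℚ] Rg P).toLinearMap := by
    refine C9a_DD_le (fun f hf => FF_le_DD k _ (Γ.equi_FF _ σ X hσ f hf)) ?_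
    rintro Y Z hYZ rfl hY0 hZ0 hY hZ i j rfl f hf g hg
    have hσY : Γ.Adm σ Y := hσ.mono Finset.subset_union_left
    have hσZ : Γ.Adm σ Z := hσ.mono Finset.subset_union_right
    obtain ⟨c, hc⟩ := Γ.rename_KK hYZ hσ
    rw [Submodule.mem_comap, AlgHom.toLinearMap_apply, map_mul, map_mul, hc, mul_smul_comm,
      Finset.image_union]
    refine Submodule.smul_mem _ _ (C9a_mul_KK_mem_DD ?_ ?_ ?_ ?_ ?_ rfl
      (Γ.equi_FF _ σ Y hσY f hf) (Γ.equi_FF _ σ Z hσZ g hg))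
    · refine Finset.disjoint_left.2 fun a ha hb => ?_
      obtain ⟨p, hp, rfl⟩ := Finset.mem_image.1 ha
      obtain ⟨q, hq, e⟩ := Finset.mem_image.1 hb
      have h1 : q = p := hσ.1 (Finset.mem_coe.2 (Finset.mem_union_right _ hq))
        (Finset.mem_coe.2 (Finset.mem_union_left _ hp)) e
      exact Finset.disjoint_left.1 hYZ hp (h1 ▸ hq)
    · rwa [Ne, Finset.image_eq_empty]
    · rwa [Ne, Finset.image_eq_empty]
    · rw [Γ.th_eq, Γ.ty_image hσY, ← Γ.th_eq, hY]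
    · rw [Γ.th_eq, Γ.ty_image hσZ, ← Γ.th_eq, hZ]
  exact this hf

theorem mul_mem_GG {Y Z : Finset P} {i j : ℤ} {f g : Rg P} (hf : f ∈ Γ.FF i Y)
    (hg : g ∈ Γ.FF j Z) : f * g ∈ Γ.GG (i + j) Y Z := by
  refine Submodule.mem_iSup_of_mem i ?_
  rw [add_sub_cancel_left]
  exact Submodule.mul_mem_mul hf hg
theorem C9a_mul_mem_NN {Y Z : Finset P} {i j k : ℤ} (hk : i + j = k) {f g : Rg P}
    (hf : f ∈ Γ.DD i Y) (hg : g ∈ Γ.FF j Z) : f * g ∈ Γ.NN k Y Z := by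
  subst hk
  refine Submodule.mem_iSup_of_mem i ?_
  rw [add_sub_cancel_left]
  exact Submodule.mul_mem_mul hf hg
theorem mul_mem_NN {Y Z : Finset P} {i j : ℤ} {f g : Rg P} (hf : f ∈ Γ.DD i Y)
    (hg : g ∈ Γ.FF j Z) : f * g ∈ Γ.NN (i + j) Y Z := by
  exact C9a_mul_mem_NN rfl hf hg
theorem GG_le_NN (k : ℤ) (Y Z : Finset P) : Γ.GG (k - 1) Y Z ≤ Γ.NN k Y Z := by
  refine iSup_le fun i => Submodule.mul_le.2 fun f hf g hg => ?_
  refine C9a_mul_mem_NN (i := i + 1) (by ring) (FF_le_DD _ _ ?_) hg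
  rwa [add_sub_cancel_right]
theorem NN_mono (Y Z : Finset P) : Monotone fun k => Γ.NN k Y Z := by
  intro k k' hk
  refine C9a_NN_le ?_
  rintro i j rfl f hf g hg
  exact C9a_mul_mem_NN (j := k' - i) (by ring) hf (Γ.FF_mono Z (by omega : j ≤ k' - i) hg)
theorem X_mul_NN {Y Z : Finset P} {p : P} (hp : p ∈ Y ∪ Z) {k : ℤ} {f : Rg P}
    (hf : f ∈ Γ.NN k Y Z) : MvPolynomial.X p * f ∈ Γ.NN (k + 1) Y Z := by
  have : Γ.NN k Y Z ≤ (Γ.NN (k + 1) Y Z).comap (LinearMap.mulLeft ℚ (MvPolynomial.X p)) := by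
    refine C9a_NN_le ?_
    rintro i j rfl f hf g hg
    rw [Submodule.mem_comap, LinearMap.mulLeft_apply]
    rcases Finset.mem_union.1 hp with hp | hp
    · rw [← mul_assoc]
      exact C9a_mul_mem_NN (by ring) (X_mul_DD hp hf) hg
    · rw [mul_left_comm]
      exact C9a_mul_mem_NN (by ring) hf (Γ.X_mul_FF hp hg)
  exact this hf
theorem dB_NN {Y Z : Finset P} (hYZ : Disjoint Y Z) {k : ℤ} {f : Rg P} (hf : f ∈ Γ.NN k Y Z) :
    dB Z f ∈ Γ.NN (k - 1) Y Z := by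
  have : Γ.NN k Y Z ≤ (Γ.NN (k - 1) Y Z).comap (dB Z) := by
    refine C9a_NN_le ?_
    rintro i j rfl f hf g hg
    rw [Submodule.mem_comap, dB_mul, dB_inter _ (DD_le_RX _ _ hf),
      Finset.disjoint_iff_inter_eq_empty.1 hYZ.symm, dB_empty, LinearMap.zero_apply, zero_mul,
      zero_add]
    exact C9a_mul_mem_NN (by ring) hf (Γ.dB_FF hg)
  exact this hf
theorem RXle_mul_NN {Y Z : Finset P} {e : ℕ} {a : Rg P} (ha : a ∈ RXle (Y ∪ Z) e) {k : ℤ}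
    {f : Rg P} (hf : f ∈ Γ.NN k Y Z) : a * f ∈ Γ.NN (k + e) Y Z := by
  exact RXle_mul_mem (fun k => Γ.NN k Y Z) (NN_mono Y Z) (fun p hp k f hf => X_mul_NN hp hf) ha hf
theorem nzd_NN {Y Z : Finset P} (hYZ : Disjoint Y Z) {w : Rg P} {k : ℤ}
    (h : Γ.KK Y Z * w ∈ Γ.NN (k + Γ.bb Y Z) Y Z) : w ∈ Γ.NN k Y Z := by
  exact Γ.nzd (fun k => Γ.NN k Y Z) hYZ (fun p hp k f hf => X_mul_NN hp hf)
    (fun k f hf => dB_NN hYZ hf) h
theorem IF_mul_le_NN (k : ℤ) (Y Z : Finset P) :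
    Γ.IF Y * RX (Y ∪ Z) ⊔ Γ.IF Z * RX (Y ∪ Z) ≤ Γ.NN k Y Z := by
  refine sup_le ?_ ?_
  · rw [RX_union, ← mul_assoc, Γ.IF_mul_RX]
    refine Submodule.mul_le.2 fun f hf g hg => ?_
    obtain ⟨j, hj⟩ := Γ.exists_FF hg
    exact C9a_mul_mem_NN (i := k - j) (by ring) (FF_le_DD _ _ (Γ.IF_le_FF _ _ hf)) hj
  · rw [RX_union, mul_left_comm, Γ.IF_mul_RX]
    refine Submodule.mul_le.2 fun f hf g hg => ?_
    obtain ⟨j, hj⟩ := Γ.exists_FF hf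
    refine C9a_mul_mem_NN (i := j + 1) (j := k - j - 1) (by ring) (FF_le_DD _ _ ?_)
      (Γ.IF_le_FF _ _ hg)
    rwa [add_sub_cancel_right]

end Ctx
end Crest.Agent.R59
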