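import Mathlib

/-! # Row 59, shuffle-algebra layer: definitions (see `Blueprint.lean`, part C).
Points `P` coloured by `I`; `RX X` = polynomials in the variables `x_p`, `p ∈ X`;
families `u : Finset P → Rg P`, equivariant for the sign-twisted renaming action; the shuffle
product with kernel `KK`; the ideals `IF`, `IT`; the filtration `FF`, decomposables `DD`. -/

set_option autoImplicit false

namespace Crest.Agent.R59
noncomputable section
open scoped Classical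

/-- polynomial ring in all points -/
abbrev Rg (P : Type) := MvPolynomial P ℚ
/-- families -/
abbrev Fam (P : Type) := Finset P → Rg P

/-- coloured points, parities, arrows and a stability -/
structure Ctx (I P : Type) [Fintype I] [DecidableEq I] [LinearOrder P] where
  col : P → I
  big : ∀ a : I → ℕ, ∃ X : Finset P, ∀ i, (X.filter fun p => col p = i).card = a i
  odd : I → Prop
  b : I → I → ℕ
  θ : I → ℚ

section noctx
variable {P : Type} [LinearOrder P]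

/-- polynomials in the variables of `X` -/
def RX (X : Finset P) : Submodule ℚ (Rg P) :=
  Subalgebra.toSubmodule (MvPolynomial.supported ℚ (X : Set P))

/-- polynomials in the variables of `X` of total degree at most `e` -/
def RXle (X : Finset P) (e : ℕ) : Submodule ℚ (Rg P) :=
  RX X ⊓ MvPolynomial.restrictTotalDegree P ℚ e

/-- `N · k` -/
def mulK (N : Submodule ℚ (Rg P)) (k : Rg P) : Submodule ℚ (Rg P) :=
  N.map (LinearMap.mulRight ℚ k)

/-- `∂_B = Σ_{p ∈ B} ∂/∂x_p` -/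
def dB (B : Finset P) : Rg P →ₗ[ℚ] Rg P :=
  ∑ p ∈ B, (MvPolynomial.pderiv p : Derivation ℚ (Rg P) (Rg P)).toLinearMap

/-- the block with label `j` -/
def blk (lab : P → ℕ) (X : Finset P) (j : ℕ) : Finset P := X.filter fun p => lab p = j

/-- elements sent into `N` by any `m` block derivations -/
def Ord (lab : P → ℕ) (X : Finset P) (N : Submodule ℚ (Rg P)) : ℕ → Submodule ℚ (Rg P)
  | 0 => N
  | m + 1 => ⨅ j : ℕ, (Ord lab X N m).comap (dB (blk lab X j))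

/-- families with values in `W` -/
def lift (W : Finset P → Submodule ℚ (Rg P)) : Submodule ℚ (Fam P) := Submodule.pi Set.univ W

/-- graded subspace -/
def Grd (N : Submodule ℚ (Rg P)) : Prop :=
  ∀ m, ∀ f ∈ N, MvPolynomial.homogeneousComponent m f ∈ N

/-- homogeneous component of a family -/
def hc (m : ℕ) : Fam P →ₗ[ℚ] Fam P :=
  LinearMap.pi fun X => (MvPolynomial.homogeneousComponent m) ∘ₗ LinearMap.proj X

/-- unit family -/
def oneF : Fam P := fun X => if X = ∅ then 1 else 0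

end noctx

namespace Ctx
variable {I P : Type} [Fintype I] [DecidableEq I] [LinearOrder P] (Γ : Ctx I P)

/-- type (dimension vector) -/
def ty (X : Finset P) : I → ℕ := fun i => (X.filter fun p => Γ.col p = i).card
def th (X : Finset P) : ℚ := ∑ p ∈ X, Γ.θ (Γ.col p)
def bb (Y Z : Finset P) : ℕ := ∑ p ∈ Y, ∑ q ∈ Z, Γ.b (Γ.col p) (Γ.col q)
def ff (X : Finset P) : ℕ := (X.filter fun p => Γ.odd (Γ.col p)).card
def thT (a : I → ℕ) : ℚ := ∑ i, (a i : ℚ) * Γ.θ i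
def bT (a a' : I → ℕ) : ℕ := ∑ i, ∑ j, a i * a' j * Γ.b i j
def fT (a : I → ℕ) : ℕ := ∑ i, if Γ.odd i then a i else 0
/-- commutation sign -/
def sg (Y Z : Finset P) : ℚ := (-1) ^ (Γ.bb Y Z + Γ.ff Y * Γ.ff Z)
def sgT (a a' : I → ℕ) : ℚ := (-1) ^ (Γ.bT a a' + Γ.fT a * Γ.fT a')
/-- odd types -/
def oddT (a : I → ℕ) : Prop := Odd (Γ.bT a a + Γ.fT a)
/-- the form vanishes on slope zero -/
def Sym : Prop := ∀ a a' : I → ℕ, Γ.thT a = 0 → Γ.thT a' = 0 → Γ.bT a a' = Γ.bT a' a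

def o (p q : P) : ℚ := if Γ.odd (Γ.col p) ∧ Γ.odd (Γ.col q) ∧ q < p then -1 else 1
def kap (p q : P) : Rg P :=
  MvPolynomial.C (Γ.o p q) * (MvPolynomial.X q - MvPolynomial.X p) ^ Γ.b (Γ.col p) (Γ.col q)
/-- the kernel -/
def KK (Y Z : Finset P) : Rg P := ∏ p ∈ Y, ∏ q ∈ Z, Γ.kap p q

/-- `σ` is injective and colour preserving on `X` -/
def Adm (σ : P → P) (X : Finset P) : Prop :=
  Set.InjOn σ X ∧ ∀ p ∈ X, Γ.col (σ p) = Γ.col p
/-- sign of `σ` on the odd points of `X` -/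
def eps (σ : P → P) (X : Finset P) : ℚ :=
  ∏ p ∈ X, ∏ q ∈ X, if p < q then Γ.o (σ p) (σ q) else 1
/-- twisted action -/
def act (σ : P → P) (X : Finset P) (f : Rg P) : Rg P := Γ.eps σ X • MvPolynomial.rename σ f

/-- equivariant families -/
def HH : Submodule ℚ (Fam P) where
  carrier := {u | (∀ X, u X ∈ RX X) ∧ ∀ σ X, Γ.Adm σ X → u (X.image σ) = Γ.act σ X (u X)}
  zero_mem' := ⟨fun X => (RX X).zero_mem, fun σ X _ => by simp [act]⟩
  add_mem' := by
    rintro u v ⟨hu, hu'⟩ ⟨hv, hv'⟩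
    exact ⟨fun X => (RX X).add_mem (hu X) (hv X), fun σ X h => by
      simp only [Pi.add_apply, hu' σ X h, hv' σ X h, act, map_add, smul_add]⟩
  smul_mem' := by
    rintro c u ⟨hu, hu'⟩
    exact ⟨fun X => (RX X).smul_mem c (hu X), fun σ X h => by
      simp only [Pi.smul_apply, hu' σ X h, act, map_smul, smul_comm c]⟩

/-- families of type `a` -/
def Ha (a : I → ℕ) : Submodule ℚ (Fam P) :=
  Γ.HH ⊓ lift fun X => if Γ.ty X = a then ⊤ else ⊥
/-- families of type `a`, homogeneous of degree `m` -/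
def Ham (a : I → ℕ) (m : ℕ) : Submodule ℚ (Fam P) :=
  Γ.Ha a ⊓ lift fun _ => MvPolynomial.homogeneousSubmodule P ℚ m

/-- the shuffle product -/
def sh (u w : Fam P) : Fam P :=
  fun X => ∑ Y ∈ X.powerset, u Y * w (X \ Y) * Γ.KK Y (X \ Y)

/-- colour preserving bijections `X → X'`, extended by the identity -/
def Bij (X X' : Finset P) : Set (P → P) :=
  {σ | Γ.Adm σ X ∧ X.image σ = X' ∧ ∀ p, p ∉ X → σ p = p}
/-- averaging -/
def Av (X : Finset P) (f : Rg P) : Fam P := fun X' => ∑ᶠ σ ∈ Γ.Bij X X', Γ.act σ X f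

/-- equivariant family of subspaces -/
def Equi (W : Finset P → Submodule ℚ (Rg P)) : Prop :=
  ∀ σ X, Γ.Adm σ X → ∀ f ∈ W X, MvPolynomial.rename σ f ∈ W (X.image σ)

/-- ideal of the destabilising subobjects (`θ < 0`) -/
def IF (X : Finset P) : Submodule ℚ (Rg P) :=
  ⨆ (W : Finset P) (_ : W ⊆ X ∧ Γ.th W < 0), mulK (RX X) (Γ.KK W (X \ W))
/-- ideal of the quotients with `θ ≥ 0` -/
def IT (X : Finset P) : Submodule ℚ (Rg P) :=
  ⨆ (W : Finset P) (_ : W ⊆ X ∧ W ≠ X ∧ 0 ≤ Γ.th (X \ W)), mulK (RX X) (Γ.KK W (X \ W))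

def Sl0 (lab : P → ℕ) (X : Finset P) : Prop := ∀ j, Γ.th (blk lab X j) = 0
def Ipi (lab : P → ℕ) (X : Finset P) : Submodule ℚ (Rg P) := ⨆ j : ℕ, Γ.IF (blk lab X j) * RX X
def bpi (lab : P → ℕ) (X : Finset P) : ℕ :=
  ∑ p ∈ X, ∑ q ∈ X, if lab p < lab q then Γ.b (Γ.col p) (Γ.col q) else 0
/-- the filtration -/
def FF (k : ℤ) (X : Finset P) : Submodule ℚ (Rg P) :=
  RX X ⊓ ⨅ (lab : P → ℕ) (_ : Γ.Sl0 lab X),
    Ord lab X (Γ.Ipi lab X) (k + Γ.bpi lab X - (X.image lab).card + 1).toNat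
/-- decomposables -/
def DD (k : ℤ) (X : Finset P) : Submodule ℚ (Rg P) :=
  Γ.FF (k - 1) X ⊔ ⨆ (Y : Finset P) (_ : Y ⊆ X ∧ Y ≠ ∅ ∧ Y ≠ X ∧ Γ.th Y = 0 ∧ Γ.th (X \ Y) = 0)
    (i : ℤ), mulK (Γ.FF i Y * Γ.FF (k - i) (X \ Y)) (Γ.KK Y (X \ Y))
/-- tensor filtration -/
def GG (k : ℤ) (Y Z : Finset P) : Submodule ℚ (Rg P) := ⨆ i : ℤ, Γ.FF i Y * Γ.FF (k - i) Z
/-- kernel of `GG k → ⊕ V_i(Y) ⊗ gr_(k-i)(Z)` -/
def NN (k : ℤ) (Y Z : Finset P) : Submodule ℚ (Rg P) := ⨆ i : ℤ, Γ.DD i Y * Γ.FF (k - i) Z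

/-! ### dimensions and chosen generators -/

def hA (a : I → ℕ) (m : ℕ) : ℕ := Module.finrank ℚ (Γ.Ham a m)
def hq (W : Finset P → Submodule ℚ (Rg P)) (a : I → ℕ) (m : ℕ) : ℕ :=
  Module.finrank ℚ (Γ.Ham a m) - Module.finrank ℚ (Γ.Ham a m ⊓ lift W : Submodule ℚ (Fam P))
def hT : (I → ℕ) → ℕ → ℕ := Γ.hq Γ.IT
def hF : (I → ℕ) → ℕ → ℕ := Γ.hq Γ.IF
def dV (c : I → ℕ) (m k : ℕ) : ℕ :=
  Module.finrank ℚ (Γ.Ham c m ⊓ lift (Γ.FF k) : Submodule ℚ (Fam P)) -
    Module.finrank ℚ (Γ.Ham c m ⊓ lift (Γ.DD k) : Submodule ℚ (Fam P))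
def dU (c : I → ℕ) (m : ℕ) : ℕ := ∑ k ∈ Finset.range (m + ∑ i, c i + 1), Γ.dV c m k

end Ctx

/-- `v` lies in `V'` and induces a basis of `V' / V` -/
def IsCompl' {E : Type} [AddCommGroup E] [Module ℚ E] (V V' : Submodule ℚ E) {r : ℕ}
    (v : Fin r → E) : Prop :=
  (∀ i, v i ∈ V') ∧ (∀ x : Fin r → ℚ, ∑ i, x i • v i ∈ V → x = 0) ∧
    V' ≤ V ⊔ Submodule.span ℚ (Set.range v)

/-- a chosen complement family (junk `0` if none exists) -/
def cfam {E : Type} [AddCommGroup E] [Module ℚ E] (V V' : Submodule ℚ E) (r : ℕ) : Fin r → E :=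
  if h : ∃ v : Fin r → E, IsCompl' V V' v then h.choose else 0

namespace Ctx
variable {I P : Type} [Fintype I] [DecidableEq I] [LinearOrder P] (Γ : Ctx I P)

/-- index set of the generators -/
structure Ix where
  c : I → ℕ
  hc : c ≠ 0 ∧ Γ.thT c = 0
  m : ℕ
  k : ℕ
  i : Fin (Γ.dV c m k)

instance : LinearOrder Γ.Ix := IsWellOrder.linearOrder WellOrderingRel

/-- the generators -/
def ub (α : Γ.Ix) : Fam P :=
  cfam (Γ.Ham α.c α.m ⊓ lift (Γ.DD α.k)) (Γ.Ham α.c α.m ⊓ lift (Γ.FF α.k)) _ α.i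
/-- ordered products of generators -/
def ul (l : List Γ.Ix) : Fam P := l.foldr (fun α w => Γ.sh (Γ.ub α) w) oneF
def tyl (l : List Γ.Ix) : I → ℕ := (l.map fun α => α.c).sum
def levl (l : List Γ.Ix) : ℕ := (l.map fun α => α.k).sum
def degl : List Γ.Ix → ℕ
  | [] => 0
  | α :: l => α.m + degl l + Γ.bT α.c (Γ.tyl l)
/-- sorted lists without repeated odd generators -/
def PB (l : List Γ.Ix) : Prop := l.Pairwise fun α β => α < β ∨ (α = β ∧ ¬ Γ.oddT α.c)

/-- the context with no arrows and trivial stability -/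
def zero : Ctx I P := { Γ with b := fun _ _ => 0, θ := fun _ => 0 }

end Ctx

end
end Crest.Agent.R59
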