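import Mathlib

/-! # Row 59, torus layer: definitions (see `Blueprint.lean`).
Completed quantum torus `QT ω A`: functions `M → K` supported in the cone `A.C`, with the twisted
convolution `x^u x^v = t^(ω u v) x^(u+v)`.  `K = ℚ((t))`. -/

set_option autoImplicit false

namespace Crest.Agent.R59

noncomputable section
open scoped Classical

/-- coefficient field `ℚ((t))` -/
abbrev K := LaurentSeries ℚ

/-- `t^k` -/
def tp (k : ℤ) : K := HahnSeries.single k 1

/-- all coefficients are natural numbers -/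
def Pos (a : K) : Prop := ∀ j : ℤ, ∃ n : ℕ, a.coeff j = n

/-- Laurent polynomial -/
def IsLP (a : K) : Prop := {j : ℤ | a.coeff j ≠ 0}.Finite

theorem tp_add (i j : ℤ) : tp (i + j) = tp i * tp j := by
  simp [tp, HahnSeries.single_mul_single]

@[simp] theorem tp_zero : tp 0 = 1 := rfl

theorem tp_ne_zero (i : ℤ) : tp i ≠ 0 := by
  simp [tp]

/-- alternating integral bilinear form -/
structure Form (M : Type) [AddCommGroup M] where
  w : M →+ M →+ ℤ
  alt : ∀ u, w u u = 0

/-- a strictly convex, locally finite cone with a degree function -/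
structure Cone (M : Type) [AddCommGroup M] where
  C : AddSubmonoid M
  deg : M →+ ℤ
  pos : ∀ u ∈ C, u ≠ 0 → 0 < deg u
  fin : ∀ k : ℤ, {u | u ∈ C ∧ deg u ≤ k}.Finite

variable {M : Type} [AddCommGroup M]

theorem Form.skew (ω : Form M) (u v : M) : ω.w u v = - ω.w v u := by
  have h := ω.alt (u + v)
  simp only [map_add, AddMonoidHom.add_apply, ω.alt] at h
  omega

theorem Cone.deg_nonneg (A : Cone M) {u : M} (hu : u ∈ A.C) : 0 ≤ A.deg u := by
  by_cases h : u = 0
  · simp [h]
  · exact (A.pos u hu h).le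

/-- rational functionals separate points -/
def Sep (M : Type) [AddCommGroup M] : Prop := ∀ w : M, w ≠ 0 → ∃ φ : M →+ ℚ, φ w ≠ 0

/-- twisted convolution of functions (independent of the cone) -/
def conv (ω : Form M) (f g : M → K) : M → K :=
  fun d => ∑ᶠ u, tp (ω.w u (d - u)) * f u * g (d - u)

/-- functions supported in the cone -/
def QTs (A : Cone M) : Submodule K (M → K) where
  carrier := {f | ∀ u, f u ≠ 0 → u ∈ A.C}
  zero_mem' := by intro u hu; simp at hu
  add_mem' := by
    intro f g hf hg u hu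
    by_cases h : f u = 0
    · exact hg u (by simpa [h] using hu)
    · exact hf u h
  smul_mem' := by
    intro c f hf u hu
    exact hf u (by intro h; simp [h] at hu)

/-- the completed quantum torus -/
def QT (_ω : Form M) (A : Cone M) : Type := QTs A

variable {ω : Form M} {A : Cone M}

instance : AddCommGroup (QT ω A) := inferInstanceAs (AddCommGroup (QTs A))
instance : Module K (QT ω A) := inferInstanceAs (Module K (QTs A))

/-- coefficient function -/
def QT.c (f : QT ω A) : M → K := (show QTs A from f).1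

/-- constructor -/
def QT.mk (ω : Form M) (A : Cone M) (f : M → K) (h : ∀ u, f u ≠ 0 → u ∈ A.C) : QT ω A :=
  (⟨f, h⟩ : QTs A)

@[simp] theorem QT.mk_c (f : M → K) (h : ∀ u, f u ≠ 0 → u ∈ A.C) : (QT.mk ω A f h).c = f := rfl
theorem QT.supp (f : QT ω A) {u : M} (h : f.c u ≠ 0) : u ∈ A.C := (show QTs A from f).2 u h
theorem QT.c_eq_zero (f : QT ω A) {u : M} (h : u ∉ A.C) : f.c u = 0 := by
  by_contra h'; exact h (f.supp h')
@[ext] theorem QT.ext {f g : QT ω A} (h : ∀ u, f.c u = g.c u) : f = g :=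
  Subtype.ext (funext h)
@[simp] theorem QT.zero_c (u : M) : (0 : QT ω A).c u = 0 := rfl
@[simp] theorem QT.add_c (f g : QT ω A) (u : M) : (f + g).c u = f.c u + g.c u := rfl
@[simp] theorem QT.neg_c (f : QT ω A) (u : M) : (-f).c u = - f.c u := rfl
@[simp] theorem QT.sub_c (f g : QT ω A) (u : M) : (f - g).c u = f.c u - g.c u := rfl
@[simp] theorem QT.smul_c (a : K) (f : QT ω A) (u : M) : (a • f).c u = a * f.c u := rfl
theorem QT.sum_c {ι : Type*} (s : Finset ι) (f : ι → QT ω A) (u : M) :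
    (∑ i ∈ s, f i).c u = ∑ i ∈ s, (f i).c u := by
  induction s using Finset.induction_on with
  | empty => simp
  | insert a s ha ih => simp [Finset.sum_insert ha, ih]

/-- the finite set of cone points of degree at most `k` -/
def Cone.le (A : Cone M) (k : ℤ) : Finset M := (A.fin k).toFinset

theorem Cone.mem_le (A : Cone M) {k : ℤ} {u : M} : u ∈ A.le k ↔ u ∈ A.C ∧ A.deg u ≤ k := by
  simp [Cone.le]

theorem Cone.mem_le_of_add (A : Cone M) {u d : M} (hu : u ∈ A.C) (hv : d - u ∈ A.C) {k : ℤ}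
    (hk : A.deg d ≤ k) : u ∈ A.le k := by
  have := A.deg_nonneg hv
  rw [map_sub] at this
  exact A.mem_le.2 ⟨hu, by omega⟩

theorem conv_eq_sum (f g : QT ω A) (d : M) {k : ℤ} (hk : A.deg d ≤ k) :
    conv ω f.c g.c d = ∑ u ∈ A.le k, tp (ω.w u (d - u)) * f.c u * g.c (d - u) := by
  unfold conv
  apply finsum_eq_sum_of_support_subset
  intro u hu
  have h1 : f.c u ≠ 0 := by intro h; simp [h] at hu
  have h2 : g.c (d - u) ≠ 0 := by intro h; simp [h] at hu
  exact A.mem_le_of_add (f.supp h1) (g.supp h2) hk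

theorem conv_ne_zero {f g : M → K} {d : M} (h : conv ω f g d ≠ 0) :
    ∃ u, f u ≠ 0 ∧ g (d - u) ≠ 0 := by
  by_contra hc
  apply h
  unfold conv
  apply finsum_eq_zero_of_forall_eq_zero
  intro u
  by_cases h1 : f u = 0
  · simp [h1]
  · by_cases h2 : g (d - u) = 0
    · simp [h2]
    · exact absurd ⟨u, h1, h2⟩ hc

instance : Mul (QT ω A) := ⟨fun f g => QT.mk ω A (conv ω f.c g.c) (by
  intro d hd
  obtain ⟨u, h1, h2⟩ := conv_ne_zero hd
  have := A.C.add_mem (f.supp h1) (g.supp h2)
  simpa using this)⟩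

instance : One (QT ω A) := ⟨QT.mk ω A (Pi.single 0 1) (by
  intro u hu
  by_cases h : u = 0
  · simp [h]
  · simp [h] at hu)⟩

theorem QT.mul_c' (f g : QT ω A) : (f * g).c = conv ω f.c g.c := rfl
theorem QT.one_c' : (1 : QT ω A).c = Pi.single 0 1 := rfl
theorem QT.one_c (u : M) : (1 : QT ω A).c u = if u = 0 then 1 else 0 := by
  rw [QT.one_c', Pi.single_apply]
theorem QT.mul_c (f g : QT ω A) (d : M) :
    (f * g).c d = ∑ᶠ u, tp (ω.w u (d - u)) * f.c u * g.c (d - u) := rfl
theorem QT.mul_c_sum (f g : QT ω A) (d : M) {k : ℤ} (hk : A.deg d ≤ k) :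
    (f * g).c d = ∑ u ∈ A.le k, tp (ω.w u (d - u)) * f.c u * g.c (d - u) :=
  conv_eq_sum f g d hk

theorem QT.mul_assoc' (f g h : QT ω A) : f * g * h = f * (g * h) := by
  ext1 d
  set k := A.deg d
  let F : M → M → K := fun u v =>
    tp (ω.w u (d - u)) * (tp (ω.w v (u - v)) * f.c v * g.c (u - v)) * h.c (d - u)
  have hF : ∀ u v, F u v ≠ 0 → u ∈ A.le k ∧ v ∈ A.le k := by
    intro u v huv
    have h1 : f.c v ≠ 0 := by intro h0; simp [F, h0] at huv
    have h2 : g.c (u - v) ≠ 0 := by intro h0; simp [F, h0] at huv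
    have h3 : h.c (d - u) ≠ 0 := by intro h0; simp [F, h0] at huv
    have hu : u ∈ A.C := by simpa using A.C.add_mem (f.supp h1) (g.supp h2)
    have hu' := A.mem_le_of_add hu (h.supp h3) (le_refl k)
    exact ⟨hu', A.mem_le_of_add (f.supp h1) (g.supp h2) (A.mem_le.1 hu').2⟩
  have e1 : (f * g * h).c d = ∑ u ∈ A.le k, ∑ v ∈ A.le k, F u v := by
    rw [QT.mul_c_sum _ _ _ (le_refl k)]
    refine Finset.sum_congr rfl fun u hu => ?_
    rw [QT.mul_c_sum _ _ _ (A.mem_le.1 hu).2, Finset.mul_sum, Finset.sum_mul]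
  have e2 : (f * (g * h)).c d = ∑ v ∈ A.le k, ∑ u ∈ A.le k, F u v := by
    rw [QT.mul_c_sum _ _ _ (le_refl k)]
    refine Finset.sum_congr rfl fun v _ => ?_
    have e3 : ∑ u ∈ A.le k, F u v = ∑ᶠ u, F u v :=
      (finsum_eq_sum_of_support_subset _ (fun u hu => (hF u v hu).1)).symm
    rw [e3, ← finsum_comp_equiv (Equiv.addLeft v), QT.mul_c, mul_finsum']
    · refine finsum_congr fun w => ?_
      simp only [F, Equiv.coe_addLeft, add_sub_cancel_left]
      have e4 : d - (v + w) = d - v - w := by abel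
      have e5 : ω.w (v + w) (d - v - w) + ω.w v w = ω.w v (d - v) + ω.w w (d - v - w) := by
        have : d - v = (d - v - w) + w := by abel
        conv_rhs => rw [this]
        simp only [map_add, AddMonoidHom.add_apply, add_sub_cancel_right]
        ring
      have e6 : tp (ω.w (v + w) (d - v - w)) * tp (ω.w v w)
          = tp (ω.w v (d - v)) * tp (ω.w w (d - v - w)) := by
        rw [← tp_add, ← tp_add, e5]
      rw [e4]
      linear_combination (-(f.c v * g.c w * h.c (d - v - w))) * e6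
    · refine Set.Finite.subset (A.le (A.deg (d - v))).finite_toSet ?_
      intro w hw
      have h2 : g.c w ≠ 0 := by intro h0; simp [h0] at hw
      have h3 : h.c (d - v - w) ≠ 0 := by intro h0; simp [h0] at hw
      exact A.mem_le_of_add (g.supp h2) (h.supp h3) le_rfl
  rw [e1, e2, Finset.sum_comm]

instance : Ring (QT ω A) :=
  { (inferInstance : AddCommGroup (QT ω A)), (inferInstance : Mul (QT ω A)),
    (inferInstance : One (QT ω A)) with
    mul_assoc := QT.mul_assoc'
    one_mul := by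
      intro f; ext1 d
      rw [QT.mul_c, finsum_eq_single _ 0]
      · simp [QT.one_c]
      · intro u hu; simp [QT.one_c, hu]
    mul_one := by
      intro f; ext1 d
      rw [QT.mul_c, finsum_eq_single _ d]
      · simp [QT.one_c]
      · intro u hu
        have : d - u ≠ 0 := fun h => hu (sub_eq_zero.1 h).symm
        simp [QT.one_c, this]
    zero_mul := by intro f; ext1 d; simp [QT.mul_c]
    mul_zero := by intro f; ext1 d; simp [QT.mul_c]
    left_distrib := by
      intro f g h; ext1 d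
      simp only [QT.add_c, QT.mul_c_sum _ _ _ (le_refl (A.deg d)), ← Finset.sum_add_distrib, mul_add]
    right_distrib := by
      intro f g h; ext1 d
      simp only [QT.add_c, QT.mul_c_sum _ _ _ (le_refl (A.deg d)), ← Finset.sum_add_distrib,
        mul_add, add_mul] }

instance : Algebra K (QT ω A) := Algebra.ofModule
  (by
    intro r f g; ext1 d
    simp only [QT.smul_c, QT.mul_c_sum _ _ _ (le_refl (A.deg d)), Finset.mul_sum]
    exact Finset.sum_congr rfl fun u _ => by ring)
  (by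
    intro r f g; ext1 d
    simp only [QT.smul_c, QT.mul_c_sum _ _ _ (le_refl (A.deg d)), Finset.mul_sum]
    exact Finset.sum_congr rfl fun u _ => by ring)

/-! ## basic vocabulary -/

/-- restriction of the coefficient function to a set `S` (truncation / projection) -/
def proj (S : Set M) (f : QT ω A) : QT ω A :=
  QT.mk ω A (fun u => if u ∈ S then f.c u else 0) (by
    intro u hu
    by_cases h : u ∈ S
    · exact f.supp (by simpa [h] using hu)
    · simp [h] at hu)

/-- the monomial `x^u` (zero if `u` is outside the cone) -/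
def mono (ω : Form M) (A : Cone M) (u : M) : QT ω A :=
  QT.mk ω A (fun v => if v = u ∧ u ∈ A.C then 1 else 0) (by
    intro v hv
    by_cases h : v = u ∧ u ∈ A.C
    · exact h.1 ▸ h.2
    · simp [h] at hv)

/-- coefficientwise multiplication by a function of the exponent -/
def diag (φ : M → K) (f : QT ω A) : QT ω A :=
  QT.mk ω A (fun u => φ u * f.c u) (by
    intro u hu
    exact f.supp (by intro h; simp [h] at hu))

/-- the derivation `x^u ↦ ℓ(u) x^u` -/
def der (ℓ : M →+ ℤ) (f : QT ω A) : QT ω A := diag (fun u => ((ℓ u : ℤ) : K)) f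

/-- the automorphism `x^u ↦ t^(2 ℓ(u)) x^u` -/
def sig (ℓ : M →+ ℤ) (f : QT ω A) : QT ω A := diag (fun u => tp (2 * ℓ u)) f

/-- `f` is supported in `N` -/
def Supp (f : QT ω A) (N : Set M) : Prop := ∀ u, f.c u ≠ 0 → u ∈ N

/-- `f` and `g` agree on `S` -/
def Eqv (S : Set M) (f g : QT ω A) : Prop := ∀ u ∈ S, f.c u = g.c u

/-- `S` is closed under removing cone elements (so `Eqv S` is a congruence) -/
def Lower (A : Cone M) (S : Set M) : Prop := ∀ u ∈ A.C, ∀ v ∈ A.C, u + v ∈ S → u ∈ S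

/-- all coefficients are in `ℕ((t))` -/
def QPos (f : QT ω A) : Prop := ∀ u, Pos (f.c u)

/-- inverse (junk `0` for non units; every `g` with `g.c 0 = 1` is a unit) -/
abbrev inv (g : QT ω A) : QT ω A := Ring.inverse g
/-- `g f g⁻¹` -/
def Ad (g f : QT ω A) : QT ω A := g * f * inv g
/-- `g⁻¹ f g` -/
def Adi (g f : QT ω A) : QT ω A := inv g * f * g

/-- `{0} ∪ {θ < 0}` -/
def negM (θ : M →+ ℚ) : AddSubmonoid M where
  carrier := {u | u = 0 ∨ θ u < 0}
  zero_mem' := Or.inl rfl
  add_mem' := by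
    rintro a b (ha | ha) (hb | hb)
    · left; simp [ha, hb]
    · right; simpa [ha] using hb
    · right; simpa [hb] using ha
    · right; rw [map_add]; linarith

/-- `{0} ∪ {θ > 0}` -/
def posM (θ : M →+ ℚ) : AddSubmonoid M := negM (-θ)

/-- `{θ ≥ 0}` -/
def nnM (θ : M →+ ℚ) : AddSubmonoid M where
  carrier := {u | 0 ≤ θ u}
  zero_mem' := by simp
  add_mem' := by intro a b ha hb; simp only [Set.mem_ofPred_eq, map_add] at *; linarith

/-- `{θ = 0}` -/
def zeroM (θ : M →+ ℚ) : AddSubmonoid M where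
  carrier := {u | θ u = 0}
  zero_mem' := by simp
  add_mem' := by intro a b ha hb; simp only [Set.mem_ofPred_eq, map_add] at *; linarith

theorem mem_negM {θ : M →+ ℚ} {u : M} : u ∈ negM θ ↔ u = 0 ∨ θ u < 0 := Iff.rfl
theorem mem_posM {θ : M →+ ℚ} {u : M} : u ∈ posM θ ↔ u = 0 ∨ 0 < θ u := by
  simp [posM, mem_negM]
theorem mem_nnM {θ : M →+ ℚ} {u : M} : u ∈ nnM θ ↔ 0 ≤ θ u := Iff.rfl
theorem mem_zeroM {θ : M →+ ℚ} {u : M} : u ∈ zeroM θ ↔ θ u = 0 := Iff.rfl

/-- an integral functional viewed as a rational one -/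
def qf (ℓ : M →+ ℤ) : M →+ ℚ := (Int.castAddHom ℚ).comp ℓ
@[simp] theorem qf_apply (ℓ : M →+ ℤ) (u : M) : qf ℓ u = (ℓ u : ℚ) := rfl

/-- the attractor covector `θ_m = ω(·, m)` -/
def th (ω : Form M) (m : M) : M →+ ℚ := qf (ω.w.flip m)
@[simp] theorem th_apply (m u : M) : th ω m u = (ω.w u m : ℚ) := rfl

/-- on `S` the sign of `χ` is the lexicographic sign of `(θ, φ)` -/
def LexOn (S : Set M) (χ θ φ : M →+ ℚ) : Prop :=
  ∀ u ∈ S, SignType.sign (χ u) = if θ u = 0 then SignType.sign (φ u) else SignType.sign (θ u)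

/-- `g = a * b` with `a ∈ 1 + T_{θ<0}`, `b ∈ 1 + T_{θ≥0}` -/
def IsFac (θ : M →+ ℚ) (g a b : QT ω A) : Prop :=
  a.c 0 = 1 ∧ b.c 0 = 1 ∧ Supp a (negM θ) ∧ Supp b (nnM θ) ∧ g = a * b

/-- the factorisation (junk when it does not exist, i.e. when `g.c 0 ≠ 1`) -/
def fac (θ : M →+ ℚ) (g : QT ω A) : QT ω A × QT ω A :=
  if h : ∃ p : QT ω A × QT ω A, IsFac θ g p.1 p.2 then h.choose else (1, g)

/-- `g_-^θ` -/
def gneg (θ : M →+ ℚ) (g : QT ω A) : QT ω A := (fac θ g).1
/-- `g_0^θ g_+^θ` -/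
def gnn (θ : M →+ ℚ) (g : QT ω A) : QT ω A := (fac θ g).2
/-- `g_0^θ` -/
def gzero (θ : M →+ ℚ) (g : QT ω A) : QT ω A := proj (zeroM θ) (gnn θ g)

/-- `[x^d] log a`, defined through the logarithmic derivative -/
def lam (a : QT ω A) (d : M) : K := (inv a * der A.deg a).c d / ((A.deg d : ℤ) : K)

/-- attractor invariant -/
def attr (g : QT ω A) (d : M) : K := lam (gzero (th ω d) g) d

/-- `g` is the element with attractor data `dat` -/
def IsCl (dat : M → K) (g : QT ω A) : Prop := g.c 0 = 1 ∧ ∀ d, d ≠ 0 → attr g d = dat d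

/-- `f_θ = Ad(g_-^θ)⁻¹ f` -/
def fth (g : QT ω A) (θ : M →+ ℚ) (f : QT ω A) : QT ω A := Adi (gneg θ g) f

/-- theta-coefficient `α_m(f)` -/
def alpha (g f : QT ω A) (m : M) : K := (fth g (th ω m) f).c m

/-- theta-positivity -/
def ThPos (g f : QT ω A) : Prop := ∀ θ : M →+ ℚ, QPos (fth g θ f)

/-! ## generators -/

/-- the function `Σ_k c_k x^(k u)` -/
def serf (u : M) (p : PowerSeries K) : M → K :=
  fun d => ∑ᶠ k : ℕ, if k • u = d then PowerSeries.coeff k p else 0

/-- the element `p(x^u)`; junk `1` unless `u` is a nonzero cone element -/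
def ser (ω : Form M) (A : Cone M) (u : M) (p : PowerSeries K) : QT ω A :=
  if h : u ∈ A.C ∧ u ≠ 0 then
    QT.mk ω A (serf u p) (by
      intro d hd
      by_contra hc
      apply hd
      apply finsum_eq_zero_of_forall_eq_zero
      intro k
      by_cases hk : k • u = d
      · exact absurd (hk ▸ A.C.nsmul_mem h.1 k) hc
      · simp [hk])
  else 1

/-- `G_s(X) = ∏_{j≥0} (1 + t^(s+2j) X)` for odd `s`, `∏_{j≥0} (1 - t^(s+2j) X)⁻¹` for even `s` -/
def Gser (s : ℤ) : PowerSeries K := PowerSeries.mk fun k =>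
  tp (s * k + (if Even s then 0 else (k : ℤ) * (k - 1))) /
    ∏ i ∈ Finset.range k, (1 - tp (2 * ((i : ℤ) + 1)))

/-- the generator `G_s(x^u)`; `gen 1 u` is the quantum dilogarithm `Ψ(x^u)` -/
def gen (ω : Form M) (A : Cone M) (s : ℤ) (u : M) : QT ω A := ser ω A u (Gser s)

/-- `[X^j] log G_s` -/
def lc (s : ℤ) (j : ℕ) : K :=
  PowerSeries.coeff j ((Gser s)⁻¹ * (PowerSeries.X * PowerSeries.derivative K (Gser s))) / (j : K)

/-- `[x^d] log G_s(x^u)` (independent of the cone; zero for `u = 0`, `d ≠ 0`) -/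
def gdat (s : ℤ) (u d : M) : K := ∑ᶠ j : ℕ, if j ≠ 0 ∧ j • u = d then lc s j else 0

/-- ordered product of generators -/
def gprod (ω : Form M) (A : Cone M) (L : List (ℤ × M)) : QT ω A :=
  (L.map fun p => gen ω A p.1 p.2).prod

/-- data of a list of generators -/
def ldat (L : List (ℤ × M)) (d : M) : K := (L.map fun p => gdat p.1 p.2 d).sum

/-- all vectors of the list are nonzero cone elements lying in `N` -/
def Valid (A : Cone M) (N : Set M) (L : List (ℤ × M)) : Prop :=
  ∀ p ∈ L, p.2 ∈ A.C ∧ p.2 ≠ 0 ∧ p.2 ∈ N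

/-- coefficients of `∏_{i<n} (1 + t^(2i+1-n) X)` (symmetric Gaussian binomials) -/
def beta (n j : ℕ) : K :=
  PowerSeries.coeff j (∏ i ∈ Finset.range n,
    (1 + PowerSeries.C (tp (2 * (i : ℤ) + 1 - n)) * PowerSeries.X : PowerSeries K))

/-- admissibility: `γ⁻¹ σ_ℓ(γ)` has Laurent polynomial coefficients for every `ℓ` -/
def Admis (γ : QT ω A) : Prop :=
  γ.c 0 = 1 ∧ ∀ (ℓ : M →+ ℤ) (u : M), IsLP ((inv γ * sig ℓ γ).c u)

end

end Crest.Agent.R59
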