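import Crest.Agent.R59.F1a

/-! # Row 59, F1: coefficients of `e_μ` versus colourings and elementary symmetric polynomials. -/

set_option autoImplicit false

namespace Crest.Agent.R59
noncomputable section
open scoped Classical
open Crest.CombinatoricsR.UnitInterval

variable {n : ℕ}

theorem f1_sum_ind {N : ℕ} (J : Fin N → Finset (Fin n)) :
    ∑ j, ind (J j) = emb fun a => (Finset.univ.filter fun j => a ∈ J j).card := by
  refine Prod.ext ?_ (Prod.ext ?_ ?_)
  · funext a
    rw [Prod.fst_sum, Finset.sum_apply]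
    simp [ind, emb]
  · rw [Prod.snd_sum, Prod.fst_sum]
    simp [ind, emb]
  · rw [Prod.snd_sum, Prod.snd_sum]
    simp [ind, emb]

theorem f1_om_ind (h : Fin n → ℕ) (I I' : Finset (Fin n)) :
    (omG h).w (ind I) (ind I') = ∑ a ∈ I, ∑ b ∈ I', adj h a b := by
  rw [ind_eq_sum, ind_eq_sum, map_sum, Finset.sum_comm]
  refine Finset.sum_congr rfl fun b _ => ?_
  rw [map_sum, AddMonoidHom.finset_sum_apply]
  exact Finset.sum_congr rfl fun a _ => omG_ev_ev h a b

theorem f1_fmu_c (h : Fin n → ℕ) {N : ℕ} (μ : Fin N → ℕ) (m : Fin n → ℕ) :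
    (fmu h (List.ofFn μ)).c (emb m) = ∑ J ∈ Finset.univ.filter
        (fun J : Fin N → Finset (Fin n) => (∀ j, Indep h (J j) ∧ (J j).card = μ j) ∧
          ∀ a, (Finset.univ.filter fun j => a ∈ J j).card = m a),
      tp (∑ j, ∑ j', if j < j' then ∑ a ∈ J j, ∑ b ∈ J j', adj h a b else 0) := by
  rw [fmu_ofFn, QT.sum_c, ← Finset.filter_filter, Finset.sum_filter (s := Finset.filter _ _)]
  refine Finset.sum_congr rfl fun J _ => ?_
  rw [QT.smul_c, f1_sum_ind, mono_c (emb_mem _)]
  simp only [f1_om_ind, emb_injective.eq_iff]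
  by_cases hJ : ∀ a, (Finset.univ.filter fun j => a ∈ J j).card = m a
  · rw [if_pos hJ, if_pos (funext fun a => (hJ a).symm), mul_one]
  · rw [if_neg hJ, if_neg (fun he => hJ fun a => (congrFun he a).symm), mul_zero]

theorem f1_W (h : Fin n → ℕ) {N : ℕ} (f : Fin n → Fin N) :
    (∑ j, ∑ j', if j < j' then ∑ a ∈ Finset.univ.filter (fun a => f a = j),
        ∑ b ∈ Finset.univ.filter (fun b => f b = j'), adj h a b else 0) =
      ∑ a, ∑ b, if f a < f b then adj h a b else 0 := by
  rw [← Finset.sum_fiberwise (s := Finset.univ) (g := f)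
    (f := fun a => ∑ b, if f a < f b then adj h a b else 0)]
  refine Finset.sum_congr rfl fun j _ => ?_
  have e1 : ∀ a ∈ Finset.univ.filter (fun a => f a = j),
      (∑ b, if f a < f b then adj h a b else 0) =
        ∑ j', if j < j' then ∑ b ∈ Finset.univ.filter (fun b => f b = j'), adj h a b else 0 := by
    intro a ha
    have ha' : f a = j := (Finset.mem_filter.1 ha).2
    rw [← Finset.sum_fiberwise (s := Finset.univ) (g := f)
      (f := fun b => if f a < f b then adj h a b else 0)]
    refine Finset.sum_congr rfl fun j' _ => ?_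
    by_cases hj : j < j'
    · rw [if_pos hj]
      refine Finset.sum_congr rfl fun b hb => ?_
      rw [if_pos (by rw [ha', (Finset.mem_filter.1 hb).2]; exact hj)]
    · rw [if_neg hj]
      refine Finset.sum_eq_zero fun b hb => ?_
      rw [if_neg (by rw [ha', (Finset.mem_filter.1 hb).2]; exact hj)]
  rw [Finset.sum_congr rfl e1, Finset.sum_comm]
  refine Finset.sum_congr rfl fun j' _ => ?_
  by_cases hj : j < j'
  · simp only [if_pos hj]
  · simp only [if_neg hj, Finset.sum_const_zero]

theorem f1_exp (h : Fin n → ℕ) {N : ℕ} (f : Fin n → Fin N)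
    (hf : ∀ a b, IsEdge h a b → f a ≠ f b) :
    (nE h : ℤ) + (∑ a, ∑ b, if f a < f b then adj h a b else 0) = 2 * (ascents h f : ℤ) := by
  have e1 : (nE h : ℤ) = ∑ a, ∑ b, if a < b ∧ IsEdge h a b then (1 : ℤ) else 0 := by
    unfold nE
    rw [Finset.card_filter, ← Finset.sum_product']
    push_cast
    rfl
  have e2 : (ascents h f : ℤ) =
      ∑ a, ∑ b, if a < b ∧ IsEdge h a b ∧ f a < f b then (1 : ℤ) else 0 := by
    unfold ascents
    rw [Finset.card_filter, ← Finset.sum_product']
    push_cast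
    rfl
  have e3 : (∑ a, ∑ b, if f a < f b then adj h a b else 0) =
      (∑ a, ∑ b, if a < b ∧ IsEdge h a b ∧ f a < f b then (1 : ℤ) else 0) -
        ∑ a, ∑ b, if a < b ∧ IsEdge h a b ∧ f b < f a then (1 : ℤ) else 0 := by
    rw [Finset.sum_comm (f := fun a b => if a < b ∧ IsEdge h a b ∧ f b < f a then (1 : ℤ) else 0),
      ← Finset.sum_sub_distrib]
    refine Finset.sum_congr rfl fun a _ => ?_
    rw [← Finset.sum_sub_distrib]
    refine Finset.sum_congr rfl fun b _ => ?_
    unfold adj
    by_cases he : IsEdge h a b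
    · have he' : IsEdge h b a := (isEdge_symm h).1 he
      have hne : a ≠ b := fun hab => not_isEdge_self h a (by rwa [← hab] at he)
      rcases lt_or_gt_of_ne hne with hl | hl
      · by_cases hf' : f a < f b <;> simp [he, he', hl, not_lt.2 hl.le, hf']
      · by_cases hf' : f a < f b <;> simp [he, he', hl, not_lt.2 hl.le, hf']
    · have he' : ¬ IsEdge h b a := fun h' => he ((isEdge_symm h).1 h')
      simp [he, he']
  have e4 : (∑ a, ∑ b, if a < b ∧ IsEdge h a b then (1 : ℤ) else 0) =
      (∑ a, ∑ b, if a < b ∧ IsEdge h a b ∧ f a < f b then (1 : ℤ) else 0) +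
        ∑ a, ∑ b, if a < b ∧ IsEdge h a b ∧ f b < f a then (1 : ℤ) else 0 := by
    rw [← Finset.sum_add_distrib]
    refine Finset.sum_congr rfl fun a _ => ?_
    rw [← Finset.sum_add_distrib]
    refine Finset.sum_congr rfl fun b _ => ?_
    by_cases he : IsEdge h a b
    · rcases lt_or_gt_of_ne (hf a b he) with hl | hl
      · by_cases hab : a < b <;> simp [he, hl, not_lt.2 hl.le, hab]
      · by_cases hab : a < b <;> simp [he, hl, not_lt.2 hl.le, hab]
    · simp [he]
  rw [e1, e2, e3, e4]
  ring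

theorem f1_single_sum {ι : Type} (s : Finset ι) {N : ℕ} (f : ι → Fin N) (j : Fin N) :
    (∑ a ∈ s, Finsupp.single (f a) 1 : Fin N →₀ ℕ) j = (s.filter fun a => f a = j).card := by
  rw [Finsupp.finset_sum_apply, Finset.card_filter]
  exact Finset.sum_congr rfl fun a _ => by rw [Finsupp.single_apply]

/-- colourings `f` correspond to the families `J j = f⁻¹(j)` with `Σ_j ind (J j) = ind univ`; the
exponent is `#ascents - #descents = 2 asc - nE` -/
theorem coeff_chromatic (h : Fin n → ℕ) (N : ℕ) (μ : Fin N →₀ ℕ) :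
    qt (MvPolynomial.coeff μ (chromaticQSym h N)) =
      tp (nE h) * (fmu h (List.ofFn μ)).c (emb 1) := by
  rw [f1_fmu_c, Finset.mul_sum]
  unfold chromaticQSym
  rw [MvPolynomial.coeff_sum, map_sum]
  have e1 : ∀ f : Fin n → Fin N,
      qt (MvPolynomial.coeff μ (MvPolynomial.C (Polynomial.X ^ ascents h f) *
        ∏ a : Fin n, MvPolynomial.X (f a) : MvPolynomial (Fin N) (Polynomial ℤ))) =
      if ∀ j, (Finset.univ.filter fun a => f a = j).card = μ j
        then tp (2 * (ascents h f : ℤ)) else 0 := by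
    intro f
    have e2 : (∏ a : Fin n, MvPolynomial.X (f a) : MvPolynomial (Fin N) (Polynomial ℤ)) =
        MvPolynomial.monomial (∑ a, Finsupp.single (f a) 1) 1 := by
      rw [MvPolynomial.monomial_sum_one]
      rfl
    rw [e2, MvPolynomial.C_mul_monomial, mul_one, MvPolynomial.coeff_monomial]
    by_cases hc : ∀ j, (Finset.univ.filter fun a => f a = j).card = μ j
    · rw [if_pos hc, if_pos (Finsupp.ext fun j => by rw [f1_single_sum, hc]), qt_X_pow]
    · rw [if_neg hc, if_neg (fun he => hc fun j => by rw [← he, f1_single_sum]), map_zero]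
  simp only [e1]
  rw [← Finset.sum_filter, Finset.filter_filter]
  refine Finset.sum_bij (fun f _ => fun j => Finset.univ.filter fun a => f a = j) ?_ ?_ ?_ ?_
  · intro f hf
    obtain ⟨hp, hc⟩ := (Finset.mem_filter.1 hf).2
    refine Finset.mem_filter.2 ⟨Finset.mem_univ _, fun j => ⟨fun a ha b hb he => ?_, hc j⟩,
      fun a => ?_⟩
    · exact hp a b he (((Finset.mem_filter.1 ha).2).trans ((Finset.mem_filter.1 hb).2).symm)
    · rw [Pi.one_apply, Finset.card_eq_one]
      exact ⟨f a, by ext j; simp [eq_comm]⟩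
  · intro f _ g _ hfg
    funext a
    have h1 : a ∈ Finset.univ.filter fun b => f b = f a := by simp
    rw [show (Finset.univ.filter fun b => f b = f a) = Finset.univ.filter fun b => g b = f a from
      congrFun hfg (f a)] at h1
    exact ((Finset.mem_filter.1 h1).2).symm
  · intro J hJ
    obtain ⟨h1, h2⟩ := (Finset.mem_filter.1 hJ).2
    have h3 : ∀ a, ∃ j, ∀ j', a ∈ J j' ↔ j = j' := by
      intro a
      obtain ⟨j, hj⟩ := Finset.card_eq_one.1 (h2 a)
      refine ⟨j, fun j' => ?_⟩
      have := Finset.ext_iff.1 hj j'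
      simpa [eq_comm] using this
    choose f hf using h3
    have h4 : ∀ j, (Finset.univ.filter fun a => f a = j) = J j := by
      intro j; ext a; simp [hf]
    refine ⟨f, Finset.mem_filter.2 ⟨Finset.mem_univ _, fun a b he hab => ?_, fun j => ?_⟩,
      funext h4⟩
    · exact (h1 (f a)).1 a ((hf a _).2 rfl) b ((hf b _).2 hab.symm) he
    · rw [h4, (h1 j).2]
  · intro f hf
    obtain ⟨hp, -⟩ := (Finset.mem_filter.1 hf).2
    rw [← tp_add, f1_W, f1_exp h f hp]

/-- both sides count 0/1 matrices with row sums `m` and column sums `μ` (transpose); all `J j` lie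
in the independent support, so the exponent vanishes -/
theorem coeff_esymm (h : Fin n → ℕ) {m : Fin n → ℕ}
    (hm : Indep h (Finset.univ.filter fun a => m a ≠ 0)) (N : ℕ) (μ : Fin N →₀ ℕ) :
    qt (MvPolynomial.coeff μ (∏ a, MvPolynomial.esymm (Fin N) (Polynomial ℤ) (m a))) =
      (fmu h (List.ofFn μ)).c (emb m) := by
  rw [f1_fmu_c]
  simp only [MvPolynomial.esymm_eq_sum_monomial]
  rw [Finset.prod_univ_sum, MvPolynomial.coeff_sum, map_sum]
  have e1 : ∀ T : Fin n → Finset (Fin N),
      qt (MvPolynomial.coeff μ (∏ a : Fin n, MvPolynomial.monomial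
        (∑ i ∈ T a, Finsupp.single i 1) 1 : MvPolynomial (Fin N) (Polynomial ℤ))) =
      if ∀ j, (Finset.univ.filter fun a => j ∈ T a).card = μ j then 1 else 0 := by
    intro T
    have e2 : ∀ j, (∑ a, ∑ i ∈ T a, Finsupp.single i 1 : Fin N →₀ ℕ) j =
        (Finset.univ.filter fun a => j ∈ T a).card := by
      intro j
      rw [Finsupp.finset_sum_apply, Finset.card_filter]
      refine Finset.sum_congr rfl fun a _ => ?_
      rw [f1_single_sum (T a) (fun i => i) j, Finset.filter_eq']
      split_ifs <;> simp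
    rw [← MvPolynomial.monomial_sum_one, MvPolynomial.coeff_monomial]
    by_cases hc : ∀ j, (Finset.univ.filter fun a => j ∈ T a).card = μ j
    · rw [if_pos hc, if_pos (Finsupp.ext fun j => by rw [e2, hc]), map_one]
    · rw [if_neg hc, if_neg (fun he => hc fun j => by rw [← he, e2]), map_zero]
  simp only [e1]
  rw [← Finset.sum_filter]
  refine Finset.sum_nbij' (fun T j => Finset.univ.filter fun a => j ∈ T a)
    (fun J a => Finset.univ.filter fun j => a ∈ J j) ?_ ?_ ?_ ?_ ?_
  · intro T hT
    obtain ⟨h1, h2⟩ := Finset.mem_filter.1 hT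
    have h3 : ∀ a, (T a).card = m a := fun a =>
      (Finset.mem_powersetCard.1 (Fintype.mem_piFinset.1 h1 a)).2
    have h4 : ∀ j a, j ∈ T a → a ∈ Finset.univ.filter fun a => m a ≠ 0 := fun j a ha =>
      Finset.mem_filter.2 ⟨Finset.mem_univ _, by
        rw [← h3]; exact Finset.card_ne_zero_of_mem ha⟩
    refine Finset.mem_filter.2 ⟨Finset.mem_univ _, fun j => ⟨fun a ha b hb => ?_, h2 j⟩,
      fun a => ?_⟩
    · exact hm a (h4 j a (Finset.mem_filter.1 ha).2) b (h4 j b (Finset.mem_filter.1 hb).2)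
    · rw [← h3]; congr 1; ext j; simp
  · intro J hJ
    obtain ⟨h1, h2⟩ := (Finset.mem_filter.1 hJ).2
    refine Finset.mem_filter.2 ⟨Fintype.mem_piFinset.2 fun a =>
      Finset.mem_powersetCard.2 ⟨Finset.subset_univ _, h2 a⟩, fun j => ?_⟩
    rw [← (h1 j).2]; congr 1; ext a; simp
  · intro T _
    funext a; ext j; simp
  · intro J _
    funext j; ext a; simp
  · intro T hT
    obtain ⟨h1, -⟩ := Finset.mem_filter.1 hT
    have h3 : ∀ a, (T a).card = m a := fun a =>
      (Finset.mem_powersetCard.1 (Fintype.mem_piFinset.1 h1 a)).2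
    have h4 : ∀ j a, j ∈ T a → a ∈ Finset.univ.filter fun a => m a ≠ 0 := fun j a ha =>
      Finset.mem_filter.2 ⟨Finset.mem_univ _, by
        rw [← h3]; exact Finset.card_ne_zero_of_mem ha⟩
    rw [Finset.sum_eq_zero, tp_zero]
    intro j _
    refine Finset.sum_eq_zero fun j' _ => ?_
    split_ifs
    · refine Finset.sum_eq_zero fun a ha => Finset.sum_eq_zero fun b hb => ?_
      unfold adj
      rw [if_neg (hm a (h4 j a (Finset.mem_filter.1 ha).2) b (h4 j' b (Finset.mem_filter.1 hb).2))]
    · rfl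

end
end Crest.Agent.R59
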