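import Crest.Agent.R59.Z1a

/-! # Row 59, Z1: the monomial series `Zq`: finiteness, products, invariance. -/

set_option autoImplicit false

namespace Crest.Agent.R59
open scoped Classical

variable {M : Type} [AddCommGroup M] {ω : Form M} {A : Cone M} {B B' : Type}

theorem LocFin.sum {c : B → M} {s : B → ℤ} {c' : B' → M} {s' : B' → ℤ} (h : LocFin A c s)
    (h' : LocFin A c' s') : LocFin A (Sum.elim c c') (Sum.elim s s') := by
  refine ⟨?_, fun a j => ?_⟩
  · rintro (α | β)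
    · exact h.1 α
    · exact h'.1 β
  · refine (((h.2 a j).image Sum.inl).union ((h'.2 a j).image Sum.inr)).subset ?_
    rintro (α | β) hα
    · exact Or.inl ⟨α, hα, rfl⟩
    · exact Or.inr ⟨β, hα, rfl⟩
theorem LocFin.subtype {c : B → M} {s : B → ℤ} (h : LocFin A c s) (p : B → Prop) :
    LocFin A (fun α : {α // p α} => c α.1) (fun α => s α.1) :=
  ⟨fun α => h.1 α.1, fun a j => (h.2 a j).preimage Subtype.val_injective.injOn⟩

theorem z1_sumElim_mem {c : B → M} {s : B → ℤ} {c' : B' → M} {s' : B' → ℤ} {a : M} {j : ℤ}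
    (μ : B →₀ ℕ) (ν : B' →₀ ℕ) :
    μ.sumElim ν ∈ monos (Sum.elim c c') (Sum.elim s s') a j ↔
      ((∀ α, Odd (s α) → μ α ≤ 1) ∧ ∀ β, Odd (s' β) → ν β ≤ 1) ∧
      (μ.sum fun α k => k • c α) + (ν.sum fun α k => k • c' α) = a ∧
      (μ.sum fun α k => (k : ℤ) * s α) + (ν.sum fun α k => (k : ℤ) * s' α) = j := by
  simp only [monos, Set.mem_ofPred_eq, Finsupp.sum_sumElim, Sum.forall, Sum.elim_inl, Sum.elim_inr,
    Finsupp.sumElim_inl, Finsupp.sumElim_inr, Function.comp_def]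

theorem z1_ne_iff {c : B → M} {s : B → ℤ} (h : LocFin A c s) (a : M) (j : ℤ) :
    ((Zq ω A c s).c a).coeff j ≠ 0 ↔ (monos c s a j).Nonempty := by
  rw [Zq_coeff h, Nat.cast_ne_zero, ← Nat.pos_iff_ne_zero,
    Set.ncard_pos (monos_finite h a j)]

theorem z1_w_zero {c : B → M} {s : B → ℤ} {c' : B' → M} {s' : B' → ℤ}
    (hc : ∀ α β, ω.w (c α) (c' β) = 0) {u v : M} (hu : (Zq ω A c s).c u ≠ 0)
    (hv : (Zq ω A c' s').c v ≠ 0) : ω.w u v = 0 := by
  have h1 : ∀ β, ω.w u (c' β) = 0 := fun β =>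
    supp_Zq (ω := ω) (A := A) (s := s) (N := AddMonoidHom.mker (ω.w.flip (c' β)))
      (fun α => hc α β) u hu
  exact supp_Zq (ω := ω) (A := A) (s := s') (N := AddMonoidHom.mker (ω.w u)) h1 v hv

/-- `Finsupp.sumFinsuppEquivProdFinsupp`; compare coefficients of `t^j` with `QT.mul_c_sum`,
`HahnSeries.coeff_mul` (or sum over a finite interval of weights); `ω u (a - u) = 0` whenever both
factors are nonzero -/
theorem Zq_sum {c : B → M} {s : B → ℤ} {c' : B' → M} {s' : B' → ℤ} (h : LocFin A c s)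
    (h' : LocFin A c' s') (hc : ∀ α β, ω.w (c α) (c' β) = 0) :
    Zq ω A (Sum.elim c c') (Sum.elim s s') = Zq ω A c s * Zq ω A c' s' := by
  refine QT.ext fun a => ?_
  have e1 : (Zq ω A c s * Zq ω A c' s').c a =
      ∑ u ∈ A.le (A.deg a), (Zq ω A c s).c u * (Zq ω A c' s').c (a - u) := by
    rw [QT.mul_c_sum _ _ _ le_rfl]
    refine Finset.sum_congr rfl fun u _ => ?_
    by_cases h1 : (Zq ω A c s).c u = 0
    · simp [h1]
    by_cases h2 : (Zq ω A c' s').c (a - u) = 0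
    · simp [h2]
    rw [z1_w_zero hc h1 h2, tp_zero, one_mul]
  rw [e1]
  ext j
  rw [Zq_coeff (h.sum h'), HahnSeries.coeff_sum]
  simp only [HahnSeries.coeff_mul, Zq_coeff h, Zq_coeff h']
  set AD : M → Finset (ℤ × ℤ) := fun u => Finset.antidiagonal ((Zq ω A c s).c u).isPWO_support
    ((Zq ω A c' s').c (a - u)).isPWO_support j with hAD
  have e2 : ∀ (u : M) (p : ℤ × ℤ), ((monos c s u p.1).ncard : ℚ) * (monos c' s' (a - u) p.2).ncard =
      (((monos_finite h u p.1).toFinset ×ˢ (monos_finite h' (a - u) p.2).toFinset).card : ℕ) := by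
    intro u p
    rw [Finset.card_product, Set.ncard_eq_toFinset_card _ (monos_finite h u p.1),
      Set.ncard_eq_toFinset_card _ (monos_finite h' (a - u) p.2), Nat.cast_mul]
  simp only [e2]
  norm_cast
  simp only [← Finset.card_sigma]
  rw [Set.ncard_eq_toFinset_card _ (monos_finite (h.sum h') a j)]
  symm
  refine Finset.card_bij (fun x _ => x.2.2.1.sumElim x.2.2.2) ?_ ?_ ?_
  · rintro ⟨u, p, μ, ν⟩ hx
    simp only [Finset.mem_sigma, Finset.mem_product, Set.Finite.mem_toFinset,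
      Finset.mem_antidiagonal] at hx
    obtain ⟨-, ⟨-, -, hp⟩, ⟨h1, h2, h3⟩, ⟨h4, h5, h6⟩⟩ := hx
    rw [Set.Finite.mem_toFinset, z1_sumElim_mem]
    refine ⟨⟨h1, h4⟩, ?_, ?_⟩
    · rw [h2, h5]; abel
    · rw [h3, h6, hp]
  · rintro ⟨u, ⟨i, i'⟩, μ, ν⟩ hx ⟨u', ⟨k, k'⟩, μ', ν'⟩ hy hxy
    simp only [Finset.mem_sigma, Finset.mem_product, Set.Finite.mem_toFinset,
      Finset.mem_antidiagonal] at hx hy
    obtain ⟨-, -, ⟨-, h2, h3⟩, ⟨-, -, h6⟩⟩ := hx
    obtain ⟨-, -, ⟨-, h2', h3'⟩, ⟨-, -, h6'⟩⟩ := hy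
    have e3 : μ = μ' := Finsupp.ext fun α => DFunLike.congr_fun hxy (Sum.inl α)
    have e4 : ν = ν' := Finsupp.ext fun α => DFunLike.congr_fun hxy (Sum.inr α)
    subst e3 e4
    obtain rfl : u = u' := h2.symm.trans h2'
    obtain rfl : i = k := h3.symm.trans h3'
    obtain rfl : i' = k' := h6.symm.trans h6'
    rfl
  · intro ρ hρ
    obtain ⟨⟨μ, ν⟩, rfl⟩ := Finsupp.sumFinsuppEquivProdFinsupp.symm.surjective ρ
    have hρ' : μ.sumElim ν ∈ monos (Sum.elim c c') (Sum.elim s s') a j :=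
      (Set.Finite.mem_toFinset _).1 hρ
    rw [z1_sumElim_mem] at hρ'
    obtain ⟨⟨h1, h4⟩, h2, h3⟩ := hρ'
    have m1 : μ ∈ monos c s (μ.sum fun α k => k • c α) (μ.sum fun α k => (k : ℤ) * s α) :=
      ⟨h1, rfl, rfl⟩
    have m2 : ν ∈ monos c' s' (a - μ.sum fun α k => k • c α) (ν.sum fun α k => (k : ℤ) * s' α) :=
      ⟨h4, by rw [← h2]; abel, rfl⟩
    refine ⟨⟨μ.sum fun α k => k • c α, (μ.sum fun α k => (k : ℤ) * s α,
      ν.sum fun α k => (k : ℤ) * s' α), μ, ν⟩, ?_, rfl⟩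
    simp only [Finset.mem_sigma, Finset.mem_product, Set.Finite.mem_toFinset,
      Finset.mem_antidiagonal, HahnSeries.mem_support]
    refine ⟨?_, ⟨(z1_ne_iff h _ _).2 ⟨μ, m1⟩, (z1_ne_iff h' _ _).2 ⟨ν, m2⟩, h3⟩, m1, m2⟩
    exact A.mem_le_of_add (monos_mem (fun α => (h.1 α).1) ⟨μ, m1⟩)
      (monos_mem (fun α => (h'.1 α).1) ⟨ν, m2⟩) le_rfl
theorem Zq_split {c : B → M} {s : B → ℤ} (h : LocFin A c s) (hc : ∀ α β, ω.w (c α) (c β) = 0)
    (p : B → Prop) :
    Zq ω A c s = Zq ω A (fun α : {α // p α} => c α.1) (fun α => s α.1) *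
      Zq ω A (fun α : {α // ¬ p α} => c α.1) (fun α => s α.1) := by
  rw [← Zq_sum (h.subtype p) (h.subtype fun α => ¬ p α) fun α β => hc _ _]
  refine QT.ext fun a => ?_
  rw [Zq_c h, Zq_c ((h.subtype p).sum (h.subtype fun α => ¬ p α))]
  symm
  refine Zc_equiv (Equiv.sumCompl p) ?_ ?_ a
  · rintro (α | α) <;> rfl
  · rintro (α | α) <;> rfl

theorem z1_deg_le {c : B → M} {s : B → ℤ} (h : LocFin A c s) {μ : B →₀ ℕ} {α : B}
    (hα : μ α ≠ 0) : A.deg (c α) ≤ A.deg (μ.sum fun α k => k • c α) := by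
  rw [Finsupp.sum, map_sum]
  refine le_trans ?_ (Finset.single_le_sum (f := fun β => A.deg (μ β • c β))
    (fun β _ => A.deg_nonneg (A.C.nsmul_mem (h.1 β).1 _)) (Finsupp.mem_support_iff.2 hα))
  have h0 := A.deg_nonneg (h.1 α).1
  have h1 : (1 : ℤ) ≤ μ α := by exact_mod_cast Nat.one_le_iff_ne_zero.2 hα
  rw [map_nsmul, nsmul_eq_mul]
  nlinarith

theorem z1_exists {c : B → M} {μ : B →₀ ℕ} (h : (μ.sum fun α k => k • c α) ≠ 0) :
    ∃ α, μ α ≠ 0 := by
  by_contra hc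
  push Not at hc
  rw [show μ = 0 from Finsupp.ext hc] at h
  simp at h

/-- lowest terms: only `μ = single α 1` contributes -/
theorem Zq_low {c : B → M} {s : B → ℤ} (h : LocFin A c s) {D : ℤ} (hD : ∀ α, D ≤ A.deg (c α)) :
    (∀ u, u ≠ 0 → A.deg u < D → (Zq ω A c s).c u = 0) ∧
    ∀ a, a ≠ 0 → A.deg a = D → ∀ j, ((Zq ω A c s).c a).coeff j = (fib c s a j : ℚ) := by
  refine ⟨fun u hu hlt => ?_, fun a ha hdeg j => ?_⟩
  · ext j
    by_contra hne
    obtain ⟨μ, -, h2, -⟩ := (z1_ne_iff h u j).1 hne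
    obtain ⟨α, hα⟩ := z1_exists (h2 ▸ hu)
    have := z1_deg_le h hα
    have := hD α
    rw [h2] at *
    omega
  · rw [Zq_coeff h, fib, ← Set.ncard_image_of_injective {α | c α = a ∧ s α = j}
      (Finsupp.single_left_injective (M := ℕ) one_ne_zero)]
    refine congrArg (fun S : Set (B →₀ ℕ) => (S.ncard : ℚ)) (Set.ext fun μ => ?_)
    constructor
    · rintro ⟨-, h2, h3⟩
      obtain ⟨α, hα⟩ := z1_exists (h2 ▸ ha)
      obtain ⟨ν, rfl⟩ : ∃ ν, μ = Finsupp.single α 1 + ν :=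
        exists_add_of_le (Finsupp.single_le_iff.2 (Nat.one_le_iff_ne_zero.2 hα))
      have e : ((Finsupp.single α 1 + ν).sum fun α k => k • c α) =
          c α + ν.sum fun α k => k • c α := by
        rw [Finsupp.sum_add_index' (by simp) (by simp [add_smul]),
          Finsupp.sum_single_index (by simp), one_smul]
      have hν : ν = 0 := by
        ext β
        by_contra hβ
        have h4 := z1_deg_le h hβ
        have h5 := A.pos _ (h.1 β).1 (h.1 β).2
        have h6 := hD α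
        have h7 := congrArg A.deg (e.symm.trans h2)
        rw [map_add] at h7
        omega
      subst hν
      rw [add_zero, Finsupp.sum_single_index (by simp)] at h2 h3
      exact ⟨α, ⟨by simpa using h2, by simpa using h3⟩, by rw [add_zero]⟩
    · rintro ⟨α, ⟨h1, h2⟩, rfl⟩
      refine ⟨fun β _ => ?_, ?_, ?_⟩
      · rw [Finsupp.single_apply]; split_ifs <;> simp
      · rw [Finsupp.sum_single_index (by simp), one_smul, h1]
      · rw [Finsupp.sum_single_index (by simp), h2]; simp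

end Crest.Agent.R59
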