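import Crest.Agent.R59.GCone
import Crest.Agent.R59.Z1

/-! # Row 59, F1: coefficients of `e_μ` versus colourings and elementary symmetric polynomials. -/

set_option autoImplicit false

namespace Crest.Agent.R59
noncomputable section
open scoped Classical
open Crest.CombinatoricsR.UnitInterval

variable {n : ℕ}

/-- `ℤ[q] → K`, `q ↦ t²` -/
def qt : Polynomial ℤ →+* K := Polynomial.eval₂RingHom (Int.castRingHom K) (tp 2)

theorem qt_X_pow (k : ℕ) : qt (Polynomial.X ^ k) = tp (2 * k) := by
  rw [map_pow, qt, Polynomial.coe_eval₂RingHom, Polynomial.eval₂_X, tp, tp, HahnSeries.single_pow,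
    one_pow, nsmul_eq_mul, mul_comm]
theorem qt_injective : Function.Injective qt := by
  have key : ∀ (p : Polynomial ℤ) (k : ℕ), (qt p).coeff (2 * k) = (p.coeff k : ℚ) := by
    intro p k
    induction p using Polynomial.induction_on' with
    | add p q hp hq => rw [map_add, HahnSeries.coeff_add, hp, hq, Polynomial.coeff_add, Int.cast_add]
    | monomial i a =>
      rw [← Polynomial.C_mul_X_pow_eq_monomial, map_mul, qt_X_pow, eq_intCast, map_intCast,
        ← HahnSeries.single_zero_intCast, HahnSeries.coeff_single_zero_mul, tp,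
        HahnSeries.coeff_single, ← eq_intCast Polynomial.C, Polynomial.coeff_C_mul_X_pow]
      by_cases h : k = i
      · simp [h]
      · rw [if_neg h, if_neg (by omega)]
        simp
  intro p q h
  ext k
  have := key p k
  rw [h, key q k] at this
  exact_mod_cast this.symm

/-- the partition attached to `m ∈ ℕ^n` with `|m| = k` -/
def partOf {k : ℕ} (m : Fin n → ℕ) (hm : ∑ a, m a = k) : Nat.Partition k :=
  Nat.Partition.ofSums k (Finset.univ.val.map m) hm

theorem esymmPart_partOf {k : ℕ} (m : Fin n → ℕ) (hm : ∑ a, m a = k) (N : ℕ) :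
    MvPolynomial.esymmPart (Fin N) (Polynomial ℤ) (partOf m hm) =
      ∏ a, MvPolynomial.esymm (Fin N) (Polynomial ℤ) (m a) := by
  unfold MvPolynomial.esymmPart partOf Nat.Partition.ofSums
  simp only [Multiset.filter_map, Multiset.map_map]
  refine Eq.trans ?_ (Finset.prod_filter_of_ne (s := Finset.univ) (p := fun a => m a ≠ 0)
    fun a _ h h0 => h (by rw [h0, MvPolynomial.esymm_zero]))
  rfl

/-- expansion of the ordered product (induction on `N`, `List.ofFn_succ`, `Fin.consEquiv`) -/
theorem fmu_ofFn (h : Fin n → ℕ) {N : ℕ} (μ : Fin N → ℕ) :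
    fmu h (List.ofFn μ) = ∑ J ∈ Finset.univ.filter
        (fun J : Fin N → Finset (Fin n) => ∀ j, Indep h (J j) ∧ (J j).card = μ j),
      tp (∑ j, ∑ j', if j < j' then (omG h).w (ind (J j)) (ind (J j')) else 0) •
        mono (omG h) (cG n) (∑ j, ind (J j)) := by
  induction N with
  | zero => simp [fmu, mono_zero]
  | succ N ih =>
    have e : fmu h (List.ofFn μ) = ek h (μ 0) * fmu h (List.ofFn fun i => μ i.succ) := by
      rw [fmu, List.ofFn_succ, List.map_cons, List.prod_cons, fmu]
    rw [e, ih, ek, Finset.sum_mul_sum, Finset.sum_filter, Finset.sum_filter,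
      ← (Fin.consEquiv fun _ : Fin (N + 1) => Finset (Fin n)).sum_comp, Fintype.sum_prod_type]
    refine Finset.sum_congr rfl fun I _ => ?_
    rw [Finset.sum_filter]
    by_cases hI : Indep h I ∧ I.card = μ 0
    · rw [if_pos hI]
      refine Finset.sum_congr rfl fun J _ => ?_
      refine if_congr ?_ ?_ rfl
      · rw [Fin.forall_fin_succ]
        simp [Fin.consEquiv, hI]
      · have hm : ∑ j, ind (J j) ∈ (cG n).C := sum_mem fun j _ => emb_mem _
        rw [mul_smul_comm, mono_mul_mono (u := ind I) (emb_mem _) hm, smul_smul, ← tp_add]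
        simp only [Fin.consEquiv, Equiv.coe_fn_mk, Fin.sum_univ_succ, Fin.cons_zero, Fin.cons_succ,
          if_false, Fin.succ_pos, if_true, Fin.not_lt_zero,
          Fin.succ_lt_succ_iff, zero_add, map_sum]
        rw [add_comm]
    · rw [if_neg hI]
      refine (Finset.sum_eq_zero fun J _ => if_neg fun hJ => hI ?_).symm
      simpa [Fin.consEquiv] using hJ 0

end
end Crest.Agent.R59
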