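import Crest.Agent.R59.F2a

/-! # Row 59, F2: words -/

set_option autoImplicit false

namespace Crest.Agent.R59
noncomputable section
open scoped Classical
open Crest.CombinatoricsR.UnitInterval

variable {n : ℕ} {h : Fin n → ℕ}

theorem f2_om_ind (A B : Finset (Fin n)) :
    (omG h).w (ind A) (ind B) = ∑ a ∈ A, ∑ b ∈ B, adj h a b := by
  rw [ind_eq_sum A, map_sum (omG h).w, AddMonoidHom.finsetSum_apply]
  refine Finset.sum_congr rfl fun a _ => ?_
  rw [ind_eq_sum B, map_sum]
  exact Finset.sum_congr rfl fun b _ => omG_ev_ev h a b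

theorem f2_adj_zero {a b : Fin n} (hab : ¬ IsEdge h a b) : adj h a b = 0 := by
  simp [adj, hab]

/-- first letter smaller than and non-adjacent to all of `I` -/
def F2T (h : Fin n → ℕ) (p : Σ _ : Finset (Fin n), List (Fin n)) : Prop :=
  ∃ a l', p.2 = a :: l' ∧ ∀ y ∈ p.1, a < y ∧ ¬ IsEdge h a y

/-- move the first letter into `I` -/
def f2mv (p : Σ _ : Finset (Fin n), List (Fin n)) : Σ _ : Finset (Fin n), List (Fin n) :=
  match p with
  | ⟨I, []⟩ => ⟨I, []⟩
  | ⟨I, a :: l⟩ => ⟨insert a I, l⟩

theorem f2_wt_cons (a : Fin n) {l : List (Fin n)} (hl : l.Nodup) :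
    wt h (a :: l) = ∑ b ∈ l.toFinset, adj h b a + wt h l := by
  rw [wt, List.sum_toFinset _ hl]

/-- Sign-reversing involution on pairs `(I, l)`, `I ⊆ W` independent, `l ∈ words (W \ I)`, weight
`(-1)^|I| t^(ω(W \ I, I) + wt l)`: if `l = a :: l'` and `a` is smaller than and non-adjacent to
`min I` (or `I = ∅`) move `a` into `I` (`edge_between` gives independence); otherwise move `min I`
to the front of `l`. -/
theorem words_rec (hh : IsHessenberg h) {W : Finset (Fin n)} (hW : W ≠ ∅) :
    ∑ I ∈ W.powerset.filter (Indep h), (-1 : K) ^ I.card *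
      (tp ((omG h).w (ind (W \ I)) (ind I)) * ∑ l ∈ words h (W \ I), tp (wt h l)) = 0 := by
  set P : Finset (Σ _ : Finset (Fin n), List (Fin n)) :=
    (W.powerset.filter (Indep h)).sigma fun I => words h (W \ I) with hP
  set F : (Σ _ : Finset (Fin n), List (Fin n)) → K := fun p =>
    (-1 : K) ^ p.1.card * tp ((omG h).w (ind (W \ p.1)) (ind p.1) + wt h p.2) with hF
  have memP : ∀ I l, (⟨I, l⟩ : Σ _ : Finset (Fin n), List (Fin n)) ∈ P ↔
      (I ⊆ W ∧ Indep h I) ∧ Word h l ∧ l.toFinset = W \ I := by
    intro I l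
    simp only [hP, Finset.mem_sigma, Finset.mem_filter, Finset.mem_powerset, mem_words]
  have e1 : ∑ I ∈ W.powerset.filter (Indep h), (-1 : K) ^ I.card *
      (tp ((omG h).w (ind (W \ I)) (ind I)) * ∑ l ∈ words h (W \ I), tp (wt h l)) =
      ∑ p ∈ P, F p := by
    rw [hP, Finset.sum_sigma]
    refine Finset.sum_congr rfl fun I _ => ?_
    simp only [hF, Finset.mul_sum, tp_add]
  rw [e1, ← Finset.sum_filter_add_sum_filter_not P (F2T h)]
  have e2 : ∑ p ∈ P.filter (F2T h), - F p = ∑ p ∈ P.filter (fun p => ¬ F2T h p), F p := by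
    refine Finset.sum_bij (fun p _ => f2mv p) ?_ ?_ ?_ ?_
    · rintro ⟨I, l⟩ hp
      obtain ⟨hp, a, l', hl, ha⟩ := Finset.mem_filter.1 hp
      dsimp only at hl ha
      subst hl
      obtain ⟨⟨hIW, hI⟩, ⟨hnd, hch⟩, hfin⟩ := (memP _ _).1 hp
      have haW : a ∈ W \ I := by rw [← hfin]; simp
      have hal : a ∉ l' := (List.nodup_cons.1 hnd).1
      refine Finset.mem_filter.2 ⟨(memP _ _).2 ⟨⟨?_, ?_⟩, ⟨(List.nodup_cons.1 hnd).2, hch.tail⟩, ?_⟩, ?_⟩
      · exact Finset.insert_subset (Finset.mem_sdiff.1 haW).1 hIW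
      · intro x hx y hy
        rcases Finset.mem_insert.1 hx with h1 | h1 <;> rcases Finset.mem_insert.1 hy with h2 | h2
        · rw [h1, h2]; exact not_isEdge_self h _
        · rw [h1]; exact (ha y h2).2
        · rw [h2]; exact fun he => (ha x h1).2 ((isEdge_symm h).1 he)
        · exact hI x h1 y h2
      · ext x
        have := Finset.ext_iff.1 hfin x
        simp only [List.toFinset_cons, Finset.mem_insert, List.mem_toFinset, Finset.mem_sdiff,
          not_or] at this ⊢
        constructor
        · intro hx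
          have h1 := this.1 (Or.inr hx)
          exact ⟨h1.1, fun hxa => hal (hxa ▸ hx), h1.2⟩
        · rintro ⟨h1, h2, h3⟩
          exact (this.2 ⟨h1, h3⟩).resolve_left h2
      · rintro ⟨b, l'', hl, hb⟩
        dsimp only [f2mv] at hl hb
        subst hl
        obtain ⟨h1, h2⟩ := hb a (Finset.mem_insert_self _ _)
        exact h2 ((List.isChain_cons_cons.1 hch).1 h1)
    · rintro ⟨I, l⟩ hp ⟨I', m⟩ hq heq
      obtain ⟨-, a, l', hl, ha⟩ := Finset.mem_filter.1 hp
      obtain ⟨-, b, m', hm, hb⟩ := Finset.mem_filter.1 hq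
      dsimp only at hl ha hm hb
      subst hl hm
      simp only [f2mv, Sigma.mk.injEq, heq_eq_eq] at heq
      obtain ⟨h1, rfl⟩ := heq
      have hab : a = b := by
        have ha' : a ∈ insert b I' := h1 ▸ Finset.mem_insert_self _ _
        have hb' : b ∈ insert a I := h1 ▸ Finset.mem_insert_self _ _
        rcases Finset.mem_insert.1 ha' with h2 | h2
        · exact h2
        · rcases Finset.mem_insert.1 hb' with h3 | h3
          · exact h3.symm
          · exact absurd (hb a h2).1 (not_lt.2 (ha b h3).1.le)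
      subst hab
      have h3 : a ∉ I := fun hx => lt_irrefl _ (ha a hx).1
      have h4 : a ∉ I' := fun hx => lt_irrefl _ (hb a hx).1
      have : I = I' := by
        rw [← Finset.erase_insert h3, h1, Finset.erase_insert h4]
      subst this
      rfl
    · rintro ⟨I, l⟩ hp
      obtain ⟨hp, hT⟩ := Finset.mem_filter.1 hp
      obtain ⟨⟨hIW, hI⟩, ⟨hnd, hch⟩, hfin⟩ := (memP _ _).1 hp
      have hne : I.Nonempty := by
        by_contra h0
        rw [Finset.not_nonempty_iff_eq_empty] at h0
        subst h0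
        cases l with
        | nil => exact hW (by simpa using hfin.symm)
        | cons a l' => exact hT ⟨a, l', rfl, by simp⟩
      set m := I.min' hne with hm
      have hmI : m ∈ I := I.min'_mem hne
      have hml : m ∉ l := by
        intro hx
        have : m ∈ W \ I := by rw [← hfin]; simpa using hx
        exact (Finset.mem_sdiff.1 this).2 hmI
      refine ⟨⟨I.erase m, m :: l⟩, Finset.mem_filter.2 ⟨(memP _ _).2 ⟨⟨?_, ?_⟩, ⟨?_, ?_⟩, ?_⟩, ?_⟩, ?_⟩
      · exact (Finset.erase_subset _ _).trans hIW
      · intro x hx y hy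
        exact hI x (Finset.mem_of_mem_erase hx) y (Finset.mem_of_mem_erase hy)
      · exact List.nodup_cons.2 ⟨hml, hnd⟩
      · cases l with
        | nil => simp
        | cons a l' =>
          refine List.isChain_cons_cons.2 ⟨fun ham => ?_, hch⟩
          by_contra hne'
          refine hT ⟨a, l', rfl, fun y hy => ?_⟩
          have hmy : m ≤ y := I.min'_le y hy
          refine ⟨lt_of_lt_of_le ham hmy, fun he => ?_⟩
          rcases hmy.eq_or_lt with h1 | h1
          · exact hne' (h1 ▸ he)
          · exact hne' (edge_between hh ham h1 he).1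
      · ext x
        have := Finset.ext_iff.1 hfin x
        simp only [List.toFinset_cons, Finset.mem_insert, List.mem_toFinset, Finset.mem_sdiff,
          Finset.mem_erase, not_and] at this ⊢
        constructor
        · rintro (rfl | hx)
          · exact ⟨hIW hmI, fun h1 => absurd rfl h1⟩
          · exact ⟨(this.1 hx).1, fun _ => (this.1 hx).2⟩
        · rintro ⟨h1, h2⟩
          by_cases hx : x = m
          · exact Or.inl hx
          · exact Or.inr (this.2 ⟨h1, h2 hx⟩)
      · refine ⟨m, l, rfl, fun y hy => ?_⟩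
        obtain ⟨h1, h2⟩ := Finset.mem_erase.1 hy
        exact ⟨lt_of_le_of_ne (I.min'_le y h2) (Ne.symm h1), hI m hmI y h2⟩
      · simp only [f2mv, Finset.insert_erase hmI]
    · rintro ⟨I, l⟩ hp
      obtain ⟨hp, a, l', hl, ha⟩ := Finset.mem_filter.1 hp
      dsimp only at hl ha
      subst hl
      obtain ⟨⟨hIW, hI⟩, ⟨hnd, hch⟩, hfin⟩ := (memP _ _).1 hp
      have hal : a ∉ l'.toFinset := by simpa using (List.nodup_cons.1 hnd).1
      have haI : a ∉ I := fun hx => lt_irrefl _ (ha a hx).1
      have e3 : W \ insert a I = l'.toFinset := by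
        rw [Finset.sdiff_insert, ← hfin, List.toFinset_cons, Finset.erase_insert hal]
      have e4 : ∑ y ∈ I, adj h a y = 0 :=
        Finset.sum_eq_zero fun y hy => f2_adj_zero (ha y hy).2
      simp only [hF, f2mv, Finset.card_insert_of_notMem haI, e3, ← hfin, f2_om_ind,
        f2_wt_cons a (List.nodup_cons.1 hnd).2, List.toFinset_cons, Finset.sum_insert hal,
        Finset.sum_insert haI, e4, Finset.sum_add_distrib]
      rw [pow_succ]
      have : 0 + ∑ x ∈ l'.toFinset, ∑ y ∈ I, adj h x y + (∑ b ∈ l'.toFinset, adj h b a + wt h l') =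
          ∑ x ∈ l'.toFinset, adj h x a + ∑ x ∈ l'.toFinset, ∑ y ∈ I, adj h x y + wt h l' := by ring
      rw [this]; ring
  rw [← e2, Finset.sum_neg_distrib, add_neg_cancel]

theorem f2_ind_sdiff {W I : Finset (Fin n)} (hI : I ⊆ W) : ind W - ind I = ind (W \ I) := by
  rw [ind_eq_sum, ind_eq_sum, ind_eq_sum, ← Finset.sum_sdiff hI]; abel

theorem f2_sub_of_emb {W I : Finset (Fin n)} {m : Fin n → ℕ} (hm : ind W - ind I = emb m) :
    I ⊆ W := by
  intro a ha
  by_contra hW
  have := congrArg (fun x : MM n => x.1 a) hm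
  simp [ind, emb, ha, hW] at this

theorem f2_ind_mem (I : Finset (Fin n)) : ind I ∈ (cG n).C := emb_mem _

theorem f2_words_empty : words h (∅ : Finset (Fin n)) = {[]} := by
  ext l
  rw [mem_words, Finset.mem_singleton, List.toFinset_eq_empty_iff]
  constructor
  · exact fun h => h.2
  · rintro rfl
    exact ⟨⟨List.nodup_nil, List.isChain_nil⟩, rfl⟩

theorem f2_Hk_aux (hh : IsHessenberg h) (k : ℕ) : ∀ W : Finset (Fin n), W.card = k →
    (Hk h k).c (ind W) = ∑ l ∈ words h W, tp (wt h l) := by
  induction k using Nat.strong_induction_on with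
  | _ k ih =>
    intro W hW
    cases k with
    | zero =>
      obtain rfl := Finset.card_eq_zero.1 hW
      rw [Hk, f2_words_empty, QT.one_c, ind_eq_sum]
      simp [wt]
    | succ k =>
      set G : Finset (Fin n) → K := fun I =>
        tp ((omG h).w (ind (W \ I)) (ind I)) * ∑ l ∈ words h (W \ I), tp (wt h l) with hG
      have hWne : W ≠ ∅ := by rintro rfl; simp at hW
      have hrec := words_rec hh hWne
      have e1 : ∀ i : Fin (k + 1), (Hk h (k - i.val) * ek h (i.val + 1)).c (ind W) =
          ∑ I ∈ (W.powerset.filter (Indep h)).filter (fun I => I.card = i.val + 1), G I := by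
        intro i
        rw [ek, Finset.mul_sum, QT.sum_c]
        symm
        refine Finset.sum_subset_zero_on_sdiff ?_ ?_ ?_
        · intro I hI
          simp only [Finset.mem_filter, Finset.mem_univ, true_and] at hI ⊢
          exact ⟨hI.1.2, hI.2⟩
        · intro I hI
          rw [mul_mono_c (f2_ind_mem I)]
          by_contra h0
          obtain ⟨m, -, hm⟩ := supp_Hk (h := h) (k - i.val) _ (right_ne_zero_of_mul h0)
          simp only [Finset.mem_sdiff, Finset.mem_filter, Finset.mem_univ, true_and,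
            Finset.mem_powerset] at hI
          exact hI.2 ⟨⟨f2_sub_of_emb hm, hI.1.1⟩, hI.1.2⟩
        · intro I hI
          simp only [Finset.mem_filter, Finset.mem_powerset] at hI
          rw [mul_mono_c (f2_ind_mem I), f2_ind_sdiff hI.1.1,
            ih (k - i.val) (by omega) (W \ I) (by rw [Finset.card_sdiff_of_subset hI.1.1]; omega)]
          have : (omG h).w (ind W) (ind I) = (omG h).w (ind (W \ I)) (ind I) := by
            rw [← f2_ind_sdiff hI.1.1, map_sub, AddMonoidHom.sub_apply, (omG h).alt, sub_zero]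
          rw [this]
      have e2 : (Hk h (k + 1)).c (ind W) = ∑ i ∈ Finset.range (k + 1),
          ∑ I ∈ (W.powerset.filter (Indep h)).filter (fun I => I.card = i + 1),
            - ((-1 : K) ^ I.card * G I) := by
        rw [Hk, QT.sum_c, ← Fin.sum_univ_eq_sum_range (fun i =>
          ∑ I ∈ (W.powerset.filter (Indep h)).filter (fun I => I.card = i + 1),
            - ((-1 : K) ^ I.card * G I))]
        refine Finset.sum_congr rfl fun i _ => ?_
        rw [QT.smul_c, e1, Finset.mul_sum]
        refine Finset.sum_congr rfl fun I hI => ?_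
        rw [(Finset.mem_filter.1 hI).2, pow_succ]; ring
      have e3 : ∑ I ∈ W.powerset.filter (Indep h), (-1 : K) ^ I.card * G I =
          ∑ i ∈ Finset.range (k + 1 + 1),
            ∑ I ∈ (W.powerset.filter (Indep h)).filter (fun I => I.card = i),
              (-1 : K) ^ I.card * G I := by
        symm
        refine Finset.sum_fiberwise_of_maps_to (fun I hI => ?_) _
        have := Finset.card_le_card (Finset.mem_powerset.1 (Finset.mem_filter.1 hI).1)
        rw [Finset.mem_range]; omega
      have e4 : (W.powerset.filter (Indep h)).filter (fun I => I.card = 0) = {∅} := by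
        ext I
        simp only [Finset.mem_filter, Finset.mem_powerset, Finset.card_eq_zero,
          Finset.mem_singleton]
        constructor
        · exact fun h => h.2
        · rintro rfl
          exact ⟨⟨Finset.empty_subset _, by intro a ha; simp at ha⟩, rfl⟩
      have e5 : G ∅ = ∑ l ∈ words h W, tp (wt h l) := by
        simp [hG, f2_om_ind]
      have e6 : ∑ I ∈ W.powerset.filter (Indep h), (-1 : K) ^ I.card * G I = 0 := hrec
      rw [e3, Finset.sum_range_succ', e4, Finset.sum_singleton, Finset.card_empty, pow_zero,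
        one_mul, e5] at e6
      rw [e2]
      simp only [Finset.sum_neg_distrib]
      linear_combination -e6

theorem Hk_c_ind (hh : IsHessenberg h) (W : Finset (Fin n)) :
    (Hk h W.card).c (ind W) = ∑ l ∈ words h W, tp (wt h l) :=
  f2_Hk_aux hh _ W rfl

theorem f2_wt_ofFn {m : ℕ} (f : Fin m → Fin n) :
    wt h (List.ofFn f) = ∑ i, ∑ j, if i < j then adj h (f j) (f i) else 0 := by
  induction m with
  | zero => simp [wt]
  | succ m ih =>
    rw [List.ofFn_succ, wt, ih, Fin.sum_univ_succ, Fin.sum_univ_succ, List.map_ofFn, List.sum_ofFn]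
    simp only [lt_irrefl, if_false, zero_add, Fin.succ_pos, if_true, Function.comp]
    congr 1
    refine Finset.sum_congr rfl fun i _ => ?_
    rw [Fin.sum_univ_succ]
    simp [Fin.succ_lt_succ_iff]

theorem f2_two_mul {R : Fin n → Fin n → Prop} [∀ a b, Decidable (R a b)] (hs : ∀ a b, R a b → R b a) (hi : ∀ a, ¬ R a a) :
    2 * (∑ i, ∑ j, if i < j ∧ R i j then (1 : ℤ) else 0) = ∑ i, ∑ j, if R i j then (1 : ℤ) else 0 := by
  rw [two_mul]
  conv_lhs => rw [Finset.sum_comm (f := fun i j => if i < j ∧ R i j then (1 : ℤ) else 0)]; 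
  nth_rewrite 2 [Finset.sum_comm]
  rw [← Finset.sum_add_distrib]
  refine Finset.sum_congr rfl fun i _ => ?_
  rw [← Finset.sum_add_distrib]
  refine Finset.sum_congr rfl fun j _ => ?_
  rcases lt_trichotomy i j with hl | hl | hl
  · by_cases hr : R i j <;> simp [hl, not_lt.2 hl.le, hr]
  · subst hl; simp [hi]
  · by_cases hr : R i j
    · simp [hl, not_lt.2 hl.le, hr, hs _ _ hr]
    · have : ¬ R j i := fun h' => hr (hs _ _ h')
      simp [hr, this]

theorem f2_nE (σ : Equiv.Perm (Fin n)) :
    (nE h : ℤ) = ∑ i, ∑ j, if i < j ∧ IsEdge h (σ i) (σ j) then (1 : ℤ) else 0 := by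
  have e1 : (nE h : ℤ) = ∑ i, ∑ j, if i < j ∧ IsEdge h i j then (1 : ℤ) else 0 := by
    rw [nE, Finset.card_filter, ← Finset.univ_product_univ, Finset.sum_product]
    push_cast
    rfl
  have e2 := f2_two_mul (R := fun a b => IsEdge h a b) (fun a b he => (isEdge_symm h).1 he)
    (not_isEdge_self h)
  have e3 := f2_two_mul (R := fun a b => IsEdge h (σ a) (σ b)) (fun a b he => (isEdge_symm h).1 he)
    (fun a => not_isEdge_self h _)
  have e4 : (∑ i, ∑ j, if IsEdge h (σ i) (σ j) then (1 : ℤ) else 0) =
      ∑ i, ∑ j, if IsEdge h i j then (1 : ℤ) else 0 := by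
    rw [← Equiv.sum_comp σ (fun i => ∑ j, if IsEdge h i j then (1 : ℤ) else 0)]
    refine Finset.sum_congr rfl fun i _ => ?_
    rw [← Equiv.sum_comp σ (fun j => if IsEdge h (σ i) j then (1 : ℤ) else 0)]
  rw [e1]
  have : 2 * (∑ i, ∑ j, if i < j ∧ IsEdge h i j then (1 : ℤ) else 0) =
      2 * ∑ i, ∑ j, if i < j ∧ IsEdge h (σ i) (σ j) then (1 : ℤ) else 0 := by
    convert e2.trans (e4.symm.trans e3.symm)
  omega

theorem f2_wt_perm (σ : Equiv.Perm (Fin n)) :
    (nE h : ℤ) + wt h (List.ofFn σ) = 2 * ginv h σ := by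
  rw [f2_nE σ, f2_wt_ofFn, ginv, Finset.card_filter, ← Finset.univ_product_univ,
    Finset.sum_product]
  push_cast
  rw [← Finset.sum_add_distrib, Finset.mul_sum]
  refine Finset.sum_congr rfl fun i _ => ?_
  rw [← Finset.sum_add_distrib, Finset.mul_sum]
  refine Finset.sum_congr rfl fun j _ => ?_
  by_cases hij : i < j
  · by_cases he : IsEdge h (σ i) (σ j)
    · have he' := (isEdge_symm h).1 he
      by_cases hl : σ j < σ i <;> simp [hij, he, he', hl, adj]
    · have he' : ¬ IsEdge h (σ j) (σ i) := fun h' => he ((isEdge_symm h).1 h')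
      simp [hij, he, he', adj]
  · simp [hij]

/-- `σ ↦ List.ofFn σ` is a bijection `descentSet h → words h univ` with `wt = 2 ginv - nE` -/
theorem sum_words_univ : tp (nE h) * ∑ l ∈ words h Finset.univ, tp (wt h l) =
    ∑ σ ∈ descentSet h, tp (2 * ginv h σ) := by
  rw [Finset.mul_sum]
  symm
  have hch : ∀ f : Fin n → Fin n, (List.ofFn f).IsChain (fun a b => b < a → IsEdge h b a) ↔
      ∀ i j : Fin n, j.val = i.val + 1 → f j < f i → IsEdge h (f j) (f i) := by
    intro f
    rw [List.isChain_iff_getElem]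
    simp only [List.length_ofFn, List.getElem_ofFn]
    constructor
    · intro H i j hij
      have hj := j.2
      have := H i.val (by omega)
      have e : j = ⟨i.val + 1, by omega⟩ := Fin.ext hij
      rw [e]
      exact this
    · intro H i hi
      exact H ⟨i, by omega⟩ ⟨i + 1, hi⟩ rfl
  refine Finset.sum_bij (fun σ _ => List.ofFn σ) ?_ ?_ ?_ ?_
  · intro σ hσ
    rw [mem_words]
    refine ⟨⟨List.nodup_ofFn.2 σ.injective, (hch σ).2 (Finset.mem_filter.1 hσ).2⟩, ?_⟩
    ext x
    simp only [List.mem_toFinset, List.mem_ofFn, Finset.mem_univ, iff_true]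
    exact σ.surjective x
  · intro σ _ τ _ heq
    exact Equiv.ext (congrFun (List.ofFn_injective heq))
  · intro l hl
    obtain ⟨⟨hnd, hc⟩, hfin⟩ := mem_words.1 hl
    have hlen : l.length = n := by
      rw [← List.toFinset_card_of_nodup hnd, hfin]; simp
    obtain ⟨f, rfl⟩ : ∃ f : Fin n → Fin n, l = List.ofFn f := by
      refine ⟨fun i => l[i.val]'(by rw [hlen]; exact i.2), ?_⟩
      apply List.ext_getElem
      · simp [hlen]
      · intro i h1 h2
        simp
    have hinj : Function.Injective f := List.nodup_ofFn.1 hnd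
    refine ⟨Equiv.ofBijective f (Finite.injective_iff_bijective.1 hinj), ?_, rfl⟩
    exact Finset.mem_filter.2 ⟨Finset.mem_univ _, (hch f).1 hc⟩
  · intro σ _
    rw [← tp_add, f2_wt_perm]

end
end Crest.Agent.R59
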