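import Crest.Agent.R59.GCone

/-! # Row 59, F2: the series `H = E(-1)⁻¹` and the descent set. -/

set_option autoImplicit false

namespace Crest.Agent.R59
noncomputable section
open scoped Classical
open Crest.CombinatoricsR.UnitInterval

variable {n : ℕ}

/-- `H_k`, defined by `Σ_{i ≤ k} (-1)^i H_(k-i) e_i = 0` for `k ≥ 1` -/
def Hk (h : Fin n → ℕ) : ℕ → TG h
  | 0 => 1
  | k + 1 => ∑ i : Fin (k + 1), ((-1 : K) ^ i.val) • (Hk h (k - i.val) * ek h (i.val + 1))
decreasing_by omega

/-- valid words: no adjacent descent between non-adjacent vertices -/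
def Word (h : Fin n → ℕ) (l : List (Fin n)) : Prop :=
  l.Nodup ∧ l.IsChain fun a b => b < a → IsEdge h b a

/-- weight `Σ_{i < j} adj (l j) (l i)` -/
def wt (h : Fin n → ℕ) : List (Fin n) → ℤ
  | [] => 0
  | a :: l => (l.map fun b => adj h b a).sum + wt h l

/-- valid words with letter set `W` -/
def words (h : Fin n → ℕ) (W : Finset (Fin n)) : Finset (List (Fin n)) :=
  (W.toList.permutations.toFinset).filter (Word h)

variable {h : Fin n → ℕ}

theorem mem_words {W : Finset (Fin n)} {l : List (Fin n)} :
    l ∈ words h W ↔ Word h l ∧ l.toFinset = W := by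
  rw [words, Finset.mem_filter, List.mem_toFinset, List.mem_permutations, and_comm]
  refine and_congr_right fun hl => ⟨fun hp => ?_, fun e => ?_⟩
  · rw [List.toFinset_eq_of_perm _ _ hp, Finset.toList_toFinset]
  · exact List.perm_of_nodup_nodup_toFinset_eq hl.1 W.nodup_toList
      (by rw [e, Finset.toList_toFinset])

theorem F2a_mul_ek {j : ℕ} (a : ℕ) {x : TG h}
    (hx : x ∈ Submodule.span K {f | ∃ μ : List ℕ, μ.sum = j ∧ f = fmu h μ}) :
    x * ek h a ∈ Submodule.span K {f | ∃ μ : List ℕ, μ.sum = j + a ∧ f = fmu h μ} := by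
  induction hx using Submodule.span_induction with
  | mem x hx =>
    obtain ⟨μ, hμ, rfl⟩ := hx
    exact Submodule.subset_span ⟨μ ++ [a], by simp [hμ], by simp [fmu]⟩
  | zero => rw [zero_mul]; exact Submodule.zero_mem _
  | add x y _ _ hx hy => rw [add_mul]; exact Submodule.add_mem _ hx hy
  | smul c x _ hx => rw [smul_mul_assoc]; exact Submodule.smul_mem _ c hx

theorem Hk_mem_span (k : ℕ) : Hk h k ∈ Submodule.span K {f | ∃ μ : List ℕ, μ.sum = k ∧ f = fmu h μ} := by
  induction k using Nat.strong_induction_on with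
  | _ k ih =>
    rcases k with _ | k
    · rw [Hk]
      exact Submodule.subset_span ⟨[], rfl, rfl⟩
    · rw [Hk]
      refine Submodule.sum_mem _ fun i _ => Submodule.smul_mem _ _ ?_
      have := F2a_mul_ek (i.val + 1) (ih (k - i.val) (by omega))
      rwa [show k - i.val + (i.val + 1) = k + 1 by omega] at this

theorem supp_Hk (k : ℕ) : Supp (Hk h k) {u | ∃ m : Fin n → ℕ, ∑ a, m a = k ∧ u = emb m} := by
  have hx := Hk_mem_span (h := h) k
  generalize Hk h k = x at hx
  induction hx using Submodule.span_induction with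
  | mem x hx =>
    obtain ⟨μ, rfl, rfl⟩ := hx
    exact supp_fmu h μ
  | zero => exact fun u hu => absurd rfl hu
  | add x y _ _ hx hy => exact hx.add hy
  | smul c x _ hx => exact hx.smul c

theorem F2a_om {m : Fin n → ℕ} (hm : Indep h (Finset.univ.filter fun a => m a ≠ 0))
    {I : Finset (Fin n)} (hI : I ⊆ Finset.univ.filter fun a => m a ≠ 0) :
    (omG h).w (emb m) (ind I) = 0 := by
  rw [omG_apply]
  simp only [ind, emb, mul_zero, zero_mul, sub_zero, add_zero]
  refine Finset.sum_eq_zero fun a _ => Finset.sum_eq_zero fun b _ => ?_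
  by_cases ha : m a = 0
  · simp [ha]
  by_cases hb : b ∈ I
  · have := hm a (by simpa using ha) b (hI hb)
    simp [adj, this]
  · simp [hb]

theorem F2a_alt {s k : ℕ} (hs : s ≤ k) :
    ∑ i : Fin (k + 1), (-1 : K) ^ i.val * ((s + 1).choose (i.val + 1) : K) = 1 := by
  have h1 := Int.alternating_sum_range_choose_eq_choose (n := s) (m := k + 1)
  rw [Nat.choose_eq_zero_of_lt (Nat.lt_succ_of_le hs), Finset.sum_range_succ'] at h1
  have h2 : ∑ i ∈ Finset.range (k + 1), (-1 : ℤ) ^ i * ((s + 1).choose (i + 1) : ℤ) = 1 := by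
    simp only [pow_succ, mul_neg, mul_one, neg_mul, Finset.sum_neg_distrib, pow_zero,
      Nat.choose_zero_right, Nat.cast_one, Nat.cast_zero, mul_zero] at h1
    linarith
  rw [Fin.sum_univ_eq_sum_range (fun i => (-1 : K) ^ i * ((s + 1).choose (i + 1) : K))]
  exact_mod_cast congrArg (Int.cast : ℤ → K) h2

/-- induction: `Σ_{∅ ≠ I ⊆ supp m} (-1)^(|I|-1) = 1` -/
theorem Hk_c_indep {m : Fin n → ℕ} (hm : Indep h (Finset.univ.filter fun a => m a ≠ 0)) :
    (Hk h (∑ a, m a)).c (emb m) = 1 := by
  generalize hk : ∑ a, m a = k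
  induction k using Nat.strong_induction_on generalizing m with
  | _ k ih =>
    rcases k with _ | k
    · have : m = 0 := funext fun a => Finset.sum_eq_zero_iff.1 hk a (Finset.mem_univ a)
      rw [Hk, this, emb_zero, QT.one_c, if_pos rfl]
    set S := Finset.univ.filter fun a => m a ≠ 0 with hS
    have hterm : ∀ i : Fin (k + 1), ∀ I : Finset (Fin n), I.card = i.val + 1 →
        (Hk h (k - i.val) * mono (omG h) (cG n) (ind I)).c (emb m) = if I ⊆ S then 1 else 0 := by
      intro i I hI
      rw [mul_mono_c (u := ind I) (emb_mem _)]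
      split_ifs with hIS
      · have hle : ∀ a, (if a ∈ I then 1 else 0) ≤ m a := fun a => by
          split_ifs with ha
          · exact Nat.one_le_iff_ne_zero.2 (by simpa [hS] using hIS ha)
          · exact Nat.zero_le _
        obtain ⟨m', rfl⟩ : ∃ m' : Fin n → ℕ, m = m' + fun a => if a ∈ I then 1 else 0 :=
          ⟨fun a => m a - if a ∈ I then 1 else 0, funext fun a => (Nat.sub_add_cancel (hle a)).symm⟩
        rw [F2a_om hm hIS, tp_zero, one_mul, emb_add, ind, add_sub_cancel_right]
        refine ih _ (by omega) (fun a ha b hb => hm a ?_ b ?_) ?_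
        · simp only [hS, Finset.mem_filter, Finset.mem_univ, true_and, Pi.add_apply] at ha ⊢
          omega
        · simp only [hS, Finset.mem_filter, Finset.mem_univ, true_and, Pi.add_apply] at hb ⊢
          omega
        · simp only [Pi.add_apply, Finset.sum_add_distrib, Finset.sum_ite_mem, Finset.univ_inter,
            Finset.sum_const, smul_eq_mul, mul_one, hI] at hk
          omega
      · refine mul_eq_zero_of_right _ (by_contra fun hne => hIS fun a ha => ?_)
        obtain ⟨m', -, e⟩ := supp_Hk _ _ hne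
        have e2 := congrFun (congrArg Prod.fst e) a
        simp only [ind, emb, Prod.fst_sub, Pi.sub_apply, if_pos ha] at e2
        simp only [hS, Finset.mem_filter, Finset.mem_univ, true_and]
        omega
    have hcard : S.card ≤ k + 1 := by
      rw [← hk, Finset.card_eq_sum_ones, hS, Finset.sum_filter]
      refine Finset.sum_le_sum fun a _ => ?_
      split_ifs <;> omega
    obtain ⟨s, hs⟩ : ∃ s, S.card = s + 1 := by
      refine Nat.exists_eq_succ_of_ne_zero fun h0 => ?_
      have h1 : ∑ a, m a = 0 := Finset.sum_eq_zero fun a _ => by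
        by_contra ha
        have : a ∈ S := by simpa [hS] using ha
        rw [Finset.card_eq_zero.1 h0] at this
        exact absurd this (Finset.notMem_empty a)
      omega
    rw [Hk, QT.sum_c]
    refine (Finset.sum_congr rfl fun i _ => ?_).trans (F2a_alt (s := s) (k := k) (by omega))
    rw [QT.smul_c, ek, Finset.mul_sum, QT.sum_c,
      Finset.sum_congr rfl fun I hI => hterm i I (Finset.mem_filter.1 hI).2.2, Finset.sum_boole,
      ← hs, ← Finset.card_powersetCard]
    refine congrArg (fun T : Finset (Finset (Fin n)) => (-1 : K) ^ i.val * (T.card : K)) ?_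
    ext I
    simp only [Finset.mem_filter, Finset.mem_univ, true_and, Finset.mem_powersetCard]
    exact ⟨fun hI => ⟨hI.2, hI.1.2⟩,
      fun hI => ⟨⟨fun a ha b hb => hm a (hI.1 ha) b (hI.1 hb), hI.2⟩, hI.1⟩⟩

end
end Crest.Agent.R59
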