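import Crest.Agent.R59.V2
import Crest.Agent.R59.F1
import Crest.Agent.R59.F2

/-! # Row 59, F3: assembly. -/

set_option autoImplicit false

namespace Crest.Agent.R59
open scoped Classical
open Crest.CombinatoricsR.UnitInterval

variable {n : ℕ}

theorem f3_exists_fib {X Y : Type} [Fintype Y] (s : Finset X) (r : Y → ℕ) (h : s.card = ∑ y, r y) :
    ∃ f : (x : X) → x ∈ s → Y, ∀ y, (s.filter fun x => ∃ hx : x ∈ s, f x hx = y).card = r y := by
  let φ : {x // x ∈ s} ≃ Σ y, Fin (r y) := Fintype.equivOfCardEq (by simp [h])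
  refine ⟨fun x hx => (φ ⟨x, hx⟩).1, fun y => ?_⟩
  have h1 : (({y} : Finset Y).sigma fun y => (Finset.univ : Finset (Fin (r y)))).card = r y := by
    simp
  rw [← h1]
  refine Finset.card_bij (fun x hx => φ ⟨x, (Finset.mem_filter.1 hx).1⟩) (fun x hx => ?_)
    (fun x hx x' hx' e => congrArg Subtype.val (φ.injective e)) fun p hp => ?_
  · obtain ⟨_, e⟩ := (Finset.mem_filter.1 hx).2
    simpa using e
  · refine ⟨(φ.symm p).1, Finset.mem_filter.2 ⟨(φ.symm p).2, (φ.symm p).2, ?_⟩, by simp⟩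
    simpa using hp

theorem f3_coeff_tp (i j : ℤ) : (tp i).coeff j = if i = j then 1 else 0 := by
  rw [tp, HahnSeries.coeff_single]
  simp only [eq_comm]

/-- for each exponent `j`, distribute the `x` with `e x = j` among the `y` according to the
coefficients (`Finset.exists_equiv…`/`Finset.equivOfCardEq` onto `Σ y, Fin (coefficient)`) -/
theorem exists_assign {X Y : Type} (s : Finset X) (t : Finset Y) (e : X → ℤ) (c : Y → K)
    (hc : ∀ y ∈ t, Pos (c y)) (h : ∑ y ∈ t, c y = ∑ x ∈ s, tp (e x)) :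
    ∃ θ : {x // x ∈ s} → {y // y ∈ t},
      ∀ y : {y // y ∈ t}, c y.1 = ∑ x : {x // x ∈ s}, if θ x = y then tp (e x.1) else 0 := by
  choose r hr using fun (y : {y // y ∈ t}) => hc y.1 y.2
  have h1 : ∀ j : ℤ, (Finset.univ.filter fun x : {x // x ∈ s} => e x.1 = j).card = ∑ y, r y j := by
    intro j
    have h2 := congrArg (fun a : K => a.coeff j) h
    rw [← Finset.sum_coe_sort t, ← Finset.sum_coe_sort s] at h2
    simp only [HahnSeries.coeff_sum, hr, f3_coeff_tp] at h2
    rw [Finset.sum_boole] at h2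
    exact_mod_cast h2.symm
  choose f hf using fun j => f3_exists_fib _ _ (h1 j)
  refine ⟨fun x => f (e x.1) x (by simp), fun y => ?_⟩
  ext j
  have h3 : ∀ x : {x // x ∈ s}, (if f (e x.1) x (by simp) = y then tp (e x.1) else 0).coeff j =
      if f (e x.1) x (by simp) = y ∧ e x.1 = j then 1 else 0 := by
    intro x
    by_cases hx : f (e x.1) x (by simp) = y
    · simp only [hx, if_true, true_and, f3_coeff_tp]
    · simp only [hx, if_false, false_and, HahnSeries.coeff_zero]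
  rw [HahnSeries.coeff_sum, Finset.sum_congr rfl fun x _ => h3 x, Finset.sum_boole, hr, ← hf j y]
  congr 2
  ext x
  simp only [Finset.mem_filter, Finset.mem_univ, true_and]
  constructor
  · rintro ⟨rfl, _, hx⟩
    exact ⟨hx, rfl⟩
  · rintro ⟨hx, rfl⟩
    exact ⟨rfl, by simp, hx⟩

theorem f3_mem_Zset {h : Fin n → ℕ} {k : ℕ} {m : Fin n → ℕ} : m ∈ Zset h k ↔ ∑ a, m a = k ∧ ZZ h m := by
  simp [Zset]

/-- `Hk_mem_span`, `fmu_expand` (linear in `f`), `Hk_c_indep`, `ZZ.indep` -/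
theorem Hk_expand {h : Fin n → ℕ} (hh : IsHessenberg h) (k : ℕ) :
    Hk h k = ∑ m ∈ Zset h k, theta (gG h) (emb m) := by
  have h1 : ∀ f ∈ Submodule.span K {f | ∃ μ : List ℕ, μ.sum = k ∧ f = fmu h μ},
      f = ∑ m ∈ Zset h k, f.c (emb m) • theta (gG h) (emb m) := by
    intro f hf
    induction hf using Submodule.span_induction with
    | mem f hf =>
      obtain ⟨μ, rfl, rfl⟩ := hf
      exact fmu_expand hh μ
    | zero => simp
    | add f g _ _ hf hg =>
      simp only [QT.add_c, add_smul, Finset.sum_add_distrib]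
      rw [← hf, ← hg]
    | smul a f _ hf =>
      simp only [QT.smul_c, mul_smul, ← Finset.smul_sum]
      rw [← hf]
  refine (h1 _ (Hk_mem_span k)).trans (Finset.sum_congr rfl fun m hm => ?_)
  obtain ⟨rfl, hm'⟩ := f3_mem_Zset.1 hm
  rw [Hk_c_indep hm'.indep, one_smul]

/-- `c_m = t^nE [x^(1,…,1)] ϑ_m` -/
theorem sum_cm {h : Fin n → ℕ} (hh : IsHessenberg h) :
    ∑ m ∈ Zset h n, tp (nE h) * (theta (gG h) (emb m)).c (emb 1) =
      ∑ σ ∈ descentSet h, tp (2 * ginv h σ) := by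
  have h1 : (emb 1 : MM n) = ind Finset.univ := by
    rw [ind]
    congr 1
    funext a
    simp
  have h2 := Hk_c_ind hh Finset.univ
  rw [Finset.card_univ, Fintype.card_fin] at h2
  rw [← Finset.mul_sum, ← QT.sum_c, ← Hk_expand hh, h1, h2, sum_words_univ]

/-- if `|μ| ≠ n` both sides vanish (`supp_fmu`) -/
theorem fmu_c_one {h : Fin n → ℕ} (hh : IsHessenberg h) (μ : List ℕ) :
    (fmu h μ).c (emb 1) =
      ∑ m ∈ Zset h n, (fmu h μ).c (emb m) * (theta (gG h) (emb m)).c (emb 1) := by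
  by_cases hμ : μ.sum = n
  · have h1 := congrArg (fun f : TG h => f.c (emb 1)) (fmu_expand hh μ)
    simp only [QT.sum_c, QT.smul_c] at h1
    rwa [hμ] at h1
  · have h1 : ∀ m : Fin n → ℕ, ∑ a, m a = n → (fmu h μ).c (emb m) = 0 := by
      intro m hm
      by_contra hc
      obtain ⟨m', h1, h2⟩ := supp_fmu h μ _ hc
      rw [← emb_injective h2] at h1
      exact hμ (h1.symm.trans hm)
    rw [h1 1 (by simp), Finset.sum_eq_zero fun m hm => by rw [h1 m (f3_mem_Zset.1 hm).1, zero_mul]]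

theorem f3_pos_tp_mul (i : ℤ) {a : K} (ha : Pos a) : Pos (tp i * a) := by
  intro j
  obtain ⟨r, hr⟩ := ha (j - i)
  refine ⟨r, ?_⟩
  have := HahnSeries.coeff_single_mul_add (r := (1 : ℚ)) (x := a) (a := j - i) (b := i)
  rwa [sub_add_cancel, one_mul, hr] at this

/-- compare coefficients after `qt` (`MvPolynomial.ext`, `qt_injective`) -/
theorem main (n : ℕ) (h : Fin n → ℕ) (hh : IsHessenberg h) :
    ∃ θ : {σ : Equiv.Perm (Fin n) // σ ∈ descentSet h} → Nat.Partition n,
      ∀ N : ℕ, chromaticQSym h N =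
        ∑ σ : {σ : Equiv.Perm (Fin n) // σ ∈ descentSet h},
          MvPolynomial.C (Polynomial.X ^ ginv h σ.1) *
            MvPolynomial.esymmPart (Fin N) (Polynomial ℤ) (θ σ) := by
  obtain ⟨θ, hθ⟩ := exists_assign (descentSet h) (Zset h n) (fun σ => 2 * ginv h σ)
    (fun m => tp (nE h) * (theta (gG h) (emb m)).c (emb 1))
    (fun m _ => f3_pos_tp_mul _ (qpos_theta m _)) (sum_cm hh)
  refine ⟨fun σ => partOf (θ σ).1 (f3_mem_Zset.1 (θ σ).2).1, fun N => MvPolynomial.ext _ _ fun μ => qt_injective ?_⟩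
  have h1 : ∀ σ : {σ : Equiv.Perm (Fin n) // σ ∈ descentSet h},
      qt (MvPolynomial.coeff μ (MvPolynomial.C (Polynomial.X ^ ginv h σ.1) *
        MvPolynomial.esymmPart (Fin N) (Polynomial ℤ) (partOf (θ σ).1 (f3_mem_Zset.1 (θ σ).2).1))) =
      ∑ y : {y // y ∈ Zset h n}, (fmu h (List.ofFn μ)).c (emb y.1) *
        if θ σ = y then tp (2 * ginv h σ.1) else 0 := by
    intro σ
    rw [MvPolynomial.coeff_C_mul, map_mul, qt_X_pow, esymmPart_partOf,
      coeff_esymm h (f3_mem_Zset.1 (θ σ).2).2.indep]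
    simp only [mul_ite, mul_zero, Finset.sum_ite_eq, Finset.mem_univ, if_true]
    rw [mul_comm]
  rw [coeff_chromatic, fmu_c_one hh, MvPolynomial.coeff_sum, map_sum, Finset.sum_congr rfl fun σ _ => h1 σ,
    Finset.sum_comm, Finset.mul_sum, ← Finset.sum_coe_sort]
  refine Finset.sum_congr rfl fun y _ => ?_
  rw [← Finset.mul_sum, mul_left_comm, hθ y]
  congr!

end Crest.Agent.R59
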