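import Crest.Agent.R59.Defs

/-! # Row 59, Flow: perturbation, genericity and the flow induction (pure linear algebra over
`ℚ`). -/

set_option autoImplicit false

namespace Crest.Agent.R59
open scoped Classical

variable {M : Type} [AddCommGroup M]

theorem Flow_scalar (a b : ℚ) : ∀ᶠ ε in nhdsWithin (0 : ℚ) (Set.Ioi 0),
    SignType.sign (a + ε * b) = if a = 0 then SignType.sign b else SignType.sign a := by
  have hc : Filter.Tendsto (fun ε : ℚ => a + ε * b) (nhdsWithin 0 (Set.Ioi 0)) (nhds a) := by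
    have : Continuous fun ε : ℚ => a + ε * b := by fun_prop
    simpa using (this.tendsto 0).mono_left nhdsWithin_le_nhds
  rcases lt_trichotomy a 0 with h | h | h
  · filter_upwards [hc.eventually (gt_mem_nhds h)] with ε hε
    rw [if_neg h.ne, sign_neg hε, sign_neg h]
  · filter_upwards [self_mem_nhdsWithin] with ε hε
    rw [if_pos h, h, zero_add, sign_mul, sign_pos hε, one_mul]
  · filter_upwards [hc.eventually (lt_mem_nhds h)] with ε hε
    rw [if_neg h.ne', sign_pos hε, sign_pos h]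

/-- small perturbations realise the lexicographic sign on a finite set -/
theorem exists_lex {S : Set M} (hS : S.Finite) (θ φ : M →+ ℚ) :
    ∃ ε : ℚ, 0 < ε ∧ LexOn S (θ + ε • φ) θ φ := by
  have h1 : ∀ᶠ ε in nhdsWithin (0 : ℚ) (Set.Ioi 0), ∀ u ∈ S, SignType.sign (θ u + ε * φ u) =
      if θ u = 0 then SignType.sign (φ u) else SignType.sign (θ u) :=
    (Filter.eventually_all_finite hS).2 fun u _ => Flow_scalar (θ u) (φ u)
  obtain ⟨ε, h2, h3⟩ := (h1.and self_mem_nhdsWithin).exists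
  exact ⟨ε, h3, fun u hu => by simpa using h2 u hu⟩

/-- large multiples -/
theorem exists_lex_big {S : Set M} (hS : S.Finite) (θ φ : M →+ ℚ) :
    ∃ B : ℚ, 0 < B ∧ LexOn S (θ + B • φ) φ θ := by
  obtain ⟨ε, h0, h1⟩ := exists_lex hS φ θ
  refine ⟨ε⁻¹, inv_pos.2 h0, fun u hu => ?_⟩
  rw [← h1 u hu]
  have e : (φ + ε • θ) u = ε * (θ + ε⁻¹ • φ) u := by
    simp only [AddMonoidHom.add_apply, AddMonoidHom.smul_apply, smul_eq_mul]
    field_simp
    ring
  rw [e, sign_mul, sign_pos h0, one_mul]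

/-- induction on `W` using `exists_lex` on `S ∪ W` -/
theorem exists_generic (Φ : Submodule ℚ (M →+ ℚ)) {S W : Set M} (hS : S.Finite) (hW : W.Finite)
    {θ : M →+ ℚ} (hθ : θ ∈ Φ) (hsep : ∀ w ∈ W, ∃ φ ∈ Φ, φ w ≠ 0) :
    ∃ θ' ∈ Φ, (∀ u ∈ S, θ u ≠ 0 → SignType.sign (θ' u) = SignType.sign (θ u)) ∧
      ∀ w ∈ W, θ' w ≠ 0 := by
  induction W, hW using Set.Finite.induction_on with
  | empty => exact ⟨θ, hθ, fun _ _ _ => rfl, by simp⟩
  | @insert w W _ hW ih =>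
    obtain ⟨θ', h1, h2, h3⟩ := ih fun v hv => hsep v (Set.mem_insert_of_mem _ hv)
    obtain ⟨φ, h4, h5⟩ := hsep w (Set.mem_insert _ _)
    obtain ⟨ε, -, h6⟩ := exists_lex (hS.union (hW.insert w)) θ' φ
    refine ⟨θ' + ε • φ, Φ.add_mem h1 (Φ.smul_mem _ h4), fun u hu hu' => ?_, fun v hv => ?_⟩
    · have h7 : θ' u ≠ 0 := by
        rw [← sign_ne_zero, h2 u hu hu', sign_ne_zero]
        exact hu'
      rw [h6 u (Or.inl hu), if_neg h7, h2 u hu hu']
    · rw [← sign_ne_zero, h6 v (Or.inr hv)]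
      split_ifs with h7
      · rcases hv with rfl | hv
        · exact sign_ne_zero.2 h5
        · exact absurd h7 (h3 v hv)
      · exact sign_ne_zero.2 h7

theorem exists_generic_all (hM : Sep M) {S W : Set M} (hS : S.Finite) (hW : W.Finite)
    (θ : M →+ ℚ) :
    ∃ θ' : M →+ ℚ, (∀ u ∈ S, θ u ≠ 0 → SignType.sign (θ' u) = SignType.sign (θ u)) ∧
      ∀ w ∈ W, θ' w = 0 → w = 0 := by
  obtain ⟨θ', -, h1, h2⟩ := exists_generic ⊤ hS (hW.subset (Set.sdiff_subset (t := {0})))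
    (θ := θ) trivial fun w hw => (hM w hw.2).imp fun _ h => ⟨trivial, h⟩
  exact ⟨θ', h1, fun w hw h => by_contra fun h' => h2 w ⟨hw, h'⟩ h⟩

/-- `Φ = {φ | φ d = 0}`; if `φ (ℓ d • w - ℓ w • d) ≠ 0` use `v ↦ ℓ d φ v - ℓ v φ d` -/
theorem exists_generic_perp (hM : Sep M) {S W : Set M} (hS : S.Finite) (hW : W.Finite)
    (ℓ : M →+ ℤ) (d : M) {θ : M →+ ℚ} (hθ : θ d = 0) :
    ∃ θ' : M →+ ℚ, θ' d = 0 ∧
      (∀ u ∈ S, θ u ≠ 0 → SignType.sign (θ' u) = SignType.sign (θ u)) ∧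
      ∀ w ∈ W, θ' w = 0 → ℓ d • w = ℓ w • d := by
  let Φ : Submodule ℚ (M →+ ℚ) :=
    { carrier := {φ | φ d = 0}
      zero_mem' := rfl
      add_mem' := fun {a b} (ha : a d = 0) (hb : b d = 0) => by
        change a d + b d = 0
        rw [ha, hb, add_zero]
      smul_mem' := fun c a (ha : a d = 0) => by
        change c * a d = 0
        rw [ha, mul_zero] }
  obtain ⟨θ', h0, h1, h2⟩ := exists_generic Φ hS
    (hW.subset (Set.sep_subset W fun w => ℓ d • w ≠ ℓ w • d)) (θ := θ) hθ fun w hw => by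
      obtain ⟨φ, hφ⟩ := hM _ (sub_ne_zero.2 hw.2)
      refine ⟨(ℓ d : ℚ) • φ - φ d • (Int.castAddHom ℚ).comp ℓ, ?_, ?_⟩
      · change (ℓ d : ℚ) * φ d - φ d * (ℓ d : ℚ) = 0
        ring
      · change (ℓ d : ℚ) * φ w - φ d * (ℓ w : ℚ) ≠ 0
        rw [map_sub, map_zsmul, map_zsmul, zsmul_eq_mul, zsmul_eq_mul] at hφ
        rwa [mul_comm (φ d)]
  exact ⟨θ', h0, h1, fun w hw h => by_contra fun h' => h2 w ⟨hw, h'⟩ h⟩

theorem Sep.zsmul_eq_zero (hM : Sep M) {k : ℤ} (hk : k ≠ 0) {w : M} (h : k • w = 0) : w = 0 := by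
  by_contra h'
  obtain ⟨φ, hφ⟩ := hM w h'
  have h1 := congrArg φ h
  rw [map_zsmul, map_zero, zsmul_eq_mul] at h1
  exact mul_ne_zero (Int.cast_ne_zero.2 hk) hφ h1

/-- The flow `θ + s ψ`.  Critical values: `s_u = -θ u / ψ u` for `u ∈ S`, `ψ u ≠ 0`.  Induct on
the number of critical values `> s`: if there is none use `hinf`; otherwise let `s₀` be the least
one and `s₁` a number strictly between `s₀` and the next one (or `s₀ + 1`). -/
theorem flow_induction {S : Set M} (hS : S.Finite) (θ ψ : M →+ ℚ) (Q : ℚ → Prop)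
    (hinf : ∀ s : ℚ, LexOn S (θ + s • ψ) ψ θ → Q s)
    (hstep : ∀ s s₀ s₁ : ℚ, (∃ u ∈ S, ψ u ≠ 0 ∧ (θ + s₀ • ψ) u = 0) →
      LexOn S (θ + s₁ • ψ) (θ + s₀ • ψ) ψ → LexOn S (θ + s • ψ) (θ + s₀ • ψ) (-ψ) →
      Q s₁ → Q s)
    (s : ℚ) (hs : ∀ u ∈ S, ψ u ≠ 0 → (θ + s • ψ) u ≠ 0) : Q s := by
  set cr : M → ℚ := fun u => -θ u / ψ u with hcr
  have key : ∀ (t : ℚ) (u : M), ψ u ≠ 0 → (θ + t • ψ) u = ψ u * (t - cr u) := fun t u h => by
    simp only [hcr, AddMonoidHom.add_apply, AddMonoidHom.smul_apply, smul_eq_mul]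
    field_simp
    ring
  have key0 : ∀ (t : ℚ) (u : M), ψ u = 0 → (θ + t • ψ) u = θ u := fun t u h => by
    simp [h]
  set T : Finset ℚ := (hS.toFinset.filter fun u => ψ u ≠ 0).image cr with hT
  have hmem : ∀ c, c ∈ T ↔ ∃ u ∈ S, ψ u ≠ 0 ∧ cr u = c := fun c => by
    simp [hT, and_assoc]
  induction hn : (T.filter fun c => s < c).card using Nat.strong_induction_on generalizing s with
  | _ n ih =>
  have hne : ∀ u ∈ S, ψ u ≠ 0 → cr u ≠ s := fun u hu h e => hs u hu h (by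
    rw [key s u h, e, sub_self, mul_zero])
  rcases (T.filter fun c => s < c).eq_empty_or_nonempty with h0 | h0
  · refine hinf s fun u hu => ?_
    split_ifs with h
    · rw [key0 s u h]
    · have h1 : ¬ s < cr u := fun h1 => by
        have : cr u ∈ T.filter fun c => s < c :=
          Finset.mem_filter.2 ⟨(hmem _).2 ⟨u, hu, h, rfl⟩, h1⟩
        rw [h0] at this
        exact absurd this (Finset.notMem_empty _)
      have h2 : 0 < s - cr u := sub_pos.2 (lt_of_le_of_ne (not_lt.1 h1) (hne u hu h))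
      rw [key s u h, sign_mul, sign_pos h2, mul_one]
  · set s₀ := (T.filter fun c => s < c).min' h0 with hs₀
    obtain ⟨m1, m2⟩ := Finset.mem_filter.1 ((T.filter fun c => s < c).min'_mem h0)
    rw [← hs₀] at m1 m2
    obtain ⟨ε, hε, hl⟩ := exists_lex hS (θ + s₀ • ψ) ψ
    rw [add_assoc, ← add_smul] at hl
    obtain ⟨u₀, hu₀, hψ₀, hc₀⟩ := (hmem _).1 m1
    refine hstep s s₀ (s₀ + ε) ⟨u₀, hu₀, hψ₀, by rw [key _ _ hψ₀, hc₀, sub_self, mul_zero]⟩ hl
      (fun u hu => ?_) (ih _ ?_ _ (fun u hu h => ?_) rfl)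
    · by_cases h : ψ u = 0
      · rw [key0 _ u h, key0 _ u h]
        split_ifs with h1
        · simp [h, h1]
        · rfl
      · rw [key _ u h, key _ u h]
        split_ifs with h1
        · have h2 : cr u = s₀ := (sub_eq_zero.1 ((mul_eq_zero.1 h1).resolve_left h)).symm
          rw [h2, sign_mul, sign_neg (sub_neg.2 m2), AddMonoidHom.neg_apply, Left.sign_neg]
          simp
        · have h2 : cr u ≠ s₀ := fun e => h1 (by rw [e, sub_self, mul_zero])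
          rw [sign_mul, sign_mul]
          rcases lt_or_gt_of_ne (hne u hu h) with h3 | h3
          · rw [sign_pos (sub_pos.2 h3), sign_pos (sub_pos.2 (h3.trans m2))]
          · have h4 : s₀ ≤ cr u := Finset.min'_le _ _
              (Finset.mem_filter.2 ⟨(hmem _).2 ⟨u, hu, h, rfl⟩, h3⟩)
            rw [sign_neg (sub_neg.2 h3), sign_neg (sub_neg.2 (lt_of_le_of_ne h4 h2.symm))]
    · rw [← hn]
      refine Finset.card_lt_card ⟨fun c hc => ?_, fun hc => ?_⟩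
      · rw [Finset.mem_filter] at hc ⊢
        exact ⟨hc.1, by linarith [hc.2]⟩
      · have := (Finset.mem_filter.1 (hc (Finset.mem_filter.2 ⟨m1, m2⟩))).2
        linarith
    · rw [← sign_ne_zero, hl u hu]
      split_ifs with h1
      · exact sign_ne_zero.2 h
      · exact sign_ne_zero.2 h1

/-- the plane through `d` and `u₀` -/
def plane (ω : Form M) (ℓ : M →+ ℤ) (d u₀ : M) : AddSubmonoid M where
  carrier := {u | ℓ d • (ω.w u₀ d • u - ω.w u d • u₀) = ℓ (ω.w u₀ d • u - ω.w u d • u₀) • d}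
  zero_mem' := by simp
  add_mem' := by
    intro a b ha hb
    simp only [Set.mem_ofPred_eq] at *
    have e : ω.w u₀ d • (a + b) - ω.w (a + b) d • u₀ =
        (ω.w u₀ d • a - ω.w a d • u₀) + (ω.w u₀ d • b - ω.w b d • u₀) := by
      simp only [map_add, AddMonoidHom.add_apply, smul_add, add_smul]; abel
    rw [e, smul_add, ha, hb, map_add, add_smul]

theorem Flow_plane {ω : Form M} {ℓ : M →+ ℤ} {d u₀ u : M} (hu : u ∈ plane ω ℓ d u₀) :
    (ℓ d * ω.w u₀ d) • u =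
      (ℓ d * ω.w u d) • u₀ + (ω.w u₀ d * ℓ u - ω.w u d * ℓ u₀) • d := by
  have h : ℓ d • (ω.w u₀ d • u - ω.w u d • u₀) = ℓ (ω.w u₀ d • u - ω.w u d • u₀) • d := hu
  rw [map_sub, map_zsmul, map_zsmul, smul_eq_mul, smul_eq_mul, smul_sub, smul_smul,
    smul_smul] at h
  rw [← h]
  abel

/-- Plücker relation in the plane: with `A = ℓ d`, `p = ω u₀ d` one has
`A p u = A ω(u,d) u₀ + κ_u d`, `κ_u = p ℓ u - ω(u,d) ℓ u₀`; pair two such relations. -/
theorem plane_pluecker {ω : Form M} {ℓ : M →+ ℤ} {d u₀ : M} (hd : ℓ d ≠ 0) (h0 : ω.w u₀ d ≠ 0)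
    {u v : M} (hu : u ∈ plane ω ℓ d u₀) (hv : v ∈ plane ω ℓ d u₀) :
    ℓ d * ω.w u v = ω.w u d * ℓ v - ω.w v d * ℓ u := by
  have e1 := Flow_plane hu
  have e2 := Flow_plane hv
  have hsk : ω.w d u₀ = -ω.w u₀ d := by
    have h1 := ω.alt (u₀ + d)
    simp only [map_add, AddMonoidHom.add_apply, ω.alt] at h1
    linarith
  have h1 : ω.w ((ℓ d * ω.w u₀ d) • u) ((ℓ d * ω.w u₀ d) • v) =
      ω.w ((ℓ d * ω.w u d) • u₀ + (ω.w u₀ d * ℓ u - ω.w u d * ℓ u₀) • d)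
        ((ℓ d * ω.w v d) • u₀ + (ω.w u₀ d * ℓ v - ω.w v d * ℓ u₀) • d) := by
    rw [e1, e2]
  simp only [map_add, map_zsmul, AddMonoidHom.add_apply, AddMonoidHom.zsmul_apply, ω.alt, hsk,
    smul_eq_mul] at h1
  refine mul_left_cancel₀ (mul_ne_zero hd (mul_ne_zero h0 h0)) ?_
  linear_combination h1

theorem plane_parallel (hM : Sep M) {ω : Form M} {ℓ : M →+ ℤ} {d u₀ : M} (hd : ℓ d ≠ 0)
    (h0 : ω.w u₀ d ≠ 0) {u v : M} (hu : u ∈ plane ω ℓ d u₀) (hv : v ∈ plane ω ℓ d u₀)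
    (h : ω.w u d * ℓ v = ω.w v d * ℓ u) : ℓ v • u = ℓ u • v := by
  have e1 := Flow_plane hu
  have e2 := Flow_plane hv
  refine sub_eq_zero.1 (hM.zsmul_eq_zero (mul_ne_zero hd h0) ?_)
  rw [smul_sub, smul_comm _ (ℓ v), smul_comm _ (ℓ u), e1, e2]
  simp only [smul_add, smul_smul]
  have a1 : ℓ v * (ℓ d * ω.w u d) = ℓ u * (ℓ d * ω.w v d) := by linear_combination ℓ d * h
  have a2 : ℓ v * (ω.w u₀ d * ℓ u - ω.w u d * ℓ u₀) =
      ℓ u * (ω.w u₀ d * ℓ v - ω.w v d * ℓ u₀) := by linear_combination -ℓ u₀ * h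
  rw [a1, a2, sub_self]

end Crest.Agent.R59
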