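import Crest.Agent.R59.G1a

/-! # Row 59, G1: `ser u` is a ring homomorphism `K⟦X⟧ → QT`; the generators `gen s u`,
their functional equation and logarithmic coefficients. -/

set_option autoImplicit false

namespace Crest.Agent.R59
open scoped Classical

variable {M : Type} [AddCommGroup M] {ω : Form M} {A : Cone M}

theorem G1_junk {s : ℤ} {u : M} (h : ¬ (u ∈ A.C ∧ u ≠ 0)) : gen ω A s u = 1 := by
  rw [gen, ser, dif_neg h]
theorem gen_c_zero (s : ℤ) (u : M) : (gen ω A s u).c 0 = 1 := by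
  by_cases h : u ∈ A.C ∧ u ≠ 0
  · have := ser_c_nsmul (ω := ω) h.1 h.2 (Gser s) 0
    rwa [zero_nsmul, PowerSeries.coeff_zero_eq_constantCoeff_apply, Gser_constantCoeff] at this
  · rw [G1_junk h, one_c_zero]
theorem supp_gen (s : ℤ) {u : M} {N : AddSubmonoid M} (hu : u ∈ N) : Supp (gen ω A s u) N := by
  exact supp_ser hu _
theorem gen_c_cast {A' : Cone M} (s : ℤ) {u : M} (hu : u ∈ A.C) (hu' : u ∈ A'.C) :
    (gen ω A s u).c = (gen ω A' s u).c := by
  by_cases h0 : u = 0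
  · rw [G1_junk fun h => h.2 h0, G1_junk fun h => h.2 h0]
    rfl
  · rw [gen, gen, ser_c hu h0, ser_c hu' h0]
theorem sig_gen {u : M} (hu : u ∈ A.C) (h0 : u ≠ 0) (ℓ : M →+ ℤ) (s : ℤ) :
    sig ℓ (gen ω A s u) = gen ω A (s + 2 * ℓ u) u := by
  rw [gen, sig_ser hu h0, Gser_rescale, gen]
theorem gen_eqv_one {S : Set M} (hS : Lower A S) (s : ℤ) {u : M} (hu : u ∉ S) :
    Eqv S (gen ω A s u) 1 := by
  by_cases h : u ∈ A.C ∧ u ≠ 0
  · intro d hd
    by_cases h0 : d = 0
    · rw [h0, gen_c_zero, one_c_zero]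
    · rw [QT.one_c, if_neg h0]
      by_contra hc
      obtain ⟨k, rfl⟩ := ser_c_ne_zero hc
      rcases k with _ | k
      · exact h0 (zero_nsmul u)
      · rw [succ_nsmul'] at hd
        exact hu (hS u h.1 _ (A.C.nsmul_mem h.1 k) hd)
  · rw [G1_junk h]
    exact Eqv.refl _ _
theorem gprod_c_zero (L : List (ℤ × M)) : (gprod ω A L).c 0 = 1 := by
  refine list_prod_c_zero fun f hf => ?_
  obtain ⟨p, -, rfl⟩ := List.mem_map.1 hf
  exact gen_c_zero _ _
theorem gprod_nil : gprod ω A [] = 1 := rfl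
theorem gprod_cons (p : ℤ × M) (L : List (ℤ × M)) :
    gprod ω A (p :: L) = gen ω A p.1 p.2 * gprod ω A L := rfl
theorem gprod_append (L L' : List (ℤ × M)) :
    gprod ω A (L ++ L') = gprod ω A L * gprod ω A L' := by
  rw [gprod, List.map_append, List.prod_append, gprod, gprod]
theorem supp_gprod {L : List (ℤ × M)} {N : AddSubmonoid M} (h : ∀ p ∈ L, p.2 ∈ N) :
    Supp (gprod ω A L) N := by
  refine Supp.list_prod fun f hf => ?_
  obtain ⟨p, hp, rfl⟩ := List.mem_map.1 hf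
  exact supp_gen _ (h p hp)
/-- generators outside a lower set can be dropped -/
theorem gprod_filter {S : Set M} (hS : Lower A S) (L : List (ℤ × M)) :
    Eqv S (gprod ω A L) (gprod ω A (L.filter fun p => p.2 ∈ S)) := by
  induction L with
  | nil => exact Eqv.refl _ _
  | cons p L ih =>
    by_cases hp : p.2 ∈ S
    · rw [List.filter_cons_of_pos (by simpa using hp), gprod_cons, gprod_cons]
      exact Eqv.mul hS (Eqv.refl _ _) ih
    · rw [List.filter_cons_of_neg (by simpa using hp), gprod_cons]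
      simpa only [one_mul] using Eqv.mul hS (gen_eqv_one hS p.1 hp) ih

theorem gdat_ne_zero {s : ℤ} {u d : M} (h : gdat s u d ≠ 0) : ∃ j : ℕ, j ≠ 0 ∧ d = j • u := by
  by_contra hc
  refine h (finsum_eq_zero_of_forall_eq_zero fun j => if_neg fun hj => hc ⟨j, hj.1, hj.2.symm⟩)
theorem gdat_zero (s : ℤ) {d : M} (hd : d ≠ 0) : gdat s (0 : M) d = 0 := by
  by_contra h
  obtain ⟨j, -, hj⟩ := gdat_ne_zero h
  exact hd (hj.trans (nsmul_zero j))
theorem gdat_map (φ : M ≃+ M) (s : ℤ) (u d : M) : gdat s (φ u) (φ d) = gdat s u d := by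
  refine finsum_congr fun j => ?_
  rw [← map_nsmul, φ.injective.eq_iff]
theorem G1_der {u : M} (hu : u ∈ A.C) (h0 : u ≠ 0) (ℓ : M →+ ℤ) (p : PowerSeries K) :
    der ℓ (ser ω A u p) =
      ((ℓ u : ℤ) : K) • ser ω A u (PowerSeries.X * PowerSeries.derivative K p) := by
  ext1 d
  rw [der_c, QT.smul_c]
  by_cases h : ∃ j : ℕ, d = j • u
  · obtain ⟨j, rfl⟩ := h
    rw [ser_c_nsmul hu h0, ser_c_nsmul hu h0, map_nsmul, nsmul_eq_mul]
    rcases j with _ | j
    · simp
    · rw [PowerSeries.coeff_succ_X_mul, PowerSeries.coeff_derivative]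
      push_cast
      ring
  · rw [not_not.1 (mt ser_c_ne_zero h), not_not.1 (mt ser_c_ne_zero h), mul_zero, mul_zero]
theorem lam_gen {u : M} (hu : u ∈ A.C) (h0 : u ≠ 0) (s : ℤ) {d : M} (hd : d ≠ 0) :
    lam (gen ω A s u) d = gdat s u d := by
  have : CharZero K := algebraRat.charZero K
  have hdeg : ((A.deg u : ℤ) : K) ≠ 0 := Int.cast_ne_zero.2 (A.pos u hu h0).ne'
  rw [lam, gen, inv_ser hu h0 (Gser_constantCoeff s), G1_der hu h0, mul_smul_comm,
    ← ser_mul hu h0, QT.smul_c]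
  by_cases h : ∃ j : ℕ, d = j • u
  · obtain ⟨j, rfl⟩ := h
    have hj : j ≠ 0 := by
      rintro rfl
      exact hd (zero_nsmul u)
    rw [ser_c_nsmul hu h0, gdat, finsum_eq_single _ j, if_pos ⟨hj, rfl⟩, lc, map_nsmul,
      nsmul_eq_mul, Int.cast_mul, Int.cast_natCast, mul_comm (j : K), mul_div_mul_left _ _ hdeg]
    intro k hk
    exact if_neg fun h => hk (nsmul_inj hu h0 h.2)
  · have e1 : gdat s u d = 0 := by
      by_contra hc
      obtain ⟨j, -, hj⟩ := gdat_ne_zero hc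
      exact h ⟨j, hj⟩
    rw [e1, not_not.1 (mt ser_c_ne_zero h), mul_zero, zero_div]
theorem lam_gprod {L : List (ℤ × M)} {d : M} (hd : d ≠ 0)
    (hL : Valid A (zeroM (th ω d)) L) : lam (gprod ω A L) d = ldat L d := by
  induction L with
  | nil => exact lam_one d
  | cons p L ih =>
    have hp := hL p List.mem_cons_self
    have hL' : Valid A (zeroM (th ω d)) L := fun q hq => hL q (List.mem_cons_of_mem _ hq)
    rw [gprod_cons, lam_mul (gen_c_zero _ _) (gprod_c_zero _)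
      (supp_gprod fun q hq => (hL' q hq).2.2), ih hL', lam_gen hp.1 hp.2.1 _ hd]
    rfl
/-- according to the sign of `ω u d` use `fac_of_neg` / `fac_of_nn` -/
theorem isCl_gen {u : M} (hu : u ∈ A.C) (h0 : u ≠ 0) (s : ℤ) :
    IsCl (gdat s u) (gen ω A s u) := by
  refine ⟨gen_c_zero s u, fun d hd => ?_⟩
  have key : th ω d u ≠ 0 → gdat s u d = 0 := by
    intro h
    by_contra hc
    obtain ⟨j, -, rfl⟩ := gdat_ne_zero hc
    simp [ω.alt] at h
  rw [attr]
  rcases lt_trichotomy (th ω d u) 0 with h | h | h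
  · rw [(fac_of_neg _ (gen_c_zero s u) (supp_gen s (mem_negM.2 (Or.inr h)))).2, lam_one, key h.ne]
  · rw [(fac_of_nn _ (gen_c_zero s u) (supp_gen s (mem_nnM.2 h.ge))).2,
      proj_eq_self (supp_gen s (mem_zeroM.2 h)), lam_gen hu h0 s hd]
  · rw [(fac_of_nn _ (gen_c_zero s u) (supp_gen s (mem_nnM.2 h.le))).2,
      proj_eq_one _ (gen_c_zero s u) (supp_gen s (mem_posM.2 (Or.inr h))), lam_one, key h.ne']
theorem ldat_ne_zero {L : List (ℤ × M)} {d : M} (h : ldat L d ≠ 0) :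
    ∃ p ∈ L, ∃ j : ℕ, j ≠ 0 ∧ d = j • p.2 := by
  by_contra hc
  refine h (List.sum_eq_zero fun x hx => ?_)
  obtain ⟨p, hp, rfl⟩ := List.mem_map.1 hx
  by_contra h'
  exact hc ⟨p, hp, gdat_ne_zero h'⟩

end Crest.Agent.R59
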