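import Crest.Agent.R59.T3

/-! # Row 59, G1: `ser u` is a ring homomorphism `K⟦X⟧ → QT`; the generators `gen s u`,
their functional equation and logarithmic coefficients. -/

set_option autoImplicit false

namespace Crest.Agent.R59
open scoped Classical

variable {M : Type} [AddCommGroup M] {ω : Form M} {A : Cone M}

theorem nsmul_inj {u : M} (hu : u ∈ A.C) (h0 : u ≠ 0) {j k : ℕ} (h : j • u = k • u) : j = k := by
  have h1 := congrArg A.deg h
  rw [map_nsmul, map_nsmul, nsmul_eq_mul, nsmul_eq_mul] at h1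
  have h2 := A.pos u hu h0
  exact_mod_cast mul_right_cancel₀ h2.ne' h1
theorem ser_c {u : M} (hu : u ∈ A.C) (h0 : u ≠ 0) (p : PowerSeries K) :
    (ser ω A u p).c = serf u p := by
  rw [ser, dif_pos ⟨hu, h0⟩, QT.mk_c]
theorem ser_c_nsmul {u : M} (hu : u ∈ A.C) (h0 : u ≠ 0) (p : PowerSeries K) (k : ℕ) :
    (ser ω A u p).c (k • u) = PowerSeries.coeff k p := by
  rw [ser_c hu h0, serf, finsum_eq_single _ k]
  · rw [if_pos rfl]
  · intro j hj
    exact if_neg fun h => hj (nsmul_inj hu h0 h)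
theorem ser_c_ne_zero {u d : M} {p : PowerSeries K} (h : (ser ω A u p).c d ≠ 0) :
    ∃ k : ℕ, d = k • u := by
  by_cases hu : u ∈ A.C ∧ u ≠ 0
  · rw [ser_c hu.1 hu.2] at h
    by_contra hc
    apply h
    apply finsum_eq_zero_of_forall_eq_zero
    intro k
    exact if_neg fun e => hc ⟨k, e.symm⟩
  · rw [ser, dif_neg hu, QT.one_c] at h
    refine ⟨0, ?_⟩
    rw [zero_nsmul]
    by_contra hc
    exact h (if_neg hc)
theorem supp_ser {u : M} {N : AddSubmonoid M} (hu : u ∈ N) (p : PowerSeries K) :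
    Supp (ser ω A u p) N := by
  intro d hd
  obtain ⟨k, rfl⟩ := ser_c_ne_zero hd
  exact N.nsmul_mem hu k

theorem g1a_c_eq_zero {u d : M} (p : PowerSeries K) (h : ∀ k : ℕ, d ≠ k • u) :
    (ser ω A u p).c d = 0 := by
  by_contra hc
  obtain ⟨k, hk⟩ := ser_c_ne_zero hc
  exact h k hk

theorem g1a_ext {u : M} (hu : u ∈ A.C) (h0 : u ≠ 0) {p : PowerSeries K} {f : QT ω A}
    (h1 : ∀ k : ℕ, f.c (k • u) = PowerSeries.coeff k p)
    (h2 : ∀ d, (∀ k : ℕ, d ≠ k • u) → f.c d = 0) : ser ω A u p = f := by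
  ext1 d
  by_cases h : ∃ k : ℕ, d = k • u
  · obtain ⟨k, rfl⟩ := h
    rw [ser_c_nsmul hu h0, h1]
  · have h' : ∀ k : ℕ, d ≠ k • u := fun k e => h ⟨k, e⟩
    rw [g1a_c_eq_zero p h', h2 d h']

theorem g1a_mul_ser_c {u : M} (hu : u ∈ A.C) (h0 : u ≠ 0) (f : QT ω A) (p : PowerSeries K)
    (v : M) : (f * ser ω A u p).c v =
      ∑ᶠ j : ℕ, tp (j * ω.w v u) * PowerSeries.coeff j p * f.c (v - j • u) := by
  have hinj : Function.Injective (fun j : ℕ => v - j • u) := fun j k h =>
    nsmul_inj hu h0 (sub_right_injective h)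
  rw [QT.mul_c, ← finsum_mem_univ,
    finsum_mem_inter_support_eq _ Set.univ (Set.range fun j : ℕ => v - j • u), finsum_mem_range hinj]
  · refine finsum_congr fun j => ?_
    have e : ω.w (v - j • u) (j • u) = j * ω.w v u := by
      simp [ω.alt]
    rw [sub_sub_cancel, ser_c_nsmul hu h0, e]
    ring
  · ext w
    simp only [Set.mem_inter_iff, Set.mem_univ, true_and, Set.mem_range, iff_and_self]
    intro hw
    have h2 : (ser ω A u p).c (v - w) ≠ 0 := by
      intro e
      simp [e] at hw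
    obtain ⟨k, hk⟩ := ser_c_ne_zero h2
    exact ⟨k, by rw [← hk, sub_sub_cancel]⟩

theorem ser_mul {u : M} (hu : u ∈ A.C) (h0 : u ≠ 0) (p q : PowerSeries K) :
    ser ω A u (p * q) = ser ω A u p * ser ω A u q := by
  refine g1a_ext hu h0 (fun k => ?_) (fun d hd => ?_)
  · rw [g1a_mul_ser_c hu h0, finsum_eq_sum_of_support_subset _ (s := Finset.range (k + 1)),
      mul_comm p q, PowerSeries.coeff_mul, Finset.Nat.sum_antidiagonal_eq_sum_range_succ_mk]
    · refine Finset.sum_congr rfl fun j hj => ?_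
      have hj' : j ≤ k := Nat.lt_succ_iff.1 (Finset.mem_range.1 hj)
      have e : k • u - j • u = (k - j) • u := by
        rw [sub_eq_iff_eq_add, ← add_nsmul, Nat.sub_add_cancel hj']
      rw [e, ser_c_nsmul hu h0]
      simp [ω.alt]
    · intro j hj
      have h2 : (ser ω A u p).c (k • u - j • u) ≠ 0 := by
        intro e
        simp [e] at hj
      obtain ⟨i, hi⟩ := ser_c_ne_zero h2
      rw [sub_eq_iff_eq_add, ← add_nsmul] at hi
      have := nsmul_inj hu h0 hi
      simp only [Finset.coe_range, Set.mem_Iio]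
      omega
  · rw [g1a_mul_ser_c hu h0]
    refine finsum_eq_zero_of_forall_eq_zero fun j => ?_
    rw [g1a_c_eq_zero p, mul_zero]
    intro i hi
    rw [sub_eq_iff_eq_add, ← add_nsmul] at hi
    exact hd _ hi
theorem ser_one (u : M) : ser ω A u 1 = 1 := by
  by_cases hu : u ∈ A.C ∧ u ≠ 0
  · refine g1a_ext hu.1 hu.2 (fun k => ?_) (fun d hd => ?_)
    · rw [QT.one_c, PowerSeries.coeff_one]
      refine if_congr ⟨fun h => nsmul_inj hu.1 hu.2 (by rw [h, zero_nsmul]), ?_⟩ rfl rfl
      rintro rfl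
      exact zero_nsmul u
    · rw [QT.one_c, if_neg]
      simpa using hd 0
  · rw [ser, dif_neg hu]
theorem ser_add {u : M} (hu : u ∈ A.C) (h0 : u ≠ 0) (p q : PowerSeries K) :
    ser ω A u (p + q) = ser ω A u p + ser ω A u q := by
  refine g1a_ext hu h0 (fun k => ?_) (fun d hd => ?_)
  · rw [QT.add_c, ser_c_nsmul hu h0, ser_c_nsmul hu h0, map_add]
  · rw [QT.add_c, g1a_c_eq_zero p hd, g1a_c_eq_zero q hd, add_zero]
theorem ser_C_mul_X {u : M} (hu : u ∈ A.C) (h0 : u ≠ 0) (a : K) :
    ser ω A u (PowerSeries.C a * PowerSeries.X) = a • mono ω A u := by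
  refine g1a_ext hu h0 (fun k => ?_) (fun d hd => ?_)
  · rw [QT.smul_c, mono_c hu, PowerSeries.coeff_C_mul, PowerSeries.coeff_X]
    congr 1
    refine if_congr ⟨fun h => nsmul_inj hu h0 (by rw [h, one_nsmul]), ?_⟩ rfl rfl
    rintro rfl
    exact one_nsmul u
  · rw [QT.smul_c, mono_c hu, if_neg, mul_zero]
    simpa using hd 1
theorem inv_ser {u : M} (hu : u ∈ A.C) (h0 : u ≠ 0) {p : PowerSeries K}
    (hp : PowerSeries.constantCoeff p = 1) : inv (ser ω A u p) = ser ω A u p⁻¹ := by
  refine inv_eq_of_mul ?_ ?_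
  · have := ser_c_nsmul (ω := ω) hu h0 p 0
    rwa [zero_nsmul, PowerSeries.coeff_zero_eq_constantCoeff_apply, hp] at this
  · rw [← ser_mul hu h0, PowerSeries.mul_inv_cancel _ (by rw [hp]; exact one_ne_zero), ser_one]
theorem sig_ser {u : M} (hu : u ∈ A.C) (h0 : u ≠ 0) (ℓ : M →+ ℤ) (p : PowerSeries K) :
    sig ℓ (ser ω A u p) = ser ω A u (PowerSeries.rescale (tp (2 * ℓ u)) p) := by
  have tp_pow : ∀ (a : ℤ) (n : ℕ), tp a ^ n = tp (a * n) := by
    intro a n
    induction n with
    | zero => simp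
    | succ n ih => rw [pow_succ, ih, ← tp_add]; congr 1; push_cast; ring
  refine (g1a_ext hu h0 (fun k => ?_) (fun d hd => ?_)).symm
  · rw [sig_c, ser_c_nsmul hu h0, PowerSeries.coeff_rescale, tp_pow, map_nsmul, nsmul_eq_mul]
    congr 2
    ring
  · rw [sig_c, g1a_c_eq_zero p hd, mul_zero]
/-- coefficient of `f · p(x^u)` -/
theorem mul_ser_c {u : M} (hu : u ∈ A.C) (h0 : u ≠ 0) (f : QT ω A) (p : PowerSeries K) (v : M) :
    (f * ser ω A u p).c v =
      ∑ᶠ j : ℕ, tp (j * ω.w v u) * PowerSeries.coeff j p * f.c (v - j • u) :=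
  g1a_mul_ser_c hu h0 f p v

theorem g1a_tp_pow (a : ℤ) (n : ℕ) : tp a ^ n = tp (a * n) := by
  induction n with
  | zero => simp
  | succ n ih => rw [pow_succ, ih, ← tp_add]; congr 1; push_cast; ring

theorem g1a_ne (k : ℕ) : (1 : K) - tp (2 * ((k : ℤ) + 1)) ≠ 0 :=
  one_sub_tp_ne_zero (by omega)

/-- the recursion of the coefficients -/
theorem g1a_succ (s : ℤ) (k : ℕ) :
    PowerSeries.coeff (k + 1) (Gser s) * (1 - tp (2 * ((k : ℤ) + 1))) =
      tp (s + (if Even s then 0 else 2 * (k : ℤ))) * PowerSeries.coeff k (Gser s) := by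
  rw [Gser, PowerSeries.coeff_mk, PowerSeries.coeff_mk, Finset.prod_range_succ, ← div_div,
    div_mul_cancel₀ _ (g1a_ne k), ← mul_div_assoc, ← tp_add]
  congr 2
  split_ifs
  · push_cast; ring
  · push_cast; ring

theorem Gser_constantCoeff (s : ℤ) : PowerSeries.constantCoeff (Gser s) = 1 := by
  rw [← PowerSeries.coeff_zero_eq_constantCoeff_apply, Gser, PowerSeries.coeff_mk]
  simp
theorem Gser_coeff_one (s : ℤ) : PowerSeries.coeff 1 (Gser s) = tp s / (1 - tp 2) := by
  rw [Gser, PowerSeries.coeff_mk]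
  simp
theorem Gser_rescale (s k : ℤ) : PowerSeries.rescale (tp (2 * k)) (Gser s) = Gser (s + 2 * k) := by
  ext1 n
  have e : Even (s + 2 * k) ↔ Even s := by
    rw [Int.even_add]
    simp
  rw [PowerSeries.coeff_rescale, Gser, Gser, PowerSeries.coeff_mk, PowerSeries.coeff_mk,
    g1a_tp_pow, ← mul_div_assoc, ← tp_add]
  congr 2
  simp only [e]
  ring

theorem g1a_coeff_zero (a : K) (p : PowerSeries K) :
    PowerSeries.coeff 0 (PowerSeries.C a * PowerSeries.X * p) = 0 := by
  simp

theorem g1a_coeff_succ (a : K) (p : PowerSeries K) (n : ℕ) :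
    PowerSeries.coeff (n + 1) (PowerSeries.C a * PowerSeries.X * p) =
      a * PowerSeries.coeff n p := by
  rw [mul_assoc, PowerSeries.coeff_C_mul, PowerSeries.coeff_succ_X_mul]

/-- the functional equation in terms of coefficients -/
theorem g1a_fe (s : ℤ) (p : PowerSeries K) :
    (if Even s then (1 - PowerSeries.C (tp s) * PowerSeries.X) * p =
        PowerSeries.rescale (tp 2) p
      else p = (1 + PowerSeries.C (tp s) * PowerSeries.X) * PowerSeries.rescale (tp 2) p) ↔
    ∀ k : ℕ, PowerSeries.coeff (k + 1) p * (1 - tp (2 * ((k : ℤ) + 1))) =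
      tp (s + (if Even s then 0 else 2 * (k : ℤ))) * PowerSeries.coeff k p := by
  have e1 : ∀ k : ℕ, tp 2 ^ (k + 1) = tp (2 * ((k : ℤ) + 1)) := fun k => by
    rw [g1a_tp_pow]; push_cast; rfl
  split_ifs with hs
  · rw [PowerSeries.ext_iff]
    constructor
    · intro h k
      have := h (k + 1)
      rw [sub_mul, one_mul, map_sub, g1a_coeff_succ, PowerSeries.coeff_rescale, e1] at this
      rw [add_zero]
      linear_combination this
    · intro h n
      rw [sub_mul, one_mul, map_sub, PowerSeries.coeff_rescale]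
      cases n with
      | zero => rw [g1a_coeff_zero]; simp
      | succ k =>
        have := h k
        rw [add_zero] at this
        rw [g1a_coeff_succ, e1]
        linear_combination this
  · rw [PowerSeries.ext_iff]
    constructor
    · intro h k
      have := h (k + 1)
      rw [add_mul, one_mul, map_add, g1a_coeff_succ, PowerSeries.coeff_rescale,
        PowerSeries.coeff_rescale, e1, g1a_tp_pow] at this
      rw [tp_add]
      linear_combination this
    · intro h n
      rw [add_mul, one_mul, map_add, PowerSeries.coeff_rescale]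
      cases n with
      | zero => rw [g1a_coeff_zero]; simp
      | succ k =>
        have := h k
        rw [tp_add] at this
        rw [g1a_coeff_succ, e1, PowerSeries.coeff_rescale, g1a_tp_pow]
        linear_combination this

theorem g1a_rescale_two (s : ℤ) : PowerSeries.rescale (tp 2) (Gser s) = Gser (s + 2) := by
  simpa using Gser_rescale s 1

theorem Gser_odd {s : ℤ} (hs : Odd s) :
    Gser s = (1 + PowerSeries.C (tp s) * PowerSeries.X) * Gser (s + 2) := by
  have h := (g1a_fe s (Gser s)).2 (g1a_succ s)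
  rwa [if_neg (Int.not_even_iff_odd.2 hs), g1a_rescale_two] at h
theorem Gser_even {s : ℤ} (hs : Even s) :
    (1 - PowerSeries.C (tp s) * PowerSeries.X) * Gser s = Gser (s + 2) := by
  have h := (g1a_fe s (Gser s)).2 (g1a_succ s)
  rwa [if_pos hs, g1a_rescale_two] at h
/-- the functional equation determines the series -/
theorem eq_Gser {s : ℤ} {p : PowerSeries K} (h0 : PowerSeries.constantCoeff p = 1)
    (h : if Even s then (1 - PowerSeries.C (tp s) * PowerSeries.X) * p =
        PowerSeries.rescale (tp 2) p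
      else p = (1 + PowerSeries.C (tp s) * PowerSeries.X) * PowerSeries.rescale (tp 2) p) :
    p = Gser s := by
  have h1 := (g1a_fe s p).1 h
  ext1 n
  induction n with
  | zero =>
    rw [PowerSeries.coeff_zero_eq_constantCoeff_apply,
      PowerSeries.coeff_zero_eq_constantCoeff_apply, h0, Gser_constantCoeff]
  | succ k ih =>
    refine mul_right_cancel₀ (g1a_ne k) ?_
    rw [h1, g1a_succ, ih]

end Crest.Agent.R59
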