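import Crest.Agent.R59.G2a

/-! # Row 59, G2: the adjoint action of a generator.
For `f` supported in the slice `ω(u, ·) = p` one has `G_s(x^u) f = f G_(s+2p)(x^u)`
(`mul_eq_sig_mul` / `sig_gen`), and the slices are preserved (`proj_mul_left/right` with
`η = ω.w u`).  Hence `[x^v] Ad(G_s) f = [x^v] f_p · (G_(s+2p)/G_s)(x^u)` with `p = ω u v`,
and `G_s / G_(s+2n)` is `∏_{i<n} (1 + t^(s+2i) X)` (odd `s`) or `∏ (1 - t^(s+2i) X)⁻¹` (even `s`). -/

set_option autoImplicit false

namespace Crest.Agent.R59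
open scoped Classical

variable {M : Type} [AddCommGroup M] {ω : Form M} {A : Cone M}

theorem G2_prod_tp {ι : Type*} (t : Finset ι) (a : ι → ℤ) :
    ∏ i ∈ t, tp (a i) = tp (∑ i ∈ t, a i) := by
  induction t using Finset.induction_on with
  | empty => simp
  | insert i t hi ih => rw [Finset.prod_insert hi, Finset.sum_insert hi, ih, tp_add]

theorem G2_coeff {ι : Type*} (s : Finset ι) (a : ι → ℤ) (j : ℕ) :
    PowerSeries.coeff j (∏ i ∈ s, (1 + PowerSeries.C (tp (a i)) * PowerSeries.X : PowerSeries K)) =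
      ∑ t ∈ s.powerset, if j = t.card then tp (∑ i ∈ t, a i) else 0 := by
  rw [Finset.prod_one_add, map_sum]
  refine Finset.sum_congr rfl fun t _ => ?_
  rw [Finset.prod_mul_distrib, ← map_prod, Finset.prod_const, PowerSeries.coeff_C_mul,
    PowerSeries.coeff_X_pow, G2_prod_tp, mul_ite, mul_one, mul_zero]

theorem beta_eq_zero {n j : ℕ} (h : n < j) : beta n j = 0 := by
  rw [beta, G2_coeff]
  refine Finset.sum_eq_zero fun t ht => if_neg ?_
  have := Finset.card_le_card (Finset.mem_powerset.1 ht)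
  rw [Finset.card_range] at this
  omega
theorem beta_zero (n : ℕ) : beta n 0 = 1 := by
  simp [beta, map_prod]
theorem beta_one_one : beta 1 1 = 1 := by
  simp [beta, PowerSeries.coeff_one]
/-- palindromicity.  E.g. prove the Pascal rules
`beta (n+1) (j+1) = t^(-(j+1)) beta n (j+1) + t^(n-j) beta n j
                  = t^(j+1) beta n (j+1) + t^(j-n) beta n j` (peel off the last / first factor,
after `rescale`), and induct; or use `Finset.prod_one_add`/`esymm` with the complement and the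
reflection `i ↦ n-1-i`. -/
theorem beta_symm {n j : ℕ} (h : j ≤ n) : beta n (n - j) = beta n j := by
  have h1 : ∀ m : ℕ, ∑ i ∈ Finset.range m, (2 * (i : ℤ) + 1 - n) = m * m - m * n := fun m => by
    induction m with
    | zero => simp
    | succ m ih => rw [Finset.sum_range_succ, ih]; push_cast; ring
  have h2 : (∏ i ∈ Finset.range n, (1 + PowerSeries.C (tp (2 * (i : ℤ) + 1 - n)) * PowerSeries.X) :
      PowerSeries K) = ∏ i ∈ Finset.range n,
        (PowerSeries.C (tp (2 * (i : ℤ) + 1 - n)) + PowerSeries.X) := by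
    have h3 : ∏ i ∈ Finset.range n, PowerSeries.C (tp (2 * (i : ℤ) + 1 - n)) = 1 := by
      rw [← map_prod, G2_prod_tp, h1, sub_self, tp_zero, map_one]
    rw [← Finset.prod_range_reflect (fun i : ℕ => PowerSeries.C (tp (2 * (i : ℤ) + 1 - n)) +
      PowerSeries.X), ← one_mul (∏ i ∈ Finset.range n, (PowerSeries.C _ + _))]
    nth_rewrite 2 [← h3]
    rw [← Finset.prod_mul_distrib]
    refine Finset.prod_congr rfl fun i hi => ?_
    have := Finset.mem_range.1 hi
    rw [mul_add, ← map_mul, ← tp_add, show 2 * (i : ℤ) + 1 - n + (2 * ((n - 1 - i : ℕ) : ℤ) + 1 - n) = 0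
      by omega, tp_zero, map_one]
  rw [beta, beta, G2_coeff, h2, Finset.prod_add, map_sum]
  refine Finset.sum_congr rfl fun t ht => ?_
  have h3 := Finset.card_le_card (Finset.mem_powerset.1 ht)
  rw [← map_prod, Finset.prod_const, PowerSeries.coeff_C_mul, PowerSeries.coeff_X_pow, G2_prod_tp,
    Finset.card_sdiff_of_subset (Finset.mem_powerset.1 ht), mul_ite, mul_one, mul_zero]
  rw [Finset.card_range] at h3 ⊢
  exact if_congr (by omega) rfl rfl

theorem G2_sum {n : ℕ} {s c : ℤ} (h : s + c = 1 - n) (F : ℕ → K) :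
    ∑ᶠ j : ℕ, tp (j * c) * PowerSeries.coeff j (∏ i ∈ Finset.range n,
      (1 + PowerSeries.C (tp (s + 2 * i)) * PowerSeries.X : PowerSeries K)) * F j =
      ∑ j ∈ Finset.range (n + 1), beta n j * F j := by
  have h1 : ∀ j : ℕ, tp (j * c) * PowerSeries.coeff j (∏ i ∈ Finset.range n,
      (1 + PowerSeries.C (tp (s + 2 * i)) * PowerSeries.X : PowerSeries K)) = beta n j := fun j => by
    rw [beta, G2_coeff, G2_coeff, Finset.mul_sum]
    refine Finset.sum_congr rfl fun t _ => ?_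
    split_ifs with hj
    · rw [← tp_add, hj, ← nsmul_eq_mul, ← Finset.sum_const, ← Finset.sum_add_distrib]
      exact congrArg tp (Finset.sum_congr rfl fun i _ => by omega)
    · exact mul_zero _
  simp only [h1]
  refine finsum_eq_sum_of_support_subset _ fun j hj => ?_
  by_contra hc
  rw [Finset.mem_coe, Finset.mem_range] at hc
  exact hj (mul_eq_zero_of_left (beta_eq_zero (by omega)) _)

theorem Ad_psi_c {y : M} (hy : y ∈ A.C) (h0 : y ≠ 0) (f : QT ω A) {v : M} {n : ℕ}
    (hv : ω.w y v = -(n : ℤ)) :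
    (Ad (gen ω A 1 y) f).c v = ∑ j ∈ Finset.range (n + 1), beta n j * f.c (v - j • y) := by
  have h := Gser_ratio_odd (s := 1 + 2 * -(n : ℤ)) ⟨-(n : ℤ), add_comm _ _⟩ n
  rw [show 1 + 2 * -(n : ℤ) + 2 * n = 1 by ring] at h
  rw [Ad_gen_c hy h0, ω.skew v y, hv, h, G2_sum (by ring)]

theorem Adi_psi_c {y : M} (hy : y ∈ A.C) (h0 : y ≠ 0) (f : QT ω A) {v : M} {n : ℕ}
    (hv : ω.w y v = (n : ℤ)) :
    (Adi (gen ω A 1 y) f).c v = ∑ j ∈ Finset.range (n + 1), beta n j * f.c (v - j • y) := by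
  rw [Adi_gen_c hy h0, ω.skew v y, hv, Gser_ratio_odd odd_one, G2_sum (by ring)]

theorem Ad_gen_c_ne_zero {u : M} (s : ℤ) {f : QT ω A} {v : M}
    (h : (Ad (gen ω A s u) f).c v ≠ 0) : ∃ j : ℕ, f.c (v - j • u) ≠ 0 := by
  by_cases hu : u ∈ A.C ∧ u ≠ 0
  · by_contra hc
    rw [Ad_gen_c hu.1 hu.2] at h
    exact h (finsum_eq_zero_of_forall_eq_zero fun j => by
      rw [not_not.1 (not_exists.1 hc j), mul_zero])
  · rw [gen, ser, dif_neg hu, Ad_one] at h
    exact ⟨0, by rwa [zero_smul, sub_zero]⟩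
theorem Adi_gen_c_ne_zero {u : M} (s : ℤ) {f : QT ω A} {v : M}
    (h : (Adi (gen ω A s u) f).c v ≠ 0) : ∃ j : ℕ, f.c (v - j • u) ≠ 0 := by
  by_cases hu : u ∈ A.C ∧ u ≠ 0
  · by_contra hc
    rw [Adi_gen_c hu.1 hu.2] at h
    exact h (finsum_eq_zero_of_forall_eq_zero fun j => by
      rw [not_not.1 (not_exists.1 hc j), mul_zero])
  · rw [gen, ser, dif_neg hu, Adi_one] at h
    exact ⟨0, by rwa [zero_smul, sub_zero]⟩

end Crest.Agent.R59
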