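import Crest.Agent.R59.G1

/-! # Row 59, G2: the adjoint action of a generator.
For `f` supported in the slice `ω(u, ·) = p` one has `G_s(x^u) f = f G_(s+2p)(x^u)`
(`mul_eq_sig_mul` / `sig_gen`), and the slices are preserved (`proj_mul_left/right` with
`η = ω.w u`).  Hence `[x^v] Ad(G_s) f = [x^v] f_p · (G_(s+2p)/G_s)(x^u)` with `p = ω u v`,
and `G_s / G_(s+2n)` is `∏_{i<n} (1 + t^(s+2i) X)` (odd `s`) or `∏ (1 - t^(s+2i) X)⁻¹` (even `s`). -/

set_option autoImplicit false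

namespace Crest.Agent.R59
open scoped Classical

variable {M : Type} [AddCommGroup M] {ω : Form M} {A : Cone M}

theorem G2a_supp_ser (u : M) (p : PowerSeries K) :
    Supp (ser ω A u p) {w | ω.w u w = 0} := by
  intro w hw
  obtain ⟨k, rfl⟩ := ser_c_ne_zero hw
  simp [map_nsmul, ω.alt]

theorem G2a_comm {u : M} (hu : u ∈ A.C) (h0 : u ≠ 0) (s : ℤ) (v : M) {f : QT ω A}
    (hf : Supp f {w | ω.w u w = ω.w u v}) :
    gen ω A s u * f = f * gen ω A (s + 2 * ω.w u v) u := by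
  rw [mul_eq_sig_mul (ω.w v) (f := f) (g := gen ω A (s + 2 * ω.w u v) u), sig_gen hu h0]
  · congr 2
    rw [ω.skew v u]; ring
  · intro w x hw hx
    obtain ⟨k, rfl⟩ := ser_c_ne_zero hx
    have h1 : ω.w u w = ω.w u v := hf w hw
    simp only [map_nsmul]
    rw [ω.skew w u, ω.skew v u, h1]

theorem G2a_slice {u : M} (p q : PowerSeries K) (f : QT ω A) (v : M) :
    (ser ω A u p * f * ser ω A u q).c v =
      (ser ω A u p * proj {w | ω.w u w = ω.w u v} f * ser ω A u q).c v := by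
  rw [← proj_mul_left (ω.w u) _ (G2a_supp_ser u p), ← proj_mul_right (ω.w u) _ (G2a_supp_ser u q),
    proj_c, if_pos (by simp)]

theorem G2a_proj_c {u : M} (f : QT ω A) (v : M) (j : ℕ) :
    (proj {w | ω.w u w = ω.w u v} f).c (v - j • u) = f.c (v - j • u) := by
  rw [proj_c, if_pos (by simp [map_nsmul, ω.alt])]

theorem Ad_gen_c {u : M} (hu : u ∈ A.C) (h0 : u ≠ 0) (s : ℤ) (f : QT ω A) (v : M) :
    (Ad (gen ω A s u) f).c v = ∑ᶠ j : ℕ, tp (j * ω.w v u) *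
      PowerSeries.coeff j (Gser (s + 2 * ω.w u v) * (Gser s)⁻¹) * f.c (v - j • u) := by
  have hi : inv (gen ω A s u) = ser ω A u (Gser s)⁻¹ := inv_ser hu h0 (Gser_constantCoeff s)
  have h1 := G2a_comm hu h0 s v (supp_proj {w | ω.w u w = ω.w u v} f)
  unfold Ad
  rw [hi]
  unfold gen at h1 ⊢
  rw [G2a_slice, h1, mul_assoc, ← ser_mul hu h0, mul_ser_c hu h0]
  exact finsum_congr fun j => by rw [G2a_proj_c]

theorem Adi_gen_c {u : M} (hu : u ∈ A.C) (h0 : u ≠ 0) (s : ℤ) (f : QT ω A) (v : M) :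
    (Adi (gen ω A s u) f).c v = ∑ᶠ j : ℕ, tp (j * ω.w v u) *
      PowerSeries.coeff j (Gser s * (Gser (s + 2 * ω.w u v))⁻¹) * f.c (v - j • u) := by
  have hi : ∀ s, inv (gen ω A s u) = ser ω A u (Gser s)⁻¹ := fun s =>
    inv_ser hu h0 (Gser_constantCoeff s)
  have h1 := G2a_comm hu h0 s v (supp_proj {w | ω.w u w = ω.w u v} f)
  have h2 : inv (gen ω A s u) * proj {w | ω.w u w = ω.w u v} f =
      proj {w | ω.w u w = ω.w u v} f * inv (gen ω A (s + 2 * ω.w u v) u) := by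
    calc inv (gen ω A s u) * proj {w | ω.w u w = ω.w u v} f
        = inv (gen ω A s u) * (proj {w | ω.w u w = ω.w u v} f * gen ω A (s + 2 * ω.w u v) u) *
            inv (gen ω A (s + 2 * ω.w u v) u) := by
          rw [mul_assoc, mul_assoc, mul_inv_self (gen_c_zero _ _), mul_one]
      _ = _ := by rw [← h1, ← mul_assoc, inv_mul_self (gen_c_zero _ _), one_mul]
  unfold Adi
  rw [hi, hi] at h2
  rw [hi]
  unfold gen
  rw [G2a_slice, h2, mul_assoc, ← ser_mul hu h0, mul_ser_c hu h0, mul_comm (Gser s)]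
  exact finsum_congr fun j => by rw [G2a_proj_c]

theorem G2a_mul_inv (s : ℤ) : Gser s * (Gser s)⁻¹ = 1 :=
  PowerSeries.mul_inv_cancel _ (by rw [Gser_constantCoeff]; exact one_ne_zero)

theorem G2a_step (s : ℤ) (n : ℕ) :
    Gser s * (Gser (s + 2 * ((n + 1 : ℕ) : ℤ)))⁻¹ =
      Gser s * (Gser (s + 2 * n))⁻¹ * (Gser (s + 2 * n) * (Gser (s + 2 * n + 2))⁻¹) := by
  have e : s + 2 * ((n + 1 : ℕ) : ℤ) = s + 2 * n + 2 := by push_cast; ring
  rw [e]
  linear_combination (-(Gser s * (Gser (s + 2 * n + 2))⁻¹)) * G2a_mul_inv (s + 2 * n)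

theorem G2a_one_odd {s : ℤ} (hs : Odd s) :
    Gser s * (Gser (s + 2))⁻¹ = 1 + PowerSeries.C (tp s) * PowerSeries.X := by
  conv_lhs => rw [Gser_odd hs, mul_assoc, G2a_mul_inv, mul_one]

theorem G2a_one_even {s : ℤ} (hs : Even s) :
    Gser s * (Gser (s + 2))⁻¹ = PowerSeries.mk fun k => tp s ^ k := by
  have h1 : (PowerSeries.mk fun k => tp s ^ k) * (1 - PowerSeries.C (tp s) * PowerSeries.X) =
      (1 : PowerSeries K) := by
    ext1 k
    rw [mul_comm, sub_mul, one_mul, map_sub]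
    cases k with
    | zero => rw [g1a_coeff_zero]; simp
    | succ k => rw [g1a_coeff_succ]; simp [pow_succ', PowerSeries.coeff_one]
  have h2 := Gser_even hs
  have h3 := G2a_mul_inv (s + 2)
  linear_combination (-(Gser s * (Gser (s + 2))⁻¹)) * h1 +
    ((PowerSeries.mk fun k => tp s ^ k) * (Gser (s + 2))⁻¹) * h2 +
    (PowerSeries.mk fun k => tp s ^ k) * h3

theorem G2a_pos_one (s : ℤ) (j : ℕ) :
    Pos (PowerSeries.coeff j (Gser s * (Gser (s + 2))⁻¹)) := by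
  rcases Int.even_or_odd s with hs | hs
  · rw [G2a_one_even hs, PowerSeries.coeff_mk, g1a_tp_pow]
    exact Pos.tp _
  · rw [G2a_one_odd hs, map_add, PowerSeries.coeff_C_mul, PowerSeries.coeff_one,
      PowerSeries.coeff_X]
    refine Pos.add ?_ (Pos.mul (Pos.tp _) ?_) <;> split_ifs
    exacts [Pos.one, Pos.zero, Pos.one, Pos.zero]

theorem Gser_ratio_odd {s : ℤ} (hs : Odd s) (n : ℕ) :
    Gser s * (Gser (s + 2 * n))⁻¹ =
      ∏ i ∈ Finset.range n, (1 + PowerSeries.C (tp (s + 2 * i)) * PowerSeries.X) := by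
  induction n with
  | zero => simpa using G2a_mul_inv s
  | succ n ih =>
    have ho : Odd (s + 2 * (n : ℤ)) := hs.add_even (even_two_mul _)
    rw [G2a_step, ih, G2a_one_odd ho, Finset.prod_range_succ]

theorem pos_Gser_ratio (s : ℤ) (n j : ℕ) :
    Pos (PowerSeries.coeff j (Gser s * (Gser (s + 2 * n))⁻¹)) := by
  induction n generalizing j with
  | zero =>
    have : Gser s * (Gser (s + 2 * ((0 : ℕ) : ℤ)))⁻¹ = 1 := by simpa using G2a_mul_inv s
    rw [this, PowerSeries.coeff_one]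
    split_ifs
    exacts [Pos.one, Pos.zero]
  | succ n ih =>
    rw [G2a_step, PowerSeries.coeff_mul]
    exact Pos.sum fun x _ => Pos.mul (ih _) (G2a_pos_one _ _)

theorem pos_Ad_gen {u : M} (hu : u ∈ A.C) (h0 : u ≠ 0) (s : ℤ) {f : QT ω A} {v : M}
    (hv : ω.w u v ≤ 0) (hf : ∀ j : ℕ, Pos (f.c (v - j • u))) :
    Pos ((Ad (gen ω A s u) f).c v) := by
  rw [Ad_gen_c hu h0]
  refine Pos.finsum fun j => Pos.mul (Pos.mul (Pos.tp _) ?_) (hf j)
  obtain ⟨n, hn⟩ := Int.eq_ofNat_of_zero_le (show 0 ≤ -ω.w u v by omega)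
  have := pos_Gser_ratio (s + 2 * ω.w u v) n j
  rwa [show s + 2 * ω.w u v + 2 * (n : ℤ) = s by omega] at this

theorem pos_Adi_gen {u : M} (hu : u ∈ A.C) (h0 : u ≠ 0) (s : ℤ) {f : QT ω A} {v : M}
    (hv : 0 ≤ ω.w u v) (hf : ∀ j : ℕ, Pos (f.c (v - j • u))) :
    Pos ((Adi (gen ω A s u) f).c v) := by
  rw [Adi_gen_c hu h0]
  refine Pos.finsum fun j => Pos.mul (Pos.mul (Pos.tp _) ?_) (hf j)
  obtain ⟨n, hn⟩ := Int.eq_ofNat_of_zero_le hv
  rw [hn]
  exact pos_Gser_ratio s n j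

theorem G2a_deg {u m v : M} (hu : u ∈ A.C) (h0 : u ≠ 0) (hv : A.deg v < A.deg m ∨ v = m)
    (j : ℕ) : A.deg (v - j • u) < A.deg m ∨ v - j • u = m := by
  have hp := A.pos u hu h0
  rcases Nat.eq_zero_or_pos j with rfl | hj
  · simpa using hv
  · left
    have h1 : A.deg v ≤ A.deg m := by rcases hv with h | rfl; exacts [h.le, le_rfl]
    have h2 : 0 < (j : ℤ) * A.deg u := mul_pos (by exact_mod_cast hj) hp
    rw [map_sub, map_nsmul, nsmul_eq_mul]
    omega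

theorem G2a_Ad (Ω : Set M) (L : List (ℤ × M)) (hL : Valid A Set.univ L)
    (hs : ∀ p ∈ L, ∀ v ∈ Ω, ∀ j : ℕ, v - j • p.2 ∈ Ω) (hw : ∀ p ∈ L, ∀ v ∈ Ω, ω.w p.2 v ≤ 0)
    {f : QT ω A} (hf : ∀ v ∈ Ω, Pos (f.c v)) :
    ∀ v ∈ Ω, Pos ((Ad (gprod ω A L) f).c v) := by
  induction L with
  | nil => simpa [gprod_nil, Ad_one] using hf
  | cons p L ih =>
    intro v hv
    have hp := hL p List.mem_cons_self
    rw [gprod_cons, Ad_mul_left (gen_c_zero _ _) (gprod_c_zero _)]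
    refine pos_Ad_gen hp.1 hp.2.1 _ (hw p List.mem_cons_self v hv) fun j => ?_
    exact ih (fun q hq => hL q (List.mem_cons_of_mem _ hq))
      (fun q hq => hs q (List.mem_cons_of_mem _ hq))
      (fun q hq => hw q (List.mem_cons_of_mem _ hq)) _ (hs p List.mem_cons_self v hv j)

theorem G2a_Adi (Ω : Set M) (L : List (ℤ × M)) (hL : Valid A Set.univ L)
    (hs : ∀ p ∈ L, ∀ v ∈ Ω, ∀ j : ℕ, v - j • p.2 ∈ Ω) (hw : ∀ p ∈ L, ∀ v ∈ Ω, 0 ≤ ω.w p.2 v)
    {f : QT ω A} (hf : ∀ v ∈ Ω, Pos (f.c v)) :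
    ∀ v ∈ Ω, Pos ((Adi (gprod ω A L) f).c v) := by
  induction L generalizing f with
  | nil => simpa [gprod_nil, Adi_one] using hf
  | cons p L ih =>
    have hp := hL p List.mem_cons_self
    rw [gprod_cons, Adi_mul_left (gen_c_zero _ _) (gprod_c_zero _)]
    refine ih (fun q hq => hL q (List.mem_cons_of_mem _ hq))
      (fun q hq => hs q (List.mem_cons_of_mem _ hq))
      (fun q hq => hw q (List.mem_cons_of_mem _ hq)) fun v hv => ?_
    exact pos_Adi_gen hp.1 hp.2.1 _ (hw p List.mem_cons_self v hv) fun j =>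
      hf _ (hs p List.mem_cons_self v hv j)

/-- induction on `L` with the set `Ω = {v | (deg v < deg m ∨ v = m) ∧ ∀ p ∈ L, ω p.2 v ≤ 0}`,
which is stable under `v ↦ v - j • p.2` -/
theorem pos_Ad_gprod {L : List (ℤ × M)} (hL : Valid A Set.univ L)
    (hc : ∀ p ∈ L, ∀ q ∈ L, ω.w p.2 q.2 = 0) {m : M} (hm : ∀ p ∈ L, ω.w p.2 m ≤ 0) {f : QT ω A}
    (hf : ∀ v, (A.deg v < A.deg m ∨ v = m) → Pos (f.c v)) :
    Pos ((Ad (gprod ω A L) f).c m) := by
  refine G2a_Ad {v | (A.deg v < A.deg m ∨ v = m) ∧ ∀ p ∈ L, ω.w p.2 v ≤ 0} L hL ?_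
    (fun p hp v hv => hv.2 p hp) (fun v hv => hf v hv.1) m ⟨Or.inr rfl, hm⟩
  intro p hp v hv j
  refine ⟨G2a_deg (hL p hp).1 (hL p hp).2.1 hv.1 j, fun q hq => ?_⟩
  simpa [map_nsmul, hc q hq p hp] using hv.2 q hq

theorem pos_Adi_gprod {L : List (ℤ × M)} (hL : Valid A Set.univ L)
    (hc : ∀ p ∈ L, ∀ q ∈ L, ω.w p.2 q.2 = 0) {m : M} (hm : ∀ p ∈ L, 0 ≤ ω.w p.2 m) {f : QT ω A}
    (hf : ∀ v, (A.deg v < A.deg m ∨ v = m) → Pos (f.c v)) :
    Pos ((Adi (gprod ω A L) f).c m) := by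
  refine G2a_Adi {v | (A.deg v < A.deg m ∨ v = m) ∧ ∀ p ∈ L, 0 ≤ ω.w p.2 v} L hL ?_
    (fun p hp v hv => hv.2 p hp) (fun v hv => hf v hv.1) m ⟨Or.inr rfl, hm⟩
  intro p hp v hv j
  refine ⟨G2a_deg (hL p hp).1 (hL p hp).2.1 hv.1 j, fun q hq => ?_⟩
  simpa [map_nsmul, hc q hq p hp] using hv.2 q hq

end Crest.Agent.R59
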