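import Crest.Agent.R59.GDefs
import Crest.Agent.R59.G1

/-! # Row 59: the ambient cone, the elements `e_k`, elementary facts on unit interval graphs and on
the concrete lattice. -/

set_option autoImplicit false

namespace Crest.Agent.R59
noncomputable section
open scoped Classical
open Crest.CombinatoricsR.UnitInterval

variable {n : ℕ}

theorem GCone_tail_zero {x : Fin n → ℤ} (hx : ∀ a : Fin n, ∑ b ∈ Finset.Ici a, x b = 0) :
    x = 0 := by
  funext a
  induction a using WellFoundedGT.induction with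
  | ind a ih =>
    have h1 := hx a
    rw [← Finset.Ioi_insert, Finset.sum_insert (by simp),
      Finset.sum_eq_zero (fun b hb => ih b (Finset.mem_Ioi.1 hb))] at h1
    simpa using h1

theorem GCone_mem {x : MM n} : x ∈ coneC n ↔
    (∀ a : Fin n, 0 ≤ ∑ b ∈ Finset.Ici a, x.1 b) ∧ 0 ≤ x.2.1 ∧ 0 ≤ x.2.2 := Iff.rfl

theorem GCone_deg (x : MM n) :
    degG n x = ∑ a : Fin n, ∑ b ∈ Finset.Ici a, x.1 b + x.2.1 + x.2.2 := rfl

/-- a vector is determined by its tail sums (downward induction on `a`) -/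
theorem coneC_pos : ∀ u ∈ coneC n, u ≠ 0 → 0 < degG n u := by
  intro u hu h0
  obtain ⟨h1, h2, h3⟩ := GCone_mem.1 hu
  by_contra hc
  rw [GCone_deg] at hc
  have hs : 0 ≤ ∑ a : Fin n, ∑ b ∈ Finset.Ici a, u.1 b := Finset.sum_nonneg fun a _ => h1 a
  have hs0 : ∑ a : Fin n, ∑ b ∈ Finset.Ici a, u.1 b = 0 := by omega
  rw [Finset.sum_eq_zero_iff_of_nonneg fun a _ => h1 a] at hs0
  apply h0
  refine Prod.ext (GCone_tail_zero fun a => hs0 a (Finset.mem_univ a)) (Prod.ext ?_ ?_)
  · show u.2.1 = 0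
    omega
  · show u.2.2 = 0
    omega

/-- all tail sums lie in `[0, k]`, so every coordinate lies in `[-k, k]` -/
theorem coneC_fin (k : ℤ) : {u | u ∈ coneC n ∧ degG n u ≤ k}.Finite := by
  let T : MM n → MM n := fun x => (fun a => ∑ b ∈ Finset.Ici a, x.1 b, x.2)
  have hT : Function.Injective T := by
    intro x y hxy
    have h1 : ∀ a, ∑ b ∈ Finset.Ici a, x.1 b = ∑ b ∈ Finset.Ici a, y.1 b :=
      fun a => congrFun (congrArg Prod.fst hxy) a
    have h2 : x.2 = y.2 := (Prod.ext_iff.1 hxy).2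
    refine Prod.ext ?_ h2
    rw [← sub_eq_zero]
    apply GCone_tail_zero
    intro a
    simp [Finset.sum_sub_distrib, h1 a]
  refine ((Set.finite_Icc (0 : MM n) (fun _ => k, k, k)).preimage hT.injOn).subset ?_
  rintro u ⟨hu, hk⟩
  obtain ⟨h1, h2, h3⟩ := GCone_mem.1 hu
  rw [GCone_deg] at hk
  have hs : 0 ≤ ∑ a : Fin n, ∑ b ∈ Finset.Ici a, u.1 b := Finset.sum_nonneg fun a _ => h1 a
  refine ⟨⟨fun a => h1 a, h2, h3⟩, fun a => ?_, ?_, ?_⟩
  · have := Finset.single_le_sum (f := fun a => ∑ b ∈ Finset.Ici a, u.1 b) (fun a _ => h1 a)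
      (Finset.mem_univ a)
    show ∑ b ∈ Finset.Ici a, u.1 b ≤ k
    omega
  · show u.2.1 ≤ k
    omega
  · show u.2.2 ≤ k
    omega

/-- the ambient cone -/
def cG (n : ℕ) : Cone (MM n) := ⟨coneC n, degG n, coneC_pos, coneC_fin⟩

/-- the torus of the graph -/
abbrev TG (h : Fin n → ℕ) : Type := QT (omG h) (cG n)

/-- `e_k = Σ_{I independent, |I| = k} x^I` -/
def ek (h : Fin n → ℕ) (k : ℕ) : TG h :=
  ∑ I ∈ Finset.univ.filter (fun I : Finset (Fin n) => Indep h I ∧ I.card = k),
    mono (omG h) (cG n) (ind I)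

/-- ordered product `e_(μ_1) ⋯ e_(μ_l)` -/
def fmu (h : Fin n → ℕ) (μ : List ℕ) : TG h := (μ.map (ek h)).prod

/-- `m ∈ Z`: `ω(e_j, m) ≤ 0` for all `j` -/
def ZZ (h : Fin n → ℕ) (m : Fin n → ℕ) : Prop := ∀ j, (omG h).w (ev j) (emb m) ≤ 0

/-- the finite set `Z_k = {m ∈ Z | |m| = k}` -/
def Zset (h : Fin n → ℕ) (k : ℕ) : Finset (Fin n → ℕ) :=
  (Finset.piAntidiag Finset.univ k).filter (ZZ h)

theorem sep_MM : Sep (MM n) := by
  intro w hw
  by_contra hc
  push Not at hc
  apply hw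
  refine Prod.ext (funext fun a => ?_) (Prod.ext ?_ ?_)
  · have := hc (qf ((Pi.evalAddMonoidHom (fun _ : Fin n => ℤ) a).comp
      (AddMonoidHom.fst (Fin n → ℤ) (ℤ × ℤ))))
    simpa using this
  · have := hc (qf (dco n))
    simpa [dco] using this
  · have := hc (qf (zco n))
    simpa [zco] using this
theorem emb_mem (m : Fin n → ℕ) : emb m ∈ (cG n).C := by
  exact GCone_mem.2 ⟨fun a => Finset.sum_nonneg fun b _ => Int.natCast_nonneg _, le_rfl, le_rfl⟩
theorem emb_add (m m' : Fin n → ℕ) : emb (m + m') = emb m + emb m' := by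
  refine Prod.ext (funext fun a => ?_) ?_
  · simp [emb]
  · simp [emb]
theorem emb_zero : emb (0 : Fin n → ℕ) = 0 := by
  refine Prod.ext (funext fun a => ?_) ?_
  · simp [emb]
  · rfl
theorem emb_injective : Function.Injective (emb : (Fin n → ℕ) → MM n) := by
  intro m m' hm
  funext a
  have : (m a : ℤ) = m' a := congrFun (congrArg Prod.fst hm) a
  exact_mod_cast this
theorem emb_eq_sum (m : Fin n → ℕ) : emb m = ∑ a, m a • ev a := by
  refine Prod.ext (funext fun a => ?_) ?_
  · simp [emb, ev, Prod.fst_sum, Finset.sum_apply, Pi.single_apply]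
  · simp [emb, ev, Prod.snd_sum]
theorem ev_eq_emb (a : Fin n) : ev a = emb (Pi.single a 1) := by
  refine Prod.ext (funext fun b => ?_) rfl
  simp only [ev, emb, Pi.single_apply]
  split_ifs <;> simp
theorem ind_eq_sum (I : Finset (Fin n)) : ind I = ∑ a ∈ I, ev a := by
  rw [ind, emb_eq_sum]
  simp
theorem ind_injective : Function.Injective (ind : Finset (Fin n) → MM n) := by
  intro I J hIJ
  have h1 := emb_injective hIJ
  ext a
  have := congrFun h1 a
  by_cases ha : a ∈ I <;> by_cases hb : a ∈ J <;> simp_all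
theorem ev_mem (a : Fin n) : ev a ∈ (cG n).C := by
  rw [ev_eq_emb]; exact emb_mem _
theorem dl_mem : dl n ∈ (cG n).C := by
  exact GCone_mem.2 ⟨fun a => by simp [dl], by simp [dl], by simp [dl]⟩
theorem zz_mem : zz n ∈ (cG n).C := by
  exact GCone_mem.2 ⟨fun a => by simp [zz], by simp [zz], by simp [zz]⟩
theorem ev_sub_mem {a b : Fin n} (hab : a ≤ b) : ev b - ev a ∈ (cG n).C := by
  refine GCone_mem.2 ⟨fun c => ?_, by simp [ev], by simp [ev]⟩
  simp only [ev, Prod.fst_sub, Pi.sub_apply, Finset.sum_sub_distrib, Pi.single_apply,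
    Finset.sum_ite_eq', Finset.mem_Ici]
  by_cases h1 : c ≤ a
  · simp [h1, h1.trans hab]
  · by_cases h2 : c ≤ b <;> simp [h1, h2]
theorem omG_ev_ev (h : Fin n → ℕ) (a b : Fin n) : (omG h).w (ev a) (ev b) = adj h a b := by
  simp [omG_apply, ev, Pi.single_apply]
theorem omG_zz (h : Fin n → ℕ) (x : MM n) : (omG h).w x (zz n) = - eta n x := by
  simp [omG_apply, zz, eta]
theorem omG_dl (h : Fin n → ℕ) (x : MM n) : (omG h).w x (dl n) = - zco n x := by
  simp [omG_apply, dl, eta, zco]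
theorem eta_ev (a : Fin n) : eta n (ev a) = 1 := by
  simp [eta, ev, Pi.single_apply]
theorem eta_dl : eta n (dl n) = -1 := by
  simp [eta, dl]
theorem eta_zz : eta n (zz n) = 0 := by
  simp [eta, zz]
theorem eta_emb (m : Fin n → ℕ) : eta n (emb m) = ∑ a, (m a : ℤ) := by
  simp [eta, emb]
theorem posf_ev (a : Fin n) : posf n (ev a) = a.val := by
  simp [posf, ev, Pi.single_apply]
theorem dco_nonneg : ∀ u ∈ (cG n).C, 0 ≤ dco n u := by
  intro u hu
  exact (GCone_mem.1 hu).2.1

theorem isEdge_symm (h : Fin n → ℕ) {a b : Fin n} : IsEdge h a b ↔ IsEdge h b a := by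
  unfold IsEdge; tauto
theorem not_isEdge_self (h : Fin n → ℕ) (a : Fin n) : ¬ IsEdge h a a := by
  simp [IsEdge]
theorem adj_le_one (h : Fin n → ℕ) (a b : Fin n) : adj h a b ≤ 1 := by
  unfold adj; split_ifs <;> simp
theorem adj_self (h : Fin n → ℕ) (a : Fin n) : adj h a a = 0 := by
  simp [adj, not_isEdge_self]
/-- unit interval property: an edge `a < c` forces the edges `a b`, `b c` for `a < b < c` -/
theorem edge_between {h : Fin n → ℕ} (hh : IsHessenberg h) {a b c : Fin n} (hab : a < b)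
    (hbc : b < c) (he : IsEdge h a c) : IsEdge h a b ∧ IsEdge h b c := by
  have hac : a < c := hab.trans hbc
  have h1 : c.val + 1 ≤ h a := by
    rcases he with ⟨-, h1⟩ | ⟨h1, -⟩
    · exact h1
    · exact absurd h1 (not_lt.2 hac.le)
  have h2 : h a ≤ h b := hh.1 hab.le
  have h3 : b.val < c.val := hbc
  exact ⟨Or.inl ⟨hab, by omega⟩, Or.inl ⟨hbc, by omega⟩⟩
/-- a start has no earlier neighbour at all -/
theorem Start.adj_nonpos {h : Fin n → ℕ} (hh : IsHessenberg h) {c : Fin n} (hc : Start h c)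
    (a : Fin n) : adj h a c ≤ 0 := by
  unfold adj
  split_ifs with he hl
  · exfalso
    have hl' : a.val < c.val := hl
    have hb : c.val - 1 < n := by have := c.2; omega
    refine hc ⟨c.val - 1, hb⟩ (by simp only; omega) ?_
    by_cases hab : a.val = c.val - 1
    · have : (⟨c.val - 1, hb⟩ : Fin n) = a := Fin.ext hab.symm
      rw [this]; exact he
    · exact (edge_between hh (b := ⟨c.val - 1, hb⟩) (by rw [Fin.lt_def]; simp only; omega)
        (by rw [Fin.lt_def]; simp only; omega) he).2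
  · simp
  · simp

theorem ek_c (h : Fin n → ℕ) (k : ℕ) (I : Finset (Fin n)) :
    (ek h k).c (ind I) = if Indep h I ∧ I.card = k then 1 else 0 := by
  rw [ek, QT.sum_c]
  have : ∀ J : Finset (Fin n), (mono (omG h) (cG n) (ind J)).c (ind I) = if J = I then 1 else 0 := by
    intro J
    rw [mono_c (u := ind J) (emb_mem _)]
    by_cases hJ : J = I
    · rw [if_pos hJ, if_pos (by rw [hJ])]
    · rw [if_neg hJ, if_neg fun h => hJ (ind_injective h).symm]
  simp only [this, Finset.sum_ite_eq', Finset.mem_filter, Finset.mem_univ, true_and]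
theorem ek_c_ne_zero {h : Fin n → ℕ} {k : ℕ} {u : MM n} (hu : (ek h k).c u ≠ 0) :
    ∃ I, Indep h I ∧ I.card = k ∧ u = ind I := by
  rw [ek, QT.sum_c] at hu
  obtain ⟨I, hI, h1⟩ := Finset.exists_ne_zero_of_sum_ne_zero hu
  obtain ⟨h2, h3⟩ := (Finset.mem_filter.1 hI).2
  exact ⟨I, h2, h3, supp_mono _ u h1⟩
theorem ek_zero (h : Fin n → ℕ) : ek h 0 = 1 := by
  have : Finset.univ.filter (fun I : Finset (Fin n) => Indep h I ∧ I.card = 0) = {∅} := by
    ext I
    simp only [Finset.mem_filter, Finset.mem_univ, true_and, Finset.card_eq_zero,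
      Finset.mem_singleton]
    exact ⟨fun h => h.2, fun h => ⟨by rw [h]; intro a ha; simp at ha, h⟩⟩
  rw [ek, this, Finset.sum_singleton, ind_eq_sum, Finset.sum_empty, mono_zero]
theorem ek_one (h : Fin n → ℕ) : ek h 1 = ∑ a, mono (omG h) (cG n) (ev a) := by
  have : Finset.univ.filter (fun I : Finset (Fin n) => Indep h I ∧ I.card = 1) =
      Finset.univ.image fun a : Fin n => ({a} : Finset (Fin n)) := by
    ext I
    simp only [Finset.mem_filter, Finset.mem_univ, true_and, Finset.card_eq_one,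
      Finset.mem_image]
    constructor
    · rintro ⟨-, a, rfl⟩; exact ⟨a, rfl⟩
    · rintro ⟨a, rfl⟩
      refine ⟨?_, a, rfl⟩
      intro b hb c hc
      rw [Finset.mem_singleton.1 hb, Finset.mem_singleton.1 hc]
      exact not_isEdge_self h a
  rw [ek, this, Finset.sum_image (fun a _ b _ hab => Finset.singleton_injective hab)]
  simp only [ind_eq_sum, Finset.sum_singleton]
theorem supp_fmu (h : Fin n → ℕ) (μ : List ℕ) :
    Supp (fmu h μ) {u | ∃ m : Fin n → ℕ, ∑ a, m a = μ.sum ∧ u = emb m} := by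
  induction μ with
  | nil =>
    intro u hu
    have : u = 0 := by
      by_contra h0
      exact hu (by simp [fmu, QT.one_c, h0])
    exact ⟨0, by simp, by rw [this, emb_zero]⟩
  | cons k μ ih =>
    have e : fmu h (k :: μ) = ek h k * fmu h μ := by simp [fmu]
    rw [e]
    refine Supp.mul' (N₁ := {u | ∃ I, Indep h I ∧ I.card = k ∧ u = ind I})
      (fun u hu => ek_c_ne_zero hu) ih ?_
    rintro u ⟨I, -, hI, rfl⟩ v ⟨m, hm, rfl⟩
    refine ⟨(fun a => if a ∈ I then 1 else 0) + m, ?_, by rw [emb_add]; rfl⟩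
    simp [Finset.sum_add_distrib, hI, hm]
/-- elements of `Z` have independent support: the smallest `j` in the support with a neighbour in
the support has no earlier neighbour in the support, so `ω(e_j, m) = Σ_b m_b adj j b > 0`. -/
theorem ZZ.indep {h : Fin n → ℕ} {m : Fin n → ℕ} (hm : ZZ h m) :
    Indep h (Finset.univ.filter fun a => m a ≠ 0) := by
  by_contra hc
  have hex : ∃ j : Fin n, m j ≠ 0 ∧ ∃ b, m b ≠ 0 ∧ IsEdge h j b := by
    by_contra hn
    apply hc
    intro a ha b hb he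
    exact hn ⟨a, (Finset.mem_filter.1 ha).2, b, (Finset.mem_filter.1 hb).2, he⟩
  obtain ⟨j, ⟨hj, b, hb, he⟩, hmin⟩ := (wellFounded_lt (α := Fin n)).has_min
    {j : Fin n | m j ≠ 0 ∧ ∃ b, m b ≠ 0 ∧ IsEdge h j b} hex
  have key : ∀ c, m c ≠ 0 → IsEdge h j c → adj h j c = 1 := by
    intro c hc hjc
    have hne : j ≠ c := by rintro rfl; exact not_isEdge_self h _ hjc
    have hlt : j < c :=
      lt_of_le_of_ne (not_lt.1 (hmin c ⟨hc, j, hj, (isEdge_symm h).1 hjc⟩)) hne
    simp [adj, hjc, hlt]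
  have hnn : ∀ c, 0 ≤ (m c : ℤ) * adj h j c := by
    intro c
    by_cases hc : m c = 0
    · simp [hc]
    · by_cases hjc : IsEdge h j c
      · rw [key c hc hjc]; simp
      · simp [adj, hjc]
  have h1 := hm j
  rw [emb_eq_sum, map_sum] at h1
  simp only [map_nsmul, omG_ev_ev] at h1
  simp only [nsmul_eq_mul] at h1
  have h2 := Finset.single_le_sum (f := fun c => (m c : ℤ) * adj h j c) (fun c _ => hnn c)
    (Finset.mem_univ b)
  simp only [key b hb he] at h2
  have h3 : 0 < m b := Nat.pos_of_ne_zero hb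
  omega

end
end Crest.Agent.R59
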