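import Crest.Agent.R59.Defs
import Crest.Prelude.Def_ChromaticQSym

/-! # Row 59: graph vocabulary and the concrete lattice. -/

set_option autoImplicit false

namespace Crest.Agent.R59
noncomputable section
open scoped Classical
open Crest.CombinatoricsR.UnitInterval

variable {n : ℕ}

/-- signed adjacency: `1` if `a < b` is an edge, `-1` if `b < a` is an edge, else `0` -/
def adj (h : Fin n → ℕ) (a b : Fin n) : ℤ :=
  if IsEdge h a b then (if a < b then 1 else -1) else 0

/-- independent sets -/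
def Indep (h : Fin n → ℕ) (I : Finset (Fin n)) : Prop := ∀ a ∈ I, ∀ b ∈ I, ¬ IsEdge h a b

/-- `a` has no earlier neighbour `a - 1` (first vertex of a component) -/
def Start (h : Fin n → ℕ) (a : Fin n) : Prop := ∀ b : Fin n, b.val + 1 = a.val → ¬ IsEdge h b a

/-- pairs `(a, a+1)` of consecutive adjacent vertices -/
abbrev Link (h : Fin n → ℕ) : Type :=
  {p : Fin n × Fin n // p.1.val + 1 = p.2.val ∧ IsEdge h p.1 p.2}

/-- number of edges -/
def nE (h : Fin n → ℕ) : ℕ :=
  (Finset.univ.filter fun p : Fin n × Fin n => p.1 < p.2 ∧ IsEdge h p.1 p.2).card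

section general
variable {M : Type} [AddCommGroup M]

/-- data `Ψ(e_(a+1) - e_a)` over all links -/
def ydat (h : Fin n → ℕ) (e : Fin n → M) (d : M) : K :=
  ∑ p : Link h, gdat 1 (e p.1.2 - e p.1.1) d

/-- data `Ψ(e_a)` over all starts -/
def sdat (h : Fin n → ℕ) (e : Fin n → M) (d : M) : K :=
  ∑ a : {a : Fin n // Start h a}, gdat 1 (e a.1) d

/-- `Q = Ψ(e_0) Ψ(e_1) ⋯ Ψ(e_(n-1))` -/
def Qp (ω : Form M) (A : Cone M) (e : Fin n → M) : QT ω A :=
  gprod ω A (List.ofFn fun a => ((1 : ℤ), e a))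

end general

/-- the lattice `ℤ^n ⊕ ℤ δ ⊕ ℤ z` -/
abbrev MM (n : ℕ) : Type := (Fin n → ℤ) × ℤ × ℤ

def ev (a : Fin n) : MM n := (Pi.single a 1, 0, 0)
def dl (n : ℕ) : MM n := (0, 1, 0)
def zz (n : ℕ) : MM n := (0, 0, 1)
/-- embedding of `ℕ^n` -/
def emb (m : Fin n → ℕ) : MM n := (fun a => (m a : ℤ), 0, 0)
/-- indicator vector -/
def ind (I : Finset (Fin n)) : MM n := emb fun a => if a ∈ I then 1 else 0

/-- `|v| - (δ-coordinate)` -/
def eta (n : ℕ) : MM n →+ ℤ where
  toFun x := ∑ a, x.1 a - x.2.1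
  map_zero' := by simp
  map_add' x y := by simp [Finset.sum_add_distrib]; ring

/-- the `δ`-coordinate -/
def dco (n : ℕ) : MM n →+ ℤ where
  toFun x := x.2.1
  map_zero' := rfl
  map_add' _ _ := rfl

/-- the `z`-coordinate -/
def zco (n : ℕ) : MM n →+ ℤ where
  toFun x := x.2.2
  map_zero' := rfl
  map_add' _ _ := rfl

/-- position functional `e_a ↦ a` -/
def posf (n : ℕ) : MM n →+ ℤ where
  toFun x := ∑ a : Fin n, (a.val : ℤ) * x.1 a
  map_zero' := by simp
  map_add' x y := by simp [Finset.sum_add_distrib, mul_add]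

theorem adj_skew (h : Fin n → ℕ) (a b : Fin n) : adj h a b = - adj h b a := by
  unfold adj
  have hs : IsEdge h a b ↔ IsEdge h b a := by unfold IsEdge; tauto
  by_cases he : IsEdge h a b
  · have hne : a ≠ b := by
      rintro rfl; unfold IsEdge at he; simp at he
    rw [if_pos he, if_pos (hs.1 he)]
    rcases lt_or_gt_of_ne hne with hl | hl
    · simp [hl, not_lt.2 hl.le]
    · simp [hl, not_lt.2 hl.le]
  · rw [if_neg he, if_neg (fun h' => he (hs.2 h'))]; simp

/-- the form: `ω(e_a, e_b) = adj a b`, `ω(e_a, z) = -1`, `ω(δ, z) = 1`, `ω(δ, e_a) = 0` -/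
def omG (h : Fin n → ℕ) : Form (MM n) where
  w := AddMonoidHom.mk' (fun x => AddMonoidHom.mk'
      (fun y => ∑ a, ∑ b, x.1 a * y.1 b * adj h a b - eta n x * y.2.2 + x.2.2 * eta n y)
      (by
        intro y y'
        simp only [Prod.fst_add, Prod.snd_add, Pi.add_apply, map_add, mul_add, add_mul,
          Finset.sum_add_distrib]
        ring))
    (by
      intro x x'
      ext1 y
      simp only [AddMonoidHom.mk'_apply, AddMonoidHom.add_apply, Prod.fst_add, Prod.snd_add,
        Pi.add_apply, map_add, add_mul, Finset.sum_add_distrib]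
      ring)
  alt := by
    intro x
    simp only [AddMonoidHom.mk'_apply]
    have : ∑ a, ∑ b, x.1 a * x.1 b * adj h a b = - ∑ a, ∑ b, x.1 a * x.1 b * adj h a b := by
      conv_lhs => rw [Finset.sum_comm]
      rw [← Finset.sum_neg_distrib]
      refine Finset.sum_congr rfl fun a _ => ?_
      rw [← Finset.sum_neg_distrib]
      refine Finset.sum_congr rfl fun b _ => ?_
      rw [adj_skew h b a]; ring
    linarith

theorem omG_apply (h : Fin n → ℕ) (x y : MM n) : (omG h).w x y =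
    ∑ a, ∑ b, x.1 a * y.1 b * adj h a b - eta n x * y.2.2 + x.2.2 * eta n y := rfl

/-- the ambient cone: `δ, z ≥ 0` and all tail sums `Σ_{b ≥ a} v_b ≥ 0`
(generated by `e_0`, the `e_(a+1) - e_a`, `δ`, `z`) -/
def coneC (n : ℕ) : AddSubmonoid (MM n) where
  carrier := {x | (∀ a : Fin n, 0 ≤ ∑ b ∈ Finset.Ici a, x.1 b) ∧ 0 ≤ x.2.1 ∧ 0 ≤ x.2.2}
  zero_mem' := by simp
  add_mem' := by
    rintro x y ⟨h1, h2, h3⟩ ⟨h1', h2', h3'⟩
    refine ⟨fun a => ?_, by simpa using add_nonneg h2 h2', by simpa using add_nonneg h3 h3'⟩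
    simpa [Finset.sum_add_distrib] using add_nonneg (h1 a) (h1' a)

/-- degree: `e_a ↦ a + 1`, `δ ↦ 1`, `z ↦ 1` (the sum of all tail sums, `δ` and `z`) -/
def degG (n : ℕ) : MM n →+ ℤ where
  toFun x := ∑ a : Fin n, ∑ b ∈ Finset.Ici a, x.1 b + x.2.1 + x.2.2
  map_zero' := by simp
  map_add' x y := by simp [Finset.sum_add_distrib]; ring

end
end Crest.Agent.R59
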