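import Crest.Agent.R59.Mut2
import Crest.Agent.R59.GCone

/-! # Row 59, KK1: the chain of seeds `s_0, …, s_n` (mutating at `e_0, e_1, …`). -/

set_option autoImplicit false

namespace Crest.Agent.R59
noncomputable section
open scoped Classical
open Crest.CombinatoricsR.UnitInterval

variable {M : Type} [AddCommGroup M] {ω : Form M} {A : Cone M} {n : ℕ}

/-- hypotheses of the chain lemma: a family `e` with the pairings of the graph, extra vectors
`w`, a position functional `π` and a degree `η` -/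
structure KH (ω : Form M) (h : Fin n → ℕ) (e : Fin n → M) {J : Type} (w : J → M)
    (π η : M →+ ℤ) : Prop where
  hh : IsHessenberg h
  he : ∀ a b, ω.w (e a) (e b) = adj h a b
  hw : ∀ a l, ω.w (e a) (w l) ≤ 0
  πe : ∀ a, π (e a) = a.val
  πw : ∀ l, 0 < π (w l)
  ηe : ∀ a, η (e a) = 1
  ηw : ∀ l, η (w l) = 0

/-- `e` extended by zero to `ℕ` -/
def ext0 (e : Fin n → M) (i : ℕ) : M := if h : i < n then e ⟨i, h⟩ else 0

/-- `a` has no later neighbour `a + 1` -/
def Stop (h : Fin n → ℕ) (a : Fin n) : Prop := ∀ b : Fin n, a.val + 1 = b.val → ¬ IsEdge h a b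

/-- the vector in slot `a` of the seed `s_j` -/
def slot (h : Fin n → ℕ) (e : Fin n → M) (j : ℕ) (a : Fin n) : M :=
  if j < a.val then (if Start h a then e a else e a - ext0 e (a.val - 1))
  else if j = a.val then e a
  else if a.val + 1 = j ∨ Stop h a then -e a else ext0 e (a.val + 1) - e a

/-- the seed `s_j` -/
def seed (h : Fin n → ℕ) (e : Fin n → M) {J : Type} (w : J → M) (j : ℕ) : Fin n ⊕ J → M :=
  Sum.elim (slot h e j) w

/-- degree on `s_j` -/
def sdeg (π η : M →+ ℤ) (j : ℕ) : M →+ ℤ := (2 : ℤ) • π - (2 * (j : ℤ) - 1) • η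

variable {h : Fin n → ℕ} {e : Fin n → M} {J : Type} [Fintype J] {w : J → M} {π η : M →+ ℤ}

theorem kk1_ext0 (e : Fin n → M) {i : ℕ} {b : Fin n} (hb : i = b.val) : ext0 e i = e b := by
  subst hb
  rw [ext0, dif_pos b.2]

theorem kk1_A {j : ℕ} {a : Fin n} (h1 : j ≤ a.val) (h2 : Start h a) : slot h e j a = e a := by
  unfold slot
  split_ifs with h3 h4
  · rfl
  · rfl
  · omega
  · omega

theorem kk1_B {j : ℕ} {a b : Fin n} (h1 : j < a.val) (h2 : b.val + 1 = a.val) (h3 : IsEdge h b a) :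
    slot h e j a = e a - e b := by
  rw [slot, if_pos h1, if_neg fun hs => hs b h2 h3, kk1_ext0 e (b := b) (by omega)]

theorem kk1_C {j : ℕ} {a : Fin n} (h1 : j = a.val) : slot h e j a = e a := by
  rw [slot, if_neg (by omega), if_pos h1]

theorem kk1_D {j : ℕ} {a : Fin n} (h1 : a.val < j) (h2 : a.val + 1 = j ∨ Stop h a) :
    slot h e j a = -e a := by
  rw [slot, if_neg (by omega), if_neg (by omega), if_pos h2]

theorem kk1_E {j : ℕ} {a b : Fin n} (h1 : a.val + 1 < j) (h2 : a.val + 1 = b.val)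
    (h3 : IsEdge h a b) : slot h e j a = e b - e a := by
  rw [slot, if_neg (by omega), if_neg (by omega), if_neg, kk1_ext0 e h2]
  rintro (h4 | h4)
  · omega
  · exact h4 b h2 h3

theorem kk1_nstart {a : Fin n} (hs : ¬ Start h a) :
    ∃ b : Fin n, b.val + 1 = a.val ∧ IsEdge h b a := by
  by_contra hc
  exact hs fun b h1 h2 => hc ⟨b, h1, h2⟩

theorem kk1_nstop {a : Fin n} (hs : ¬ Stop h a) :
    ∃ b : Fin n, a.val + 1 = b.val ∧ IsEdge h a b := by
  by_contra hc
  exact hs fun b h1 h2 => hc ⟨b, h1, h2⟩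

theorem kk1_cases (h : Fin n → ℕ) (e : Fin n → M) (j : ℕ) (a : Fin n) :
    (j < a.val ∧ Start h a ∧ slot h e j a = e a) ∨
    (j < a.val ∧ ∃ b : Fin n, b.val + 1 = a.val ∧ IsEdge h b a ∧ slot h e j a = e a - e b) ∨
    (j = a.val ∧ slot h e j a = e a) ∨ (a.val < j ∧ slot h e j a = -e a) ∨
    (a.val + 1 < j ∧ ∃ b : Fin n, a.val + 1 = b.val ∧ IsEdge h a b ∧ slot h e j a = e b - e a) := by
  rcases lt_trichotomy j a.val with h1 | h1 | h1
  · by_cases hs : Start h a
    · exact Or.inl ⟨h1, hs, kk1_A h1.le hs⟩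
    · obtain ⟨b, h2, h3⟩ := kk1_nstart hs
      exact Or.inr (Or.inl ⟨h1, b, h2, h3, kk1_B h1 h2 h3⟩)
  · exact Or.inr (Or.inr (Or.inl ⟨h1, kk1_C h1⟩))
  · by_cases hs : a.val + 1 = j ∨ Stop h a
    · exact Or.inr (Or.inr (Or.inr (Or.inl ⟨h1, kk1_D h1 hs⟩)))
    · rw [not_or] at hs
      obtain ⟨b, h2, h3⟩ := kk1_nstop hs.2
      exact Or.inr (Or.inr (Or.inr (Or.inr ⟨by omega, b, h2, h3, kk1_E (by omega) h2 h3⟩)))

theorem kk1_nonneg {ι : Type} (φ : M →+ ℤ) (v : ι → M) (hv : ∀ x, 0 ≤ φ (v x)) :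
    ∀ u ∈ AddSubmonoid.closure (Set.range v), 0 ≤ φ u := by
  intro u hu
  induction hu using AddSubmonoid.closure_induction with
  | mem x hx =>
    obtain ⟨i, rfl⟩ := hx
    exact hv i
  | zero => simp
  | add x y _ _ hx hy =>
    rw [map_add]
    omega

theorem kk1_mutv {y v : M} (hv : ω.w y v ≤ 0) : mutv ω y v = v := by
  rw [mutv, Int.toNat_of_nonpos hv, zero_smul, add_zero]

theorem kk1_mutv1 {y v : M} (hv : ω.w y v = 1) : mutv ω y v = v + y := by
  rw [mutv, hv, Int.toNat_one, one_smul]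

theorem kk1_adj_lt {a b : Fin n} (hab : a < b) : adj h a b = if IsEdge h a b then 1 else 0 := by
  rw [adj, if_pos hab]

theorem kk1_adj_gt {a b : Fin n} (hab : a < b) : adj h b a = if IsEdge h a b then -1 else 0 := by
  rw [adj_skew, kk1_adj_lt hab]
  split_ifs <;> rfl

theorem KH.sdeg_pos (H : KH ω h e w π η) (j : ℕ) (x : Fin n ⊕ J) :
    0 < sdeg π η j (seed h e w j x) := by
  have he : ∀ a, sdeg π η j (e a) = 2 * a.val - (2 * j - 1) := fun a => by
    simp [sdeg, H.πe, H.ηe]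
  rcases x with a | l
  · change 0 < sdeg π η j (slot h e j a)
    rcases kk1_cases h e j a with ⟨h1, -, h2⟩ | ⟨-, b, h1, -, h2⟩ | ⟨h1, h2⟩ | ⟨h1, h2⟩ |
      ⟨-, b, h1, -, h2⟩ <;> rw [h2] <;> simp only [map_sub, map_neg, he] <;> omega
  · change 0 < sdeg π η j (w l)
    have := H.πw l
    simp only [sdeg, AddMonoidHom.sub_apply, AddMonoidHom.smul_apply, H.ηw, smul_eq_mul]
    omega

/-- the cone of `s_j` -/
def KH.cone (H : KH ω h e w π η) (j : ℕ) : Cone M :=
  Cone.gen (seed h e w j) (sdeg π η j) (H.sdeg_pos j)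

theorem KH.kk1_slot_mem (H : KH ω h e w π η) (j : ℕ) (a : Fin n) : slot h e j a ∈ (H.cone j).C :=
  AddSubmonoid.subset_closure ⟨Sum.inl a, rfl⟩

theorem KH.kk1_w_mem (H : KH ω h e w π η) (j : ℕ) (l : J) : w l ∈ (H.cone j).C :=
  AddSubmonoid.subset_closure ⟨Sum.inr l, rfl⟩

theorem slot_self (j : Fin n) : slot h e j.val j = e j := by
  exact kk1_C rfl
theorem slot_succ_self (j : Fin n) : slot h e (j.val + 1) j = -e j := by
  exact kk1_D (Nat.lt_succ_self _) (Or.inl rfl)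
/-- cases `a > j + 1`, `a = j + 1`, `a + 1 = j`, `a + 1 < j`; uses `edge_between`,
`Start.adj_nonpos` -/
theorem KH.slot_mut (H : KH ω h e w π η) (j a : Fin n) (ha : a ≠ j) :
    mutv ω (e j) (slot h e j.val a) = slot h e (j.val + 1) a := by
  have hne : a.val ≠ j.val := fun h0 => ha (Fin.ext h0)
  rcases lt_or_gt_of_ne hne with h1 | h1
  · have haj : a < j := h1
    by_cases h2 : a.val + 1 = j.val
    · rw [kk1_D h1 (Or.inl h2)]
      by_cases h3 : IsEdge h a j
      · rw [kk1_E (by omega) h2 h3, kk1_mutv1 (by rw [map_neg, H.he, kk1_adj_gt haj, if_pos h3]; rfl),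
          neg_add_eq_sub]
      · rw [kk1_mutv (by rw [map_neg, H.he, kk1_adj_gt haj, if_neg h3]; rfl), kk1_D (by omega)]
        refine Or.inr fun b hb => ?_
        rwa [show b = j from Fin.ext (by omega)]
    · by_cases hs : Stop h a
      · have h3 : ¬ IsEdge h a j := fun h3 =>
          hs ⟨a.val + 1, by omega⟩ rfl (edge_between H.hh (b := ⟨a.val + 1, by omega⟩)
            (Nat.lt_succ_self _) (show a.val + 1 < j.val by omega) h3).1
        rw [kk1_D h1 (Or.inr hs), kk1_D (by omega) (Or.inr hs),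
          kk1_mutv (by rw [map_neg, H.he, kk1_adj_gt haj, if_neg h3]; rfl)]
      · obtain ⟨b, h3, h4⟩ := kk1_nstop hs
        have hbj : b < j := show b.val < j.val by omega
        rw [kk1_E (by omega) h3 h4, kk1_E (by omega) h3 h4, kk1_mutv]
        rw [map_sub, H.he, H.he, kk1_adj_gt haj, kk1_adj_gt hbj]
        by_cases h5 : IsEdge h a j
        · rw [if_pos h5, if_pos (edge_between H.hh (show a.val < b.val by omega) hbj h5).2]
          rfl
        · rw [if_neg h5]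
          split_ifs <;> decide
  · have hja : j < a := h1
    by_cases hs : Start h a
    · rw [kk1_A h1.le hs, kk1_A h1 hs, kk1_mutv (by rw [H.he]; exact hs.adj_nonpos H.hh j)]
    · obtain ⟨b, h3, h4⟩ := kk1_nstart hs
      rw [kk1_B h1 h3 h4]
      by_cases h2 : j.val + 1 = a.val
      · obtain rfl : b = j := Fin.ext (by omega)
        rw [kk1_C h2, kk1_mutv1 (by
          rw [map_sub, H.he, H.he, adj_self, kk1_adj_lt hja, if_pos h4]; rfl), sub_add_cancel]
      · have hjb : j < b := show j.val < b.val by omega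
        rw [kk1_B (by omega) h3 h4, kk1_mutv]
        rw [map_sub, H.he, H.he, kk1_adj_lt hja, kk1_adj_lt hjb]
        by_cases h5 : IsEdge h j a
        · rw [if_pos h5, if_pos (edge_between H.hh hjb (show b.val < a.val by omega) h5).1]
          rfl
        · rw [if_neg h5]
          split_ifs <;> decide
theorem KH.extra_mut (H : KH ω h e w π η) (j : Fin n) (l : J) : mutv ω (e j) (w l) = w l := by
  exact kk1_mutv (H.hw j l)
/-- the auxiliary degree `π - j η` for the mutation at `e_j` -/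
theorem KH.mdeg (H : KH ω h e w π η) (j : Fin n) :
    (π - (j.val : ℤ) • η) (e j) = 0 ∧
    (∀ a, a ≠ j → 0 < (π - (j.val : ℤ) • η) (slot h e j.val a)) ∧
    (∀ l, 0 < (π - (j.val : ℤ) • η) (w l)) ∧
    (∀ u ∈ (H.cone j.val).C, 0 ≤ (π - (j.val : ℤ) • η) u) ∧
    (∀ u ∈ (H.cone (j.val + 1)).C, 0 ≤ (π - (j.val : ℤ) • η) u) := by
  have he : ∀ a, (π - (j.val : ℤ) • η) (e a) = a.val - j.val := fun a => by
    simp [H.πe, H.ηe]
  have hw : ∀ l, 0 < (π - (j.val : ℤ) • η) (w l) := fun l => by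
    simpa [H.ηw] using H.πw l
  have h0 : ∀ a, a ≠ j → 0 < (π - (j.val : ℤ) • η) (slot h e j.val a) := by
    intro a ha
    have hne : a.val ≠ j.val := fun h0 => ha (Fin.ext h0)
    rcases kk1_cases h e j.val a with ⟨h1, -, h2⟩ | ⟨-, b, h1, -, h2⟩ | ⟨h1, h2⟩ | ⟨h1, h2⟩ |
      ⟨-, b, h1, -, h2⟩ <;> rw [h2] <;> simp only [map_sub, map_neg, he] <;> omega
  refine ⟨by rw [he, sub_self], h0, hw, kk1_nonneg _ _ ?_, kk1_nonneg _ _ ?_⟩
  · rintro (a | l)
    · change 0 ≤ (π - (j.val : ℤ) • η) (slot h e j.val a)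
      by_cases ha : a = j
      · rw [ha, slot_self, he, sub_self]
      · exact (h0 a ha).le
    · exact (hw l).le
  · rintro (a | l)
    · change 0 ≤ (π - (j.val : ℤ) • η) (slot h e (j.val + 1) a)
      rcases kk1_cases h e (j.val + 1) a with ⟨h1, -, h2⟩ | ⟨-, b, h1, -, h2⟩ | ⟨h1, h2⟩ | ⟨h1, h2⟩ |
        ⟨-, b, h1, -, h2⟩ <;> rw [h2] <;> simp only [map_sub, map_neg, he] <;> omega
    · exact (hw l).le
/-- upward induction on `a` -/
theorem KH.e_mem (H : KH ω h e w π η) {j : ℕ} (a : Fin n) (ha : j ≤ a.val) :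
    e a ∈ (H.cone j).C := by
  generalize hk : a.val = k
  induction k using Nat.strong_induction_on generalizing a with
  | _ k ih =>
    have h0 := H.kk1_slot_mem j a
    rcases kk1_cases h e j a with ⟨-, -, h2⟩ | ⟨h1, b, h3, -, h2⟩ | ⟨-, h2⟩ | ⟨h1, -⟩ | ⟨h1, -⟩
    · rwa [h2] at h0
    · rw [h2] at h0
      have h4 := AddSubmonoid.add_mem _ h0 (ih b.val (by omega) b (by omega) rfl)
      rwa [sub_add_cancel] at h4
    · rwa [h2] at h0
    · omega
    · omega
/-- downward induction on `a` -/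
theorem KH.neg_e_mem (H : KH ω h e w π η) {j : ℕ} (hj : j ≤ n) (a : Fin n) (ha : a.val < j) :
    -e a ∈ (H.cone j).C := by
  have _ := hj
  generalize hk : j - a.val = k
  induction k using Nat.strong_induction_on generalizing a with
  | _ k ih =>
    have h0 := H.kk1_slot_mem j a
    rcases kk1_cases h e j a with ⟨h1, -⟩ | ⟨h1, -⟩ | ⟨h1, -⟩ | ⟨-, h2⟩ | ⟨h1, b, h3, -, h2⟩
    · omega
    · omega
    · omega
    · rwa [h2] at h0
    · rw [h2] at h0
      have h4 := AddSubmonoid.add_mem _ h0 (ih (j - b.val) (by omega) b (by omega) rfl)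
      rwa [sub_add_eq_add_sub, add_neg_cancel, zero_sub] at h4
theorem KH.eta_zero (H : KH ω h e w π η) : ∀ u ∈ (H.cone 0).C, 0 ≤ η u := by
  refine kk1_nonneg _ _ ?_
  rintro (a | l)
  · change 0 ≤ η (slot h e 0 a)
    rcases kk1_cases h e 0 a with ⟨h1, -, h2⟩ | ⟨-, b, h1, -, h2⟩ | ⟨h1, h2⟩ | ⟨h1, h2⟩ |
      ⟨h1, -⟩
    · rw [h2, H.ηe]; decide
    · rw [h2, map_sub, H.ηe, H.ηe]; decide
    · rw [h2, H.ηe]; decide
    · omega
    · omega
  · exact (H.ηw l).ge
theorem KH.eta_last (H : KH ω h e w π η) : ∀ u ∈ (H.cone n).C, η u ≤ 0 := by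
  intro u hu
  refine neg_nonneg.1 (kk1_nonneg (-η) _ ?_ u hu)
  rintro (a | l)
  · change 0 ≤ -η (slot h e n a)
    have := a.2
    rcases kk1_cases h e n a with ⟨h1, -⟩ | ⟨h1, -⟩ | ⟨h1, -⟩ | ⟨-, h2⟩ | ⟨-, b, -, -, h2⟩
    · omega
    · omega
    · omega
    · rw [h2, map_neg, H.ηe]; decide
    · rw [h2, map_sub, H.ηe, H.ηe]; decide
  · change 0 ≤ -η (w l)
    rw [H.ηw]; decide
theorem KH.e_ne_zero (H : KH ω h e w π η) (a : Fin n) : e a ≠ 0 := by
  intro h0
  have := H.ηe a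
  rw [h0, map_zero] at this
  exact zero_ne_one this
/-- non-starts `a` correspond to links `(a - 1, a)` -/
theorem slot_zero_dat (d : M) :
    ∑ a, gdat 1 (slot h e 0 a) d = sdat h e d + ydat h e d := by
  rw [← Fintype.sum_subtype_add_sum_subtype (Start h), sdat, ydat]
  congr 1
  · exact Finset.sum_congr rfl fun a _ => by rw [kk1_A (Nat.zero_le _) a.2]
  · symm
    refine Fintype.sum_bijective
      (fun p : Link h => (⟨p.1.2, fun hs => hs p.1.1 p.2.1 p.2.2⟩ : {a // ¬ Start h a})) ⟨?_, ?_⟩ _ _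
      fun p => ?_
    · rintro ⟨⟨a, b⟩, h1, h2⟩ ⟨⟨a', b'⟩, h1', h2'⟩ hp
      obtain rfl : b = b' := congrArg Subtype.val hp
      obtain rfl : a = a' := Fin.ext (by simp only at h1 h1'; omega)
      rfl
    · rintro ⟨a, ha⟩
      obtain ⟨b, h1, h2⟩ := kk1_nstart ha
      exact ⟨⟨(b, a), h1, h2⟩, rfl⟩
    · rw [kk1_B (by have := p.2.1; omega) p.2.1 p.2.2]
theorem KH.cone_zero_le (H : KH ω h e w π η) (h1 : ∀ a, e a ∈ A.C)
    (h2 : ∀ p : Link h, e p.1.2 - e p.1.1 ∈ A.C) (h3 : ∀ l, w l ∈ A.C) :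
    (H.cone 0).C ≤ A.C := by
  refine AddSubmonoid.closure_le.2 ?_
  rintro _ ⟨a | l, rfl⟩
  · change slot h e 0 a ∈ A.C
    rcases kk1_cases h e 0 a with ⟨-, -, h4⟩ | ⟨-, b, h5, h6, h4⟩ | ⟨-, h4⟩ | ⟨h4, -⟩ | ⟨h4, -⟩
    · rw [h4]; exact h1 a
    · rw [h4]; exact h2 ⟨(b, a), h5, h6⟩
    · rw [h4]; exact h1 a
    · omega
    · omega
  · exact h3 l

/-- one mutation step, in the form used by the chain: `MutH.mutate` with `y = e j` and the
family indexed by `{a // a ≠ j} ⊕ J` -/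
theorem KH.step (H : KH ω h e w π η) (j : Fin n) {g : QT ω (H.cone j.val)}
    (hg : IsCl (fun d => ∑ x, gdat 1 (seed h e w j.val x) d) g) :
    ∃ h' : QT ω (H.cone (j.val + 1)), h'.c = (inv (gen ω (H.cone j.val) 1 (e j)) * g).c ∧
      IsCl (fun d => ∑ x, gdat 1 (seed h e w (j.val + 1) x) d)
        (h' * gen ω (H.cone (j.val + 1)) 1 (-e j)) := by
  obtain ⟨m1, m2, m3, m4, m5⟩ := H.mdeg j
  let v : {a : Fin n // a ≠ j} ⊕ J → M := Sum.elim (fun a => slot h e j.val a.1) w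
  have hv : ∀ x, mutv ω (e j) (v x) = Sum.elim (fun a => slot h e (j.val + 1) a.1) w x := by
    rintro (a | l)
    · exact H.slot_mut j a.1 a.2
    · exact H.extra_mut j l
  have hs : ∀ (k : ℕ) (d : M), ∑ x, gdat 1 (seed h e w k x) d = gdat 1 (slot h e k j) d +
      ∑ x : {a : Fin n // a ≠ j} ⊕ J, gdat 1 (Sum.elim (fun a => slot h e k a.1) w x) d := by
    intro k d
    rw [Fintype.sum_sum_type, Fintype.sum_sum_type, ← add_assoc]
    congr 1
    exact Fintype.sum_eq_add_sum_subtype_ne (fun a => gdat 1 (slot h e k a) d) j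
  have HM : MutH ω (H.cone j.val) (H.cone (j.val + 1)) (e j) v (π - (j.val : ℤ) • η) g := by
    refine ⟨H.e_mem j le_rfl, H.e_ne_zero j, ?_, ?_, ?_, m1, ?_, m4, m5, ?_⟩
    · rw [← slot_succ_self (h := h)]
      exact H.kk1_slot_mem _ _
    · rintro (a | l)
      · exact H.kk1_slot_mem _ _
      · exact H.kk1_w_mem _ _
    · intro x
      rw [hv]
      rcases x with a | l
      · exact H.kk1_slot_mem _ _
      · exact H.kk1_w_mem _ _
    · rintro (a | l)
      · exact m2 a.1 a.2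
      · exact m3 l
    · simpa only [hs, slot_self] using hg
  obtain ⟨h', a1, a2⟩ := HM.mutate
  refine ⟨h', a1, ?_⟩
  simpa only [hs, slot_succ_self, hv] using a2

end
end Crest.Agent.R59
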