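import Crest.Agent.R59.KK2a

/-! # Row 59, KK2: `g_(e-starts, y, w) = Ψ(e_0) ⋯ Ψ(e_(n-1)) · g_(y, w)`, and the action of
`Ψ(e_0) ⋯ Ψ(e_(n-1))` on a framing monomial. -/

set_option autoImplicit false

namespace Crest.Agent.R59
open scoped Classical
open Crest.CombinatoricsR.UnitInterval

variable {M : Type} [AddCommGroup M] {ω : Form M} {A : Cone M} {n : ℕ}
variable {h : Fin n → ℕ} {e : Fin n → M} {J : Type} [Fintype J] {w : J → M} {π η : M →+ ℤ}

theorem kk2_off {y v d : M} (hv : v ∈ A.C) (hd : ω.w y d ≠ ω.w y v) :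
    (Ad (gen ω A 1 y) (mono ω A v)).c d = 0 := by
  by_contra h0
  obtain ⟨j, hj⟩ := Ad_gen_c_ne_zero 1 h0
  rw [mono_c hv] at hj
  have h1 : d - j • y = v := by
    by_contra h1
    exact hj (if_neg h1)
  apply hd
  rw [← h1, map_sub, map_nsmul, ω.alt, smul_zero, sub_zero]

theorem kk2_zero {y v : M} (hy : y ∈ A.C) (h0 : y ≠ 0) (hv : v ∈ A.C) (hw : ω.w y v = 0) :
    Ad (gen ω A 1 y) (mono ω A v) = mono ω A v := by
  ext1 d
  by_cases hd : ω.w y d = ω.w y v
  · rw [Ad_psi_c hy h0 _ (n := 0) (by rw [hd, hw]; simp)]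
    simp [beta_zero]
  · rw [kk2_off hv hd, mono_c hv, if_neg]
    rintro rfl
    exact hd rfl

theorem kk2_one {y v : M} (hy : y ∈ A.C) (h0 : y ≠ 0) (hv : v ∈ A.C) (hw : ω.w y v = -1) :
    Ad (gen ω A 1 y) (mono ω A v) = mono ω A v + mono ω A (v + y) := by
  ext1 d
  by_cases hd : ω.w y d = ω.w y v
  · rw [Ad_psi_c hy h0 _ (n := 1) (by rw [hd, hw]; simp)]
    simp only [Finset.sum_range_succ, Finset.range_zero, Finset.sum_empty, zero_add, beta_zero,
      beta_one_one, one_mul, zero_smul, add_zero, one_smul, QT.add_c, mono_c hv,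
      mono_c (A.C.add_mem hv hy), sub_eq_iff_eq_add]
  · rw [kk2_off hv hd, QT.add_c, mono_c hv, mono_c (A.C.add_mem hv hy), if_neg, if_neg, add_zero]
    · rintro rfl
      exact hd (by rw [map_add, ω.alt, add_zero])
    · rintro rfl
      exact hd rfl

theorem kk2_step (hh : IsHessenberg h) (he : ∀ a b, ω.w (e a) (e b) = adj h a b)
    (h1 : ∀ a, e a ∈ A.C) {z : M} (hz : z ∈ A.C) (hez : ∀ a, ω.w (e a) z = -1) {j : Fin n}
    {I : Finset (Fin n)} (hj : ∀ a ∈ I, j < a) (hI : Indep h I) :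
    Ad (gen ω A 1 (e j)) (mono ω A (z + ∑ a ∈ I, e a)) = mono ω A (z + ∑ a ∈ I, e a) +
      if Indep h (insert j I) then mono ω A (z + ∑ a ∈ insert j I, e a) else 0 := by
  have h0 : e j ≠ 0 := fun h0 => by simpa [h0] using hez j
  have hv : z + ∑ a ∈ I, e a ∈ A.C := A.C.add_mem hz (A.C.sum_mem fun a _ => h1 a)
  have hjI : j ∉ I := fun hm => lt_irrefl _ (hj j hm)
  have hw : ω.w (e j) (z + ∑ a ∈ I, e a) = -1 + ∑ a ∈ I, adj h j a := by
    rw [map_add, map_sum, hez]
    simp only [he]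
  by_cases hn : ∃ b ∈ I, IsEdge h j b
  · obtain ⟨b, hb, hjb⟩ := hn
    have hs : ∑ a ∈ I, adj h j a = 1 := by
      rw [Finset.sum_eq_single_of_mem b hb]
      · simp [adj, hjb, hj b hb]
      · intro a ha hab
        have : ¬ IsEdge h j a := fun hja => by
          rcases lt_or_gt_of_ne hab with hl | hl
          · exact hI a ha b hb (edge_between hh (hj a ha) hl hjb).2
          · exact hI b hb a ha (edge_between hh (hj b hb) hl hja).2
        simp [adj, this]
    rw [kk2_zero (h1 j) h0 hv (by rw [hw, hs]; simp), if_neg, add_zero]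
    exact fun hi => hi j (Finset.mem_insert_self _ _) b (Finset.mem_insert_of_mem hb) hjb
  · push Not at hn
    have hs : ∑ a ∈ I, adj h j a = 0 := Finset.sum_eq_zero fun a ha => by simp [adj, hn a ha]
    rw [kk2_one (h1 j) h0 hv (by rw [hw, hs]; simp), if_pos, Finset.sum_insert hjI]
    · congr 2
      abel
    · intro a ha b hb
      rcases Finset.mem_insert.1 ha with ha' | ha' <;> rcases Finset.mem_insert.1 hb with hb' | hb'
      · rw [ha', hb']; exact not_isEdge_self h _
      · rw [ha']; exact hn b hb'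
      · rw [hb']; exact fun h' => hn a ha' ((isEdge_symm h).1 h')
      · exact hI a ha' b hb'

theorem kk2_list (hh : IsHessenberg h) (he : ∀ a b, ω.w (e a) (e b) = adj h a b)
    (h1 : ∀ a, e a ∈ A.C) {z : M} (hz : z ∈ A.C) (hez : ∀ a, ω.w (e a) z = -1)
    (l : List (Fin n)) (hl : l.Pairwise (· < ·)) :
    Ad (gprod ω A (l.map fun a => ((1 : ℤ), e a))) (mono ω A z) =
      ∑ I ∈ l.toFinset.powerset, if Indep h I then mono ω A (z + ∑ a ∈ I, e a) else 0 := by
  induction l with
  | nil =>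
    have : Indep h ∅ := fun a ha => absurd ha (Finset.notMem_empty a)
    simp [gprod_nil, Ad_one, this]
  | cons j l ih =>
    rw [List.pairwise_cons] at hl
    have hjl : j ∉ l.toFinset := fun hm => lt_irrefl _ (hl.1 j (List.mem_toFinset.1 hm))
    rw [List.map_cons, gprod_cons, Ad_mul_left (gen_c_zero _ _) (gprod_c_zero _), ih hl.2, Ad_sum,
      List.toFinset_cons, Finset.sum_powerset_insert hjl, ← Finset.sum_add_distrib]
    refine Finset.sum_congr rfl fun I hI => ?_
    by_cases hi : Indep h I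
    · rw [if_pos hi]
      exact kk2_step hh he h1 hz hez
        (fun a ha => hl.1 a (List.mem_toFinset.1 (Finset.mem_powerset.1 hI ha))) hi
    · rw [if_neg hi, if_neg, add_zero]
      · simp [Ad]
      · exact fun h' => hi fun a ha b hb =>
          h' a (Finset.mem_insert_of_mem ha) b (Finset.mem_insert_of_mem hb)

/-- Downward induction: after applying `Ψ(e_j) ⋯ Ψ(e_(n-1))` one has the sum over independent
`I ⊆ [j, n)`.  For such `I ⊆ (j, n)`: `ω(e_j, z + e_I) = -1 + #(neighbours of j in I) ∈ {-1, 0}`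
since later neighbours of `j` form a clique (`edge_between`); `Ad Ψ(y) x^v = x^v + x^(v+y)` if
`ω y v = -1` and `= x^v` if `ω y v = 0` (`Ad_psi_c`, `beta_zero`, `beta_one_one`). -/
theorem Ad_Qp_mono (hh : IsHessenberg h) (he : ∀ a b, ω.w (e a) (e b) = adj h a b)
    (h1 : ∀ a, e a ∈ A.C) {z : M} (hz : z ∈ A.C) (hez : ∀ a, ω.w (e a) z = -1) :
    Ad (Qp ω A e) (mono ω A z) =
      ∑ I ∈ Finset.univ.filter (fun I : Finset (Fin n) => Indep h I),
        mono ω A (z + ∑ a ∈ I, e a) := by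
  rw [Qp, List.ofFn_eq_map, kk2_list hh he h1 hz hez _ (List.pairwise_lt_finRange n),
    List.toFinset_finRange, Finset.powerset_univ, Finset.sum_filter]

end Crest.Agent.R59
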