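import Crest.Agent.R59.KK1

/-! # Row 59, KK2: `g_(e-starts, y, w) = Ψ(e_0) ⋯ Ψ(e_(n-1)) · g_(y, w)`, and the action of
`Ψ(e_0) ⋯ Ψ(e_(n-1))` on a framing monomial. -/

set_option autoImplicit false

namespace Crest.Agent.R59
open scoped Classical
open Crest.CombinatoricsR.UnitInterval

variable {M : Type} [AddCommGroup M] {ω : Form M} {A : Cone M} {n : ℕ}
variable {h : Fin n → ℕ} {e : Fin n → M} {J : Type} [Fintype J] {w : J → M} {π η : M →+ ℤ}

theorem KK2a_mul {A' : Cone M} {f g : QT ω A} {f' g' : QT ω A'} (hf : f'.c = f.c)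
    (hg : g'.c = g.c) : (f' * g').c = (f * g).c := by
  rw [QT.mul_c', QT.mul_c', hf, hg]

theorem KK2a_inv {A' : Cone M} {f : QT ω A} {f' : QT ω A'} (h0 : f.c 0 = 1) (hf : f'.c = f.c) :
    (inv f').c = (inv f).c :=
  funext (Tr.inv (φ := AddEquiv.refl M) (fun _ _ => rfl) h0 fun v => congrFun hf v)

theorem KK2a_gprod {A' : Cone M} {L : List (ℤ × M)} (hL : ∀ p ∈ L, p.2 ∈ A'.C ∧ p.2 ∈ A.C) :
    (gprod ω A' L).c = (gprod ω A L).c := by
  induction L with
  | nil => rfl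
  | cons p L ih =>
    have hp := hL p List.mem_cons_self
    exact KK2a_mul (gen_c_cast _ hp.1 hp.2) (ih fun q hq => hL q (List.mem_cons_of_mem _ hq))

theorem KK2a_cast {A' : Cone M} (hA : A.C ≤ A'.C) (f : QT ω A) : ∃ f' : QT ω A', f'.c = f.c :=
  ⟨QT.mk ω A' f.c fun _ hu => hA (f.supp hu), rfl⟩
/-- Induction on `j`.  Step: with `R_j = ∏_{i<j} Ψ(-e_i)`, `KH.step` gives
`h' ~ inv Ψ(e_j) * k' * R_j`; `k'' = inv Ψ(e_j) * k' = (inv Ψ(e_j) * k' * R_j) * inv R_j` is
supported in the next cone (`neg_e_mem`, `Supp.inv`), so it can be cast (`exists_tr` with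
`AddEquiv.refl`), and `h' = k''' * R_j` there (`Tr.mul`, `Tr.unique`, `gen_c_cast`). -/
theorem KH.chain (H : KH ω h e w π η) {g : QT ω (H.cone 0)}
    (hg : IsCl (fun d => ∑ x, gdat 1 (seed h e w 0 x) d) g) (j : ℕ) (hj : j ≤ n) :
    ∃ (k : QT ω (H.cone 0)) (k' : QT ω (H.cone j)), k.c 0 = 1 ∧ k'.c = k.c ∧
      g = gprod ω (H.cone 0) ((List.range j).map fun i => ((1 : ℤ), ext0 e i)) * k ∧
      IsCl (fun d => ∑ x, gdat 1 (seed h e w j x) d)
        (k' * gprod ω (H.cone j) ((List.range j).map fun i => ((1 : ℤ), -ext0 e i))) := by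
  induction j with
  | zero => exact ⟨g, g, hg.1, rfl, (one_mul g).symm, by simpa [gprod_nil] using hg⟩
  | succ j ih =>
    obtain ⟨k, k', hk0, hkk, hgk, hcl⟩ := ih (by omega)
    have hjn : j < n := hj
    obtain ⟨h', hh', hcl'⟩ := H.step ⟨j, hjn⟩ hcl
    have e0 : ext0 e j = e ⟨j, hjn⟩ := dif_pos hjn
    set L := (List.range j).map fun i => ((1 : ℤ), -ext0 e i) with hL
    have hR : (gprod ω (H.cone (j + 1)) L).c = (gprod ω (H.cone j) L).c := by
      refine KK2a_gprod fun p hp => ?_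
      obtain ⟨i, hi, rfl⟩ := List.mem_map.1 hp
      have hi' : i < j := List.mem_range.1 hi
      have e1 : ext0 e i = e ⟨i, by omega⟩ := dif_pos _
      simp only [e1]
      exact ⟨H.neg_e_mem hj _ (by simp only; omega), H.neg_e_mem hjn.le _ hi'⟩
    have hΨ : (gen ω (H.cone j) 1 (e ⟨j, hjn⟩)).c = (gen ω (H.cone 0) 1 (e ⟨j, hjn⟩)).c :=
      gen_c_cast 1 (H.e_mem _ le_rfl) (H.e_mem _ (Nat.zero_le _))
    refine ⟨inv (gen ω (H.cone 0) 1 (e ⟨j, hjn⟩)) * k, h' * inv (gprod ω (H.cone (j + 1)) L),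
      ?_, ?_, ?_, ?_⟩
    · rw [mul_c_zero, inv_c_zero (gen_c_zero _ _), hk0, mul_one]
    · rw [KK2a_mul hh' (KK2a_inv (gprod_c_zero L) hR), mul_assoc, mul_assoc,
        mul_inv_self (gprod_c_zero L), mul_one]
      exact KK2a_mul (KK2a_inv (gen_c_zero _ _) hΨ) hkk
    · rw [List.range_succ, List.map_append, gprod_append, List.map_singleton, gprod_cons,
        gprod_nil, mul_one, e0, mul_assoc, ← mul_assoc (gen _ _ _ _), mul_inv_self (gen_c_zero _ _),
        one_mul]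
      exact hgk
    · rw [List.range_succ, List.map_append, gprod_append, List.map_singleton, gprod_cons,
        gprod_nil, mul_one, e0, ← hL, mul_assoc, ← mul_assoc (inv _), inv_mul_self (gprod_c_zero L),
        one_mul]
      exact hcl'

/-- At `j = n`, `k` is supported in `η = 0` (`eta_zero`, `eta_last`).  Cast to `A`
(`exists_cl`, `IsCl.cast`, `IsCl.unique`, `slot_zero_dat`); then `proj (η = 0) g = k`
(`proj_mul`, `proj_eq_one`) has data `ydat + extras` by `IsCl.proj`. -/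
theorem KH.main (H : KH ω h e w π η) (h1 : ∀ a, e a ∈ A.C)
    (h2 : ∀ p : Link h, e p.1.2 - e p.1.1 ∈ A.C) (h3 : ∀ l, w l ∈ A.C) {g g₀ : QT ω A}
    (hg : IsCl (fun d => sdat h e d + ydat h e d + ∑ l, gdat 1 (w l) d) g)
    (hg₀ : IsCl (fun d => ydat h e d + ∑ l, gdat 1 (w l) d) g₀) :
    g = Qp ω A e * g₀ := by
  have hle := H.cone_zero_le h1 h2 h3
  have hdat : ∀ d, ∑ x, gdat 1 (seed h e w 0 x) d =
      sdat h e d + ydat h e d + ∑ l, gdat 1 (w l) d := by
    intro d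
    rw [Fintype.sum_sum_type, ← slot_zero_dat]
    rfl
  obtain ⟨g', hg'⟩ := exists_cl (ω := ω) (A := H.cone 0)
    (fun d => ∑ x, gdat 1 (seed h e w 0 x) d) fun d hd _ => by
      obtain ⟨x, -, hx⟩ := Finset.exists_ne_zero_of_sum_ne_zero hd
      obtain ⟨j, -, rfl⟩ := gdat_ne_zero hx
      exact AddSubmonoid.nsmul_mem _ (AddSubmonoid.subset_closure (Set.mem_range_self x)) j
  obtain ⟨k, k', hk0, hkk, hgk, -⟩ := H.chain hg' n le_rfl
  have hL : ((List.range n).map fun i => ((1 : ℤ), ext0 e i)) =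
      List.ofFn fun a => ((1 : ℤ), e a) := by
    refine List.ext_getElem (by simp) fun i hi hi' => ?_
    have hi'' : i < n := by simpa using hi
    simp [ext0, hi'']
  rw [hL] at hgk
  set L := List.ofFn fun a => ((1 : ℤ), e a) with hL'
  have hmem : ∀ p ∈ L, ∃ a, p.2 = e a := by
    intro p hp
    obtain ⟨a, rfl⟩ := List.mem_ofFn.1 hp
    exact ⟨a, rfl⟩
  have hk : Supp k (zeroM (qf η)) := by
    intro u hu
    have a1 := H.eta_zero u (k.supp hu)
    have a2 := H.eta_last u (k'.supp (hkk ▸ hu))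
    exact mem_zeroM.2 (by rw [qf_apply, le_antisymm a2 a1, Int.cast_zero])
  have hnn : ∀ f : QT ω (H.cone 0), Supp f (nnM (qf η)) := fun f u hu =>
    mem_nnM.2 (by rw [qf_apply]; exact_mod_cast H.eta_zero u (f.supp hu))
  have hP : Supp (gprod ω (H.cone 0) L) (posM (qf η)) := by
    refine supp_gprod fun p hp => ?_
    obtain ⟨a, ha⟩ := hmem p hp
    exact mem_posM.2 (Or.inr (by rw [qf_apply, ha, H.ηe]; norm_num))
  have hcl := hg'.proj (qf η) (hnn g')
  rw [hgk, proj_mul _ (hnn _) (hnn _), proj_eq_one _ (gprod_c_zero L) hP, one_mul,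
    proj_eq_self hk] at hcl
  obtain ⟨kA, hkA⟩ := KK2a_cast hle k
  obtain ⟨gA, hgA⟩ := KK2a_cast hle g'
  have e1 : g = gA := hg.unique ((hg'.cast hgA).congr fun d _ => hdat d)
  have e2 : g₀ = kA := by
    refine hg₀.unique ((hcl.cast hkA).congr fun d _ => ?_)
    simp only [hdat, qf_apply, Int.cast_eq_zero]
    split_ifs with hd
    · have : sdat h e d = 0 := Finset.sum_eq_zero fun a _ => by
        by_contra hc
        obtain ⟨j, hj, rfl⟩ := gdat_ne_zero hc
        simp [H.ηe, hj] at hd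
      rw [this, zero_add]
    · have a1 : ydat h e d = 0 := Finset.sum_eq_zero fun a _ => by
        by_contra hc
        obtain ⟨j, hj, rfl⟩ := gdat_ne_zero hc
        simp [H.ηe] at hd
      have a2 : ∑ l, gdat 1 (w l) d = 0 := Finset.sum_eq_zero fun a _ => by
        by_contra hc
        obtain ⟨j, hj, rfl⟩ := gdat_ne_zero hc
        simp [H.ηw] at hd
      rw [a1, a2, add_zero]
  rw [e1, e2]
  refine QT.ext (congrFun ?_)
  rw [hgA, hgk]
  refine (KK2a_mul (KK2a_gprod fun p hp => ?_) hkA).symm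
  obtain ⟨a, ha⟩ := hmem p hp
  rw [ha]
  exact ⟨h1 a, H.e_mem a (Nat.zero_le _)⟩

end Crest.Agent.R59
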