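import Crest.Agent.R59.T3

/-! # Row 59, T4: transport between cones (and along form-preserving automorphisms); generated
cones. -/

set_option autoImplicit false

namespace Crest.Agent.R59
open scoped Classical

variable {M : Type} [AddCommGroup M] {ω : Form M} {A A' : Cone M}

/-- `f'` is the transport of `f` along `φ` -/
def Tr (φ : M ≃+ M) (f : QT ω A) (f' : QT ω A') : Prop := ∀ v, f'.c (φ v) = f.c v

theorem exists_tr (φ : M ≃+ M) (f : QT ω A) (h : ∀ v, f.c v ≠ 0 → φ v ∈ A'.C) :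
    ∃ f' : QT ω A', Tr φ f f' := by
  refine ⟨QT.mk ω A' (fun u => f.c (φ.symm u)) fun u hu => ?_, fun v => by simp⟩
  simpa using h _ hu

theorem Tr.unique {φ : M ≃+ M} {f : QT ω A} {f' f'' : QT ω A'} (h : Tr φ f f') (h' : Tr φ f f'') :
    f' = f'' := by
  ext1 u
  rw [← φ.apply_symm_apply u, h, h']

theorem tr_one (φ : M ≃+ M) : Tr φ (1 : QT ω A) (1 : QT ω A') := by
  intro v
  simp [QT.one_c]

/-- `finsum_comp_equiv` -/
theorem Tr.mul {φ : M ≃+ M} (hφ : ∀ u v, ω.w (φ u) (φ v) = ω.w u v) {f g : QT ω A}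
    {f' g' : QT ω A'} (hf : Tr φ f f') (hg : Tr φ g g') : Tr φ (f * g) (f' * g') := by
  intro d
  rw [QT.mul_c, QT.mul_c, ← finsum_comp_equiv φ.toEquiv]
  refine finsum_congr fun u => ?_
  rw [AddEquiv.toEquiv_eq_coe, AddEquiv.coe_toEquiv, ← map_sub φ, hφ, hf, hg]

theorem T4_zero {φ : M ≃+ M} {f : QT ω A} {f' : QT ω A'} (hf : Tr φ f f') : f'.c 0 = f.c 0 := by
  rw [← hf 0, map_zero]

theorem T4_supp {φ : M ≃+ M} {f : QT ω A} {f' : QT ω A'} (hf : Tr φ f f') :
    Supp f (A'.C.comap φ : AddSubmonoid M) := fun u hu => f'.supp (by rwa [hf])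

theorem T4_supp' {φ : M ≃+ M} {f : QT ω A} {f' : QT ω A'} (hf : Tr φ f f') {N N' : Set M}
    (h : Supp f N) (hN : ∀ v ∈ N, φ v ∈ N') : Supp f' N' := fun u hu => by
  rw [← φ.apply_symm_apply u] at hu ⊢
  exact hN _ (h _ (by rwa [hf] at hu))

/-- `inv f` is supported in the submonoid `A.C ⊓ comap φ A'.C` -/
theorem Tr.inv {φ : M ≃+ M} (hφ : ∀ u v, ω.w (φ u) (φ v) = ω.w u v) {f : QT ω A}
    {f' : QT ω A'} (h0 : f.c 0 = 1) (hf : Tr φ f f') : Tr φ (inv f) (inv f') := by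
  obtain ⟨g', hg⟩ := exists_tr (A' := A') φ (R59.inv f) ((T4_supp hf).inv h0)
  have h1 := hf.mul hφ hg
  rw [mul_inv_self h0] at h1
  rwa [inv_eq_of_mul ((T4_zero hf).trans h0) (h1.unique (tr_one φ))]

theorem Tr.gzero {φ : M ≃+ M} (hφ : ∀ u v, ω.w (φ u) (φ v) = ω.w u v) {f : QT ω A}
    {f' : QT ω A'} (h0 : f.c 0 = 1) (hf : Tr φ f f') {θ θ' : M →+ ℚ}
    (hθ : ∀ v, θ' (φ v) = θ v) :
    Tr φ (gneg θ f) (gneg θ' f') ∧ Tr φ (gzero θ f) (gzero θ' f') := by
  obtain ⟨a, ha⟩ := exists_tr (A' := A') φ (gneg θ f) ((T4_supp hf).gneg h0 θ)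
  obtain ⟨b, hb⟩ := exists_tr (A' := A') φ (gnn θ f) ((T4_supp hf).gnn h0 θ)
  have h1 := ha.mul hφ hb
  rw [gneg_mul_gnn θ h0] at h1
  have h2 : IsFac θ' f' a b := ⟨(T4_zero ha).trans (gneg_c_zero θ h0),
    (T4_zero hb).trans (gnn_c_zero θ h0),
    T4_supp' ha (supp_gneg θ h0) fun v hv => (mem_negM.1 hv).imp (fun h => by rw [h, map_zero])
      fun h => by rwa [hθ],
    T4_supp' hb (supp_gnn θ h0) fun v hv => mem_nnM.2 (by rw [hθ]; exact hv), hf.unique h1⟩
  obtain ⟨h3, -, h4⟩ := h2.eq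
  rw [h3, h4]
  refine ⟨ha, fun v => ?_⟩
  rw [R59.gzero, proj_c, proj_c, hb]
  simp only [SetLike.mem_coe, mem_zeroM, hθ]

/-- use `lam_eq` on both sides, with `ℓ = A.deg` and `ℓ' = A.deg ∘ φ⁻¹` when `d ∈ A.C`;
when `d ∉ A.C` both sides vanish (`attr_eq_zero`) -/
theorem Tr.attr {φ : M ≃+ M} (hφ : ∀ u v, ω.w (φ u) (φ v) = ω.w u v) {f : QT ω A}
    {f' : QT ω A'} (h0 : f.c 0 = 1) (hf : Tr φ f f') {d : M} (hd : d ≠ 0) :
    attr f' (φ d) = attr f d := by
  have h0' := (T4_zero hf).trans h0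
  by_cases hC : d ∈ A.C
  · have h1 := (hf.gzero hφ h0 (θ := th ω d) (θ' := th ω (φ d)) fun v => by
      rw [th_apply, th_apply, hφ]).2
    have h2 := lam_eq (gzero_c_zero _ h0') (supp_gzero (th ω (φ d)) f')
      (A.deg.comp φ.symm.toAddMonoidHom)
    have h3 := lam_eq (gzero_c_zero _ h0) (supp_gzero (th ω d) f) A.deg
    have h4 : Tr φ (der A.deg (R59.gzero (th ω d) f))
        (der (A.deg.comp φ.symm.toAddMonoidHom) (R59.gzero (th ω (φ d)) f')) := fun v => by
      rw [der_c, der_c, h1]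
      simp
    rw [((h1.inv hφ (gzero_c_zero _ h0)).mul hφ h4) d, ← h3] at h2
    have h5 : (A.deg.comp φ.symm.toAddMonoidHom) (φ d) = A.deg d := by simp
    rw [h5] at h2
    have : CharZero K := algebraRat.charZero K
    exact mul_left_cancel₀ (Int.cast_ne_zero.2 (A.pos d hC hd).ne') h2
  · rw [attr_eq_zero h0 (supp_cone f) hC, attr_eq_zero h0' (N := A.C.comap φ.symm)
      (T4_supp' hf (supp_cone f) fun v hv => by simpa using hv) (by simpa using hC)]

theorem IsCl.cast {dat : M → K} {g : QT ω A} {g' : QT ω A'} (h : IsCl dat g)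
    (hg : g'.c = g.c) : IsCl dat g' := by
  have h1 : Tr (AddEquiv.refl M) g g' := fun v => congrFun hg v
  exact ⟨(T4_zero h1).trans h.1, fun d hd =>
    (h1.attr (fun _ _ => rfl) h.1 hd).trans (h.2 d hd)⟩

/-- the cone generated by a finite family of vectors of positive degree -/
theorem closure_fin {J : Type} [Fintype J] (v : J → M) (deg : M →+ ℤ) (h : ∀ j, 0 < deg (v j))
    (k : ℤ) : {u | u ∈ AddSubmonoid.closure (Set.range v) ∧ deg u ≤ k}.Finite := by
  refine ((Set.Finite.pi' (t := fun _ : J => Set.Iic k.toNat) fun _ => Set.finite_Iic _).image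
    fun a : J → ℕ => ∑ j, a j • v j).subset ?_
  rintro u ⟨hu, hk⟩
  obtain ⟨a, rfl⟩ := AddSubmonoid.mem_closure_range_iff_of_fintype.1 hu
  refine ⟨a, fun j => ?_, rfl⟩
  rw [map_sum] at hk
  have h1 := (Finset.single_le_sum (f := fun j => deg (a j • v j)) (fun j _ => by
    rw [map_nsmul]
    exact nsmul_nonneg (h j).le _) (Finset.mem_univ j)).trans hk
  rw [map_nsmul, nsmul_eq_mul] at h1
  have h2 : (a j : ℤ) * 1 ≤ a j * deg (v j) := mul_le_mul_of_nonneg_left (h j) (by positivity)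
  rw [Set.mem_Iic]
  omega

theorem closure_pos {J : Type} (v : J → M) (deg : M →+ ℤ) (h : ∀ j, 0 < deg (v j)) :
    ∀ u ∈ AddSubmonoid.closure (Set.range v), u ≠ 0 → 0 < deg u := by
  intro u hu
  induction hu using AddSubmonoid.closure_induction with
  | mem x hx =>
    obtain ⟨j, rfl⟩ := hx
    exact fun _ => h j
  | zero => exact fun h0 => absurd rfl h0
  | add x y _ _ hx hy =>
    intro hxy
    rw [map_add]
    by_cases h1 : x = 0
    · simpa [h1] using hy (by simpa [h1] using hxy)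
    · by_cases h2 : y = 0
      · simpa [h2] using hx h1
      · exact add_pos (hx h1) (hy h2)

/-- generated cone -/
def Cone.gen {J : Type} [Fintype J] (v : J → M) (deg : M →+ ℤ) (h : ∀ j, 0 < deg (v j)) :
    Cone M where
  C := AddSubmonoid.closure (Set.range v)
  deg := deg
  pos := closure_pos v deg h
  fin := closure_fin v deg h

end Crest.Agent.R59
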