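import Crest.Agent.R59.G2
import Crest.Agent.R59.T4

/-! # Row 59, Mut1: mutation, part 1 (supports).
`g` has data `Ψ(y)` and `Ψ(v j)`; `p(w) = ω y w`; shear `S w = w + p(w) y`.
`a = g_-^{θ_y}` (supported in `p > 0`), `b = Ψ(y)⁻¹ g_≥^{θ_y}` (supported in `p ≤ 0`),
so `g = a Ψ b`, `h := Ψ⁻¹ g = Adi Ψ a * b`, `h~ := g Ψ⁻¹ = a * Ad Ψ b`. -/

set_option autoImplicit false

namespace Crest.Agent.R59
noncomputable section
open scoped Classical

variable {M : Type} [AddCommGroup M] {ω : Form M} {A A' : Cone M}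

/-- the shear `w ↦ w + ω(y, w) y` -/
def shear (ω : Form M) (y : M) : M ≃+ M where
  toFun w := w + ω.w y w • y
  invFun w := w - ω.w y w • y
  left_inv w := by simp [ω.alt]
  right_inv w := by simp [ω.alt]
  map_add' u v := by simp only [map_add, add_smul]; abel

theorem shear_apply (y w : M) : shear ω y w = w + ω.w y w • y := rfl

theorem shear_form (y u v : M) : ω.w (shear ω y u) (shear ω y v) = ω.w u v := by
  simp only [shear_apply, map_add, AddMonoidHom.add_apply, map_zsmul, AddMonoidHom.smul_apply,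
    ω.alt, smul_eq_mul, ω.skew u y]
  ring

/-- mutated vector -/
def mutv (ω : Form M) (y w : M) : M := w + (ω.w y w).toNat • y

/-- hypotheses of the mutation lemma -/
structure MutH (ω : Form M) (A A' : Cone M) {J : Type} [Fintype J] (y : M) (v : J → M)
    (η : M →+ ℤ) (g : QT ω A) : Prop where
  hy : y ∈ A.C
  hy0 : y ≠ 0
  hy' : -y ∈ A'.C
  hv : ∀ j, v j ∈ A.C
  hv' : ∀ j, mutv ω y (v j) ∈ A'.C
  ηy : η y = 0
  ηv : ∀ j, 0 < η (v j)
  ηA : ∀ u ∈ A.C, 0 ≤ η u
  ηA' : ∀ u ∈ A'.C, 0 ≤ η u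
  cl : IsCl (fun d => gdat 1 y d + ∑ j, gdat 1 (v j) d) g

variable {J : Type} [Fintype J] {y : M} {v : J → M} {η : M →+ ℤ} {g : QT ω A}

theorem mut1_mul_c_right {a b : QT ω A} {d : M} (ha : a.c 0 = 1)
    (h : ∀ u, u ≠ 0 → a.c u ≠ 0 → b.c (d - u) ≠ 0 → False) : (a * b).c d = b.c d := by
  rw [QT.mul_c, finsum_eq_single _ 0]
  · simp [ha]
  · intro u hu
    by_cases h1 : a.c u = 0
    · simp [h1]
    · by_cases h2 : b.c (d - u) = 0
      · simp [h2]
      · exact (h u hu h1 h2).elim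

theorem mut1_mul_c_left {a b : QT ω A} {d : M} (hb : b.c 0 = 1)
    (h : ∀ u, u ≠ d → a.c u ≠ 0 → b.c (d - u) ≠ 0 → False) : (a * b).c d = a.c d := by
  rw [QT.mul_c, finsum_eq_single _ d]
  · simp [hb]
  · intro u hu
    by_cases h1 : a.c u = 0
    · simp [h1]
    · by_cases h2 : b.c (d - u) = 0
      · simp [h2]
      · exact (h u hu h1 h2).elim

theorem mut1_supp_pos {θ : M →+ ℚ} {f : QT ω A} (hf : Supp f (nnM θ))
    (h : proj (zeroM θ) f = 1) : Supp f (posM θ) := by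
  intro u hu
  refine mem_posM.2 ?_
  by_cases h0 : u = 0
  · exact Or.inl h0
  · right
    refine lt_of_le_of_ne (hf u hu) fun h1 => hu ?_
    have := congrArg (fun f : QT ω A => f.c u) h
    simp only [proj_c, QT.one_c, h0, if_false] at this
    rwa [if_pos (show u ∈ (zeroM θ : Set M) from h1.symm)] at this

theorem MutH.nn (H : MutH ω A A' y v η g) (f : QT ω A) : Supp f (nnM (qf η)) := by
  intro u hu
  have := H.ηA u (f.supp hu)
  show (0 : ℚ) ≤ ((η u : ℤ) : ℚ)
  exact_mod_cast this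

theorem MutH.gdat_y (H : MutH ω A A' y v η g) {d : M} (hd : η d ≠ 0) : gdat 1 y d = 0 := by
  by_contra h
  obtain ⟨j, -, rfl⟩ := gdat_ne_zero h
  simp [H.ηy] at hd

theorem MutH.gdat_v (H : MutH ω A A' y v η g) {d : M} (hd : η d = 0) :
    ∑ j, gdat 1 (v j) d = 0 := by
  refine Finset.sum_eq_zero fun j _ => ?_
  by_contra h
  obtain ⟨k, hk, rfl⟩ := gdat_ne_zero h
  have := H.ηv j
  rw [map_nsmul, nsmul_eq_mul] at hd
  rcases mul_eq_zero.1 hd with h1 | h1
  · exact hk (by exact_mod_cast h1)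
  · omega

/-- `IsCl.proj`, `isCl_gen`, `IsCl.unique` -/
theorem MutH.proj_eq (H : MutH ω A A' y v η g) : proj (zeroM (qf η)) g = gen ω A 1 y := by
  refine IsCl.unique ((H.cl.proj (qf η) (H.nn g)).congr fun d _ => ?_) (isCl_gen H.hy H.hy0 1)
  by_cases h : η d = 0
  · simp [h, H.gdat_v h]
  · have : ¬ qf η d = 0 := by simpa using h
    simp only [this, if_false, H.gdat_y h]

theorem MutH.proj_psi (H : MutH ω A A' y v η g) :
    proj (zeroM (qf η)) (gen ω A 1 y) = gen ω A 1 y :=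
  proj_eq_self (supp_gen 1 (show y ∈ zeroM (qf η) by simp [mem_zeroM, H.ηy]))

theorem mut1_psi_zero (y : M) : Supp (gen ω A 1 y) (zeroM (th ω y)) :=
  supp_gen 1 (show y ∈ zeroM (th ω y) by simp [mem_zeroM, ω.alt])

theorem mut1_psi_nn (y : M) : Supp (gen ω A 1 y) (nnM (th ω y)) :=
  supp_gen 1 (show y ∈ nnM (th ω y) by simp [mem_nnM, ω.alt])

/-- all four elements are `1 +` terms of positive `η`-degree (`fac_proj`, `proj_mul`,
`proj_inv`) -/
theorem MutH.supp_pos (H : MutH ω A A' y v η g) :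
    Supp (gneg (th ω y) g) (posM (qf η)) ∧
    Supp (inv (gen ω A 1 y) * gnn (th ω y) g) (posM (qf η)) ∧
    Supp (inv (gen ω A 1 y) * g) (posM (qf η)) ∧
    Supp (g * inv (gen ω A 1 y)) (posM (qf η)) := by
  have h0 := H.cl.1
  have hp0 : (gen ω A 1 y).c 0 = 1 := gen_c_zero 1 y
  have hf := fac_proj (th ω y) (qf η) h0 (H.nn g)
  rw [H.proj_eq] at hf
  have hfac : IsFac (th ω y) (gen ω A 1 y) 1 (gen ω A 1 y) :=
    ⟨one_c_zero, hp0, supp_one _, mut1_psi_nn y, (one_mul _).symm⟩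
  have hi : proj (zeroM (qf η)) (inv (gen ω A 1 y)) = inv (gen ω A 1 y) := by
    rw [proj_inv _ hp0 (H.nn _), H.proj_psi]
  refine ⟨mut1_supp_pos (H.nn _) ?_, mut1_supp_pos (H.nn _) ?_, mut1_supp_pos (H.nn _) ?_,
    mut1_supp_pos (H.nn _) ?_⟩
  · rw [← hf.1, hfac.eq.1]
  · rw [proj_mul _ (H.nn _) (H.nn _), hi, ← hf.2.1, hfac.eq.2.1, inv_mul_self hp0]
  · rw [proj_mul _ (H.nn _) (H.nn _), hi, H.proj_eq, inv_mul_self hp0]
  · rw [proj_mul _ (H.nn _) (H.nn _), hi, H.proj_eq, mul_inv_self hp0]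

/-- `fac_neg_mul` if `p d < 0`; `gzero_zero_mul` + `lam_mul` + `lam_gen` if `p d = 0` -/
theorem MutH.attr_h (H : MutH ω A A' y v η g) {d : M} (hd : 0 < η d) (hp : ω.w y d ≤ 0) :
    attr (inv (gen ω A 1 y) * g) d = ∑ j, gdat 1 (v j) d := by
  have h0 := H.cl.1
  have hp0 : (gen ω A 1 y).c 0 = 1 := gen_c_zero 1 y
  have hd0 : d ≠ 0 := by rintro rfl; simp at hd
  have hh0 : (inv (gen ω A 1 y) * g).c 0 = 1 := by rw [mul_c_zero, inv_c_zero hp0, h0, one_mul]
  have hg : g = gen ω A 1 y * (inv (gen ω A 1 y) * g) := by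
    rw [← mul_assoc, mul_inv_self hp0, one_mul]
  have e := H.cl.2 d hd0
  simp only [H.gdat_y hd.ne', zero_add] at e
  rw [← e]
  rcases hp.lt_or_eq with hp | hp
  · have hn : Supp (gen ω A 1 y) (negM (th ω d)) :=
      supp_gen 1 (show y ∈ negM (th ω d) from Or.inr (by simpa using hp))
    unfold attr
    conv_rhs => rw [hg, (fac_neg_mul _ hp0 hh0 hn).2]
  · have hz : Supp (gen ω A 1 y) (zeroM (th ω d)) :=
      supp_gen 1 (show y ∈ zeroM (th ω d) by simpa [mem_zeroM] using hp)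
    unfold attr
    conv_rhs => rw [hg, gzero_zero_mul _ hp0 hh0 hz,
      lam_mul hp0 (gzero_c_zero _ hh0) (supp_gzero _ _), lam_gen H.hy H.hy0 1 hd0,
      H.gdat_y hd.ne', zero_add]

/-- `gzero_mul_pos` -/
theorem MutH.attr_ht (H : MutH ω A A' y v η g) {d : M} (hd : 0 < η d) (hp : 0 < ω.w y d) :
    attr (g * inv (gen ω A 1 y)) d = ∑ j, gdat 1 (v j) d := by
  have h0 := H.cl.1
  have hp0 : (gen ω A 1 y).c 0 = 1 := gen_c_zero 1 y
  have hd0 : d ≠ 0 := by rintro rfl; simp at hd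
  have e := H.cl.2 d hd0
  simp only [H.gdat_y hd.ne', zero_add] at e
  rw [← e]
  have hn : Supp (gen ω A 1 y) (posM (th ω d)) :=
    supp_gen 1 (show y ∈ posM (th ω d) from mem_posM.2 (Or.inr (by simpa using hp)))
  unfold attr
  rw [gzero_mul_pos _ (inv_c_zero hp0) h0 (hn.inv hp0)]

theorem mut1_form_sub (y u : M) (j : ℕ) : ω.w y (u - j • y) = ω.w y u := by
  simp [ω.alt]

/-- support of `Adi Ψ a` for `a` supported in `{0} ∪ {p > 0}` -/
theorem mut1_Adi {y : M} (hy : y ∈ A.C) (h0 : y ≠ 0) {a : QT ω A}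
    (ha : ∀ w, a.c w ≠ 0 → 0 ≤ ω.w y w) {u : M} (hu : (Adi (gen ω A 1 y) a).c u ≠ 0) :
    ∃ j : ℕ, (j : ℤ) ≤ ω.w y u ∧ a.c (u - j • y) ≠ 0 := by
  obtain ⟨j, hj⟩ := Adi_gen_c_ne_zero 1 hu
  have hp : 0 ≤ ω.w y u := by simpa [mut1_form_sub] using ha _ hj
  rw [Adi_psi_c hy h0 a (Int.toNat_of_nonneg hp).symm] at hu
  obtain ⟨k, hk, hk'⟩ := Finset.exists_ne_zero_of_sum_ne_zero hu
  refine ⟨k, ?_, right_ne_zero_of_mul hk'⟩
  have := Finset.mem_range.1 hk
  omega

theorem mut1_Ad {y : M} (hy : y ∈ A.C) (h0 : y ≠ 0) {b : QT ω A}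
    (hb : ∀ w, b.c w ≠ 0 → ω.w y w ≤ 0) {u : M} (hu : (Ad (gen ω A 1 y) b).c u ≠ 0) :
    ∃ j : ℕ, (j : ℤ) ≤ -ω.w y u ∧ b.c (u - j • y) ≠ 0 := by
  obtain ⟨j, hj⟩ := Ad_gen_c_ne_zero 1 hu
  have hp : ω.w y u ≤ 0 := by simpa [mut1_form_sub] using hb _ hj
  rw [Ad_psi_c hy h0 b (n := (-ω.w y u).toNat) (by omega)] at hu
  obtain ⟨k, hk, hk'⟩ := Finset.exists_ne_zero_of_sum_ne_zero hu
  refine ⟨k, ?_, right_ne_zero_of_mul hk'⟩
  have := Finset.mem_range.1 hk
  omega

theorem mut1_mem_of_shear {y u : M} (hy' : -y ∈ A'.C) {j : ℕ} (hj : (j : ℤ) ≤ ω.w y u)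
    (h : shear ω y (u - j • y) ∈ A'.C) : u ∈ A'.C := by
  have e : u = shear ω y (u - j • y) + (ω.w y u - j).toNat • (-y) := by
    rw [shear_apply, mut1_form_sub, ← natCast_zsmul (-y), Int.toNat_of_nonneg (by omega),
      ← natCast_zsmul y]
    simp only [smul_neg, sub_smul]
    abel
  rw [e]
  exact A'.C.add_mem h (A'.C.nsmul_mem hy' _)

theorem mut1_shear_mem {y u : M} (hy' : -y ∈ A'.C) {j : ℕ} (hj : (j : ℤ) ≤ -ω.w y u)
    (h : u - j • y ∈ A'.C) : shear ω y u ∈ A'.C := by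
  have e : shear ω y u = (u - j • y) + (-ω.w y u - j).toNat • (-y) := by
    rw [shear_apply, ← natCast_zsmul (-y), Int.toNat_of_nonneg (by omega), ← natCast_zsmul y]
    simp only [smul_neg, sub_smul, neg_smul]
    abel
  rw [e]
  exact A'.C.add_mem h (A'.C.nsmul_mem hy' _)

theorem mut1_a_sign (y : M) {g : QT ω A} (h0 : g.c 0 = 1) {w : M}
    (hw : (gneg (th ω y) g).c w ≠ 0) : w = 0 ∨ 0 < ω.w y w := by
  rcases supp_gneg _ h0 w hw with h | h
  · exact Or.inl h
  · right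
    have : ω.w w y < 0 := by simpa using h
    rw [ω.skew]; omega

theorem mut1_b_sign (y : M) {g : QT ω A} (h0 : g.c 0 = 1) {w : M}
    (hw : (inv (gen ω A 1 y) * gnn (th ω y) g).c w ≠ 0) : ω.w y w ≤ 0 := by
  have h := (((mut1_psi_nn y).inv (gen_c_zero 1 y)).mul (supp_gnn _ h0)) w hw
  have : 0 ≤ ω.w w y := by simpa [mem_nnM] using h
  rw [ω.skew]; omega

theorem mut1_h_eq (y : M) {g : QT ω A} (h0 : g.c 0 = 1) :
    inv (gen ω A 1 y) * g =
      Adi (gen ω A 1 y) (gneg (th ω y) g) * (inv (gen ω A 1 y) * gnn (th ω y) g) := by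
  have hp0 : (gen ω A 1 y).c 0 = 1 := gen_c_zero 1 y
  unfold Adi
  rw [mul_assoc, mul_assoc, ← mul_assoc (gen ω A 1 y), mul_inv_self hp0, one_mul,
    gneg_mul_gnn _ h0]

theorem mut1_ht_eq (y : M) {g : QT ω A} (h0 : g.c 0 = 1) :
    g * inv (gen ω A 1 y) =
      gneg (th ω y) g * Ad (gen ω A 1 y) (inv (gen ω A 1 y) * gnn (th ω y) g) := by
  have hp0 : (gen ω A 1 y).c 0 = 1 := gen_c_zero 1 y
  unfold Ad
  rw [← mul_assoc (gen ω A 1 y), mul_inv_self hp0, one_mul, ← mul_assoc, gneg_mul_gnn _ h0]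

theorem mut1_pos {η : M →+ ℤ} {f : QT ω A} (h : Supp f (posM (qf η))) {u : M} (hu : f.c u ≠ 0) :
    u = 0 ∨ 0 < η u := by
  rcases mem_posM.1 (h u hu) with h1 | h1
  · exact Or.inl h1
  · exact Or.inr (by simpa using h1)

theorem MutH.supp_ind (H : MutH ω A A' y v η g) (D : ℕ) : ∀ u, η u < D →
    ((gneg (th ω y) g).c u ≠ 0 → shear ω y u ∈ A'.C) ∧
    ((inv (gen ω A 1 y) * gnn (th ω y) g).c u ≠ 0 → u ∈ A'.C) := by
  have h0 := H.cl.1
  have hp0 : (gen ω A 1 y).c 0 = 1 := gen_c_zero 1 y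
  obtain ⟨pa, pb, ph, pht⟩ := H.supp_pos
  set a := gneg (th ω y) g with ha
  set b := inv (gen ω A 1 y) * gnn (th ω y) g with hb
  have a0 : a.c 0 = 1 := gneg_c_zero _ h0
  have b0 : b.c 0 = 1 := by rw [hb, mul_c_zero, inv_c_zero hp0, gnn_c_zero _ h0, one_mul]
  have sa : ∀ w, a.c w ≠ 0 → w = 0 ∨ 0 < ω.w y w := fun w hw => mut1_a_sign y h0 hw
  have sa' : ∀ w, a.c w ≠ 0 → 0 ≤ ω.w y w := by
    intro w hw; rcases sa w hw with rfl | h
    · simp
    · exact h.le
  have sb : ∀ w, b.c w ≠ 0 → ω.w y w ≤ 0 := fun w hw => mut1_b_sign y h0 hw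
  have ηs : ∀ u (j : ℕ), η (u - j • y) = η u := by intro u j; simp [H.ηy]
  induction D with
  | zero =>
    intro u hu
    constructor
    · intro h; have := H.ηA u (a.supp h); omega
    · intro h; have := H.ηA u (b.supp h); omega
  | succ D ih =>
    have ih1 : ∀ u, η u < D → (Adi (gen ω A 1 y) a).c u ≠ 0 → u ∈ A'.C := by
      intro u hu h
      obtain ⟨j, hj, hj'⟩ := mut1_Adi H.hy H.hy0 sa' h
      exact mut1_mem_of_shear H.hy' hj ((ih _ (by rw [ηs]; exact hu)).1 hj')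
    have ih2 : ∀ u, η u < D → (Ad (gen ω A 1 y) b).c u ≠ 0 → shear ω y u ∈ A'.C := by
      intro u hu h
      obtain ⟨j, hj, hj'⟩ := mut1_Ad H.hy H.hy0 sb h
      exact mut1_shear_mem H.hy' hj ((ih _ (by rw [ηs]; exact hu)).2 hj')
    intro d hd
    by_cases hlt : η d < D
    · exact ih d hlt
    have hD : η d = D := by push_cast at hd; omega
    by_cases hd0 : d = 0
    · subst hd0
      exact ⟨fun _ => by simpa using A'.C.zero_mem, fun _ => A'.C.zero_mem⟩
    constructor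
    · intro had
      by_contra hN
      have hdp : 0 < η d := (mut1_pos pa had).resolve_left hd0
      have hpd : 0 < ω.w y d := (sa d had).resolve_left hd0
      have c0 : (Ad (gen ω A 1 y) b).c 0 = 1 := by
        unfold Ad; rw [mul_c_zero, mul_c_zero, hp0, b0, inv_c_zero hp0]; simp
      have e1 : (g * inv (gen ω A 1 y)).c d = a.c d := by
        rw [mut1_ht_eq y h0]
        refine mut1_mul_c_left c0 fun u hud h1 h2 => ?_
        have n1 := H.ηA u (a.supp h1)
        have n2 := H.ηA _ ((Ad (gen ω A 1 y) b).supp h2)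
        rw [map_sub] at n2
        obtain ⟨j, hj, hj'⟩ := mut1_Ad H.hy H.hy0 sb h2
        rcases mut1_pos pa h1 with rfl | hu
        · rw [sub_zero] at hj; omega
        · by_cases hu' : η u < D
          · apply hN
            have := A'.C.add_mem ((ih u hu').1 h1) (ih2 _ (by rw [map_sub]; omega) h2)
            rwa [← map_add, add_sub_cancel] at this
          · rcases mut1_pos pb hj' with h3 | h3
            · have e : d - u = j • y := sub_eq_zero.1 h3
              rw [e, map_nsmul, ω.alt] at hj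
              have : j = 0 := by simpa using hj
              subst this
              exact hud (sub_eq_zero.1 (by simpa using e)).symm
            · rw [ηs, map_sub] at h3; omega
      have e2 := attr_eq_c η H.ηA
        (show (g * inv (gen ω A 1 y)).c 0 = 1 by rw [mul_c_zero, h0, inv_c_zero hp0, one_mul]) pht
        (N := A'.C.comap (shear ω y).toAddMonoidHom) hdp hN (by
          intro u hu h
          rw [mut1_ht_eq y h0] at h
          obtain ⟨u₁, u₂, rfl, h1, h2⟩ := mul_c_ne_zero h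
          have n1 := H.ηA _ (QT.supp _ h1)
          have n2 := H.ηA _ (QT.supp _ h2)
          rw [map_add] at hu
          exact AddSubmonoid.add_mem _ ((ih u₁ (by omega)).1 h1) (ih2 u₂ (by omega) h2))
      rw [H.attr_ht hdp hpd, e1] at e2
      obtain ⟨j, -, hj⟩ := Finset.exists_ne_zero_of_sum_ne_zero (e2 ▸ had)
      obtain ⟨k, hk, rfl⟩ := gdat_ne_zero hj
      apply hN
      rw [map_nsmul]
      refine A'.C.nsmul_mem ?_ k
      have hv := H.hv' j
      rw [map_nsmul, nsmul_eq_mul] at hpd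
      have hp : 0 ≤ ω.w y (v j) := by
        by_contra hc
        have : (k : ℤ) * ω.w y (v j) ≤ 0 :=
          mul_nonpos_of_nonneg_of_nonpos (by positivity) (by omega)
        omega
      rwa [mutv, ← natCast_zsmul, Int.toNat_of_nonneg hp] at hv
    · intro hbd
      by_contra hN
      have hdp : 0 < η d := (mut1_pos pb hbd).resolve_left hd0
      have hpd : ω.w y d ≤ 0 := sb d hbd
      have c0 : (Adi (gen ω A 1 y) a).c 0 = 1 := by
        unfold Adi; rw [mul_c_zero, mul_c_zero, hp0, a0, inv_c_zero hp0]; simp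
      have e1 : (inv (gen ω A 1 y) * g).c d = b.c d := by
        rw [mut1_h_eq y h0]
        refine mut1_mul_c_right c0 fun u hu0 h1 h2 => ?_
        have n2 := H.ηA _ (b.supp h2)
        rw [map_sub] at n2
        obtain ⟨j, hj, hj'⟩ := mut1_Adi H.hy H.hy0 sa' h1
        have hu : 0 < η u := by
          rcases mut1_pos pa hj' with h3 | h3
          · have e : u = j • y := sub_eq_zero.1 h3
            rw [e, map_nsmul, ω.alt] at hj
            have : j = 0 := by simpa using hj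
            subst this
            exact (hu0 (by simpa using e)).elim
          · rwa [ηs] at h3
        by_cases hu' : η u < D
        · apply hN
          have := A'.C.add_mem (ih1 u hu' h1) ((ih _ (by rw [map_sub]; omega)).2 h2)
          rwa [add_sub_cancel] at this
        · rcases mut1_pos pb h2 with h3 | h3
          · have e : d = u := sub_eq_zero.1 h3
            subst e
            have : j = 0 := by omega
            subst this
            rcases sa _ hj' with h4 | h4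
            · exact hd0 (by simpa using h4)
            · rw [mut1_form_sub] at h4; omega
          · rw [map_sub] at h3; omega
      have e2 := attr_eq_c η H.ηA
        (show (inv (gen ω A 1 y) * g).c 0 = 1 by rw [mul_c_zero, h0, inv_c_zero hp0, one_mul]) ph
        (N := A'.C) hdp hN (by
          intro u hu h
          rw [mut1_h_eq y h0] at h
          obtain ⟨u₁, u₂, rfl, h1, h2⟩ := mul_c_ne_zero h
          have n1 := H.ηA _ (QT.supp _ h1)
          have n2 := H.ηA _ (QT.supp _ h2)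
          rw [map_add] at hu
          exact AddSubmonoid.add_mem _ (ih1 u₁ (by omega) h1) ((ih u₂ (by omega)).2 h2))
      rw [H.attr_h hdp hpd, e1] at e2
      obtain ⟨j, -, hj⟩ := Finset.exists_ne_zero_of_sum_ne_zero (e2 ▸ hbd)
      obtain ⟨k, hk, rfl⟩ := gdat_ne_zero hj
      apply hN
      refine A'.C.nsmul_mem ?_ k
      have hv := H.hv' j
      rw [map_nsmul, nsmul_eq_mul] at hpd
      have hp : ω.w y (v j) ≤ 0 := by
        by_contra hc
        have : 0 < (k : ℤ) * ω.w y (v j) := mul_pos (by positivity) (by omega)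
        omega
      rwa [mutv, Int.toNat_eq_zero.2 hp, zero_smul, add_zero] at hv

/-- Induction on `η` (`supp_ind`).  Let `C_h = A.C ⊓ A'.C`, `C~ = A.C ⊓ comap S A'.C`. -/
theorem MutH.supp_ab (H : MutH ω A A' y v η g) :
    Supp (gneg (th ω y) g) {w | shear ω y w ∈ A'.C} ∧
    Supp (inv (gen ω A 1 y) * gnn (th ω y) g) A'.C ∧
    Supp (Adi (gen ω A 1 y) (gneg (th ω y) g)) A'.C ∧
    Supp (Ad (gen ω A 1 y) (inv (gen ω A 1 y) * gnn (th ω y) g)) {w | shear ω y w ∈ A'.C} := by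
  have h0 := H.cl.1
  have key := fun u => H.supp_ind ((η u).toNat + 1) u (by push_cast; omega)
  refine ⟨fun u hu => (key u).1 hu, fun u hu => (key u).2 hu, fun u hu => ?_, fun u hu => ?_⟩
  · obtain ⟨j, hj, hj'⟩ := mut1_Adi H.hy H.hy0 (fun w hw => by
      rcases mut1_a_sign y h0 hw with rfl | h
      · simp
      · exact h.le) hu
    exact mut1_mem_of_shear H.hy' hj ((key _).1 hj')
  · obtain ⟨j, hj, hj'⟩ := mut1_Ad H.hy H.hy0 (fun w hw => mut1_b_sign y h0 hw) hu
    exact mut1_shear_mem H.hy' hj ((key _).2 hj')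

end
end Crest.Agent.R59
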