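import Crest.Agent.R59.Mut1

/-! # Row 59, Mut2: the mutation lemma `g_s = Ψ(y) h`, `g_{μ s} = h Ψ(-y)`. -/

set_option autoImplicit false

namespace Crest.Agent.R59
open scoped Classical

variable {M : Type} [AddCommGroup M] {ω : Form M} {A A' : Cone M}
variable {J : Type} [Fintype J] {y : M} {v : J → M} {η : M →+ ℤ} {g : QT ω A}

theorem mut2_p_shear (y w : M) : ω.w y (shear ω y w) = ω.w y w := by
  simp [shear_apply, ω.alt]

theorem mut2_p_mutv (y w : M) : ω.w y (mutv ω y w) = ω.w y w := by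
  simp [mutv, ω.alt]

theorem mut2_p_sub (y w : M) (j : ℕ) : ω.w y (w - j • y) = ω.w y w := by
  simp [ω.alt]

theorem mut2_supp_a (y : M) {g : QT ω A} (h0 : g.c 0 = 1) {w : M}
    (h : (gneg (th ω y) g).c w ≠ 0) : 0 ≤ ω.w y w := by
  rcases mem_negM.1 (supp_gneg (th ω y) h0 w h) with h1 | h1
  · simp [h1]
  · rw [th_apply, ω.skew w y] at h1
    have : (-(ω.w y w) : ℤ) < 0 := by exact_mod_cast h1
    omega

theorem mut2_supp_b (y : M) {g : QT ω A} (h0 : g.c 0 = 1) {w : M}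
    (h : (inv (gen ω A 1 y) * gnn (th ω y) g).c w ≠ 0) : ω.w y w ≤ 0 := by
  have h1 : Supp (gen ω A 1 y) (nnM (th ω y)) := supp_gen 1 (by simp [mem_nnM, ω.alt])
  have h2 := ((h1.inv (gen_c_zero 1 y)).mul (supp_gnn (th ω y) h0)) w h
  have h3 : 0 ≤ th ω y w := h2
  rw [th_apply, ω.skew w y] at h3
  have : (0 : ℤ) ≤ -(ω.w y w) := by exact_mod_cast h3
  omega

theorem mut2_h_eq (y : M) {g : QT ω A} (h0 : g.c 0 = 1) :
    inv (gen ω A 1 y) * g =
      Adi (gen ω A 1 y) (gneg (th ω y) g) * (inv (gen ω A 1 y) * gnn (th ω y) g) := by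
  unfold Adi
  rw [mul_assoc, mul_assoc, ← mul_assoc (gen ω A 1 y), mul_inv_self (gen_c_zero 1 y), one_mul,
    gneg_mul_gnn _ h0]

theorem mut2_ht_eq (y : M) {g : QT ω A} (h0 : g.c 0 = 1) :
    g * inv (gen ω A 1 y) =
      gneg (th ω y) g * Ad (gen ω A 1 y) (inv (gen ω A 1 y) * gnn (th ω y) g) := by
  unfold Ad
  rw [← mul_assoc (gen ω A 1 y), mul_inv_self (gen_c_zero 1 y), one_mul, ← mul_assoc,
    gneg_mul_gnn _ h0]

theorem mut2_reflect (n : ℕ) (F : ℕ → K) :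
    ∑ j ∈ Finset.range (n + 1), beta n j * F (n - j) =
      ∑ j ∈ Finset.range (n + 1), beta n j * F j := by
  rw [← Finset.sum_range_reflect]
  refine Finset.sum_congr rfl fun j hj => ?_
  have hj' : j ≤ n := Nat.lt_succ_iff.1 (Finset.mem_range.1 hj)
  have e1 : n + 1 - 1 - j = n - j := by omega
  have e2 : n - (n - j) = j := by omega
  rw [e1, e2, beta_symm hj']

theorem mut2_claim1 (hy : y ∈ A.C) (hy0 : y ≠ 0) (hy' : -y ∈ A'.C) {a : QT ω A} {aS : QT ω A'}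
    (ha : ∀ w, a.c w ≠ 0 → 0 ≤ ω.w y w) (hS : Tr (shear ω y) a aS) (w : M) :
    (Ad (gen ω A' 1 (-y)) aS).c w = (Adi (gen ω A 1 y) a).c w := by
  rcases le_or_gt 0 (ω.w y w) with hp | hp
  · obtain ⟨n, hn⟩ := Int.eq_ofNat_of_zero_le hp
    rw [Ad_psi_c (n := n) hy' (neg_ne_zero.2 hy0) _ (by simp [hn]), Adi_psi_c hy hy0 _ hn,
      ← mut2_reflect n fun j => a.c (w - j • y)]
    refine Finset.sum_congr rfl fun j hj => ?_
    have hj' : j ≤ n := Nat.lt_succ_iff.1 (Finset.mem_range.1 hj)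
    rw [← hS, shear_apply, mut2_p_sub, hn]
    congr 2
    obtain ⟨k, rfl⟩ := Nat.exists_eq_add_of_le hj'
    simp only [Nat.add_sub_cancel_left, natCast_zsmul, add_nsmul, smul_neg]
    abel
  · have h1 : (Ad (gen ω A' 1 (-y)) aS).c w = 0 := by
      by_contra h
      obtain ⟨j, hj⟩ := Ad_gen_c_ne_zero 1 h
      obtain ⟨u, hu⟩ := (shear ω y).surjective (w - j • (-y))
      rw [← hu, hS] at hj
      have h2 := ha u hj
      rw [← mut2_p_shear, hu] at h2
      simp [ω.alt] at h2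
      omega
    have h2 : (Adi (gen ω A 1 y) a).c w = 0 := by
      by_contra h
      obtain ⟨j, hj⟩ := Adi_gen_c_ne_zero 1 h
      have h2 := ha _ hj
      rw [mut2_p_sub] at h2
      omega
    rw [h1, h2]

theorem mut2_claim2 (hy : y ∈ A.C) (hy0 : y ≠ 0) (hy' : -y ∈ A'.C) {b : QT ω A} {b' : QT ω A'}
    (hb : ∀ w, b.c w ≠ 0 → ω.w y w ≤ 0) (hb' : ∀ w, b'.c w = b.c w) :
    Tr (shear ω y) (Ad (gen ω A 1 y) b) (Adi (gen ω A' 1 (-y)) b') := by
  intro w
  rcases le_or_gt (ω.w y w) 0 with hp | hp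
  · obtain ⟨n, hn⟩ := Int.exists_eq_neg_ofNat hp
    rw [Adi_psi_c (n := n) hy' (neg_ne_zero.2 hy0) _ (by simp [mut2_p_shear, hn]),
      Ad_psi_c hy hy0 _ hn, ← mut2_reflect n fun j => b.c (w - j • y)]
    refine Finset.sum_congr rfl fun j hj => ?_
    have hj' : j ≤ n := Nat.lt_succ_iff.1 (Finset.mem_range.1 hj)
    rw [hb', shear_apply, hn]
    congr 2
    obtain ⟨k, rfl⟩ := Nat.exists_eq_add_of_le hj'
    simp only [Nat.add_sub_cancel_left, neg_smul, natCast_zsmul, add_nsmul, smul_neg]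
    abel
  · have h1 : (Adi (gen ω A' 1 (-y)) b').c (shear ω y w) = 0 := by
      by_contra h
      obtain ⟨j, hj⟩ := Adi_gen_c_ne_zero 1 h
      rw [hb'] at hj
      have h2 := hb _ hj
      simp [ω.alt, mut2_p_shear] at h2
      omega
    have h2 : (Ad (gen ω A 1 y) b).c w = 0 := by
      by_contra h
      obtain ⟨j, hj⟩ := Ad_gen_c_ne_zero 1 h
      have h2 := hb _ hj
      rw [mut2_p_sub] at h2
      omega
    rw [h1, h2]

/-- The shear identity `Adi Ψ(-y) h' = S(h~)`.  Let `a₁ = Adi Ψ a`, let `a₁'`, `b'` be the casts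
to `A'` (`exists_tr` with `AddEquiv.refl`), `h' = a₁' b'`; let `aS`, `cS` be the `shear`-transports
of `a` and `Ad Ψ b`.  `Ad Ψ(-y) aS = a₁'` and `Adi Ψ(-y) b' = cS` coefficientwise by
`Ad_psi_c`, `Adi_psi_c`, `beta_symm` (and both sides vanish on the wrong side of `p` by
`Ad_gen_c_ne_zero`); conclude with `Adi_mul`, `Tr.mul`. -/
theorem MutH.tr_shear (H : MutH ω A A' y v η g) {h' : QT ω A'}
    (hh : h'.c = (inv (gen ω A 1 y) * g).c) :
    Tr (shear ω y) (g * inv (gen ω A 1 y)) (Adi (gen ω A' 1 (-y)) h') := by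
  have h0 : g.c 0 = 1 := H.cl.1
  obtain ⟨s1, s2, s3, s4⟩ := H.supp_ab
  obtain ⟨aS, haS⟩ := exists_tr (A' := A') (shear ω y) _ s1
  obtain ⟨b', hb'⟩ := exists_tr (A' := A') (AddEquiv.refl M) _ s2
  obtain ⟨a', ha'⟩ := exists_tr (A' := A') (AddEquiv.refl M) _ s3
  have e1 : h' = a' * b' := by
    ext1 w
    rw [hh, mut2_h_eq y h0]
    exact (Tr.mul (fun _ _ => rfl) ha' hb' w).symm
  have e2 : Ad (gen ω A' 1 (-y)) aS = a' := by
    ext1 w
    rw [mut2_claim1 H.hy H.hy0 H.hy' (fun w => mut2_supp_a y h0) haS w]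
    exact (ha' w).symm
  rw [e1, Adi_mul (gen_c_zero 1 (-y)), ← e2, Adi_Ad (gen_c_zero 1 (-y)), mut2_ht_eq y h0]
  exact Tr.mul (shear_form y) haS
    (mut2_claim2 H.hy H.hy0 H.hy' (fun w => mut2_supp_b y h0) hb')

theorem mut2_gdat_zero (ℓ : M →+ ℤ) {u d : M} (h : ∀ j : ℕ, j ≠ 0 → ℓ d ≠ j * ℓ u) :
    gdat 1 u d = 0 := by
  by_contra h1
  obtain ⟨j, hj, rfl⟩ := gdat_ne_zero h1
  exact h j hj (by simp)

theorem mut2_gdat_le {d : M} (hp : ω.w y d ≤ 0) (w : M) :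
    gdat 1 w d = gdat 1 (mutv ω y w) d := by
  rcases le_or_gt (ω.w y w) 0 with h | h
  · simp [mutv, Int.toNat_of_nonpos h]
  · have key : ∀ j : ℕ, j ≠ 0 → ω.w y d ≠ j * ω.w y w := fun j hj => by
      have : (0 : ℤ) < j * ω.w y w := mul_pos (by omega) h
      omega
    rw [mut2_gdat_zero (ω.w y) key, mut2_gdat_zero (ω.w y) (by rwa [mut2_p_mutv])]

theorem mut2_gdat_gt {d : M} (hp : 0 < ω.w y d) (w : M) :
    gdat 1 w d = gdat 1 (mutv ω y w) (shear ω y d) := by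
  rcases le_or_gt 0 (ω.w y w) with h | h
  · rw [← gdat_map (shear ω y) 1 w d]
    congr 1
    rw [shear_apply, mutv, ← natCast_zsmul, Int.toNat_of_nonneg h]
  · have key : ∀ j : ℕ, j ≠ 0 → ω.w y d ≠ j * ω.w y w := fun j hj => by
      have : j * ω.w y w < (0 : ℤ) := mul_neg_of_pos_of_neg (by omega) h
      omega
    rw [mut2_gdat_zero (ω.w y) key,
      mut2_gdat_zero (ω.w y) (by rwa [mut2_p_mutv, mut2_p_shear])]

theorem mut2_pos_nn {θ : M →+ ℚ} {f : QT ω A} (h : Supp f (posM θ)) : Supp f (nnM θ) := by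
  refine h.mono fun u hu => ?_
  rcases mem_posM.1 hu with h1 | h1
  · rw [h1]; exact (nnM θ).zero_mem
  · exact h1.le

/-- Cases on `d ≠ 0`: `η d = 0` (`attr_proj`, `isCl_gen`); `η d < 0` (both sides zero);
`η d > 0`, `p d ≤ 0` (`gzero_mul_pos`, or `fac_mul_nn` + `lam_mul` + `lam_gen`; `Tr.attr` with the
identity; `attr_h`); `η d > 0`, `p d > 0` (`h' Ψ' = Ψ' Adi Ψ' h'`, `fac_neg_mul`, `tr_shear`,
`Tr.attr`, `attr_ht`, `gdat_map`). -/
theorem MutH.mutate (H : MutH ω A A' y v η g) :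
    ∃ h' : QT ω A', h'.c = (inv (gen ω A 1 y) * g).c ∧
      IsCl (fun d => gdat 1 (-y) d + ∑ j, gdat 1 (mutv ω y (v j)) d) (h' * gen ω A' 1 (-y)) := by
  have h0 : g.c 0 = 1 := H.cl.1
  have hΨ : (gen ω A 1 y).c 0 = 1 := gen_c_zero 1 y
  have hΨ' : (gen ω A' 1 (-y)).c 0 = 1 := gen_c_zero 1 (-y)
  have hy0' : -y ≠ 0 := neg_ne_zero.2 H.hy0
  have hh0 : (inv (gen ω A 1 y) * g).c 0 = 1 := by rw [mul_c_zero, inv_c_zero hΨ, h0, mul_one]
  have hht0 : (g * inv (gen ω A 1 y)).c 0 = 1 := by rw [mul_c_zero, inv_c_zero hΨ, h0, mul_one]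
  obtain ⟨-, s2, s3, -⟩ := H.supp_ab
  have s5 : Supp (inv (gen ω A 1 y) * g) A'.C := by
    rw [mut2_h_eq y h0]
    exact s3.mul s2
  obtain ⟨h', hh'⟩ := exists_tr (A' := A') (AddEquiv.refl M) _ s5
  have hc : h'.c = (inv (gen ω A 1 y) * g).c := funext hh'
  have h0' : h'.c 0 = 1 := by rw [hc, hh0]
  have hpos : Supp h' (posM (qf η)) := by
    intro u hu
    rw [hc] at hu
    exact H.supp_pos.2.2.1 u hu
  have hall0 : (h' * gen ω A' 1 (-y)).c 0 = 1 := by rw [mul_c_zero, h0', hΨ', mul_one]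
  have hηm : ∀ j, η (mutv ω y (v j)) = η (v j) := fun j => by simp [mutv, H.ηy]
  have hnn : Supp (gen ω A' 1 (-y)) (nnM (qf η)) := supp_gen 1 (by simp [mem_nnM, H.ηy])
  have hzero : Supp (gen ω A' 1 (-y)) (zeroM (qf η)) := supp_gen 1 (by simp [mem_zeroM, H.ηy])
  have hsum : ∀ d, η d ≤ 0 → ∑ j, gdat 1 (mutv ω y (v j)) d = 0 := fun d hd =>
    Finset.sum_eq_zero fun j _ => mut2_gdat_zero η fun k hk => by
      have : (0 : ℤ) < k * η (v j) := mul_pos (by omega) (H.ηv j)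
      rw [hηm]
      omega
  have hy : ∀ d, η d ≠ 0 → gdat 1 (-y) d = 0 := fun d hd =>
    mut2_gdat_zero η fun k _ => by simpa [H.ηy] using hd
  refine ⟨h', hc, hall0, fun d hd => ?_⟩
  show attr _ d = gdat 1 (-y) d + ∑ j, gdat 1 (mutv ω y (v j)) d
  rcases lt_trichotomy (η d) 0 with hη | hη | hη
  · rw [hsum d hη.le, hy d hη.ne, add_zero]
    refine attr_eq_zero hall0 ((mut2_pos_nn hpos).mul hnn) fun h => ?_
    have h1 : (0 : ℚ) ≤ (η d : ℚ) := h
    have : (0 : ℤ) ≤ η d := by exact_mod_cast h1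
    omega
  · rw [hsum d hη.le, add_zero,
      ← attr_proj (qf η) hall0 ((mut2_pos_nn hpos).mul hnn) (by simp [hη]),
      proj_mul (qf η) (mut2_pos_nn hpos) hnn, proj_eq_one (qf η) h0' hpos, one_mul,
      proj_eq_self hzero]
    exact (isCl_gen H.hy' hy0' 1).2 d hd
  · rw [hy d hη.ne', zero_add]
    have hle : ω.w y d ≤ 0 → attr h' d = ∑ j, gdat 1 (mutv ω y (v j)) d := fun hp => by
      have h1 : attr h' d = attr (inv (gen ω A 1 y) * g) d :=
        Tr.attr (φ := AddEquiv.refl M) (fun _ _ => rfl) hh0 hh' hd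
      rw [h1, H.attr_h hη hp]
      exact Finset.sum_congr rfl fun j _ => mut2_gdat_le hp _
    rcases lt_trichotomy (ω.w y d) 0 with hp | hp | hp
    · rw [← hle hp.le]
      unfold attr
      rw [gzero_mul_pos (th ω d) hΨ' h0' (supp_gen 1 (mem_posM.2 (Or.inr (by simpa using hp))))]
    · rw [← hle hp.le]
      have hz : Supp (gen ω A' 1 (-y)) (zeroM (th ω d)) :=
        supp_gen 1 (by simp [mem_zeroM, hp])
      have hz' : Supp (gen ω A' 1 (-y)) (nnM (th ω d)) :=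
        supp_gen 1 (by simp [mem_nnM, hp])
      unfold attr
      rw [(fac_mul_nn (th ω d) hΨ' h0' hz').2, proj_eq_self hz,
        lam_mul (gzero_c_zero _ h0') hΨ' hz, lam_gen H.hy' hy0' 1 hd, hy d hη.ne', add_zero]
    · have e1 : h' * gen ω A' 1 (-y) = gen ω A' 1 (-y) * Adi (gen ω A' 1 (-y)) h' := by
        unfold Adi
        rw [← mul_assoc, ← mul_assoc, mul_inv_self hΨ', one_mul]
      have hX : (Adi (gen ω A' 1 (-y)) h').c 0 = 1 := by
        unfold Adi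
        rw [mul_c_zero, mul_c_zero, inv_c_zero hΨ', h0', hΨ', mul_one, mul_one]
      have hz : Supp (gen ω A' 1 (-y)) (negM (th ω d)) :=
        supp_gen 1 (mem_negM.2 (Or.inr (by simpa using hp)))
      have e2 : attr (h' * gen ω A' 1 (-y)) d = attr (Adi (gen ω A' 1 (-y)) h') d := by
        unfold attr
        rw [e1, (fac_neg_mul (th ω d) hΨ' hX hz).2]
      obtain ⟨d₀, rfl⟩ := (shear ω y).surjective d
      have hd₀ : d₀ ≠ 0 := fun h => hd (by rw [h, map_zero])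
      rw [mut2_p_shear] at hp
      have hη₀ : 0 < η d₀ := by simpa [shear_apply, H.ηy] using hη
      rw [e2, Tr.attr (shear_form y) hht0 (H.tr_shear hc) hd₀, H.attr_ht hη₀ hp]
      exact Finset.sum_congr rfl fun j _ => mut2_gdat_gt hp _

end Crest.Agent.R59
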