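import Crest.Agent.R59.Push
import Crest.Agent.R59.Flow

/-! # Row 59, P1: ordered factorisation in a plane and the crossing of a joint. -/

set_option autoImplicit false

namespace Crest.Agent.R59
noncomputable section
open scoped Classical

variable {M : Type} [AddCommGroup M] {ω : Form M} {A : Cone M}

/-- the slope covector `u ↦ ω(u, d) - ρ deg u` -/
def slopeTh (ω : Form M) (A : Cone M) (d : M) (ρ : ℚ) : M →+ ℚ := th ω d - ρ • qf A.deg

theorem P1_slope (d : M) (ρ : ℚ) (u : M) :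
    slopeTh ω A d ρ u = (ω.w u d : ℚ) - ρ * (A.deg u : ℚ) := by
  simp [slopeTh]

theorem P1_deg {u : M} (hu : u ∈ A.C) (h0 : u ≠ 0) : (0 : ℚ) < A.deg u := by
  exact_mod_cast A.pos u hu h0

theorem P1_pair {N : AddSubmonoid M} {d : M} (hd : 0 < A.deg d)
    (hpl : ∀ u ∈ N, ∀ v ∈ N, A.deg d * ω.w u v = ω.w u d * A.deg v - ω.w v d * A.deg u)
    {ρ : ℚ} {u v : M} (hu : u ∈ N) (hv : v ∈ N) (huC : u ∈ A.C)
    (h1 : slopeTh ω A d ρ u = 0) (h2 : 0 ≤ slopeTh ω A d ρ v) : ω.w u v ≤ 0 := by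
  rw [P1_slope] at h1 h2
  have h3 : (A.deg d : ℚ) * ω.w u v = ω.w u d * A.deg v - ω.w v d * A.deg u := by
    exact_mod_cast hpl u hu v hv
  have h4 : (0 : ℚ) ≤ A.deg u := by exact_mod_cast A.deg_nonneg huC
  have h5 : (0 : ℚ) < A.deg d := by exact_mod_cast hd
  have h6 : (A.deg d : ℚ) * ω.w u v ≤ 0 := by
    rw [h3, sub_eq_zero.1 h1]
    nlinarith [mul_nonneg h2 h4]
  have h7 : (ω.w u v : ℚ) ≤ 0 := nonpos_of_mul_nonpos_right h6 h5
  exact_mod_cast h7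

theorem P1_ind {S : Set M} (hS : Lower A S) {N : AddSubmonoid M} {d : M} (hd : 0 < A.deg d)
    (hpl : ∀ u ∈ N, ∀ v ∈ N, A.deg d * ω.w u v = ω.w u d * A.deg v - ω.w v d * A.deg u)
    (T : Finset ℚ) (hT : ∀ u ∈ S, u ∈ A.C → u ≠ 0 → (ω.w u d : ℚ) / (A.deg u : ℚ) ∈ T) (n : ℕ) :
    ∀ (ρ : ℚ) (γ : QT ω A), (T.filter fun τ => ρ < τ).card < n → γ.c 0 = 1 → Supp γ N →
      (∀ ρ' : ℚ, ρ < ρ' → ∃ L, Valid A ((N : Set M) ∩ zeroM (slopeTh ω A d ρ')) L ∧
        Eqv S (gzero (slopeTh ω A d ρ') γ) (gprod ω A L)) →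
      (∀ u ∈ S, γ.c u ≠ 0 → u ∈ posM (slopeTh ω A d ρ)) →
      ∃ L, Valid A ((N : Set M) ∩ nnM (slopeTh ω A d ρ)) L ∧
        (L.Pairwise fun p q => ω.w p.2 q.2 ≤ 0) ∧ Eqv S γ (gprod ω A L) := by
  induction n with
  | zero => intro ρ γ hn; omega
  | succ n ih =>
    intro ρ γ hn h0 hγ hρ hp
    have hsl : ∀ u ∈ S, γ.c u ≠ 0 → u ≠ 0 →
        (ω.w u d : ℚ) / (A.deg u : ℚ) ∈ T.filter fun τ => ρ < τ := fun u hu hc hu0 => by
      have h1 := (mem_posM.1 (hp u hu hc)).resolve_left hu0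
      rw [P1_slope] at h1
      refine Finset.mem_filter.2 ⟨hT u hu (γ.supp hc) hu0, ?_⟩
      rw [lt_div_iff₀ (P1_deg (γ.supp hc) hu0)]
      linarith
    rcases (T.filter fun τ => ρ < τ).eq_empty_or_nonempty with hE | hE
    · refine ⟨[], fun _ h => absurd h List.not_mem_nil, List.Pairwise.nil, fun u hu => ?_⟩
      rw [gprod_nil, QT.one_c]
      split_ifs with hu0
      · rw [hu0, h0]
      · by_contra hc
        exact Finset.notMem_empty _ (hE ▸ hsl u hu hc hu0)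
    obtain ⟨ρ₁, hρ₁, hmin⟩ := Finset.exists_min_image _ id hE
    have hlt : ρ < ρ₁ := (Finset.mem_filter.1 hρ₁).2
    have hnn : ∀ u ∈ S, γ.c u ≠ 0 → u ∈ nnM (slopeTh ω A d ρ₁) := fun u hu hc => by
      by_cases hu0 : u = 0
      · rw [hu0]
        exact (nnM _).zero_mem
      have h1 : ρ₁ ≤ (ω.w u d : ℚ) / (A.deg u : ℚ) := hmin _ (hsl u hu hc hu0)
      rw [le_div_iff₀ (P1_deg (γ.supp hc) hu0)] at h1
      rw [mem_nnM, P1_slope]
      linarith
    have h1 := (fac_unique_on hS (slopeTh ω A d ρ₁) h0 one_c_zero h0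
      (fun u _ hu => supp_one _ u hu) hnn (by rw [one_mul]; exact Eqv.refl _ _)).2.1
    obtain ⟨p, hp0, hpp, hpe, hpN⟩ := exists_gpos (slopeTh ω A d ρ₁) h0
    rw [hpe] at h1
    have hz0 := gzero_c_zero (slopeTh ω A d ρ₁) h0
    obtain ⟨L₁, hL₁, e₁⟩ := hρ ρ₁ hlt
    obtain ⟨L₂, hL₂, o₂, e₂⟩ := ih ρ₁ p (by
        refine lt_of_lt_of_le (Finset.card_lt_card ⟨fun τ hτ => ?_, fun hsub => ?_⟩)
          (Nat.le_of_lt_succ hn)
        · exact Finset.mem_filter.2 ⟨(Finset.mem_filter.1 hτ).1,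
            hlt.trans (Finset.mem_filter.1 hτ).2⟩
        · exact lt_irrefl _ (Finset.mem_filter.1 (hsub hρ₁)).2) hp0 (hpN N hγ)
      (fun ρ' hρ' => by
        obtain ⟨L, hL, e⟩ := hρ ρ' (hlt.trans hρ')
        refine ⟨L, hL, Eqv.trans ?_ e⟩
        rw [← (fac_neg_mul (slopeTh ω A d ρ') hz0 hp0 fun u hu => ?_).2]
        · exact gzero_congr hS (T2_mul_zero hz0 hp0) h0 h1 fun _ _ _ => rfl
        · by_cases hu0 : u = 0
          · exact Or.inl hu0
          have h2 : slopeTh ω A d ρ₁ u = 0 := supp_gzero _ _ u hu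
          have h3 := P1_deg (QT.supp _ hu) hu0
          refine Or.inr ?_
          rw [P1_slope] at h2 ⊢
          nlinarith) fun u _ hu => hpp u hu
    have hmono : ∀ u ∈ A.C, 0 ≤ slopeTh ω A d ρ₁ u → 0 ≤ slopeTh ω A d ρ u := fun u hu h => by
      have h4 : (0 : ℚ) ≤ A.deg u := by exact_mod_cast A.deg_nonneg hu
      rw [P1_slope] at h ⊢
      nlinarith
    refine ⟨L₁ ++ L₂, fun q hq => ?_, List.pairwise_append.2 ⟨?_, o₂, fun q hq q' hq' => ?_⟩, ?_⟩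
    · rcases List.mem_append.1 hq with hq | hq
      · obtain ⟨a, b, c, e⟩ := hL₁ q hq
        exact ⟨a, b, c, hmono _ a (mem_zeroM.1 e).ge⟩
      · obtain ⟨a, b, c, e⟩ := hL₂ q hq
        exact ⟨a, b, c, hmono _ a e⟩
    · exact List.pairwise_of_forall_mem_list fun q hq q' hq' =>
        P1_pair hd hpl (hL₁ q hq).2.2.1 (hL₁ q' hq').2.2.1 (hL₁ q hq).1 (hL₁ q hq).2.2.2
          (mem_zeroM.1 (hL₁ q' hq').2.2.2).ge
    · exact P1_pair hd hpl (hL₁ q hq).2.2.1 (hL₂ q' hq').2.2.1 (hL₁ q hq).1 (hL₁ q hq).2.2.2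
        (hL₂ q' hq').2.2.2
    · rw [gprod_append]
      exact h1.symm.trans (Eqv.mul hS e₁ e₂)

theorem P1_ldat_filter (L : List (ℤ × M)) (W : ℤ × M → Bool) {e : M}
    (h : ∀ p ∈ L, gdat p.1 p.2 e ≠ 0 → W p = true) :
    ldat (L.filter W) e = ldat L e := by
  induction L with
  | nil => rfl
  | cons p L ih =>
    have ih' := ih fun q hq => h q (List.mem_cons_of_mem _ hq)
    unfold ldat at ih' ⊢
    by_cases hp : W p = true
    · rw [List.filter_cons_of_pos hp, List.map_cons, List.map_cons, List.sum_cons,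
        List.sum_cons, ih']
    · rw [List.filter_cons_of_neg hp, List.map_cons, List.sum_cons, ih',
        not_not.1 (mt (h p List.mem_cons_self) hp), zero_add]

/-- Let `T` be the finite set of slopes `ω(u,d)/deg u` of the nonzero `u ∈ S ∩ A.C`.  Prove by
induction on `#{τ ∈ T | ρ ≤ τ}`, for all `ρ` and all `γ` (`γ.c 0 = 1`, `Supp γ N`, `hρ` for all
`ρ' ≥ ρ`, and `γ.c u ≠ 0 → u ∈ S → u ∈ nnM (slopeTh ρ)`), the conclusion with in addition all
vectors of `L` in `nnM (slopeTh ρ)`.  No slope left: `γ ≡ 1`.  Otherwise, `ρ₁` the least slope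
`≥ ρ`: `γ ≡ γ_0^ρ₁ · p` on `S` (`fac_unique_on`, `exists_gpos`), `p` satisfies the hypotheses for
the next slope `ρ₂` (or `ρ₁ + 1`), because `gzero ρ' p ≡ gzero ρ' γ` for `ρ' > ρ₁`
(`fac_neg_mul`, `gzero_congr`).  The concatenated list is ordered by the Plücker relation. -/
theorem ordered_factor {S : Set M} (hS : Lower A S) (hfin : S.Finite) {N : AddSubmonoid M} {d : M}
    (hd : 0 < A.deg d)
    (hpl : ∀ u ∈ N, ∀ v ∈ N, A.deg d * ω.w u v = ω.w u d * A.deg v - ω.w v d * A.deg u)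
    {γ : QT ω A} (h0 : γ.c 0 = 1) (hγ : Supp γ N)
    (hρ : ∀ ρ : ℚ, ∃ L, Valid A ((N : Set M) ∩ zeroM (slopeTh ω A d ρ)) L ∧
      Eqv S (gzero (slopeTh ω A d ρ) γ) (gprod ω A L)) :
    ∃ L, Valid A N L ∧ (L.Pairwise fun p q => ω.w p.2 q.2 ≤ 0) ∧ Eqv S γ (gprod ω A L) := by
  set T := hfin.toFinset.image fun u => (ω.w u d : ℚ) / (A.deg u : ℚ) with hT
  have hT' : ∀ u ∈ S, (ω.w u d : ℚ) / (A.deg u : ℚ) ∈ T := fun u hu =>
    Finset.mem_image_of_mem _ (hfin.mem_toFinset.2 hu)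
  obtain ⟨b, hb⟩ := T.bddBelow
  obtain ⟨L, hL, o, e⟩ := P1_ind hS hd hpl T (fun u hu _ _ => hT' u hu) _ (b - 1) γ
    (Nat.lt_succ_self _) h0 hγ (fun ρ _ => hρ ρ) fun u hu hc => by
      by_cases hu0 : u = 0
      · exact mem_posM.2 (Or.inl hu0)
      have h1 : b ≤ (ω.w u d : ℚ) / (A.deg u : ℚ) := hb (hT' u hu)
      have h2 := P1_deg (γ.supp hc) hu0
      rw [le_div_iff₀ h2] at h1
      refine mem_posM.2 (Or.inr ?_)
      rw [P1_slope]
      linarith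
  exact ⟨L, fun p hp => ⟨(hL p hp).1, (hL p hp).2.1, (hL p hp).2.2.1⟩, o, e⟩

/-- `ordered_factor`, `thmR` with `-θ_d`, `gzero_congr`, `gprod_filter` -/
theorem cross_joint {S : Set M} (hS : Lower A S) (hfin : S.Finite) {N : AddSubmonoid M} {d : M}
    (hd : 0 < A.deg d)
    (hpl : ∀ u ∈ N, ∀ v ∈ N, A.deg d * ω.w u v = ω.w u d * A.deg v - ω.w v d * A.deg u)
    {γ : QT ω A} (h0 : γ.c 0 = 1) (hγ : Supp γ N)
    (hρ : ∀ ρ : ℚ, ∃ L, Valid A ((N : Set M) ∩ zeroM (slopeTh ω A d ρ)) L ∧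
      Eqv S (gzero (slopeTh ω A d ρ) γ) (gprod ω A L)) :
    ∃ L, Valid A (S ∩ N ∩ zeroM (th ω d)) L ∧ Eqv S (gzero (-th ω d) γ) (gprod ω A L) := by
  obtain ⟨L, hL, o, e⟩ := ordered_factor hS hfin hd hpl h0 hγ hρ
  obtain ⟨D, hD⟩ := (hfin.image A.deg).bddAbove
  obtain ⟨L', hL', e'⟩ := thmR hL o (-th ω d) (fun u hu v hv h1 h2 => by
    have h3 := hpl u hu v hv
    have h4 : ω.w u d = 0 := by simpa using h1
    have h5 : ω.w v d = 0 := by simpa using h2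
    rw [h4, h5, zero_mul, zero_mul, sub_zero] at h3
    exact (mul_eq_zero.1 h3).resolve_left hd.ne') D
  refine ⟨L'.filter fun p => p.2 ∈ S, fun p hp => ?_, ?_⟩
  · obtain ⟨h1, h2⟩ := List.mem_filter.1 hp
    obtain ⟨a, b, c, f⟩ := hL' p h1
    refine ⟨a, b, ⟨by simpa using h2, c⟩, ?_⟩
    have f' : (-th ω d) p.2 = 0 := f
    exact mem_zeroM.2 (by simpa using f')
  · exact ((gzero_congr hS h0 (gprod_c_zero L) e fun _ _ _ => rfl).trans
      (e'.mono fun u hu => hD ⟨u, hu, rfl⟩)).trans (gprod_filter hS L')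

/-- The attractor end of the flow: `fac_lex`, `lam_gzero`, `fac_congr_supp` (for `u ∥ d` the
covectors `θ_u`, `θ_d` have the same signs), `lam_gprod` for the sublist of `L` with vectors in
`S ∩ ker θ`, `ldat`/`gdat_ne_zero`, `eqv_of_lam`. -/
theorem flow_end {L : List (ℤ × M)} (hL : Valid A Set.univ L) {g : QT ω A} (hg : IsCl (ldat L) g)
    {S : Set M} (hS : Lower A S) {θ χ : M →+ ℚ} {d : M} (hd : 0 < A.deg d)
    (hray : ∀ u ∈ S, u ∈ A.C → θ u = 0 → ω.w u d = 0 → A.deg d • u = A.deg u • d)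
    (hθ : θ d = 0) (hl : LexOn S χ (th ω d) θ) :
    ∃ L', Valid A (S ∩ zeroM θ ∩ zeroM (th ω d)) L' ∧ Eqv S (gzero χ g) (gprod ω A L') := by
  have _ := hθ
  have hV : Valid A (S ∩ zeroM θ ∩ zeroM (th ω d))
      (L.filter fun p => p.2 ∈ S ∩ zeroM θ ∩ zeroM (th ω d)) := fun p hp => by
    obtain ⟨h1, h2⟩ := List.mem_filter.1 hp
    exact ⟨(hL p h1).1, (hL p h1).2.1, of_decide_eq_true h2⟩
  refine ⟨_, hV, (fac_lex hS hl hg.1).2.trans ?_⟩
  have ha0 := gzero_c_zero (th ω d) hg.1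
  have hb0 := gzero_c_zero θ ha0
  refine eqv_of_lam (N := (zeroM θ : Set M) ∩ zeroM (th ω d)) hS hb0 (gprod_c_zero _)
    (fun u _ hu => ⟨supp_gzero _ _ u hu, (supp_gzero _ g).gzero ha0 θ u hu⟩)
    (fun u _ hu => ⟨supp_gprod (fun p hp => (hV p hp).2.2.1.2) u hu,
      supp_gprod (fun p hp => (hV p hp).2.2.2) u hu⟩) fun e heS heN he0 => ?_
  by_cases heC : e ∈ A.C
  swap
  · rw [lam_eq_zero hb0 (supp_cone _) heC, lam_eq_zero (gprod_c_zero _) (supp_cone _) heC]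
  have h1 : θ e = 0 := heN.1
  have h2 : ω.w e d = 0 := by simpa [mem_zeroM] using heN.2
  have h3 := hray e heS heC h1 h2
  have h4 : ∀ u, (A.deg d : ℚ) * th ω e u = A.deg e * th ω d u := fun u => by
    have := congrArg (ω.w u) h3
    rw [map_zsmul, map_zsmul, smul_eq_mul, smul_eq_mul] at this
    rw [th_apply, th_apply]
    exact_mod_cast this
  have hdq : (0 : ℚ) < A.deg d := by exact_mod_cast hd
  have heq := P1_deg heC he0
  have h5 : ∀ u, SignType.sign (th ω e u) = SignType.sign (th ω d u) := fun u => by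
    have := congrArg SignType.sign (h4 u)
    rwa [sign_mul, sign_mul, sign_pos hdq, sign_pos heq, one_mul, one_mul] at this
  have h6 : gzero (th ω e) g = gzero (th ω d) g :=
    (fac_congr_supp (N := ⊤) hg.1 (fun _ _ => trivial) fun u _ => h5 u).2
  rw [lam_gzero ha0 he0 (h6 ▸ supp_gzero _ _) h1, ← h6, ← attr, hg.2 e he0,
    lam_gprod he0 fun p hp => ⟨(hV p hp).1, (hV p hp).2.1, ?_⟩, P1_ldat_filter]
  · intro p hp hne
    obtain ⟨j, hj, rfl⟩ := gdat_ne_zero hne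
    have hjq : (j : ℚ) ≠ 0 := Nat.cast_ne_zero.2 hj
    refine decide_eq_true ⟨⟨?_, ?_⟩, ?_⟩
    · obtain ⟨k, rfl⟩ := Nat.exists_eq_succ_of_ne_zero hj
      rw [succ_nsmul'] at heS
      exact hS _ (hL p hp).1 _ (A.C.nsmul_mem (hL p hp).1 k) heS
    · rw [map_nsmul, nsmul_eq_mul] at h1
      exact (mul_eq_zero.1 h1).resolve_left hjq
    · have h7 : th ω d (j • p.2) = 0 := heN.2
      rw [map_nsmul, nsmul_eq_mul] at h7
      exact (mul_eq_zero.1 h7).resolve_left hjq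
  · have h7 : th ω d p.2 = 0 := (hV p hp).2.2.2
    have h8 := h4 p.2
    rw [h7, mul_zero] at h8
    exact (mul_eq_zero.1 h8).resolve_left hdq.ne'

end
end Crest.Agent.R59
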