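import Crest.Agent.R59.P1

/-! # Row 59, P2: Theorem P (positive attractor data give positive walls). -/

set_option autoImplicit false

namespace Crest.Agent.R59
open scoped Classical

variable {M : Type} [AddCommGroup M] {ω : Form M} {A : Cone M}

/-- the statement of Theorem P for a set `S` -/
def WallPos (g : QT ω A) (S : Set M) : Prop :=
  ∀ θ : M →+ ℚ, (∀ u ∈ S, ∀ v ∈ S, θ u = 0 → θ v = 0 → A.deg v • u = A.deg u • v) →
    ∃ L', Valid A (S ∩ zeroM θ) L' ∧ Eqv S (gzero θ g) (gprod ω A L')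

theorem P2_lex {S : Set M} {χ θ φ : M →+ ℚ} (h : LexOn S χ θ φ) {u : M} (hu : u ∈ S) :
    χ u = 0 ↔ θ u = 0 ∧ φ u = 0 := by
  rw [← sign_eq_zero_iff, h u hu]
  split_ifs with h0 <;> simp [h0]

theorem P2_slope (d : M) (ρ : ℚ) (u : M) :
    slopeTh ω A d ρ u = (ω.w u d : ℚ) - ρ * (A.deg u : ℚ) := rfl

theorem P2_off {θ : M →+ ℚ} {f g : QT ω A} (hf : Supp f (zeroM θ)) (hg : Supp g (zeroM θ)) {u : M}
    (hu : θ u ≠ 0) : f.c u = g.c u := by
  rw [not_not.1 fun h => hu (hf u h), not_not.1 fun h => hu (hg u h)]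

/-- The step at a joint.  Let `N = plane ω deg d u₀ ⊓ zeroM θ₀` and
`γ = proj S (gzero θ₀ g)` (`0 ∈ S`; supported in `N` by genericity `hgen`; `plane_pluecker`).
Check `hρ` of `cross_joint`: `ρ = 0` from `hQ` and `fac_lex`; `ρ ≠ 0` from `hIH` applied to
`θ₀ + ε slopeTh ρ` (`exists_lex`, `plane_parallel`), the coefficient at `d` vanishing on both
sides. -/
theorem joint_step (hM : Sep M) {g : QT ω A} (h0 : g.c 0 = 1) {S : Set M} (hS : Lower A S)
    (hfin : S.Finite) (hC : S ⊆ A.C) {d : M} (hdS : d ∈ S) (hd0 : d ≠ 0)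
    (htop : ∀ u ∈ S, u ≠ d → A.deg u < A.deg d) (hIH : WallPos g (S \ {d}))
    {θ₀ χ₁ χ : M →+ ℚ} (hθ₀ : θ₀ d = 0) {u₀ : M} (hu₀ : ω.w u₀ d ≠ 0)
    (hgen : ∀ u ∈ S, θ₀ u = 0 → u ∈ plane ω A.deg d u₀)
    (h₁ : LexOn S χ₁ θ₀ (th ω d)) (h₂ : LexOn S χ θ₀ (-th ω d))
    (hQ : ∃ L', Valid A (S ∩ zeroM χ₁) L' ∧ Eqv S (gzero χ₁ g) (gprod ω A L')) :
    ∃ L', Valid A (S ∩ zeroM χ) L' ∧ Eqv S (gzero χ g) (gprod ω A L') := by
  have hd : 0 < A.deg d := A.pos d (hC hdS) hd0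
  have h0S : (0 : M) ∈ S := hS 0 A.C.zero_mem d (hC hdS) (by rwa [zero_add])
  have hz0 := gzero_c_zero θ₀ h0
  have hγ0 : (proj S (gzero θ₀ g)).c 0 = 1 := by rw [proj_c, if_pos h0S, hz0]
  have hγ : Supp (proj S (gzero θ₀ g)) (plane ω A.deg d u₀ ⊓ zeroM θ₀ : AddSubmonoid M) :=
    fun u hu => ⟨hgen u (supp_proj _ _ u hu) ((supp_gzero θ₀ g).proj S u hu),
      (supp_gzero θ₀ g).proj S u hu⟩
  have hlex : ∀ {χ' φ : M →+ ℚ}, LexOn S χ' θ₀ φ →
      Eqv S (gzero φ (proj S (gzero θ₀ g))) (gzero χ' g) := fun hl =>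
    (gzero_congr hS hγ0 hz0 (eqv_proj _ _) fun _ _ _ => rfl).trans (fac_lex hS hl h0).2.symm
  obtain ⟨L, hL, hE⟩ := cross_joint hS hfin (N := plane ω A.deg d u₀ ⊓ zeroM θ₀) hd
    (fun u hu v hv => plane_pluecker hd.ne' hu₀ hu.1 hv.1) hγ0 hγ (fun ρ => by
      by_cases hρ : ρ = 0
      · have e : slopeTh ω A d ρ = th ω d := by rw [slopeTh, hρ, zero_smul, sub_zero]
        obtain ⟨L, hL, hE⟩ := hQ
        rw [e]
        refine ⟨L, fun p hp => ?_, (hlex h₁).trans hE⟩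
        obtain ⟨a1, a2, a3, a4⟩ := hL p hp
        obtain ⟨b1, b2⟩ := (P2_lex h₁ a3).1 a4
        exact ⟨a1, a2, ⟨hgen _ a3 b1, b1⟩, b2⟩
      · obtain ⟨ε, -, hl⟩ := exists_lex hfin θ₀ (slopeTh ω A d ρ)
        obtain ⟨L, hL, hE⟩ := hIH (θ₀ + ε • slopeTh ω A d ρ) (fun u hu v hv e1 e2 => by
          obtain ⟨b1, b2⟩ := (P2_lex hl hu.1).1 e1
          obtain ⟨c1, c2⟩ := (P2_lex hl hv.1).1 e2
          refine plane_parallel hM hd.ne' hu₀ (hgen _ hu.1 b1) (hgen _ hv.1 c1) ?_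
          rw [P2_slope, sub_eq_zero] at b2 c2
          have : (ω.w u d : ℚ) * A.deg v = ω.w v d * A.deg u := by rw [b2, c2]; ring
          exact_mod_cast this)
        have hL' : Valid A (((plane ω A.deg d u₀ ⊓ zeroM θ₀ : AddSubmonoid M) : Set M) ∩
            zeroM (slopeTh ω A d ρ)) L := fun p hp => by
          obtain ⟨a1, a2, a3, a4⟩ := hL p hp
          obtain ⟨b1, b2⟩ := (P2_lex hl a3.1).1 a4
          exact ⟨a1, a2, ⟨hgen _ a3.1 b1, b1⟩, b2⟩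
        refine ⟨L, hL', fun u hu => ?_⟩
        by_cases hud : u = d
        · refine P2_off (supp_gzero _ _) (supp_gprod fun p hp => (hL' p hp).2.2.2) ?_
          rw [hud, P2_slope, ω.alt]
          have : (A.deg d : ℚ) ≠ 0 := by exact_mod_cast hd.ne'
          simp [hρ, this]
        · exact (hlex hl u hu).trans (hE u ⟨hu, hud⟩))
  refine ⟨L, fun p hp => ?_, (hlex h₂).symm.trans hE⟩
  obtain ⟨a1, a2, ⟨a3, a4⟩, a5⟩ := hL p hp
  refine ⟨a1, a2, a3, (P2_lex h₂ a3).2 ⟨a4.2, ?_⟩⟩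
  rw [AddMonoidHom.neg_apply, neg_eq_zero]
  exact a5

/-- `exists_generic_perp` with `W = {ω(u₀,d) • u - ω(u,d) • u₀ | u, u₀ ∈ S}`, `flow_induction` for
`Q s := ∃ L', Valid A (S ∩ zeroM (θ' + s θ_d)) L' ∧ …`, `flow_end`, `joint_step`, `gzero_congr` -/
theorem top_step (hM : Sep M) {L : List (ℤ × M)} (hL : Valid A Set.univ L) {g : QT ω A}
    (hg : IsCl (ldat L) g) {S : Set M} (hS : Lower A S) (hfin : S.Finite) (hC : S ⊆ A.C) {d : M}
    (hdS : d ∈ S) (hd0 : d ≠ 0) (htop : ∀ u ∈ S, u ≠ d → A.deg u < A.deg d)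
    (hIH : WallPos g (S \ {d})) {θ : M →+ ℚ} (hθ : θ d = 0)
    (hray : ∀ u ∈ S, θ u = 0 → A.deg d • u = A.deg u • d) :
    ∃ L', Valid A (S ∩ zeroM θ) L' ∧ Eqv S (gzero θ g) (gprod ω A L') := by
  have hd : 0 < A.deg d := A.pos d (hC hdS) hd0
  have hdq : (A.deg d : ℚ) ≠ 0 := by exact_mod_cast hd.ne'
  obtain ⟨θ', hθ', hsg, hW⟩ := exists_generic_perp hM hfin
    (hfin.image2 (fun u u₀ => ω.w u₀ d • u - ω.w u d • u₀) hfin) A.deg d hθ
  have hpar : ∀ φ : M →+ ℚ, φ d = 0 → ∀ u ∈ S, θ u = 0 → φ u = 0 := fun φ hφ u hu h => by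
    have := congrArg φ (hray u hu h)
    rw [map_zsmul, map_zsmul, hφ, smul_zero, zsmul_eq_mul] at this
    exact (mul_eq_zero.1 this).resolve_left hdq
  have hback : ∀ u ∈ S, θ' u = 0 → θ u = 0 := fun u hu h => by
    by_contra hne
    have := hsg u hu hne
    rw [h, sign_zero, eq_comm, sign_eq_zero_iff] at this
    exact hne this
  have hdd : th ω d d = 0 := by rw [th_apply, ω.alt, Int.cast_zero]
  obtain ⟨L', hL', hE⟩ := flow_induction hfin θ' (th ω d)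
    (fun s => ∃ L', Valid A (S ∩ zeroM (θ' + s • th ω d)) L' ∧
      Eqv S (gzero (θ' + s • th ω d) g) (gprod ω A L'))
    (fun s hl => by
      obtain ⟨L', hL', hE⟩ := flow_end hL hg hS hd
        (fun u hu _ h _ => hray u hu (hback u hu h)) hθ' hl
      refine ⟨L', fun p hp => ?_, hE⟩
      obtain ⟨a1, a2, ⟨a3, a4⟩, a5⟩ := hL' p hp
      exact ⟨a1, a2, a3, (P2_lex hl a3).2 ⟨a5, a4⟩⟩)
    (fun s s₀ s₁ ⟨u₀, hu₀, hne, hz⟩ h₁ h₂ hQ => by
      refine joint_step hM hg.1 hS hfin hC hdS hd0 htop hIH (u₀ := u₀) ?_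
        (by simpa using hne) (fun u hu h => hW _ (Set.mem_image2_of_mem hu hu₀) ?_) h₁ h₂ hQ
      · rw [AddMonoidHom.add_apply, AddMonoidHom.smul_apply, hθ', hdd, smul_zero, add_zero]
      · rw [AddMonoidHom.add_apply, AddMonoidHom.smul_apply, th_apply, smul_eq_mul] at h hz
        rw [map_sub, map_zsmul, map_zsmul, zsmul_eq_mul, zsmul_eq_mul]
        linear_combination (ω.w u₀ d : ℚ) * h - (ω.w u d : ℚ) * hz)
    0 (fun u hu hne h => by
      rw [zero_smul, add_zero] at h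
      exact hne (hpar _ hdd u hu (hback u hu h)))
  rw [zero_smul, add_zero] at hL' hE
  refine ⟨L', fun p hp => ?_, (gzero_congr hS hg.1 hg.1 (Eqv.refl _ _) fun u hu _ => ?_).trans hE⟩
  · obtain ⟨a1, a2, a3, a4⟩ := hL' p hp
    exact ⟨a1, a2, a3, hback _ a3 a4⟩
  · by_cases h : θ u = 0
    · rw [h, hpar _ hθ' u hu h]
    · exact (hsg u hu h).symm

/-- Strong induction on `S.ncard`.  If `S ∩ ker θ ⊆ {0}` take `L' = []`.  Otherwise let `d` be an
element of `S ∩ ker θ` of maximal degree, `S' = {u ∈ S | deg u < deg d} ∪ {d}`; apply `top_step`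
to `S'`; both sides are supported in `ker θ` and `S ∩ ker θ ⊆ S'` (`Sep.zsmul_eq_zero`). -/
theorem thmP (hM : Sep M) {L : List (ℤ × M)} (hL : Valid A Set.univ L) {g : QT ω A}
    (hg : IsCl (ldat L) g) {S : Set M} (hS : Lower A S) (hfin : S.Finite) (hC : S ⊆ A.C) :
    WallPos g S := by
  induction hn : S.ncard using Nat.strong_induction_on generalizing S with
  | _ n ih =>
  intro θ hray
  by_cases hT : ∀ u ∈ S, θ u = 0 → u = 0
  · refine ⟨[], fun p hp => absurd hp List.not_mem_nil, fun u hu => ?_⟩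
    rw [gprod_nil]
    by_cases h : θ u = 0
    · rw [hT u hu h, gzero_c_zero θ hg.1, one_c_zero]
    · exact P2_off (supp_gzero _ _) (supp_one _) h
  push Not at hT
  obtain ⟨u₁, hu₁, hθ₁, hne₁⟩ := hT
  obtain ⟨d, ⟨hdS, hθd⟩, hmax⟩ := Set.exists_max_image {u | u ∈ S ∧ θ u = 0} A.deg
    (hfin.subset fun u hu => hu.1) ⟨u₁, hu₁, hθ₁⟩
  have hd : 0 < A.deg d := (A.pos u₁ (hC hu₁) hne₁).trans_le (hmax u₁ ⟨hu₁, hθ₁⟩)
  have hd0 : d ≠ 0 := by
    rintro rfl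
    simp at hd
  have hS' : Lower A {u | u ∈ S ∧ (A.deg u < A.deg d ∨ u = d)} := by
    rintro u hu v hv ⟨h1, h2⟩
    refine ⟨hS u hu v hv h1, ?_⟩
    by_cases hv0 : v = 0
    · rwa [hv0, add_zero] at h2
    · left
      have := A.pos v hv hv0
      rcases h2 with h2 | h2
      · rw [map_add] at h2; omega
      · rw [← h2, map_add]; omega
  have e : {u | u ∈ S ∧ (A.deg u < A.deg d ∨ u = d)} \ {d} = S ∩ {u | A.deg u < A.deg d} := by
    ext u
    constructor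
    · rintro ⟨⟨h1, h2⟩, h3⟩
      exact ⟨h1, h2.resolve_right h3⟩
    · rintro ⟨h1, h2⟩
      refine ⟨⟨h1, Or.inl h2⟩, ?_⟩
      rintro rfl
      exact lt_irrefl (A.deg u) h2
  have hIH : WallPos g (S ∩ {u | A.deg u < A.deg d}) := by
    refine ih _ (hn ▸ Set.ncard_lt_ncard ⟨Set.inter_subset_left, fun h => ?_⟩ hfin)
      (hS.inter (lower_lt A.deg (fun u => A.deg_nonneg) _)) (hfin.inter_of_left _)
      (Set.inter_subset_left.trans hC) rfl
    exact lt_irrefl (A.deg d) (h hdS).2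
  obtain ⟨L', hL', hE⟩ := top_step hM hL hg hS' (hfin.subset fun u hu => hu.1)
    (fun u hu => hC hu.1) ⟨hdS, Or.inr rfl⟩ hd0 (fun u hu h => hu.2.resolve_right h)
    (e ▸ hIH) hθd fun u hu h => hray u hu.1 d hdS h hθd
  refine ⟨L', fun p hp => ?_, fun u hu => ?_⟩
  · obtain ⟨a1, a2, a3, a4⟩ := hL' p hp
    exact ⟨a1, a2, a3.1, a4⟩
  · by_cases h : θ u = 0
    · refine hE u ⟨hu, (hmax u ⟨hu, h⟩).lt_or_eq.imp_right fun e' => ?_⟩
      have := hray u hu d hdS h hθd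
      rw [e', ← sub_eq_zero, ← smul_sub] at this
      exact sub_eq_zero.1 (hM.zsmul_eq_zero hd.ne' this)
    · exact P2_off (supp_gzero _ _) (supp_gprod fun p hp => (hL' p hp).2.2.2) h

end Crest.Agent.R59
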