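import Crest.Agent.R59.RUp2

/-! # Row 59, Push: push-forward of tori and Theorem R. -/

set_option autoImplicit false

namespace Crest.Agent.R59
noncomputable section
open scoped Classical

variable {M M' : Type} [AddCommGroup M] [AddCommGroup M'] {ω : Form M} {A : Cone M}
  {ω' : Form M'} {A' : Cone M'}

/-- a map of lattices compatible with cones, degrees and forms -/
structure PushH (ω' : Form M') (A' : Cone M') (ω : Form M) (A : Cone M) (φ : M' →+ M) : Prop where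
  mem : ∀ a ∈ A'.C, φ a ∈ A.C
  deg : ∀ a ∈ A'.C, A'.deg a ≤ A.deg (φ a)
  form : ∀ a ∈ A'.C, ∀ a' ∈ A'.C, ω.w (φ a) (φ a') = ω'.w a a'

/-- push-forward `x^a ↦ x^(φ a)` -/
def push (ω : Form M) (A : Cone M) (φ : M' →+ M) (f : QT ω' A') : QT ω A :=
  QT.mk ω A (fun d => if d ∈ A.C then ∑ a ∈ A'.le (A.deg d), if φ a = d then f.c a else 0 else 0)
    (by intro u hu; by_contra h; simp [h] at hu)

variable {φ : M' →+ M}

theorem PushH.push_c (H : PushH ω' A' ω A φ) (f : QT ω' A') {d : M} {k : ℤ} (hk : A.deg d ≤ k) :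
    (push ω A φ f).c d = ∑ a ∈ A'.le k, if φ a = d then f.c a else 0 := by
  show (if d ∈ A.C then _ else _) = _
  split_ifs with hd
  · refine Finset.sum_subset (fun a ha => A'.mem_le.2 ((A'.mem_le.1 ha).imp_right (·.trans hk)))
      fun a ha ha' => if_neg ?_
    rintro rfl
    exact ha' (A'.mem_le.2 ⟨(A'.mem_le.1 ha).1, H.deg a (A'.mem_le.1 ha).1⟩)
  · refine (Finset.sum_eq_zero fun a ha => if_neg ?_).symm
    rintro rfl
    exact hd (H.mem a (A'.mem_le.1 ha).1)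

theorem PushH.ne_zero (H : PushH ω' A' ω A φ) {a : M'} (ha : a ∈ A'.C) (h0 : a ≠ 0) : φ a ≠ 0 :=
  fun h => ((A'.pos a ha h0).trans_le (H.deg a ha)).ne' (by rw [h, map_zero])

theorem PushH.c_ne_zero (H : PushH ω' A' ω A φ) {f : QT ω' A'} {d : M}
    (h : (push ω A φ f).c d ≠ 0) : ∃ a, f.c a ≠ 0 ∧ φ a = d := by
  rw [H.push_c f le_rfl] at h
  obtain ⟨a, -, ha⟩ := Finset.exists_ne_zero_of_sum_ne_zero h
  exact ⟨a, (ite_ne_right_iff.1 ha).symm⟩
theorem PushH.c_zero (H : PushH ω' A' ω A φ) (f : QT ω' A') : (push ω A φ f).c 0 = f.c 0 := by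
  rw [H.push_c f le_rfl, Finset.sum_eq_single_of_mem 0 (A'.mem_le.2 ⟨zero_mem _, by simp⟩)
    fun a ha h0 => if_neg (H.ne_zero (A'.mem_le.1 ha).1 h0), if_pos (map_zero φ)]
theorem PushH.one (H : PushH ω' A' ω A φ) : push ω A φ (1 : QT ω' A') = 1 := by
  ext1 d
  rcases eq_or_ne d 0 with rfl | hd
  · rw [H.c_zero, one_c_zero, one_c_zero]
  · rw [QT.one_c, if_neg hd]
    by_contra h
    obtain ⟨a, h1, rfl⟩ := H.c_ne_zero h
    rw [QT.one_c] at h1
    exact hd (by rw [(ite_ne_right_iff.1 h1).1, map_zero])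
theorem PushH.mul (H : PushH ω' A' ω A φ) (f g : QT ω' A') :
    push ω A φ (f * g) = push ω A φ f * push ω A φ g := by
  ext1 d
  trans ∑ u ∈ A'.le (A.deg d), ∑ v ∈ A'.le (A.deg d),
    if φ (u + v) = d then tp (ω'.w u v) * f.c u * g.c v else 0
  · rw [H.push_c _ le_rfl, Finset.sum_congr rfl fun a ha => by
      rw [QT.mul_c_sum f g a (A'.mem_le.1 ha).2, Finset.ite_sum_zero], Finset.sum_comm]
    refine Finset.sum_congr rfl fun u hu => ?_
    have hu' := (A'.mem_le.1 hu).1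
    have h1 : ∀ v, (if φ (u + v) = d then tp (ω'.w u v) * f.c u * g.c v else 0) ≠ 0 →
        v ∈ A'.C ∧ A'.deg (u + v) ≤ A.deg d := fun v hv => by
      obtain ⟨rfl, h2⟩ := ite_ne_right_iff.1 hv
      have h3 := g.supp (right_ne_zero_of_mul h2)
      exact ⟨h3, H.deg _ (add_mem hu' h3)⟩
    rw [← finsum_eq_sum_of_support_subset _ fun v hv => A'.mem_le_of_add (h1 v hv).1
      (by rwa [add_sub_cancel_right]) (h1 v hv).2, ← finsum_comp_equiv (Equiv.subRight u),
      finsum_eq_sum_of_support_subset (s := A'.le (A.deg d))]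
    · exact Finset.sum_congr rfl fun a _ => by rw [Equiv.subRight_apply, add_sub_cancel]
    · intro a ha
      obtain ⟨h2, h3⟩ := h1 _ ha
      rw [Equiv.subRight_apply] at h2
      rw [Equiv.subRight_apply, add_sub_cancel] at h3
      exact A'.mem_le.2 ⟨by simpa using add_mem hu' h2, h3⟩
  · symm
    rw [QT.mul_c_sum _ _ _ le_rfl, Finset.sum_congr rfl fun e he => by
      rw [H.push_c f (A.mem_le.1 he).2, H.push_c g (d := d - e) (k := A.deg d) (by
        rw [map_sub]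
        linarith [A.deg_nonneg (A.mem_le.1 he).1]), mul_assoc, Finset.sum_mul_sum,
        Finset.mul_sum], Finset.sum_comm]
    refine Finset.sum_congr rfl fun u hu => ?_
    rw [Finset.sum_congr rfl fun e _ => Finset.mul_sum _ _ _, Finset.sum_comm]
    refine Finset.sum_congr rfl fun v hv => ?_
    have hu' := (A'.mem_le.1 hu).1
    have hv' := (A'.mem_le.1 hv).1
    rw [Finset.sum_eq_single (φ u) (fun e _ he => by rw [if_neg he.symm, zero_mul, mul_zero])
      fun he => by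
        rw [if_neg (c := φ v = d - φ u) fun h => he (A.mem_le_of_add (H.mem u hu')
          (h ▸ H.mem v hv') le_rfl), mul_zero, mul_zero], if_pos rfl, map_add]
    by_cases h : φ u + φ v = d
    · rw [if_pos h, ← h, add_sub_cancel_left, if_pos rfl, H.form u hu' v hv', mul_assoc]
    · rw [if_neg h, if_neg (fun h' => h (by rw [h', add_sub_cancel])), mul_zero, mul_zero]
theorem PushH.gen (H : PushH ω' A' ω A φ) (s : ℤ) {a : M'} (ha : a ∈ A'.C) (h0 : a ≠ 0) :
    push ω A φ (gen ω' A' s a) = gen ω A s (φ a) := by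
  have h1 := H.mem a ha
  have h2 := H.ne_zero ha h0
  unfold R59.gen
  ext1 d
  by_cases hd : ∃ j : ℕ, d = j • φ a
  · obtain ⟨j, rfl⟩ := hd
    have h3 := A'.C.nsmul_mem ha j
    rw [ser_c_nsmul h1 h2, H.push_c _ le_rfl, Finset.sum_eq_single_of_mem (j • a)
      (A'.mem_le.2 ⟨h3, map_nsmul φ j a ▸ H.deg _ h3⟩), if_pos (map_nsmul φ j a), ser_c_nsmul ha h0]
    intro b _ hb
    by_contra h
    obtain ⟨h4, h5⟩ := ite_ne_right_iff.1 h
    obtain ⟨i, rfl⟩ := ser_c_ne_zero h5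
    rw [map_nsmul] at h4
    exact hb (by rw [nsmul_inj h1 h2 h4])
  · rw [not_not.1 (mt ser_c_ne_zero hd)]
    by_contra h
    obtain ⟨b, h4, rfl⟩ := H.c_ne_zero h
    obtain ⟨i, rfl⟩ := ser_c_ne_zero h4
    exact hd ⟨i, map_nsmul φ i a⟩
theorem PushH.gprod (H : PushH ω' A' ω A φ) {L : List (ℤ × M')} (hL : Valid A' Set.univ L) :
    push ω A φ (gprod ω' A' L) = gprod ω A (L.map fun p => (p.1, φ p.2)) := by
  induction L with
  | nil => exact H.one
  | cons p L ih =>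
    have h := hL p List.mem_cons_self
    rw [List.map_cons, gprod_cons, gprod_cons, H.mul, H.gen _ h.1 h.2.1,
      ih fun q hq => hL q (List.mem_cons_of_mem _ hq)]
theorem PushH.gzero (H : PushH ω' A' ω A φ) (θ : M →+ ℚ) {g : QT ω' A'} (h0 : g.c 0 = 1) :
    push ω A φ (gzero (θ.comp φ) g) = gzero θ (push ω A φ g) := by
  have h : IsFac θ (push ω A φ g) (push ω A φ (gneg (θ.comp φ) g))
      (push ω A φ (gnn (θ.comp φ) g)) := by
    refine ⟨(H.c_zero _).trans (gneg_c_zero _ h0), (H.c_zero _).trans (gnn_c_zero _ h0),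
      fun d hd => ?_, fun d hd => ?_, by rw [← H.mul, gneg_mul_gnn _ h0]⟩
    · obtain ⟨a, ha, rfl⟩ := H.c_ne_zero hd
      exact (mem_negM.1 (supp_gneg _ h0 a ha)).imp_left fun h => by rw [h, map_zero]
    · obtain ⟨a, ha, rfl⟩ := H.c_ne_zero hd
      exact supp_gnn _ h0 a ha
  rw [h.eq.2.2, R59.gzero]
  ext1 d
  rw [proj_c, H.push_c _ le_rfl, H.push_c _ le_rfl, Finset.ite_sum_zero]
  refine Finset.sum_congr rfl fun a _ => ?_
  by_cases ha : φ a = d
  · rw [if_pos ha, if_pos ha, proj_c, ← ha]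
    rfl
  · rw [if_neg ha, if_neg ha, ite_self]
theorem PushH.eqv (H : PushH ω' A' ω A φ) {D : ℤ} {f g : QT ω' A'}
    (h : Eqv {a | A'.deg a ≤ D} f g) :
    Eqv {d | A.deg d ≤ D} (push ω A φ f) (push ω A φ g) := by
  intro d hd
  rw [H.push_c f hd, H.push_c g hd]
  exact Finset.sum_congr rfl fun a ha => by rw [h a (A'.mem_le.1 ha).2]

/-- Theorem R.  `r = L.length`, `u_i = (L.get i).2`, `b i j = (ω u_i u_j).toNat`,
`φ a = Σ a_i • u_i`; `θ ∘ φ = upTh (θ u_i)`; `thmR_up`. -/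
theorem thmR {L : List (ℤ × M)} {N : AddSubmonoid M} (hL : Valid A N L)
    (hord : L.Pairwise fun p q => ω.w p.2 q.2 ≤ 0) (θ : M →+ ℚ)
    (hθ : ∀ u ∈ N, ∀ v ∈ N, θ u = 0 → θ v = 0 → ω.w u v = 0) (D : ℤ) :
    ∃ L', Valid A ((N : Set M) ∩ zeroM θ) L' ∧
      Eqv {u | A.deg u ≤ D} (gzero θ (gprod ω A L)) (gprod ω A L') := by
  obtain ⟨r, p, rfl⟩ : ∃ (r : ℕ) (p : Fin r → ℤ × M), L = List.ofFn p :=
    ⟨_, _, (List.ofFn_get L).symm⟩
  have hp : ∀ i, (p i).2 ∈ A.C ∧ (p i).2 ≠ 0 ∧ (p i).2 ∈ N := fun i =>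
    hL _ (List.mem_ofFn.2 ⟨i, rfl⟩)
  rw [List.pairwise_ofFn] at hord
  let φ : (Fin r → ℤ) →+ M := (Fintype.linearCombination ℤ fun i => (p i).2).toAddMonoidHom
  have hφ : ∀ a, φ a = ∑ i, a i • (p i).2 := fun _ => rfl
  have hmem : ∀ S : AddSubmonoid M, (∀ i, (p i).2 ∈ S) → ∀ a ∈ (upCone (Fin r)).C, φ a ∈ S :=
    fun S hS a ha => by
      obtain ⟨a, rfl⟩ := exists_upc ha
      rw [hφ]
      exact sum_mem fun i _ => (natCast_zsmul (p i).2 (a i)).symm ▸ S.nsmul_mem (hS i) _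
  have H : PushH (upForm fun i j => (ω.w (p i).2 (p j).2).toNat) (upCone (Fin r)) ω A φ := by
    refine ⟨hmem _ fun i => (hp i).1, fun a ha => ?_, fun a _ a' _ => ?_⟩
    · rw [hφ, map_sum]
      show ∑ i, a i ≤ _
      refine Finset.sum_le_sum fun i _ => ?_
      rw [map_zsmul, smul_eq_mul]
      exact le_mul_of_one_le_right (ha i) (A.pos _ (hp i).1 (hp i).2.1)
    · rw [upForm_apply, bZ, bZ, Finset.sum_comm (f := fun i j => a' i * _ * _),
        ← Finset.sum_sub_distrib, hφ, hφ, map_sum ω.w, AddMonoidHom.finsetSum_apply]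
      refine Finset.sum_congr rfl fun i _ => ?_
      rw [← Finset.sum_sub_distrib, map_sum]
      refine Finset.sum_congr rfl fun j _ => ?_
      rw [map_zsmul, map_zsmul, AddMonoidHom.zsmul_apply, smul_eq_mul, smul_eq_mul,
        ω.skew (p j).2, mul_comm (a' j) (a i), ← mul_sub, Int.toNat_sub_toNat_neg]
      ring
  have hth : θ.comp φ = upTh fun i => θ (p i).2 := AddMonoidHom.ext fun a => by
    rw [AddMonoidHom.comp_apply, hφ, map_sum]
    exact Finset.sum_congr rfl fun i _ => by rw [map_zsmul, zsmul_eq_mul]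
  have hC : ∀ a : Fin r → ℕ, upc a ∈ (upCone (Fin r)).C := fun a i => Int.natCast_nonneg _
  have hN := hmem N fun i => (hp i).2.2
  obtain ⟨L', h1, h2⟩ := thmR_up (b := fun i j => (ω.w (p i).2 (p j).2).toNat)
    (fun i j hij => Int.toNat_eq_zero.2 (by
      rcases hij.eq_or_lt with rfl | hij
      exacts [(ω.alt _).le, hord hij])) (fun i => (p i).1) (fun i => θ (p i).2)
    (fun a a' ha ha' => by
      rw [← hth] at ha ha'
      rw [← H.form _ (hC a) _ (hC a')]
      exact hθ _ (hN _ (hC a)) _ (hN _ (hC a')) ha ha') D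
  rw [← hth] at h1 h2
  refine ⟨L'.map fun q => (q.1, φ q.2), fun q hq => ?_, ?_⟩
  · obtain ⟨q', hq', rfl⟩ := List.mem_map.1 hq
    obtain ⟨a1, a2, a3⟩ := h1 q' hq'
    exact ⟨H.mem _ a1, H.ne_zero a1 a2, hN _ a1, a3⟩
  · have h3 := H.eqv h2
    rw [H.gzero θ (gprod_c_zero _), H.gprod fun q hq => ⟨(h1 q hq).1, (h1 q hq).2.1, trivial⟩,
      H.gprod, upList, List.map_ofFn] at h3
    · convert h3 using 4
      funext i
      simp [φ]
    · intro q hq
      obtain ⟨i, rfl⟩ := List.mem_ofFn.1 hq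
      have h4 : (0 : Fin r → ℤ) ≤ Pi.single i 1 := Pi.single_nonneg.2 zero_le_one
      exact ⟨h4, by simp, trivial⟩

end
end Crest.Agent.R59
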