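import Crest.Agent.R59.Z2a

/-! # Row 59, Z2: chains give the generators; finiteness from admissibility. -/

set_option autoImplicit false

namespace Crest.Agent.R59
open scoped Classical

variable {M : Type} [AddCommGroup M] {ω : Form M} {A : Cone M} {B : Type}

theorem Z2_step (l : List ℤ) (j : ℤ) : (l.filter fun s => s ≤ j ∧ Even (j - s)).length =
    (l.filter fun s => s ≤ j - 2 ∧ Even (j - 2 - s)).length + l.count j := by
  induction l with
  | nil => simp
  | cons a l ih =>
    simp only [List.filter_cons, List.count_cons, decide_eq_true_eq, beq_iff_eq, Int.even_iff] at ih ⊢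
    split_ifs <;> (try simp only [List.length_cons]) <;> omega

/-- a monotone (`f j ≤ f (j+2)`), eventually `2D`-periodic function `ℤ → ℕ` vanishing near `-∞` is a
finite sum of chains -/
theorem exists_chain_list (f : ℤ → ℕ) (hb : ∃ j₀, ∀ j < j₀, f j = 0) (hm : ∀ j, f j ≤ f (j + 2))
    {D : ℤ} (hD : 0 < D) (hp : {j | f (j - 2 * D) ≠ f j}.Finite) :
    ∃ l : List ℤ, ∀ j, f j = (l.filter fun s => s ≤ j ∧ Even (j - s)).length := by
  obtain ⟨j₀, hb⟩ := hb
  obtain ⟨J, hJ⟩ := hp.bddAbove
  have h1 : ∀ (n : ℕ) j, f j ≤ f (j + 2 * n) := by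
    intro n j
    induction n with
    | zero => simp
    | succ n ih => exact ih.trans ((hm _).trans_eq (by congr 1; push_cast; ring))
  have h2 : (Function.support fun j => f j - f (j - 2)).Finite := by
    refine (Set.finite_Icc j₀ J).subset fun j hj => ⟨?_, ?_⟩
    · by_contra h
      exact hj (by simp [hb j (not_le.1 h)])
    · refine hJ fun h => hj ?_
      have h3 := h1 (D - 1).toNat (j - 2 * D)
      rw [h, show j - 2 * D + 2 * ((D - 1).toNat : ℤ) = j - 2 by omega] at h3
      exact Nat.sub_eq_zero_of_le h3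
  obtain ⟨l, hl⟩ := Quotient.exists_rep (Finsupp.toMultiset (Finsupp.ofSupportFinite _ h2))
  have h3 : ∀ j, l.count j = f j - f (j - 2) := fun j => by
    rw [← Multiset.coe_count, ← Multiset.quot_mk_to_coe, hl, Finsupp.count_toMultiset]
    rfl
  have h4 : ∀ (n : ℕ) j, j < j₀ + n → f j = (l.filter fun s => s ≤ j ∧ Even (j - s)).length := by
    intro n
    induction n with
    | zero =>
      intro j hj
      rw [hb j (by omega), eq_comm, List.length_eq_zero_iff, List.filter_eq_nil_iff]
      intro s hs hs'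
      have h4 := List.count_pos_iff.2 hs
      rw [h3, hb s (by simp only [decide_eq_true_eq] at hs'; omega)] at h4
      omega
    | succ n ih =>
      intro j hj
      have h4 := hm (j - 2)
      rw [sub_add_cancel] at h4
      rw [Z2_step, ← ih _ (by omega), h3]
      omega
  exact ⟨l, fun j => h4 (j - j₀ + 1).toNat j (by omega)⟩

theorem Z2_congr {B' : Type} {c : B → M} {s : B → ℤ} {c' : B' → M} {s' : B' → ℤ}
    (h : ∀ a, Zc c s a = Zc c' s' a) : Zq ω A c s = Zq ω A c' s' := by
  ext1 a
  simp only [Zq, QT.mk_c, h]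

/-- the series of the generators whose vector satisfies `P` -/
noncomputable def Z2_res (ω : Form M) (A : Cone M) (c : B → M) (s : B → ℤ) (P : M → Prop) :
    QT ω A := Zq ω A (fun α : {α // P (c α)} => c α.1) (fun α => s α.1)

theorem Z2_split {c : B → M} {s : B → ℤ} (h : LocFin A c s) (hc : ∀ α β, ω.w (c α) (c β) = 0)
    {P Q R : M → Prop} (hQ : ∀ a, Q a → P a) (hR : ∀ a, P a ∧ ¬ Q a ↔ R a) :
    Z2_res ω A c s P = Z2_res ω A c s Q * Z2_res ω A c s R := by
  rw [Z2_res, Zq_split (h.subtype _) (fun _ _ => hc _ _) fun α => Q (c α.1)]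
  congr 1
  · exact Z2_congr (Zc_equiv (Equiv.subtypeSubtypeEquivSubtype (p := fun α => P (c α))
      (q := fun α => Q (c α)) (hQ _)) (fun _ => rfl) fun _ => rfl)
  · exact Z2_congr (Zc_equiv ((Equiv.subtypeSubtypeEquivSubtypeInter (fun α => P (c α))
      fun α => ¬ Q (c α)).trans (Equiv.subtypeEquivRight fun _ => hR _)) (fun _ => rfl)
        fun _ => rfl)

omit [AddCommGroup M] in
theorem Z2_fib (c : B → M) (s : B → ℤ) (P : M → Prop) (a : M) (j : ℤ) :
    fib (fun α : {α // P (c α)} => c α.1) (fun α => s α.1) a j =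
      if P a then fib c s a j else 0 := by
  unfold fib
  split_ifs with h
  · rw [← Set.ncard_image_of_injective _ Subtype.val_injective]
    congr 1
    ext α
    exact ⟨fun ⟨β, hβ, e⟩ => e ▸ hβ, fun hα => ⟨⟨α, hα.1 ▸ h⟩, hα, rfl⟩⟩
  · rw [Set.eq_empty_of_forall_notMem (s := {α : {α // P (c α)} | c α.1 = a ∧ s α.1 = j})
      fun α hα => h (hα.1 ▸ α.2), Set.ncard_empty]

theorem Z2_bdd {c : B → M} {s : B → ℤ} (h : LocFin A c s) (a : M) :
    ∃ j₀, ∀ j < j₀, fib c s a j = 0 := by
  obtain ⟨k, hk⟩ := ((h.2 a 0).image s).bddBelow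
  refine ⟨min k 0, fun j hj => ?_⟩
  rw [fib, Set.eq_empty_of_forall_notMem (s := {α | _}) fun α hα => ?_, Set.ncard_empty]
  have h1 := hα.2
  have h2 := hk ⟨α, ⟨hα.1, by omega⟩, rfl⟩
  omega

omit [AddCommGroup M] in
theorem Z2_lists (f : M → ℤ → ℕ) (T : Finset M) (h : ∀ a ∈ T, ∃ l : List ℤ,
    ∀ j, f a j = (l.filter fun s => s ≤ j ∧ Even (j - s)).length) :
    ∃ L : List (ℤ × M), (∀ p ∈ L, p.2 ∈ T) ∧ ∀ a j,
      (L.filter fun p => p.2 = a ∧ p.1 ≤ j ∧ Even (j - p.1)).length =
        if a ∈ T then f a j else 0 := by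
  induction T using Finset.induction_on with
  | empty => exact ⟨[], by simp, by simp⟩
  | insert b T hb ih =>
    obtain ⟨L, h1, h2⟩ := ih fun a ha => h a (Finset.mem_insert_of_mem ha)
    obtain ⟨l, hl⟩ := h b (Finset.mem_insert_self _ _)
    refine ⟨l.map (fun s => (s, b)) ++ L, fun p hp => ?_, fun a j => ?_⟩
    · rcases List.mem_append.1 hp with hp | hp
      · obtain ⟨s, -, rfl⟩ := List.mem_map.1 hp
        exact Finset.mem_insert_self _ _
      · exact Finset.mem_insert_of_mem (h1 p hp)
    · rw [List.filter_append, List.length_append, h2, List.filter_map, List.length_map]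
      by_cases hab : b = a
      · subst hab
        simp [hb, hl, Function.comp_def]
      · simp [hab, Ne.symm hab, Function.comp_def]

/-- FIN.  Induction on `D ≥ 0` with the invariant
`Zq c s = gprod L * Zq (restricted to deg (c α) > D)`.  Step: the remaining factor is admissible
(`Admis.cancel`, `admis_gprod`), so by `Zq_low`, `Admis.lowest` the fibre counts in degree `D + 1`
are eventually periodic; `exists_chain_list` for each of the finitely many `a` of degree `D + 1`
in the range of `c`, `Zc_fib`, `fib_chains`, `Zq_chains`, `Zq_split`. -/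
theorem Zq_finite {c : B → M} {s : B → ℤ} (h : LocFin A c s) (hc : ∀ α β, ω.w (c α) (c β) = 0)
    (hm : ∀ a j, fib c s a j ≤ fib c s a (j + 2)) (had : Admis (Zq ω A c s)) (D : ℤ) :
    ∃ L, Valid A (Set.range c) L ∧ Eqv {u | A.deg u ≤ D} (Zq ω A c s) (gprod ω A L) := by
  have hN : ∀ α, c α ∈ AddSubmonoid.closure (Set.range c) := fun α =>
    AddSubmonoid.subset_closure ⟨α, rfl⟩
  have hω : ∀ u ∈ AddSubmonoid.closure (Set.range c), ∀ v ∈ AddSubmonoid.closure (Set.range c),
      ω.w u v = 0 := by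
    intro u hu v hv
    induction hu, hv using AddSubmonoid.closure_induction₂ with
    | mem x y hx hy =>
      obtain ⟨α, rfl⟩ := hx
      obtain ⟨β, rfl⟩ := hy
      exact hc α β
    | zero_left => simp
    | zero_right => simp
    | add_left x y z _ _ _ h1 h2 => rw [map_add, AddMonoidHom.add_apply, h1, h2, add_zero]
    | add_right y z x _ _ _ h1 h2 => rw [map_add, h1, h2, add_zero]
  have key : ∀ n : ℕ, ∃ L, Valid A (Set.range c) L ∧
      Zq ω A c s = gprod ω A L * Z2_res ω A c s fun a => n < A.deg a := by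
    intro n
    induction n with
    | zero =>
      refine ⟨[], fun p hp => absurd hp List.not_mem_nil, ?_⟩
      rw [gprod_nil, one_mul]
      exact (Z2_congr (Zc_equiv (Equiv.subtypeUnivEquiv fun α => A.pos _ (h.1 α).1 (h.1 α).2)
        (fun _ => rfl) fun _ => rfl)).symm
    | succ n ih =>
      obtain ⟨L, hL, e⟩ := ih
      have h1 := h.subtype fun α => (n : ℤ) < A.deg (c α)
      have h2 : Admis (Z2_res ω A c s fun a => n < A.deg a) :=
        Admis.cancel hω (supp_gprod fun p hp => AddSubmonoid.subset_closure (hL p hp).2.2)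
          (supp_Zq fun α => hN _) (Zq_c_zero h1) (admis_gprod L) (e ▸ had)
      obtain ⟨h3, h4⟩ := Zq_low (ω := ω) h1 (D := n + 1) fun α => α.2
      obtain ⟨L', h5, h6⟩ := Z2_lists (fib c s) ((A.le (n + 1)).filter fun a =>
        A.deg a = n + 1 ∧ a ∈ Set.range c) fun a ha => by
          obtain ⟨-, ha, α, rfl⟩ := Finset.mem_filter.1 ha
          refine exists_chain_list _ (Z2_bdd h _) (hm _) (D := n + 1) (by omega)
            ((h2.lowest (h.1 α).2 fun u hu hu' => h3 u hu (ha ▸ hu')).subset fun j hj => ?_)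
          have h5 := h4 _ (h.1 α).2 ha
          simp only [Z2_fib c s fun a => (n : ℤ) < A.deg a, ha, lt_add_one, if_true] at h5
          rw [Set.mem_ofPred_eq, sub_mul, one_mul, HahnSeries.coeff_sub, tp_mul_coeff, Z2_res, h5,
            h5, ha, sub_ne_zero]
          exact fun h6 => hj (Nat.cast_injective h6)
      have h7 : Valid A (Set.range c) L' := fun p hp => by
        obtain ⟨-, -, α, hα⟩ := Finset.mem_filter.1 (h5 p hp)
        exact ⟨hα ▸ (h.1 α).1, hα ▸ (h.1 α).2, α, hα⟩
      have h8 : Valid A Set.univ L' := fun p hp => ⟨(h7 p hp).1, (h7 p hp).2.1, trivial⟩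
      have h9 : (Z2_res ω A c s fun a => A.deg a = n + 1) = gprod ω A L' := by
        rw [← Zq_chains h8 fun p hp q hq => hω _ (AddSubmonoid.subset_closure (h7 p hp).2.2) _
          (AddSubmonoid.subset_closure (h7 q hq).2.2)]
        refine Z2_congr (Zc_fib (h.subtype _) (locFin_chains h8) fun a j => ?_)
        rw [fib_chains, h6, Z2_fib c s fun a => A.deg a = n + 1]
        by_cases ha : a ∈ Set.range c
        · obtain ⟨α, rfl⟩ := ha
          by_cases h9 : A.deg (c α) = n + 1
          · rw [if_pos h9, if_pos (Finset.mem_filter.2 ⟨A.mem_le.2 ⟨(h.1 α).1, h9.le⟩, h9, α, rfl⟩)]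
          · rw [if_neg h9, if_neg fun h10 => h9 (Finset.mem_filter.1 h10).2.1]
        · rw [fib, Set.eq_empty_of_forall_notMem (s := {α | _}) fun α hα => ha ⟨α, hα.1⟩,
            Set.ncard_empty, ite_self, ite_self]
      refine ⟨L ++ L', fun p hp => (List.mem_append.1 hp).elim (hL p) (h7 p), ?_⟩
      rw [gprod_append, mul_assoc, ← h9, e]
      congr 1
      exact Z2_split h hc (fun a ha => by omega) fun a => by push_cast; omega
  obtain ⟨L, hL, e⟩ := key D.toNat
  refine ⟨L, hL, ?_⟩
  have h1 := h.subtype fun α => (D.toNat : ℤ) < A.deg (c α)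
  have h2 : Eqv {u | A.deg u ≤ D} (Z2_res ω A c s fun a => D.toNat < A.deg a) 1 := by
    intro u hu
    by_cases h0 : u = 0
    · rw [h0, one_c_zero]
      exact Zq_c_zero h1
    · rw [QT.one_c, if_neg h0]
      refine (Zq_low h1 (D := D.toNat + 1) fun α => α.2).1 u h0 ?_
      rw [Set.mem_ofPred_eq] at hu
      omega
  rw [e]
  simpa only [mul_one] using
    Eqv.mul (lower_le A.deg (fun _ => A.deg_nonneg) D) (Eqv.refl _ (gprod ω A L)) h2

end Crest.Agent.R59
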