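import Crest.Agent.R59.C13
import Crest.Agent.R59.C5
import Crest.Agent.R59.Z2

/-! # Row 59, RUp1: from dimension counts to series in the upstairs torus. -/

set_option autoImplicit false

namespace Crest.Agent.R59
noncomputable section
open scoped Classical

variable {I P : Type} [Fintype I] [DecidableEq I] [LinearOrder P]

theorem bZ_upc (Γ : Ctx I P) (a a' : I → ℕ) : bZ Γ.b (upc a) (upc a') = Γ.bT a a' := by
  simp [bZ, upc, Ctx.bT]
theorem upTh_upc (Γ : Ctx I P) (a : I → ℕ) : upTh Γ.θ (upc a) = Γ.thT a := by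
  simp [upTh, upc, Ctx.thT]
theorem hser_c (b : I → I → ℕ) (s : I → ℤ) (f : (I → ℕ) → ℕ → ℕ) (a : I → ℕ) :
    (hser b s f).c (upc a) = tp (∑ i, (a i : ℤ) * s i - bZ b (upc a) (upc a)) * hilb (f a) := by
  simp only [hser, QT.mk_c]
  rw [if_pos (show ∀ i, 0 ≤ upc a i from fun i => Int.natCast_nonneg _)]
  simp [upc]
theorem exists_upc {a : I → ℤ} (ha : a ∈ (upCone I).C) : ∃ a' : I → ℕ, a = upc a' := by
  exact ⟨fun i => (a i).toNat, funext fun i => (Int.toNat_of_nonneg (ha i)).symm⟩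

theorem RUp1_inj : Function.Injective (upc : (I → ℕ) → I → ℤ) := fun _ _ h =>
  funext fun i => Int.natCast_inj.1 (congrFun h i)

theorem RUp1_mem (a : I → ℕ) : upc a ∈ (upCone I).C := fun _ => Int.natCast_nonneg _

theorem RUp1_zero : upc (0 : I → ℕ) = 0 := rfl

theorem RUp1_add (a a' : I → ℕ) : upc (a + a') = upc a + upc a' := by
  funext i
  simp [upc]

theorem RUp1_tp_pow (n : ℕ) : tp 2 ^ n = tp (2 * n) := by
  induction n with
  | zero => simp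
  | succ n ih => rw [pow_succ, ih, ← tp_add]; congr 1

theorem RUp1_coeff (f g : ℕ → ℕ) (n m : ℕ) :
    PowerSeries.coeff m (PowerSeries.X ^ n * (PowerSeries.mk (fun m => (f m : ℚ)) *
      PowerSeries.mk fun m => (g m : ℚ))) = ((∑ m₁ ∈ Finset.range (m + 1),
        ∑ m₂ ∈ Finset.range (m + 1), if m₁ + m₂ + n = m then f m₁ * g m₂ else 0 : ℕ) : ℚ) := by
  rw [PowerSeries.coeff_X_pow_mul', ← Finset.sum_product', ← Finset.sum_filter]
  split_ifs with h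
  · rw [PowerSeries.coeff_mul]
    push_cast
    refine Finset.sum_congr ?_ fun p _ => by simp
    ext p
    simp only [Finset.HasAntidiagonal.mem_antidiagonal, Finset.mem_filter, Finset.mem_product,
      Finset.mem_range]
    omega
  · rw [Finset.filter_false_of_mem fun p _ => by omega]
    simp

theorem RUp1_hilb (Γ : Ctx I P) (a : I → ℕ) :
    hilb (Γ.hA a) = ∑ c ∈ Finset.Iic a,
      tp (2 * Γ.bT c (a - c)) * (hilb (Γ.hT c) * hilb (Γ.hF (a - c))) := by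
  have h : PowerSeries.mk (fun m => (Γ.hA a m : ℚ)) = ∑ c ∈ Finset.Iic a,
      PowerSeries.X ^ Γ.bT c (a - c) * (PowerSeries.mk (fun m => (Γ.hT c m : ℚ)) *
        PowerSeries.mk fun m => (Γ.hF (a - c) m : ℚ)) := by
    ext m
    rw [PowerSeries.coeff_mk, map_sum, Γ.hn_count, Nat.cast_sum]
    exact Finset.sum_congr rfl fun c _ => (RUp1_coeff _ _ _ _).symm
  unfold hilb
  rw [h, map_sum]
  refine Finset.sum_congr rfl fun c _ => ?_
  rw [map_mul, map_mul, map_pow, iota_X, RUp1_tp_pow]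

theorem RUp1_hilb_ne {f : ℕ → ℕ} (h : hilb f ≠ 0) : ∃ m, f m ≠ 0 := by
  by_contra hc
  push Not at hc
  apply h
  unfold hilb
  rw [show (PowerSeries.mk fun m => (f m : ℚ)) = 0 from by ext m; simp [hc], map_zero]

theorem RUp1_c_zero (b : I → I → ℕ) (s : I → ℤ) {f : (I → ℕ) → ℕ → ℕ}
    (hf : ∀ m, f 0 m = if m = 0 then 1 else 0) : (hser b s f).c 0 = 1 := by
  have h := hser_c b s f 0
  rw [RUp1_zero] at h
  rw [h]
  unfold hilb
  rw [show (PowerSeries.mk fun m => (f 0 m : ℚ)) = 1 from by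
    ext m; simp [hf, PowerSeries.coeff_one], map_one]
  simp [bZ]

theorem RUp1_supp {b : I → I → ℕ} {s : I → ℤ} {f : (I → ℕ) → ℕ → ℕ} {u : I → ℤ}
    (h : (hser b s f).c u ≠ 0) : ∃ a m, u = upc a ∧ f a m ≠ 0 := by
  obtain ⟨a, rfl⟩ := exists_upc ((hser b s f).supp h)
  rw [hser_c] at h
  obtain ⟨m, hm⟩ := RUp1_hilb_ne (right_ne_zero_of_mul h)
  exact ⟨a, m, rfl, hm⟩

/-- `hn_count`; `hilb` is multiplicative since `iota` is a ring hom, `iota X = t²`, and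
`-b(a,a) + 2 b(c,e) = ω(c,e) - b(c,c) - b(e,e)` -/
theorem hser_hn (Γ : Ctx I P) (s : I → ℤ) :
    hser Γ.b s Γ.hA = hser Γ.b s Γ.hT * hser Γ.b s Γ.hF := by
  ext1 d
  by_cases hd : d ∈ (upCone I).C
  swap
  · rw [QT.c_eq_zero _ hd, QT.c_eq_zero _ hd]
  obtain ⟨a, rfl⟩ := exists_upc hd
  rw [QT.mul_c, finsum_eq_sum_of_support_subset (s := (Finset.Iic a).image upc),
    Finset.sum_image fun _ _ _ _ h => RUp1_inj h, hser_c, RUp1_hilb, Finset.mul_sum]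
  · refine Finset.sum_congr rfl fun c hc => ?_
    obtain ⟨e, rfl⟩ := exists_add_of_le (Finset.mem_Iic.1 hc)
    have e1 : upc (c + e) - upc c = upc e := by rw [RUp1_add, add_sub_cancel_left]
    have e2 : (∑ i, (((c + e) i : ℕ) : ℤ) * s i - Γ.bT (c + e) (c + e)) + 2 * Γ.bT c e =
        (Γ.bT c e - Γ.bT e c) + (∑ i, (c i : ℤ) * s i - Γ.bT c c) +
          (∑ i, (e i : ℤ) * s i - Γ.bT e e) := by
      simp only [Pi.add_apply, Nat.cast_add, add_mul, Finset.sum_add_distrib, Ctx.bT_add_left,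
        Ctx.bT_add_right]
      ring
    rw [e1, add_tsub_cancel_left, hser_c, hser_c, upForm_apply]
    simp only [bZ_upc]
    rw [← mul_assoc, ← tp_add, e2, tp_add, tp_add]
    ring
  · intro u hu
    have h1 := (hser Γ.b s Γ.hT).supp (right_ne_zero_of_mul (left_ne_zero_of_mul hu))
    have h2 := (hser Γ.b s Γ.hF).supp (right_ne_zero_of_mul hu)
    obtain ⟨c, rfl⟩ := exists_upc h1
    refine Finset.mem_coe.2 (Finset.mem_image_of_mem _ (Finset.mem_Iic.2 fun i => ?_))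
    have : (0 : ℤ) ≤ (a i : ℤ) - (c i : ℤ) := h2 i
    exact (by omega : c i ≤ a i)

theorem gzero_hser (Γ : Ctx I P) (s : I → ℤ) :
    gzero (upTh Γ.θ) (hser Γ.b s Γ.hA) = proj (zeroM (upTh Γ.θ)) (hser Γ.b s Γ.hF) := by
  refine (IsFac.eq ⟨RUp1_c_zero _ _ Γ.hT_zero, RUp1_c_zero _ _ Γ.hF_zero, fun u hu => ?_,
    fun u hu => ?_, hser_hn Γ s⟩).2.2
  · obtain ⟨a, m, rfl, hm⟩ := RUp1_supp hu
    refine mem_negM.2 ?_
    rw [upTh_upc]
    exact (Γ.hT_ne_zero hm).imp_left fun h => by rw [h, RUp1_zero]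
  · obtain ⟨a, m, rfl, hm⟩ := RUp1_supp hu
    refine mem_nnM.2 ?_
    rw [upTh_upc]
    exact Γ.hF_ne_zero hm

/-- vector of a generator -/
def ixc (Γ : Ctx I P) (α : Γ.Ix) : I → ℤ := upc α.c
/-- weight of a generator -/
def ixs (Γ : Ctx I P) (s : I → ℤ) (α : Γ.Ix) : ℤ :=
  ∑ i, (α.c i : ℤ) * s i + 2 * α.m - Γ.bT α.c α.c

theorem odd_ixs {Γ : Ctx I P} {s : I → ℤ} (hs : ∀ i, Γ.odd i ↔ Odd (s i)) (α : Γ.Ix) :
    Odd (ixs Γ s α) ↔ Γ.oddT α.c := by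
  have h : Even (∑ i, (α.c i : ℤ) * s i - Γ.fT α.c) := by
    rw [Ctx.fT, Nat.cast_sum, ← Finset.sum_sub_distrib]
    refine Finset.even_sum _ fun i _ => ?_
    split_ifs with hi
    · rw [← mul_sub_one]
      exact (((hs i).1 hi).sub_odd odd_one).mul_left _
    · rw [Nat.cast_zero, sub_zero]
      exact (Int.not_odd_iff_even.1 fun h => hi ((hs i).2 h)).mul_left _
  obtain ⟨k, hk⟩ := h
  rw [ixs, Ctx.oddT, Int.odd_iff, Nat.odd_iff]
  omega
theorem locFin_ix {Γ : Ctx I P} (hS : Γ.Sym) (s : I → ℤ) :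
    LocFin (upCone I) (ixc Γ) (ixs Γ s) := by
  refine ⟨fun α => ⟨RUp1_mem _, fun h => α.hc.1 (RUp1_inj h)⟩, fun a j => ?_⟩
  set c : I → ℕ := fun i => (a i).toNat
  refine ((Set.finite_Iic (j - ∑ i, (c i : ℤ) * s i + Γ.bT c c).toNat).biUnion
    fun m _ => (Ctx.fib_Ix hS c m).1).subset ?_
  rintro α ⟨h1, h2⟩
  have h3 : α.c = c := by
    funext i
    simp [c, ← h1, ixc, upc]
  refine Set.mem_biUnion (x := α.m) ?_ ⟨h3, rfl⟩
  rw [ixs, h3] at h2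
  rw [Set.mem_Iic]
  omega
theorem fib_ix_mono {Γ : Ctx I P} (hS : Γ.Sym) (s : I → ℤ) (a : I → ℤ) (j : ℤ) :
    fib (ixc Γ) (ixs Γ s) a j ≤ fib (ixc Γ) (ixs Γ s) a (j + 2) := by
  unfold fib
  rcases Set.eq_empty_or_nonempty {α | ixc Γ α = a ∧ ixs Γ s α = j} with h | ⟨β, h1, h2⟩
  · rw [h, Set.ncard_empty]
    exact Nat.zero_le _
  have key : ∀ n : ℕ, {α | ixc Γ α = a ∧ ixs Γ s α = j + 2 * n} =
      {α : Γ.Ix | α.c = β.c ∧ α.m = β.m + n} := by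
    intro n
    ext α
    simp only [Set.mem_ofPred_eq, ← h1, ixc, RUp1_inj.eq_iff]
    refine and_congr_right fun h3 => ?_
    rw [← h2, ixs, ixs, h3]
    omega
  have k0 := key 0
  have k1 := key 1
  rw [Nat.cast_zero, mul_zero, add_zero] at k0
  rw [Nat.cast_one, mul_one] at k1
  rw [k0, k1, (Ctx.fib_Ix hS _ _).2, (Ctx.fib_Ix hS _ _).2, if_pos β.hc, if_pos β.hc]
  exact Ctx.dU_le hS β.hc.1 _
theorem ixc_comm {Γ : Ctx I P} (hS : Γ.Sym) (α β : Γ.Ix) :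
    (upForm Γ.b).w (ixc Γ α) (ixc Γ β) = 0 := by
  rw [upForm_apply, ixc, ixc, bZ_upc, bZ_upc, hS _ _ α.hc.2 β.hc.2, sub_self]
theorem RUp1_sum_c (Γ : Ctx I P) (μ : Γ.Ix →₀ ℕ) :
    (μ.sum fun α k => k • ixc Γ α) = upc (μ.sum fun α k => k • α.c) := by
  funext i
  simp [Finsupp.sum, ixc, upc, Finset.sum_apply]

theorem RUp1_sum_s (Γ : Ctx I P) (s : I → ℤ) (μ : Γ.Ix →₀ ℕ) :
    (μ.sum fun α k => (k : ℤ) * ixs Γ s α) =
      ∑ i, (((μ.sum fun α k => k • α.c) i : ℕ) : ℤ) * s i +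
        μ.sum fun α k => (k : ℤ) * (2 * (α.m : ℤ) - Γ.bT α.c α.c) := by
  simp only [Finsupp.sum, ixs, Finset.sum_apply, Pi.smul_apply, smul_eq_mul, Nat.cast_sum,
    Nat.cast_mul, Finset.sum_mul]
  rw [Finset.sum_comm, ← Finset.sum_add_distrib]
  refine Finset.sum_congr rfl fun α _ => ?_
  simp only [mul_assoc, ← Finset.mul_sum]
  ring

/-- `pbw_count`, `pbw_weight`, `hilb_coeff`, `tp_mul_coeff` -/
theorem Zc_ix {Γ : Ctx I P} (hS : Γ.Sym) {s : I → ℤ} (hs : ∀ i, Γ.odd i ↔ Odd (s i))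
    {a : I → ℕ} (ha : Γ.thT a = 0) :
    Zc (ixc Γ) (ixs Γ s) (upc a) =
      tp (∑ i, (a i : ℤ) * s i - Γ.bT a a) * hilb (Γ.hF a) := by
  rw [← Zq_c (ω := upForm Γ.b) (locFin_ix hS s)]
  ext j
  rw [Zq_coeff (locFin_ix hS s), tp_mul_coeff, hilb_coeff]
  have e : monos (ixc Γ) (ixs Γ s) (upc a) j =
      {μ : Γ.Ix →₀ ℕ | (∀ α, Γ.oddT α.c → μ α ≤ 1) ∧ (μ.sum fun α k => k • α.c) = a ∧
        (μ.sum fun α k => (k : ℤ) * (2 * (α.m : ℤ) - Γ.bT α.c α.c)) =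
          j - ∑ i, (a i : ℤ) * s i} := by
    ext μ
    simp only [monos, Set.mem_ofPred_eq, odd_ixs hs, RUp1_sum_c, RUp1_sum_s, RUp1_inj.eq_iff]
    refine and_congr_right fun _ => and_congr_right fun h => ?_
    rw [h]
    omega
  rw [e]
  split_ifs with h
  · obtain ⟨h1, k, hk⟩ := h
    rw [← Ctx.pbw_count hS ha, show j - ∑ i, (a i : ℤ) * s i =
      2 * (((j - (∑ i, (a i : ℤ) * s i - Γ.bT a a)) / 2).toNat : ℤ) - Γ.bT a a by omega]
  · rw [Set.eq_empty_of_forall_notMem (s := {μ : Γ.Ix →₀ ℕ | _}), Set.ncard_empty, Nat.cast_zero]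
    rintro μ ⟨-, h2, h3⟩
    obtain ⟨m, hm⟩ := Ctx.pbw_weight hS μ
    rw [h2, h3] at hm
    exact h ⟨by omega, m, by omega⟩
theorem proj_hser_eq {Γ : Ctx I P} (hS : Γ.Sym) {s : I → ℤ} (hs : ∀ i, Γ.odd i ↔ Odd (s i)) :
    proj (zeroM (upTh Γ.θ)) (hser Γ.b s Γ.hF) =
      Zq (upForm Γ.b) (upCone I) (ixc Γ) (ixs Γ s) := by
  ext1 d
  by_cases hd : d ∈ (upCone I).C
  swap
  · rw [QT.c_eq_zero _ hd, QT.c_eq_zero _ hd]
  obtain ⟨a, rfl⟩ := exists_upc hd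
  rw [proj_c]
  split_ifs with h
  · have h' : Γ.thT a = 0 := (upTh_upc Γ a).symm.trans h
    rw [hser_c, Zq_c (locFin_ix hS s), Zc_ix hS hs h', bZ_upc]
  · by_contra h0
    have h1 : ∀ α, ixc Γ α ∈ zeroM (upTh Γ.θ) := fun α =>
      mem_zeroM.2 ((upTh_upc Γ α.c).trans α.hc.2)
    exact h (supp_Zq h1 _ (Ne.symm h0))

end
end Crest.Agent.R59
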