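import Crest.Agent.R59.RUp1

/-! # Row 59, RUp2: Theorem R upstairs. -/

set_option autoImplicit false

namespace Crest.Agent.R59
noncomputable section
open scoped Classical

variable {r : ℕ}

/-- the list `(s_i, e_i)` -/
def upList (s : Fin r → ℤ) : List (ℤ × (Fin r → ℤ)) := List.ofFn fun i => (s i, Pi.single i 1)

private theorem ru2_bZ_add_left (b : Fin r → Fin r → ℕ) (x y z : Fin r → ℤ) :
    bZ b (x + y) z = bZ b x z + bZ b y z := by
  simp only [bZ, Pi.add_apply, add_mul, Finset.sum_add_distrib]

private theorem ru2_bZ_add_right (b : Fin r → Fin r → ℕ) (x y z : Fin r → ℤ) :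
    bZ b x (y + z) = bZ b x y + bZ b x z := by
  simp only [bZ, Pi.add_apply, add_mul, mul_add, Finset.sum_add_distrib]

private theorem ru2_single_mem (i : Fin r) : (Pi.single i 1 : Fin r → ℤ) ∈ (upCone (Fin r)).C := by
  intro j
  by_cases h : j = i
  · subst h; simp
  · simp [h]

private theorem ru2_single_ne (i : Fin r) : (Pi.single i 1 : Fin r → ℤ) ≠ 0 := by
  intro h
  have := congrFun h i
  simp at this

private theorem ru2_coeff_zero (s : ℤ) : PowerSeries.coeff 0 (Gser s) = 1 := by
  rw [PowerSeries.coeff_zero_eq_constantCoeff_apply, Gser_constantCoeff]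

private theorem ru2_list {b : Fin r → Fin r → ℕ} (hb : ∀ i j, i ≤ j → b i j = 0) (s : Fin r → ℤ)
    (l : List (Fin r)) (hl : l.Pairwise (· < ·)) (a : Fin r → ℕ) :
    (gprod (upForm b) (upCone (Fin r)) (l.map fun i => (s i, Pi.single i 1))).c (upc a) =
      if ∀ i, i ∉ l → a i = 0 then
        tp (-bZ b (upc a) (upc a)) * ∏ i, PowerSeries.coeff (a i) (Gser (s i)) else 0 := by
  induction l generalizing a with
  | nil =>
    rw [List.map_nil, gprod_nil, QT.one_c]
    by_cases h : ∀ i, i ∉ ([] : List (Fin r)) → a i = 0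
    · have ha : a = 0 := funext fun i => h i (by simp)
      subst ha
      have e : upc (0 : Fin r → ℕ) = 0 := by funext i; simp [upc]
      rw [if_pos h, if_pos e, e]
      simp [bZ, Gser_constantCoeff]
    · rw [if_neg h, if_neg]
      intro h0
      apply h
      intro i _
      have := congrFun h0 i
      simpa [upc] using this
  | cons k l ih =>
    obtain ⟨hk, hl'⟩ := List.pairwise_cons.1 hl
    have hkl : k ∉ l := fun h => lt_irrefl _ (hk k h)
    rw [List.map_cons, gprod_cons, QT.mul_c]
    have hsub : upc a - a k • (Pi.single k 1 : Fin r → ℤ) = upc (Function.update a k 0) := by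
      funext i
      by_cases h : i = k
      · subst h; simp [upc]
      · simp [upc, h]
    rw [finsum_eq_single _ (a k • (Pi.single k 1 : Fin r → ℤ))]
    · rw [hsub, ih hl']
      have hiff : (∀ i, i ∉ l → Function.update a k 0 i = 0) ↔ ∀ i, i ∉ k :: l → a i = 0 := by
        constructor
        · intro h i hi
          have hi1 : i ≠ k := fun e => hi (by simp [e])
          have hi2 : i ∉ l := fun e => hi (by simp [e])
          have := h i hi2
          rwa [Function.update_of_ne hi1] at this
        · intro h i hi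
          by_cases e : i = k
          · subst e; simp
          · rw [Function.update_of_ne e]
            exact h i (by simp [e, hi])
      by_cases hc : ∀ i, i ∉ k :: l → a i = 0
      · rw [if_pos hc, if_pos (hiff.2 hc)]
        have hg : (gen (upForm b) (upCone (Fin r)) (s k) (Pi.single k 1)).c
            (a k • (Pi.single k 1 : Fin r → ℤ)) = PowerSeries.coeff (a k) (Gser (s k)) :=
          ser_c_nsmul (ru2_single_mem k) (ru2_single_ne k) _ _
        have hprod : ∏ i, PowerSeries.coeff (a i) (Gser (s i)) =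
            PowerSeries.coeff (a k) (Gser (s k)) *
              ∏ i, PowerSeries.coeff (Function.update a k 0 i) (Gser (s i)) := by
          rw [← Finset.mul_prod_erase Finset.univ _ (Finset.mem_univ k),
            ← Finset.mul_prod_erase Finset.univ
              (fun i => PowerSeries.coeff (Function.update a k 0 i) (Gser (s i)))
              (Finset.mem_univ k)]
          simp only [Function.update_self, ru2_coeff_zero, one_mul]
          congr 1
          refine Finset.prod_congr rfl fun i hi => ?_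
          rw [Function.update_of_ne (Finset.ne_of_mem_erase hi)]
        have hx : ∀ y : Fin r → ℤ, (∀ j, j < k → y j = 0) →
            bZ b (a k • (Pi.single k 1 : Fin r → ℤ)) y = 0 := by
          intro y hy
          refine Finset.sum_eq_zero fun i _ => Finset.sum_eq_zero fun j _ => ?_
          by_cases e : i = k
          · subst e
            rcases lt_or_ge j i with h | h
            · simp [hy j h]
            · simp [hb i j h]
          · simp [e]
        have hadd : upc a = upc (Function.update a k 0) + a k • (Pi.single k 1 : Fin r → ℤ) := by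
          rw [← hsub]; abel
        have h1 : bZ b (a k • (Pi.single k 1 : Fin r → ℤ)) (upc (Function.update a k 0)) = 0 := by
          apply hx
          intro j hj
          have hjl : j ∉ l := fun h => lt_asymm hj (hk j h)
          have := hiff.2 hc j hjl
          simp [upc, this]
        have h2 : bZ b (a k • (Pi.single k 1 : Fin r → ℤ))
            (a k • (Pi.single k 1 : Fin r → ℤ)) = 0 := by
          apply hx
          intro j hj
          simp [hj.ne]
        have hexp : -bZ b (upc a) (upc a) =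
            (upForm b).w (a k • (Pi.single k 1 : Fin r → ℤ)) (upc (Function.update a k 0)) +
              -bZ b (upc (Function.update a k 0)) (upc (Function.update a k 0)) := by
          rw [upForm_apply, h1]
          conv_lhs => rw [hadd]
          rw [ru2_bZ_add_left, ru2_bZ_add_right, ru2_bZ_add_right, h1, h2]
          ring
        rw [hexp, tp_add, hprod]
        show _ * (gen (upForm b) (upCone (Fin r)) (s k) (Pi.single k 1)).c
            (a k • (Pi.single k 1 : Fin r → ℤ)) * _ = _
        rw [hg]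
        ring
      · rw [if_neg hc, if_neg (fun h => hc (hiff.1 h)), mul_zero]
    · intro u hu
      by_cases h1 : (gen (upForm b) (upCone (Fin r)) (s k) (Pi.single k 1)).c u = 0
      · show _ * (gen (upForm b) (upCone (Fin r)) (s k) (Pi.single k 1)).c u * _ = 0
        rw [h1]; simp
      · obtain ⟨j, rfl⟩ := ser_c_ne_zero h1
        have hj : j ≠ a k := fun e => hu (by rw [e])
        let N : AddSubmonoid (Fin r → ℤ) :=
          { carrier := {v | v k = 0}
            zero_mem' := rfl
            add_mem' := fun {x y} hx hy => by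
              have hx' : x k = 0 := hx
              have hy' : y k = 0 := hy
              show x k + y k = 0
              rw [hx', hy', add_zero] }
        have hs : Supp (gprod (upForm b) (upCone (Fin r))
            (l.map fun i => (s i, (Pi.single i 1 : Fin r → ℤ)))) N := by
          apply supp_gprod
          intro p hp
          obtain ⟨i, hi, rfl⟩ := List.mem_map.1 hp
          have : k ≠ i := (hk i hi).ne
          show (Pi.single i 1 : Fin r → ℤ) k = 0
          simp [this]
        have h0 : (gprod (upForm b) (upCone (Fin r))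
            (l.map fun i => (s i, (Pi.single i 1 : Fin r → ℤ)))).c
            (upc a - j • (Pi.single k 1 : Fin r → ℤ)) = 0 := by
          by_contra hne
          have h3 : (upc a - j • (Pi.single k 1 : Fin r → ℤ)) k = 0 := hs _ hne
          simp [upc] at h3
          omega
        rw [h0, mul_zero]

private theorem ru2_valid (s : Fin r → ℤ) : Valid (upCone (Fin r)) Set.univ (upList s) := by
  intro p hp
  obtain ⟨i, rfl⟩ := List.mem_ofFn.1 hp
  exact ⟨ru2_single_mem i, ru2_single_ne i, trivial⟩

private theorem ru2_len (s : Fin r → ℤ) (v : Fin r → ℤ) (j : ℤ) :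
    ((upList s).filter fun p => p.2 = v ∧ p.1 ≤ j ∧ Even (j - p.1)).length =
      (Finset.univ.filter fun i : Fin r =>
        (Pi.single i 1 : Fin r → ℤ) = v ∧ s i ≤ j ∧ Even (j - s i)).card := by
  rw [upList, List.ofFn_eq_map, List.filter_map, List.length_map,
    ← List.toFinset_card_of_nodup ((List.nodup_finRange r).filter _)]
  congr 1
  ext i
  simp

private theorem ru2_single_of_sum {c : Fin r → ℕ} (h : ∑ i, c i = 1) :
    ∃ i, c = Pi.single i 1 := by
  obtain ⟨i, -, hi⟩ := Finset.exists_ne_zero_of_sum_ne_zero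
    (show ∑ i, c i ≠ 0 by rw [h]; exact one_ne_zero)
  refine ⟨i, funext fun j => ?_⟩
  have h1 := Finset.add_sum_erase Finset.univ c (Finset.mem_univ i)
  by_cases e : j = i
  · subst e
    simp only [Pi.single_eq_same]
    omega
  · have h2 : c j ≤ ∑ x ∈ Finset.univ.erase i, c x :=
      Finset.single_le_sum (fun _ _ => Nat.zero_le _) (Finset.mem_erase.2 ⟨e, Finset.mem_univ j⟩)
    rw [Pi.single_eq_of_ne e]
    omega

private theorem ru2_upc_single (i : Fin r) :
    upc (Pi.single i 1 : Fin r → ℕ) = (Pi.single i 1 : Fin r → ℤ) := by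
  funext j
  by_cases e : j = i
  · subst e; simp [upc]
  · simp [upc, e]

private theorem ru2_upc_inj {a a' : Fin r → ℕ} (h : upc a = upc a') : a = a' := by
  funext j
  have := congrFun h j
  simpa [upc] using this

/-- Prove by downward induction on `k` the formula for the product over `i ≥ k` (supported on
vectors vanishing below `k`); `ω(a_k e_k, a') = -b(a', a_k e_k)`. -/
theorem gprod_upList_c {b : Fin r → Fin r → ℕ} (hb : ∀ i j, i ≤ j → b i j = 0) (s : Fin r → ℤ)
    (a : Fin r → ℕ) : (gprod (upForm b) (upCone (Fin r)) (upList s)).c (upc a) =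
      tp (-bZ b (upc a) (upc a)) * ∏ i, PowerSeries.coeff (a i) (Gser (s i)) := by
  rw [upList, List.ofFn_eq_map, ru2_list hb s _ (List.pairwise_lt_finRange r), if_pos]
  intro i hi
  exact absurd (List.mem_finRange i) hi

variable {P : Type} [LinearOrder P]

private theorem ru2_fib (Γ : Ctx (Fin r) P) (s : Fin r → ℤ) (v : Fin r → ℤ) (j : ℤ) :
    fib (ixc Γ.zero) (ixs Γ.zero s) v j =
      (Finset.univ.filter fun i : Fin r =>
        (Pi.single i 1 : Fin r → ℤ) = v ∧ s i ≤ j ∧ Even (j - s i)).card := by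
  have hbT : ∀ a a' : Fin r → ℕ, Γ.zero.bT a a' = 0 := by
    intro a a'
    simp [Ctx.bT, Ctx.zero]
  have hth : ∀ a : Fin r → ℕ, Γ.zero.thT a = 0 := by
    intro a
    simp [Ctx.thT, Ctx.zero]
  have hsing : ∀ α : Γ.zero.Ix, ∃ i, α.c = Pi.single i 1 := by
    intro α
    obtain ⟨hfin, hcard⟩ := Ctx.fib_Ix (Γ := Γ.zero) Γ.zero_sym α.c α.m
    rw [if_pos α.hc, Γ.zero_dU α.hc.1] at hcard
    by_cases h : ∑ i, α.c i = 1
    · exact ru2_single_of_sum h
    · rw [if_neg h, Set.ncard_eq_zero hfin] at hcard
      have : α ∈ {β : Γ.zero.Ix | β.c = α.c ∧ β.m = α.m} := ⟨rfl, rfl⟩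
      rw [hcard] at this
      exact absurd this (Set.notMem_empty _)
  have hixs : ∀ (α : Γ.zero.Ix) (i : Fin r), α.c = Pi.single i 1 →
      ixs Γ.zero s α = s i + 2 * α.m := by
    intro α i hi
    unfold ixs
    rw [hbT, hi, Finset.sum_eq_single i]
    · simp
    · intro j _ hj
      simp [hj]
    · simp
  by_cases h : ∃ i : Fin r, (Pi.single i 1 : Fin r → ℤ) = v ∧ s i ≤ j ∧ Even (j - s i)
  · obtain ⟨i, rfl, hle, m', hm'⟩ := h
    obtain ⟨m, rfl⟩ := Int.eq_ofNat_of_zero_le (show 0 ≤ m' by omega)
    have e1 : (Finset.univ.filter fun i' : Fin r =>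
        (Pi.single i' 1 : Fin r → ℤ) = Pi.single i 1 ∧ s i' ≤ j ∧ Even (j - s i')) = {i} := by
      ext i'
      simp only [Finset.mem_filter, Finset.mem_univ, true_and, Finset.mem_singleton]
      constructor
      · rintro ⟨h1, -⟩
        by_contra hne
        have := congrFun h1 i'
        simp [hne] at this
      · rintro rfl
        exact ⟨rfl, hle, m, hm'⟩
    have e2 : {α : Γ.zero.Ix | ixc Γ.zero α = Pi.single i 1 ∧ ixs Γ.zero s α = j} =
        {α : Γ.zero.Ix | α.c = Pi.single i 1 ∧ α.m = m} := by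
      ext α
      constructor
      · rintro ⟨h1, h2⟩
        have h3 : α.c = Pi.single i 1 := ru2_upc_inj (h1.trans (ru2_upc_single i).symm)
        rw [hixs α i h3] at h2
        exact ⟨h3, by omega⟩
      · rintro ⟨h1, h2⟩
        refine ⟨?_, ?_⟩
        · unfold ixc
          rw [h1, ru2_upc_single]
        · rw [hixs α i h1, h2]
          omega
    have hne : (Pi.single i 1 : Fin r → ℕ) ≠ 0 := by
      intro h0
      have := congrFun h0 i
      simp at this
    unfold fib
    rw [e1, e2, (Ctx.fib_Ix (Γ := Γ.zero) Γ.zero_sym _ _).2, if_pos ⟨hne, hth _⟩,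
      Γ.zero_dU hne, if_pos (by simp)]
    simp
  · have e1 : (Finset.univ.filter fun i : Fin r =>
        (Pi.single i 1 : Fin r → ℤ) = v ∧ s i ≤ j ∧ Even (j - s i)) = ∅ := by
      rw [Finset.filter_eq_empty_iff]
      intro i _ hi
      exact h ⟨i, hi⟩
    have e2 : {α : Γ.zero.Ix | ixc Γ.zero α = v ∧ ixs Γ.zero s α = j} = ∅ := by
      rw [Set.eq_empty_iff_forall_notMem]
      rintro α ⟨h1, h2⟩
      obtain ⟨i, hi⟩ := hsing α
      rw [hixs α i hi] at h2
      refine h ⟨i, ?_, by omega, α.m, by omega⟩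
      rw [← h1, ixc, hi, ru2_upc_single]
    unfold fib
    rw [e1, e2]
    simp

/-- In `Γ.zero`: `Zc_ix`, `zero_hF`; the fibre counts of `ixc, ixs` (`fib_Ix`, `zero_dU`) are those
of the chains of `upList s` (`fib_chains`), so `Zc_fib`, `Zq_chains` and `gprod_upList_c` with
`b = 0` give `t^(s(a)) hilb (hA a) = ∏ coeff`. -/
theorem hilb_hA (Γ : Ctx (Fin r) P) {s : Fin r → ℤ} (hs : ∀ i, Γ.odd i ↔ Odd (s i))
    (a : Fin r → ℕ) :
    tp (∑ i, (a i : ℤ) * s i) * hilb (Γ.hA a) = ∏ i, PowerSeries.coeff (a i) (Gser (s i)) := by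
  have hth : Γ.zero.thT a = 0 := by simp [Ctx.thT, Ctx.zero]
  have hbT : Γ.zero.bT a a = 0 := by simp [Ctx.bT, Ctx.zero]
  have h1 := Zc_ix (Γ := Γ.zero) Γ.zero_sym (s := s) hs hth
  have hF : Γ.zero.hF a = Γ.hA a := funext fun m => Γ.zero_hF a m
  rw [hbT, hF, Nat.cast_zero, sub_zero] at h1
  rw [← h1]
  have hL := ru2_valid s
  have h2 := Zc_fib (locFin_ix (Γ := Γ.zero) Γ.zero_sym s) (locFin_chains hL)
    (fun v j => by
      rw [ru2_fib, fib_chains, ← ru2_len]
      congr 1
      exact List.filter_congr fun p _ => by simp) (upc a)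
  rw [h2, ← Zq_c (ω := upForm (fun _ _ : Fin r => 0)) (locFin_chains hL),
    Zq_chains hL (fun p _ q _ => by simp [upForm_apply, bZ]),
    gprod_upList_c (fun _ _ _ => rfl)]
  simp [bZ]

theorem hser_hA (Γ : Ctx (Fin r) P) (hb : ∀ i j, i ≤ j → Γ.b i j = 0) {s : Fin r → ℤ}
    (hs : ∀ i, Γ.odd i ↔ Odd (s i)) :
    hser Γ.b s Γ.hA = gprod (upForm Γ.b) (upCone (Fin r)) (upList s) := by
  ext1 u
  by_cases hu : u ∈ (upCone (Fin r)).C
  · obtain ⟨a, rfl⟩ := exists_upc hu
    rw [hser_c, gprod_upList_c hb, ← hilb_hA Γ hs, sub_eq_add_neg, tp_add]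
    ring
  · rw [QT.c_eq_zero _ hu, QT.c_eq_zero _ hu]

/-- a context with prescribed data: points `Lex (Fin r × ℕ)` -/
theorem exists_ctx (b : Fin r → Fin r → ℕ) (s : Fin r → ℤ) (θ : Fin r → ℚ) :
    ∃ Γ : Ctx (Fin r) (Lex (Fin r × ℕ)), Γ.b = b ∧ Γ.θ = θ ∧ ∀ i, Γ.odd i ↔ Odd (s i) := by
  refine ⟨⟨fun p => (ofLex p).1, ?_, fun i => Odd (s i), b, θ⟩, rfl, rfl, fun _ => Iff.rfl⟩
  intro a
  refine ⟨Finset.univ.biUnion fun i : Fin r =>
    (Finset.range (a i)).image fun n => toLex (i, n), fun i => ?_⟩
  have hinj : Function.Injective fun n : ℕ => (toLex (i, n) : Lex (Fin r × ℕ)) := by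
    intro n n' h
    simpa using h
  rw [← Finset.card_range (a i), ← Finset.card_image_of_injective _ hinj]
  congr 1
  ext p
  simp only [Finset.mem_filter, Finset.mem_biUnion, Finset.mem_univ, true_and, Finset.mem_image,
    Finset.mem_range]
  constructor
  · rintro ⟨⟨i', n, hn, rfl⟩, h⟩
    have h' : i' = i := h
    subst h'
    exact ⟨n, hn, rfl⟩
  · rintro ⟨n, hn, rfl⟩
    exact ⟨⟨i, n, hn, rfl⟩, rfl⟩

/-- `hser_hA`, `gzero_hser`, `proj_hser_eq`, `Admis.gzero`, `admis_gprod`, `Zq_finite` -/
theorem thmR_up {b : Fin r → Fin r → ℕ} (hb : ∀ i j, i ≤ j → b i j = 0) (s : Fin r → ℤ)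
    (θ : Fin r → ℚ)
    (hsym : ∀ a a' : Fin r → ℕ, upTh θ (upc a) = 0 → upTh θ (upc a') = 0 →
      (upForm b).w (upc a) (upc a') = 0) (D : ℤ) :
    ∃ L, Valid (upCone (Fin r)) (zeroM (upTh θ)) L ∧
      Eqv {u | (upCone (Fin r)).deg u ≤ D}
        (gzero (upTh θ) (gprod (upForm b) (upCone (Fin r)) (upList s)))
        (gprod (upForm b) (upCone (Fin r)) L) := by
  obtain ⟨Γ, rfl, rfl, hs⟩ := exists_ctx b s θ
  have hS : Γ.Sym := by
    intro a a' ha ha'
    have := hsym a a' (by rw [upTh_upc, ha]) (by rw [upTh_upc, ha'])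
    rw [upForm_apply, bZ_upc, bZ_upc] at this
    omega
  have e : gzero (upTh Γ.θ) (gprod (upForm Γ.b) (upCone (Fin r)) (upList s)) =
      Zq (upForm Γ.b) (upCone (Fin r)) (ixc Γ) (ixs Γ s) := by
    rw [← hser_hA Γ hb hs, gzero_hser, proj_hser_eq hS hs]
  have had : Admis (Zq (upForm Γ.b) (upCone (Fin r)) (ixc Γ) (ixs Γ s)) := by
    rw [← e]
    exact (admis_gprod _).gzero _
  obtain ⟨L, hL, hE⟩ := Zq_finite (locFin_ix hS s) (ixc_comm hS) (fib_ix_mono hS s) had D
  refine ⟨L, fun p hp => ?_, by rw [e]; exact hE⟩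
  obtain ⟨h1, h2, α, hα⟩ := hL p hp
  refine ⟨h1, h2, ?_⟩
  show upTh Γ.θ p.2 = 0
  rw [← hα, ixc, upTh_upc]
  exact α.hc.2

end
end Crest.Agent.R59
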