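import Crest.Agent.R59.Defs

/-! # Row 59, T1: basic API of the completed torus (supports, congruences, projections,
monomials, derivations).  Everything is a direct computation from `QT.mul_c` / `QT.mul_c_sum`. -/

set_option autoImplicit false

namespace Crest.Agent.R59
open scoped Classical

variable {M : Type} [AddCommGroup M] {ω : Form M} {A : Cone M}

theorem t1_w_left (u d : M) : ω.w u (d - u) = ω.w u d := by
  rw [map_sub, ω.alt, sub_zero]

theorem t1_w_right (u d : M) : ω.w (d - u) u = ω.w d u := by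
  rw [map_sub, AddMonoidHom.sub_apply, ω.alt, sub_zero]

theorem t1_mul_c_left (f g : QT ω A) (d : M) :
    (f * g).c d = ∑ᶠ u, tp (ω.w u d) * f.c u * g.c (d - u) := by
  rw [QT.mul_c]
  exact finsum_congr fun u => by rw [t1_w_left]

theorem t1_mul_c_right (f g : QT ω A) (d : M) :
    (f * g).c d = ∑ᶠ u, tp (ω.w d u) * f.c (d - u) * g.c u := by
  rw [QT.mul_c, ← finsum_comp_equiv (Equiv.subLeft d)]
  refine finsum_congr fun u => ?_
  simp only [Equiv.subLeft_apply, sub_sub_cancel]
  rw [t1_w_right]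

theorem mul_c_ne_zero {f g : QT ω A} {d : M} (h : (f * g).c d ≠ 0) :
    ∃ u v, u + v = d ∧ f.c u ≠ 0 ∧ g.c v ≠ 0 := by
  obtain ⟨u, h1, h2⟩ := conv_ne_zero (ω := ω) h
  exact ⟨u, d - u, by abel, h1, h2⟩

/-- only `u = 0` contributes (`A.pos`) -/
theorem mul_c_zero (f g : QT ω A) : (f * g).c 0 = f.c 0 * g.c 0 := by
  rw [QT.mul_c, finsum_eq_single _ 0]
  · simp
  · intro u hu
    by_cases h1 : f.c u = 0
    · simp [h1]
    · by_cases h2 : g.c (0 - u) = 0
      · rw [h2, mul_zero]
      · have h3 := A.pos u (f.supp h1) hu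
        have h4 := A.deg_nonneg (g.supp h2)
        rw [map_sub, map_zero] at h4
        omega

@[simp] theorem one_c_zero : (1 : QT ω A).c 0 = 1 := by
  rw [QT.one_c, if_pos rfl]

theorem Supp.mono {f : QT ω A} {N N' : Set M} (h : Supp f N) (hN : N ⊆ N') : Supp f N' := by
  exact fun u hu => hN (h u hu)
theorem Supp.inter {f : QT ω A} {N N' : Set M} (h : Supp f N) (h' : Supp f N') :
    Supp f (N ∩ N') := by
  exact fun u hu => ⟨h u hu, h' u hu⟩
theorem supp_cone (f : QT ω A) : Supp f A.C := by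
  exact fun u hu => f.supp hu
theorem Supp.add {f g : QT ω A} {N : Set M} (hf : Supp f N) (hg : Supp g N) : Supp (f + g) N := by
  intro u hu
  by_cases h : f.c u = 0
  · exact hg u (by simpa [h] using hu)
  · exact hf u h
theorem Supp.sub {f g : QT ω A} {N : Set M} (hf : Supp f N) (hg : Supp g N) : Supp (f - g) N := by
  intro u hu
  by_cases h : f.c u = 0
  · exact hg u (by simpa [h] using hu)
  · exact hf u h
theorem Supp.smul {f : QT ω A} {N : Set M} (hf : Supp f N) (a : K) : Supp (a • f) N := by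
  intro u hu
  exact hf u (by intro h; simp [h] at hu)
theorem Supp.sum {ι : Type*} {s : Finset ι} {f : ι → QT ω A} {N : Set M}
    (h : ∀ i ∈ s, Supp (f i) N) : Supp (∑ i ∈ s, f i) N := by
  intro u hu
  rw [QT.sum_c] at hu
  obtain ⟨i, hi, h'⟩ := Finset.exists_ne_zero_of_sum_ne_zero hu
  exact h i hi u h'
theorem Supp.mul' {f g : QT ω A} {N₁ N₂ N₃ : Set M} (hf : Supp f N₁) (hg : Supp g N₂)
    (h : ∀ u ∈ N₁, ∀ v ∈ N₂, u + v ∈ N₃) : Supp (f * g) N₃ := by
  intro d hd
  obtain ⟨u, v, rfl, h1, h2⟩ := mul_c_ne_zero hd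
  exact h u (hf u h1) v (hg v h2)
theorem Supp.mul {f g : QT ω A} {N : AddSubmonoid M} (hf : Supp f N) (hg : Supp g N) :
    Supp (f * g) N := by
  exact hf.mul' hg fun u hu v hv => N.add_mem hu hv
theorem supp_one (N : AddSubmonoid M) : Supp (1 : QT ω A) N := by
  intro u hu
  rw [QT.one_c] at hu
  by_cases h : u = 0
  · rw [h]; exact N.zero_mem
  · simp [h] at hu
theorem Supp.list_prod {l : List (QT ω A)} {N : AddSubmonoid M} (h : ∀ f ∈ l, Supp f N) :
    Supp l.prod N := by
  induction l with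
  | nil => exact supp_one N
  | cons a l ih =>
    rw [List.prod_cons]
    exact (h a (by simp)).mul (ih fun f hf => h f (by simp [hf]))
theorem list_prod_c_zero {l : List (QT ω A)} (h : ∀ f ∈ l, f.c 0 = 1) : l.prod.c 0 = 1 := by
  induction l with
  | nil => exact one_c_zero
  | cons a l ih =>
    rw [List.prod_cons, mul_c_zero, h a (by simp), ih fun f hf => h f (by simp [hf]), mul_one]

theorem Eqv.refl (S : Set M) (f : QT ω A) : Eqv S f f := fun _ _ => rfl
theorem Eqv.symm {S : Set M} {f g : QT ω A} (h : Eqv S f g) : Eqv S g f :=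
  fun u hu => (h u hu).symm
theorem Eqv.trans {S : Set M} {f g k : QT ω A} (h : Eqv S f g) (h' : Eqv S g k) : Eqv S f k :=
  fun u hu => (h u hu).trans (h' u hu)
theorem Eqv.mono {S S' : Set M} {f g : QT ω A} (h : Eqv S f g) (hS : S' ⊆ S) : Eqv S' f g :=
  fun u hu => h u (hS hu)
theorem Eqv.add {S : Set M} {f g f' g' : QT ω A} (h : Eqv S f f') (h' : Eqv S g g') :
    Eqv S (f + g) (f' + g') := by
  intro u hu
  rw [QT.add_c, QT.add_c, h u hu, h' u hu]
theorem Eqv.sub {S : Set M} {f g f' g' : QT ω A} (h : Eqv S f f') (h' : Eqv S g g') :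
    Eqv S (f - g) (f' - g') := by
  intro u hu
  rw [QT.sub_c, QT.sub_c, h u hu, h' u hu]
theorem Eqv.smul {S : Set M} {f f' : QT ω A} (h : Eqv S f f') (a : K) :
    Eqv S (a • f) (a • f') := by
  intro u hu
  rw [QT.smul_c, QT.smul_c, h u hu]
theorem Eqv.mul {S : Set M} (hS : Lower A S) {f g f' g' : QT ω A} (h : Eqv S f f')
    (h' : Eqv S g g') : Eqv S (f * g) (f' * g') := by
  intro d hd
  rw [QT.mul_c, QT.mul_c]
  refine finsum_congr fun u => ?_
  by_cases hu : u ∈ A.C
  · by_cases hv : d - u ∈ A.C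
    · rw [h u (hS u hu (d - u) hv (by simpa using hd)),
        h' (d - u) (hS (d - u) hv u hu (by simpa using hd))]
    · rw [g.c_eq_zero hv, g'.c_eq_zero hv, mul_zero, mul_zero]
  · rw [f.c_eq_zero hu, f'.c_eq_zero hu, mul_zero, zero_mul, zero_mul]
theorem eqv_univ {f g : QT ω A} : Eqv Set.univ f g ↔ f = g := by
  constructor
  · intro h
    exact QT.ext fun u => h u trivial
  · rintro rfl
    exact Eqv.refl _ _
theorem lower_univ : Lower A Set.univ := by
  exact fun _ _ _ _ _ => trivial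
theorem lower_le (η : M →+ ℤ) (hη : ∀ u ∈ A.C, 0 ≤ η u) (k : ℤ) : Lower A {u | η u ≤ k} := by
  intro u _ v hv h
  have := hη v hv
  simp only [Set.mem_ofPred_eq, map_add] at h ⊢
  omega
theorem lower_lt (η : M →+ ℤ) (hη : ∀ u ∈ A.C, 0 ≤ η u) (k : ℤ) : Lower A {u | η u < k} := by
  intro u _ v hv h
  have := hη v hv
  simp only [Set.mem_ofPred_eq, map_add] at h ⊢
  omega
theorem lower_coe_le (k : ℤ) : Lower A (A.le k : Set M) := by
  intro u hu v hv h
  have h1 := A.deg_nonneg hv
  have h2 := (A.mem_le.1 h).2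
  rw [map_add] at h2
  exact A.mem_le.2 ⟨hu, by omega⟩
theorem Lower.inter {S S' : Set M} (h : Lower A S) (h' : Lower A S') : Lower A (S ∩ S') := by
  exact fun u hu v hv huv => ⟨h u hu v hv huv.1, h' u hu v hv huv.2⟩
theorem t1_eqv_of_deg {S : Set M} {f g : QT ω A}
    (h : ∀ d ∈ A.C, d ∈ S → Eqv (S ∩ {u | A.deg u < A.deg d}) f g → f.c d = g.c d) :
    Eqv S f g := by
  have key : ∀ n : ℕ, ∀ d, A.deg d < n → d ∈ S → f.c d = g.c d := by
    intro n
    induction n with
    | zero =>
      intro d hd _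
      have : d ∉ A.C := fun hc => by have := A.deg_nonneg hc; omega
      rw [f.c_eq_zero this, g.c_eq_zero this]
    | succ n ih =>
      intro d hd hS
      by_cases hc : d ∈ A.C
      · refine h d hc hS fun u hu => ih u ?_ hu.1
        have : A.deg u < A.deg d := hu.2
        omega
      · rw [f.c_eq_zero hc, g.c_eq_zero hc]
  intro d hd
  exact key ((A.deg d).toNat + 1) d (by omega) hd

/-- induction on the degree -/
theorem ext_deg {f g : QT ω A}
    (h : ∀ d ∈ A.C, Eqv {u | A.deg u < A.deg d} f g → f.c d = g.c d) : f = g := by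
  refine eqv_univ.1 (t1_eqv_of_deg fun d hd _ h' => h d hd ?_)
  rwa [Set.univ_inter] at h'
/-- induction on the degree inside a set -/
theorem eqv_of_deg {S : Set M} {f g : QT ω A}
    (h : ∀ d ∈ A.C, d ∈ S → Eqv (S ∩ {u | A.deg u < A.deg d}) f g → f.c d = g.c d) :
    Eqv S f g := by
  exact t1_eqv_of_deg h

theorem proj_c (S : Set M) (f : QT ω A) (u : M) :
    (proj S f).c u = if u ∈ S then f.c u else 0 := rfl
theorem eqv_proj (S : Set M) (f : QT ω A) : Eqv S (proj S f) f := by
  intro u hu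
  rw [proj_c, if_pos hu]
theorem supp_proj (S : Set M) (f : QT ω A) : Supp (proj S f) S := by
  intro u hu
  by_contra h
  exact hu (by rw [proj_c, if_neg h])
theorem Supp.proj {f : QT ω A} {N : Set M} (h : Supp f N) (S : Set M) : Supp (proj S f) N := by
  intro u hu
  refine h u fun h0 => hu ?_
  rw [proj_c, h0, ite_self]
theorem proj_eq_self {S : Set M} {f : QT ω A} (h : Supp f S) : proj S f = f := by
  ext1 u
  rw [proj_c]
  split_ifs with hu
  · rfl
  · by_contra h0
    exact hu (h u (Ne.symm h0))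
theorem proj_add_proj_compl (S : Set M) (f : QT ω A) : proj S f + proj Sᶜ f = f := by
  ext1 u
  rw [QT.add_c, proj_c, proj_c]
  by_cases hu : u ∈ S
  · simp [hu]
  · simp [hu]
/-- the projection `T_{η ≥ 0} → T_{η = 0}` is multiplicative -/
theorem proj_mul (η : M →+ ℚ) {f g : QT ω A} (hf : Supp f (nnM η)) (hg : Supp g (nnM η)) :
    proj (zeroM η) (f * g) = proj (zeroM η) f * proj (zeroM η) g := by
  ext1 d
  by_cases hd : d ∈ (zeroM η : Set M)
  · rw [proj_c, if_pos hd, QT.mul_c, QT.mul_c]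
    refine finsum_congr fun u => ?_
    rw [proj_c, proj_c]
    by_cases h1 : f.c u = 0
    · simp [h1]
    · by_cases h2 : g.c (d - u) = 0
      · simp [h2]
      · have h3 : 0 ≤ η u := hf u h1
        have h4 : 0 ≤ η (d - u) := hg _ h2
        have h5 : η d = 0 := hd
        have h6 : η (d - u) = η d - η u := map_sub _ _ _
        have h7 : u ∈ (zeroM η : Set M) := by show η u = 0; linarith
        have h8 : d - u ∈ (zeroM η : Set M) := by show η (d - u) = 0; linarith
        rw [if_pos h7, if_pos h8]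
  · rw [proj_c, if_neg hd]
    by_contra h0
    exact hd (((supp_proj _ f).mul (supp_proj _ g)) d (Ne.symm h0))
theorem proj_eq_one (η : M →+ ℚ) {f : QT ω A} (h0 : f.c 0 = 1) (hf : Supp f (posM η)) :
    proj (zeroM η) f = 1 := by
  ext1 d
  rw [proj_c, QT.one_c]
  by_cases hd : d = 0
  · subst hd
    rw [if_pos (show (0 : M) ∈ (zeroM η : Set M) from (zeroM η).zero_mem), if_pos rfl, h0]
  · rw [if_neg hd]
    split_ifs with h1
    · by_contra h2
      have h3 : η d = 0 := h1
      rcases mem_posM.1 (hf d h2) with h4 | h4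
      · exact hd h4
      · linarith
    · rfl
/-- graded pieces: multiplication by elements of `η`-degree zero commutes with projections -/
theorem proj_mul_left (η : M →+ ℤ) (k : ℤ) {a : QT ω A} (ha : Supp a {u | η u = 0})
    (f : QT ω A) : proj {u | η u = k} (a * f) = a * proj {u | η u = k} f := by
  ext1 d
  rw [proj_c, QT.mul_c, QT.mul_c]
  have key : ∀ u, a.c u ≠ 0 → η (d - u) = η d := fun u hu => by
    have : η u = 0 := ha u hu
    rw [map_sub, this, sub_zero]
  split_ifs with hd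
  · refine finsum_congr fun u => ?_
    by_cases h1 : a.c u = 0
    · simp [h1]
    · rw [proj_c, if_pos (show d - u ∈ {u | η u = k} from (key u h1).trans hd)]
  · refine (finsum_eq_zero_of_forall_eq_zero fun u => ?_).symm
    by_cases h1 : a.c u = 0
    · simp [h1]
    · rw [proj_c, if_neg (show d - u ∉ {u | η u = k} from fun h => hd ((key u h1).symm.trans h)),
        mul_zero]
theorem proj_mul_right (η : M →+ ℤ) (k : ℤ) {a : QT ω A} (ha : Supp a {u | η u = 0})
    (f : QT ω A) : proj {u | η u = k} (f * a) = proj {u | η u = k} f * a := by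
  ext1 d
  rw [proj_c, t1_mul_c_right, t1_mul_c_right]
  have key : ∀ u, a.c u ≠ 0 → η (d - u) = η d := fun u hu => by
    have : η u = 0 := ha u hu
    rw [map_sub, this, sub_zero]
  split_ifs with hd
  · refine finsum_congr fun u => ?_
    by_cases h1 : a.c u = 0
    · simp [h1]
    · rw [proj_c, if_pos (show d - u ∈ {u | η u = k} from (key u h1).trans hd)]
  · refine (finsum_eq_zero_of_forall_eq_zero fun u => ?_).symm
    by_cases h1 : a.c u = 0
    · simp [h1]
    · rw [proj_c, if_neg (show d - u ∉ {u | η u = k} from fun h => hd ((key u h1).symm.trans h)),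
        mul_zero, zero_mul]

theorem mono_c {u : M} (hu : u ∈ A.C) (v : M) :
    (mono ω A u).c v = if v = u then 1 else 0 := by
  simp [mono, hu]
theorem supp_mono (u : M) : Supp (mono ω A u) {u} := by
  intro v hv
  by_contra h
  exact hv (by
    have : ¬ (v = u ∧ u ∈ A.C) := fun h' => h h'.1
    simp only [mono, QT.mk_c, if_neg this])
theorem mono_zero : mono ω A 0 = 1 := by
  ext1 v
  rw [mono_c A.C.zero_mem, QT.one_c]
theorem mono_mul_c {u : M} (hu : u ∈ A.C) (f : QT ω A) (d : M) :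
    (mono ω A u * f).c d = tp (ω.w u d) * f.c (d - u) := by
  rw [t1_mul_c_left, finsum_eq_single _ u]
  · rw [mono_c hu, if_pos rfl, mul_one]
  · intro v hv
    rw [mono_c hu, if_neg hv, mul_zero, zero_mul]
theorem mul_mono_c {u : M} (hu : u ∈ A.C) (f : QT ω A) (d : M) :
    (f * mono ω A u).c d = tp (ω.w d u) * f.c (d - u) := by
  rw [t1_mul_c_right, finsum_eq_single _ u]
  · rw [mono_c hu, if_pos rfl, mul_one]
  · intro v hv
    rw [mono_c hu, if_neg hv, mul_zero]
theorem mono_mul_mono {u v : M} (hu : u ∈ A.C) (hv : v ∈ A.C) :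
    mono ω A u * mono ω A v = tp (ω.w u v) • mono ω A (u + v) := by
  ext1 d
  rw [mono_mul_c hu, QT.smul_c, mono_c hv, mono_c (A.C.add_mem hu hv)]
  by_cases h : d = u + v
  · subst h
    rw [if_pos (by abel), if_pos rfl, map_add, ω.alt, zero_add]
  · rw [if_neg (fun h' => h (by rw [← h']; abel)), if_neg h, mul_zero, mul_zero]

theorem diag_c (φ : M → K) (f : QT ω A) (u : M) : (diag φ f).c u = φ u * f.c u := rfl
theorem der_c (ℓ : M →+ ℤ) (f : QT ω A) (u : M) : (der ℓ f).c u = ((ℓ u : ℤ) : K) * f.c u := rfl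
theorem sig_c (ℓ : M →+ ℤ) (f : QT ω A) (u : M) : (sig ℓ f).c u = tp (2 * ℓ u) * f.c u := rfl
theorem Supp.diag {f : QT ω A} {N : Set M} (h : Supp f N) (φ : M → K) : Supp (diag φ f) N := by
  intro u hu
  refine h u fun h0 => hu ?_
  rw [diag_c, h0, mul_zero]
theorem der_mul (ℓ : M →+ ℤ) (f g : QT ω A) : der ℓ (f * g) = der ℓ f * g + f * der ℓ g := by
  ext1 d
  simp only [QT.add_c, der_c, QT.mul_c_sum _ _ _ (le_refl (A.deg d)), Finset.mul_sum,
    ← Finset.sum_add_distrib]
  refine Finset.sum_congr rfl fun u _ => ?_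
  rw [map_sub ℓ]
  push_cast
  ring
theorem der_one (ℓ : M →+ ℤ) : der ℓ (1 : QT ω A) = 0 := by
  ext1 d
  rw [der_c, QT.one_c, QT.zero_c]
  split_ifs with h
  · simp [h]
  · simp
theorem der_der (ℓ ℓ' : M →+ ℤ) (f : QT ω A) : der ℓ (der ℓ' f) = der ℓ' (der ℓ f) := by
  ext1 d
  simp only [der_c]
  ring
theorem sig_mul (ℓ : M →+ ℤ) (f g : QT ω A) : sig ℓ (f * g) = sig ℓ f * sig ℓ g := by
  ext1 d
  simp only [sig_c, QT.mul_c_sum _ _ _ (le_refl (A.deg d)), Finset.mul_sum]
  refine Finset.sum_congr rfl fun u _ => ?_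
  have : tp (2 * ℓ d) = tp (2 * ℓ u) * tp (2 * ℓ (d - u)) := by
    rw [← tp_add, map_sub]; congr 1; ring
  rw [this]
  ring
theorem sig_one (ℓ : M →+ ℤ) : sig ℓ (1 : QT ω A) = 1 := by
  ext1 d
  rw [sig_c, QT.one_c]
  split_ifs with h
  · simp [h]
  · simp
theorem mono_mul_eq_sig {u : M} (hu : u ∈ A.C) (f : QT ω A) :
    mono ω A u * f = sig (ω.w u) f * mono ω A u := by
  ext1 d
  rw [mono_mul_c hu, mul_mono_c hu, sig_c, ← mul_assoc, ← tp_add, t1_w_left, ω.skew d u]
  congr 2
  ring
/-- a slice version of the previous lemma: if `ω(v, ·) = ℓ` on the support of `g` for every `v`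
in the support of `f`, then `f g = σ_ℓ(g) f` -/
theorem mul_eq_sig_mul (ℓ : M →+ ℤ) {f g : QT ω A}
    (h : ∀ v u, f.c v ≠ 0 → g.c u ≠ 0 → ω.w v u = ℓ u) : f * g = sig ℓ g * f := by
  ext1 d
  rw [t1_mul_c_left, t1_mul_c_right]
  refine finsum_congr fun v => ?_
  rw [sig_c]
  by_cases h1 : f.c v = 0
  · simp [h1]
  · by_cases h2 : g.c (d - v) = 0
    · simp [h2]
    · have h3 := h v _ h1 h2
      rw [t1_w_left] at h3
      have h4 : tp (ω.w v d) = tp (ω.w d v) * tp (2 * ℓ (d - v)) := by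
        rw [← tp_add, ← h3, ω.skew d v]; congr 1; ring
      rw [h4]
      ring
theorem commute_of_supp {f g : QT ω A} (h : ∀ u v, f.c u ≠ 0 → g.c v ≠ 0 → ω.w u v = 0) :
    f * g = g * f := by
  rw [mul_eq_sig_mul 0 (fun v u h1 h2 => h v u h1 h2)]
  congr 1
  ext1 d
  simp [sig_c]
/-- `[x^d]` is a trace against elements supported in `ω(·, d) = 0` -/
theorem trace_c {a : QT ω A} {d : M} (ha : ∀ u, a.c u ≠ 0 → ω.w u d = 0) (f : QT ω A) :
    (a * f).c d = (f * a).c d := by
  rw [t1_mul_c_left, t1_mul_c_right]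
  refine finsum_congr fun u => ?_
  by_cases h1 : a.c u = 0
  · simp [h1]
  · rw [ω.skew d u, ha u h1, neg_zero]
    ring

end Crest.Agent.R59
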