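import Crest.Agent.R59.T1

/-! # Row 59, T1b: fixed points by degree recursion, inverses, `Ad`, positivity calculus. -/

set_option autoImplicit false

namespace Crest.Agent.R59
open scoped Classical

variable {M : Type} [AddCommGroup M] {ω : Form M} {A : Cone M}

/-- Degree recursion.  Recipe: `f_n = Ψ^[n] 0` stabilises on `deg < n`; put
`f.c d = (f_(deg d + 1)).c d`.  Uniqueness by `ext_deg`. -/
theorem exists_fix (Ψ : QT ω A → QT ω A)
    (hΨ : ∀ (f f' : QT ω A) (d : M), d ∈ A.C → Eqv {u | A.deg u < A.deg d} f f' →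
      (Ψ f).c d = (Ψ f').c d) : ∃! f, Ψ f = f := by
  have stab : ∀ (n : ℕ) (f f' : QT ω A), Eqv {u | A.deg u < n} (Ψ^[n] f) (Ψ^[n] f') := by
    intro n f f'
    induction n with
    | zero =>
      intro u hu
      have : u ∉ A.C := fun h => absurd (A.deg_nonneg h) (not_le.2 (by simpa using hu))
      rw [QT.c_eq_zero _ this, QT.c_eq_zero _ this]
    | succ n ih =>
      intro u hu
      by_cases h : u ∈ A.C
      · rw [Function.iterate_succ_apply', Function.iterate_succ_apply']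
        refine hΨ _ _ u h (ih.mono fun v hv => ?_)
        simp only [Set.mem_ofPred_eq] at hu hv ⊢
        push_cast at hu
        omega
      · rw [QT.c_eq_zero _ h, QT.c_eq_zero _ h]
  let F : QT ω A := QT.mk ω A (fun d => (Ψ^[(A.deg d).toNat + 1] 0).c d) fun u hu => QT.supp _ hu
  have hF : ∀ n : ℕ, Eqv {u | A.deg u < n} F (Ψ^[n] 0) := by
    intro n u hu
    by_cases h : u ∈ A.C
    · have h0 := A.deg_nonneg h
      simp only [Set.mem_ofPred_eq] at hu
      obtain ⟨j, rfl⟩ : ∃ j, n = (A.deg u).toNat + 1 + j := ⟨n - ((A.deg u).toNat + 1), by omega⟩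
      rw [Function.iterate_add_apply]
      refine stab _ _ _ u ?_
      simp only [Set.mem_ofPred_eq]
      omega
    · rw [QT.c_eq_zero _ h, QT.c_eq_zero _ h]
  refine ⟨F, QT.ext fun d => ?_, fun g hg => ?_⟩
  · by_cases h : d ∈ A.C
    · have h0 := A.deg_nonneg h
      show _ = (Ψ^[(A.deg d).toNat + 1] 0).c d
      rw [Function.iterate_succ_apply']
      refine hΨ _ _ d h ((hF _).mono fun v hv => ?_)
      simp only [Set.mem_ofPred_eq] at hv ⊢
      omega
    · rw [QT.c_eq_zero _ h, QT.c_eq_zero _ h]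
  · refine QT.ext fun d => ?_
    show _ = (Ψ^[(A.deg d).toNat + 1] 0).c d
    have := stab ((A.deg d).toNat + 1) g 0 d (by simp only [Set.mem_ofPred_eq]; omega)
    rwa [Function.iterate_fixed hg] at this

theorem T1b_left {a f f' : QT ω A} {d : M} (ha : a.c 0 = 0)
    (h : Eqv {u | A.deg u < A.deg d} f f') : (a * f).c d = (a * f').c d := by
  rw [QT.mul_c, QT.mul_c]
  refine finsum_congr fun u => ?_
  by_cases hu : a.c u = 0
  · simp [hu]
  · have := A.pos u (a.supp hu) fun e => hu (e ▸ ha)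
    rw [h (d - u) (by simp only [Set.mem_ofPred_eq, map_sub]; omega)]

theorem T1b_right {a f f' : QT ω A} {d : M} (ha : a.c 0 = 0)
    (h : Eqv {u | A.deg u < A.deg d} f f') : (f * a).c d = (f' * a).c d := by
  rw [QT.mul_c, QT.mul_c]
  refine finsum_congr fun u => ?_
  by_cases hu : a.c (d - u) = 0
  · simp [hu]
  · have := A.pos _ (a.supp hu) fun e => hu (e ▸ ha)
    rw [map_sub] at this
    rw [h u (by simp only [Set.mem_ofPred_eq]; omega)]

/-- fixed points of `f ↦ 1 + (1 - g) f` and `f ↦ 1 + f (1 - g)` are right and left inverses -/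
theorem isUnit_of_c_zero {g : QT ω A} (h : g.c 0 = 1) : IsUnit g := by
  have h1 : (1 - g).c 0 = 0 := by simp [h]
  obtain ⟨r, hr, -⟩ := exists_fix (fun f => 1 + (1 - g) * f) fun f f' d _ e => by
    rw [QT.add_c, QT.add_c, T1b_left h1 e]
  obtain ⟨l, hl, -⟩ := exists_fix (fun f => 1 + f * (1 - g)) fun f f' d _ e => by
    rw [QT.add_c, QT.add_c, T1b_right h1 e]
  have hr' : g * r = 1 := by
    have : 1 + (1 - g) * r = r := hr
    rw [sub_mul, one_mul, add_sub_left_comm, add_eq_left, sub_eq_zero] at this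
    exact this.symm
  have hl' : l * g = 1 := by
    have : 1 + l * (1 - g) = l := hl
    rw [mul_sub, mul_one, add_sub_left_comm, add_eq_left, sub_eq_zero] at this
    exact this.symm
  exact ⟨⟨g, r, hr', left_inv_eq_right_inv hl' hr' ▸ hl'⟩, rfl⟩
theorem inv_mul_self {g : QT ω A} (h : g.c 0 = 1) : inv g * g = 1 := by
  exact Ring.inverse_mul_cancel _ (isUnit_of_c_zero h)
theorem mul_inv_self {g : QT ω A} (h : g.c 0 = 1) : g * inv g = 1 := by
  exact Ring.mul_inverse_cancel _ (isUnit_of_c_zero h)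
theorem inv_c_zero {g : QT ω A} (h : g.c 0 = 1) : (inv g).c 0 = 1 := by
  have := mul_c_zero (inv g) g
  rw [inv_mul_self h, one_c_zero, h, mul_one] at this
  exact this.symm
theorem inv_eq_of_mul {g f : QT ω A} (h : g.c 0 = 1) (hf : g * f = 1) : inv g = f := by
  rw [← mul_one (inv g), ← hf, ← mul_assoc, inv_mul_self h, one_mul]
theorem inv_inv' {g : QT ω A} (h : g.c 0 = 1) : inv (inv g) = g := by
  exact inv_eq_of_mul (inv_c_zero h) (inv_mul_self h)
theorem inv_one' : inv (1 : QT ω A) = 1 := by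
  exact Ring.inverse_one _
theorem inv_mul_rev {g k : QT ω A} (hg : g.c 0 = 1) (hk : k.c 0 = 1) :
    inv (g * k) = inv k * inv g := by
  refine inv_eq_of_mul (by rw [mul_c_zero, hg, hk, one_mul]) ?_
  rw [mul_assoc, ← mul_assoc k, mul_inv_self hk, one_mul, mul_inv_self hg]
/-- `proj N (inv g)` is also an inverse; or induction on the degree in `inv g = 1 + (1-g) inv g` -/
theorem Supp.inv {g : QT ω A} {N : AddSubmonoid M} (h : Supp g N) (h0 : g.c 0 = 1) :
    Supp (inv g) N := by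
  have h1 : (1 - g).c 0 = 0 := by simp [h0]
  have e : R59.inv g = 1 + (1 - g) * R59.inv g := by
    rw [sub_mul, mul_inv_self h0, one_mul]; abel
  have : R59.inv g = R59.proj N (R59.inv g) := by
    refine ext_deg fun d _ hd => ?_
    rw [proj_c]
    split_ifs with hN
    · rfl
    · rw [e, QT.add_c, T1b_left h1 hd, ← QT.add_c]
      by_contra hne
      exact hN (((supp_one N).add (((supp_one N).sub h).mul (supp_proj _ _))) d hne)
  rw [this]
  exact supp_proj _ _
theorem Eqv.inv {S : Set M} (hS : Lower A S) {g g' : QT ω A} (h0 : g.c 0 = 1) (h0' : g'.c 0 = 1)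
    (h : Eqv S g g') : Eqv S (inv g) (inv g') := by
  have := ((Eqv.refl S (R59.inv g)).mul hS h.symm).mul hS (Eqv.refl S (R59.inv g'))
  rwa [inv_mul_self h0, one_mul, mul_assoc, mul_inv_self h0', mul_one] at this
theorem proj_inv (η : M →+ ℚ) {g : QT ω A} (h0 : g.c 0 = 1) (hg : Supp g (nnM η)) :
    proj (zeroM η) (inv g) = inv (proj (zeroM η) g) := by
  refine (inv_eq_of_mul ?_ ?_).symm
  · rw [proj_c, if_pos (show (0 : M) ∈ (zeroM η : Set M) from (zeroM η).zero_mem), h0]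
  · rw [← proj_mul η hg (hg.inv h0), mul_inv_self h0, proj_eq_self (supp_one _)]
theorem sig_inv (ℓ : M →+ ℤ) {g : QT ω A} (h0 : g.c 0 = 1) : sig ℓ (inv g) = inv (sig ℓ g) := by
  refine (inv_eq_of_mul ?_ ?_).symm
  · simp [sig_c, h0]
  · rw [← sig_mul, mul_inv_self h0, sig_one]
theorem der_inv (ℓ : M →+ ℤ) {g : QT ω A} (h0 : g.c 0 = 1) :
    der ℓ (inv g) = -(inv g * der ℓ g * inv g) := by
  have := der_mul ℓ (inv g) g
  rw [inv_mul_self h0, der_one] at this
  rw [← mul_one (der ℓ (inv g)), ← mul_inv_self h0, ← mul_assoc, eq_neg_of_add_eq_zero_left this.symm,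
    neg_mul]

theorem Ad_eq_Adi {g : QT ω A} (h0 : g.c 0 = 1) (f : QT ω A) : Ad g f = Adi (inv g) f := by
  rw [Ad, Adi, inv_inv' h0]
theorem Adi_eq_Ad {g : QT ω A} (h0 : g.c 0 = 1) (f : QT ω A) : Adi g f = Ad (inv g) f := by
  rw [Ad, Adi, inv_inv' h0]
theorem Ad_Adi {g : QT ω A} (h0 : g.c 0 = 1) (f : QT ω A) : Ad g (Adi g f) = f := by
  rw [Ad, Adi, mul_assoc, mul_assoc, mul_inv_self h0, mul_one, ← mul_assoc, mul_inv_self h0, one_mul]
theorem Adi_Ad {g : QT ω A} (h0 : g.c 0 = 1) (f : QT ω A) : Adi g (Ad g f) = f := by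
  rw [Ad, Adi, mul_assoc, mul_assoc, inv_mul_self h0, mul_one, ← mul_assoc, inv_mul_self h0, one_mul]
theorem Ad_one (f : QT ω A) : Ad 1 f = f := by
  rw [Ad, inv_one', one_mul, mul_one]
theorem Adi_one (f : QT ω A) : Adi 1 f = f := by
  rw [Adi, inv_one', one_mul, mul_one]
theorem Ad_mul_left {g k : QT ω A} (hg : g.c 0 = 1) (hk : k.c 0 = 1) (f : QT ω A) :
    Ad (g * k) f = Ad g (Ad k f) := by
  simp only [Ad, inv_mul_rev hg hk, mul_assoc]
theorem Adi_mul_left {g k : QT ω A} (hg : g.c 0 = 1) (hk : k.c 0 = 1) (f : QT ω A) :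
    Adi (g * k) f = Adi k (Adi g f) := by
  simp only [Adi, inv_mul_rev hg hk, mul_assoc]
theorem Adi_mul {g : QT ω A} (hg : g.c 0 = 1) (f f' : QT ω A) :
    Adi g (f * f') = Adi g f * Adi g f' := by
  simp only [Adi, mul_assoc]
  rw [← mul_assoc g, mul_inv_self hg, one_mul]
theorem Ad_mul {g : QT ω A} (hg : g.c 0 = 1) (f f' : QT ω A) :
    Ad g (f * f') = Ad g f * Ad g f' := by
  simp only [Ad, mul_assoc]
  rw [← mul_assoc (inv g), inv_mul_self hg, one_mul]
theorem Adi_one' {g : QT ω A} (hg : g.c 0 = 1) : Adi g 1 = 1 := by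
  rw [Adi, mul_one, inv_mul_self hg]
theorem Adi_add (g f f' : QT ω A) : Adi g (f + f') = Adi g f + Adi g f' := by
  simp only [Adi, mul_add, add_mul]
theorem Adi_sub (g f f' : QT ω A) : Adi g (f - f') = Adi g f - Adi g f' := by
  simp only [Adi, mul_sub, sub_mul]
theorem Adi_smul (g f : QT ω A) (a : K) : Adi g (a • f) = a • Adi g f := by
  simp only [Adi, mul_smul_comm, smul_mul_assoc]
theorem Adi_sum {ι : Type*} (g : QT ω A) (s : Finset ι) (f : ι → QT ω A) :
    Adi g (∑ i ∈ s, f i) = ∑ i ∈ s, Adi g (f i) := by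
  simp only [Adi, Finset.mul_sum, Finset.sum_mul]
theorem Ad_add (g f f' : QT ω A) : Ad g (f + f') = Ad g f + Ad g f' := by
  simp only [Ad, mul_add, add_mul]
theorem Ad_sum {ι : Type*} (g : QT ω A) (s : Finset ι) (f : ι → QT ω A) :
    Ad g (∑ i ∈ s, f i) = ∑ i ∈ s, Ad g (f i) := by
  simp only [Ad, Finset.mul_sum, Finset.sum_mul]
theorem Adi_of_commute {g f : QT ω A} (hg : g.c 0 = 1) (h : g * f = f * g) : Adi g f = f := by
  rw [Adi, mul_assoc, ← h, ← mul_assoc, inv_mul_self hg, one_mul]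
theorem Ad_of_commute {g f : QT ω A} (hg : g.c 0 = 1) (h : g * f = f * g) : Ad g f = f := by
  rw [Ad, h, mul_assoc, mul_inv_self hg, mul_one]
theorem Eqv.Adi {S : Set M} (hS : Lower A S) {g g' f f' : QT ω A} (h0 : g.c 0 = 1)
    (h0' : g'.c 0 = 1) (h : Eqv S g g') (hf : Eqv S f f') : Eqv S (Adi g f) (Adi g' f') := by
  exact ((h.inv hS h0 h0').mul hS hf).mul hS h
theorem Eqv.Ad {S : Set M} (hS : Lower A S) {g g' f f' : QT ω A} (h0 : g.c 0 = 1)
    (h0' : g'.c 0 = 1) (h : Eqv S g g') (hf : Eqv S f f') : Eqv S (Ad g f) (Ad g' f') := by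
  exact (h.mul hS hf).mul hS (h.inv hS h0 h0')
theorem Adi_c_ne_zero {a f : QT ω A} {N : AddSubmonoid M} (h0 : a.c 0 = 1) (ha : Supp a N)
    {m : M} (h : (Adi a f).c m ≠ 0) : ∃ v, f.c v ≠ 0 ∧ m - v ∈ N := by
  obtain ⟨u, w, rfl, h1, hw⟩ := mul_c_ne_zero h
  obtain ⟨u', v, rfl, hu, hv⟩ := mul_c_ne_zero h1
  refine ⟨v, hv, ?_⟩
  rw [show u' + v + w - v = u' + w by abel]
  exact N.add_mem (ha.inv h0 _ hu) (ha _ hw)
theorem T1b_low {a f : QT ω A} (h0 : a.c 0 = 1) {m : M}
    (h : ∀ v, A.deg v < A.deg m → f.c v = 0) : (Adi a f).c m = f.c m := by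
  have hf : Eqv {u | A.deg u < A.deg m} f 0 := h
  have hf' : Eqv {u | A.deg u < A.deg m} (inv a * f) 0 := by
    simpa using (Eqv.refl _ (inv a)).mul (lower_lt A.deg (fun u => A.deg_nonneg) _) hf
  have e1 := T1b_right (a := a - 1) (by simp [h0]) hf'
  have e2 := T1b_left (a := inv a - 1) (by simp [inv_c_zero h0]) hf
  rw [zero_mul, mul_sub, mul_one, QT.sub_c, QT.zero_c, sub_eq_zero] at e1
  rw [mul_zero, sub_mul, one_mul, QT.sub_c, QT.zero_c, sub_eq_zero] at e2
  exact e1.trans e2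

/-- write `f = proj {m} f + proj {m}ᶜ f` and use `Adi_c_ne_zero` with `N ⊓ A.C` -/
theorem Adi_c_eq {a f : QT ω A} {N : AddSubmonoid M} (h0 : a.c 0 = 1) (ha : Supp a N) {m : M}
    (h : ∀ v, v ≠ m → f.c v ≠ 0 → m - v ∈ A.C → m - v ∉ N) : (Adi a f).c m = f.c m := by
  have h1 : (Adi a (proj {m}ᶜ f)).c m = 0 := by
    by_contra hne
    obtain ⟨v, hv, hm⟩ := Adi_c_ne_zero (N := N ⊓ A.C) h0 (ha.inter (supp_cone a)) hne
    rw [proj_c] at hv
    split_ifs at hv with hvm
    · exact h v hvm hv hm.2 hm.1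
    · exact hv rfl
  conv_lhs => rw [← proj_add_proj_compl {m} f]
  rw [Adi_add, QT.add_c, h1, add_zero, T1b_low h0, proj_c, if_pos (Set.mem_singleton m)]
  intro v hv
  rw [proj_c, if_neg]
  rintro rfl
  exact lt_irrefl _ hv
/-- unitriangularity -/
theorem Adi_c_of_low {a f : QT ω A} (h0 : a.c 0 = 1) {m : M}
    (h : ∀ v, A.deg v < A.deg m → f.c v = 0) : (Adi a f).c m = f.c m := by
  exact T1b_low h0 h
/-- conjugation by `a` supported in `ω(·, m) = 0` does not change `[x^m]` (`trace_c`) -/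
theorem Adi_c_trace {a : QT ω A} (h0 : a.c 0 = 1) {m : M} (ha : Supp a (zeroM (th ω m)))
    (f : QT ω A) : (Adi a f).c m = f.c m := by
  rw [Adi, ← trace_c (fun u hu => by simpa [mem_zeroM] using ha u hu), ← mul_assoc,
    mul_inv_self h0, one_mul]

/-! ### positivity -/
theorem Pos.zero : Pos 0 := by
  exact fun j => ⟨0, by simp⟩
theorem Pos.tp (k : ℤ) : Pos (tp k) := by
  intro j
  rw [R59.tp, HahnSeries.coeff_single]
  split_ifs
  exacts [⟨1, by simp⟩, ⟨0, by simp⟩]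
theorem Pos.one : Pos 1 := by
  exact Pos.tp 0
theorem Pos.natCast (n : ℕ) : Pos (n : K) := by
  intro j
  rw [← HahnSeries.single_zero_natCast, HahnSeries.coeff_single]
  split_ifs
  exacts [⟨n, rfl⟩, ⟨0, by simp⟩]
theorem Pos.add {a b : K} (ha : Pos a) (hb : Pos b) : Pos (a + b) := by
  intro j
  obtain ⟨n, hn⟩ := ha j
  obtain ⟨m, hm⟩ := hb j
  exact ⟨n + m, by simp [hn, hm]⟩
/-- `HahnSeries.coeff_mul` is a finite sum -/
theorem Pos.mul {a b : K} (ha : Pos a) (hb : Pos b) : Pos (a * b) := by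
  intro j
  choose n hn using ha
  choose m hm using hb
  rw [HahnSeries.coeff_mul]
  simp only [hn, hm, ← Nat.cast_mul, ← Nat.cast_sum]
  exact ⟨_, rfl⟩
theorem Pos.sum {ι : Type*} {s : Finset ι} {f : ι → K} (h : ∀ i ∈ s, Pos (f i)) :
    Pos (∑ i ∈ s, f i) := by
  exact Finset.sum_induction f Pos (fun _ _ => Pos.add) Pos.zero h
theorem Pos.finsum {ι : Type*} {f : ι → K} (h : ∀ i, Pos (f i)) : Pos (∑ᶠ i, f i) := by
  exact finsum_induction Pos Pos.zero (fun _ _ => Pos.add) h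
theorem Pos.eq_zero_of_neg {a : K} (ha : Pos a) (hb : Pos (-a)) : a = 0 := by
  ext j
  obtain ⟨n, hn⟩ := ha j
  obtain ⟨m, hm⟩ := hb j
  rw [HahnSeries.coeff_neg] at hm
  have h1 : (0 : ℚ) ≤ n := Nat.cast_nonneg n
  have h2 : (0 : ℚ) ≤ m := Nat.cast_nonneg m
  rw [HahnSeries.coeff_zero]
  linarith
theorem Pos.eq_zero_of_add {a b : K} (ha : Pos a) (hb : Pos b) (h : a + b = 0) : a = 0 := by
  exact ha.eq_zero_of_neg (by rwa [neg_eq_of_add_eq_zero_right h])
theorem Pos.eq_zero_of_sum {ι : Type*} {s : Finset ι} {f : ι → K} (h : ∀ i ∈ s, Pos (f i))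
    (h0 : ∑ i ∈ s, f i = 0) : ∀ i ∈ s, f i = 0 := by
  intro i hi
  rw [← Finset.add_sum_erase s f hi] at h0
  exact (h i hi).eq_zero_of_add (Pos.sum fun j hj => h j (Finset.mem_of_mem_erase hj)) h0
theorem QPos.mul {f g : QT ω A} (hf : QPos f) (hg : QPos g) : QPos (f * g) := by
  exact fun d => Pos.finsum fun u => ((Pos.tp _).mul (hf u)).mul (hg _)
theorem QPos.one : QPos (1 : QT ω A) := by
  intro u
  rw [QT.one_c]
  split_ifs
  exacts [Pos.one, Pos.zero]
theorem one_sub_tp_ne_zero {k : ℤ} (hk : k ≠ 0) : (1 : K) - tp k ≠ 0 := by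
  intro h
  have := congrArg (fun a : K => a.coeff k) (sub_eq_zero.1 h)
  simp [tp, HahnSeries.coeff_one, hk] at this
/-- quantum integers: `κ (t^(-p) - t^p) = t^(1-p) (1 + t² + … + t^(2p-2))` with `κ = t/(1-t²)` -/
theorem pos_qint {p : ℤ} (hp : 0 < p) :
    Pos (tp 1 / (1 - tp 2) * (tp (-p) - tp p)) ∧ tp 1 / (1 - tp 2) * (tp (-p) - tp p) ≠ 0 := by
  have h2 := one_sub_tp_ne_zero (k := 2) (by norm_num)
  constructor
  · have key : ∀ (c : ℤ) (n : ℕ), (1 - tp 2) * ∑ i ∈ Finset.range n, tp (c + 2 * i) =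
        tp c - tp (c + 2 * n) := by
      intro c n
      induction n with
      | zero => simp
      | succ n ih =>
        rw [Finset.sum_range_succ, mul_add, ih,
          show c + 2 * ((n + 1 : ℕ) : ℤ) = 2 + (c + 2 * n) by push_cast; ring, tp_add 2]
        ring
    have e : tp 1 / (1 - tp 2) * (tp (-p) - tp p) =
        ∑ i ∈ Finset.range p.toNat, tp (1 + -p + 2 * i) := by
      rw [div_mul_eq_mul_div, div_eq_iff h2, mul_comm _ (1 - tp 2), key,
        show 1 + -p + 2 * (p.toNat : ℤ) = 1 + p by omega, tp_add, tp_add, mul_sub]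
    rw [e]
    exact Pos.sum fun i _ => Pos.tp _
  · refine mul_ne_zero (div_ne_zero (tp_ne_zero _) h2) ?_
    have e : tp (-p) - tp p = tp (-p) * (1 - tp (2 * p)) := by
      rw [mul_sub, mul_one, ← tp_add, show -p + 2 * p = p by ring]
    rw [e]
    exact mul_ne_zero (tp_ne_zero _) (one_sub_tp_ne_zero (by omega))

end Crest.Agent.R59
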