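import Crest.Agent.R59.T1b

/-! # Row 59, T2: the factorisation `g = g_- g_0 g_+` by the sign of a covector. -/

set_option autoImplicit false

namespace Crest.Agent.R59
open scoped Classical

variable {M : Type} [AddCommGroup M] {ω : Form M} {A : Cone M}

theorem T2_ind {P : M → Prop} (h : ∀ d ∈ A.C, (∀ u ∈ A.C, A.deg u < A.deg d → P u) → P d) :
    ∀ d ∈ A.C, P d := by
  have key : ∀ n : ℕ, ∀ d ∈ A.C, A.deg d < n → P d := by
    intro n
    induction n with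
    | zero => intro d hd hn; have := A.deg_nonneg hd; omega
    | succ n ih => intro d hd hn; exact h d hd fun u hu hlt => ih u hu (by omega)
  intro d hd
  exact key ((A.deg d).toNat + 1) d hd (by have := A.deg_nonneg hd; omega)

theorem T2_lt {u v : M} (hu : u ∈ A.C) (hv : v ∈ A.C) (hu0 : u ≠ 0) (hv0 : v ≠ 0) :
    A.deg u < A.deg (u + v) ∧ A.deg v < A.deg (u + v) := by
  have h1 := A.pos u hu hu0
  have h2 := A.pos v hv hv0
  rw [map_add]
  omega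

theorem T2_mul_congr {p q p' q' : QT ω A} {d : M} (hp : p.c 0 = 0) (hp' : p'.c 0 = 0)
    (hq : q.c 0 = 0) (hq' : q'.c 0 = 0)
    (h : ∀ u ∈ A.C, ∀ v ∈ A.C, u ≠ 0 → v ≠ 0 → u + v = d → p.c u = p'.c u ∧ q.c v = q'.c v) :
    (p * q).c d = (p' * q').c d := by
  rw [QT.mul_c, QT.mul_c]
  refine finsum_congr fun u => ?_
  by_cases h1 : u = 0
  · rw [h1, hp, hp']; simp
  by_cases h2 : d - u = 0
  · rw [h2, hq, hq']; simp
  by_cases h3 : u ∈ A.C
  · by_cases h4 : d - u ∈ A.C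
    · obtain ⟨e1, e2⟩ := h u h3 _ h4 h1 h2 (add_sub_cancel u d)
      rw [e1, e2]
    · rw [q.c_eq_zero h4, q'.c_eq_zero h4]; simp
  · rw [p.c_eq_zero h3, p'.c_eq_zero h3]; simp

theorem T2_sub_one_c (a : QT ω A) {u : M} (hu : u ≠ 0) : (a - 1).c u = a.c u := by
  rw [QT.sub_c, QT.one_c, if_neg hu, sub_zero]

theorem T2_sub_one_zero {a : QT ω A} (h : a.c 0 = 1) : (a - 1).c 0 = 0 := by
  rw [QT.sub_c, h, one_c_zero, sub_self]

theorem T2_expand (a b : QT ω A) {d : M} (hd : d ≠ 0) :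
    (a * b).c d = a.c d + b.c d + ((a - 1) * (b - 1)).c d := by
  have e : a * b = a + b + (a - 1) * (b - 1) - 1 := by noncomm_ring
  rw [e, T2_sub_one_c _ hd, QT.add_c, QT.add_c]

theorem T2_sign {x y : ℚ} (h : SignType.sign x = SignType.sign y) :
    (x < 0 ↔ y < 0) ∧ (x = 0 ↔ y = 0) :=
  ⟨by rw [← sign_eq_neg_one_iff, ← sign_eq_neg_one_iff, h],
    by rw [← sign_eq_zero_iff, ← sign_eq_zero_iff (a := y), h]⟩

theorem T2_proj_zero (θ : M →+ ℚ) (f : QT ω A) : (proj (zeroM θ) f).c 0 = f.c 0 := by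
  rw [proj_c, if_pos (show (0 : M) ∈ (zeroM θ : Set M) from (zeroM θ).zero_mem)]

theorem T2_zero_nn {θ : M →+ ℚ} {f : QT ω A} (h : Supp f (zeroM θ)) : Supp f (nnM θ) :=
  h.mono fun _ hu => (mem_zeroM.1 hu).ge

theorem T2_pos_nn {θ : M →+ ℚ} {f : QT ω A} (h : Supp f (posM θ)) : Supp f (nnM θ) :=
  h.mono fun u hu => by
    rcases mem_posM.1 hu with rfl | h
    · exact (nnM θ).zero_mem
    · exact h.le

theorem T2_mul_zero {a b : QT ω A} (ha : a.c 0 = 1) (hb : b.c 0 = 1) : (a * b).c 0 = 1 := by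
  rw [mul_c_zero, ha, hb, mul_one]

theorem T2_supp {θ : M →+ ℚ} {g a b : QT ω A} {N : AddSubmonoid M} (hf : IsFac θ g a b)
    (h : Supp g N) : Supp a N ∧ Supp b N := by
  obtain ⟨ha0, hb0, ha, hb, rfl⟩ := hf
  have key : ∀ d ∈ A.C, d ∉ N → a.c d = 0 ∧ b.c d = 0 := by
    refine T2_ind fun d _ ih hN => ?_
    have hd0 : d ≠ 0 := fun e => hN (e ▸ N.zero_mem)
    have h1 : (a * b).c d = 0 := by
      by_contra hc
      exact hN (h d hc)
    have h2 : ((a - 1) * (b - 1)).c d = 0 := by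
      by_contra hc
      obtain ⟨u, v, rfl, hu, hv⟩ := mul_c_ne_zero hc
      have hu0 : u ≠ 0 := fun e => hu (e ▸ T2_sub_one_zero ha0)
      have hv0 : v ≠ 0 := fun e => hv (e ▸ T2_sub_one_zero hb0)
      rw [T2_sub_one_c _ hu0] at hu
      rw [T2_sub_one_c _ hv0] at hv
      obtain ⟨l1, l2⟩ := T2_lt (a.supp hu) (b.supp hv) hu0 hv0
      refine hN (N.add_mem ?_ ?_)
      · by_contra hc'
        exact hu (ih u (a.supp hu) l1 hc').1
      · by_contra hc'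
        exact hv (ih v (b.supp hv) l2 hc').2
    rw [T2_expand a b hd0, h2, add_zero] at h1
    by_cases hθ : θ d < 0
    · have hb' : b.c d = 0 := by
        by_contra hc
        exact absurd hθ (not_lt.2 (hb d hc))
      rw [hb', add_zero] at h1
      exact ⟨h1, hb'⟩
    · have ha' : a.c d = 0 := by
        by_contra hc
        exact (ha d hc).elim hd0 hθ
      rw [ha', zero_add] at h1
      exact ⟨ha', h1⟩
  constructor
  · intro u hu
    by_contra hc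
    exact hu (key u (a.supp hu) hc).1
  · intro u hu
    by_contra hc
    exact hu (key u (b.supp hu) hc).2

/-- Recipe: `exists_fix` for `φ ↦ (g - 1) - φ_- φ_≥`, where `φ_- = proj {θ<0} φ`,
`φ_≥ = proj ({θ ≥ 0} \ {0}) φ`; then `a = 1 + φ_-`, `b = 1 + φ_≥`. -/
theorem exists_fac (θ : M →+ ℚ) {g : QT ω A} (h0 : g.c 0 = 1) :
    ∃ p : QT ω A × QT ω A, IsFac θ g p.1 p.2 := by
  obtain ⟨φ, hφ, -⟩ := exists_fix (ω := ω) (A := A)
    (fun φ => (g - 1) - proj {u | θ u < 0} φ * proj {u | 0 ≤ θ u ∧ u ≠ 0} φ) (by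
      intro f f' d _ h
      simp only [QT.sub_c]
      congr 1
      refine T2_mul_congr (by simp [proj_c]) (by simp [proj_c]) (by simp [proj_c])
        (by simp [proj_c]) ?_
      rintro u hu v hv hu0 hv0 rfl
      obtain ⟨l1, l2⟩ := T2_lt hu hv hu0 hv0
      simp only [proj_c]
      rw [h u l1, h v l2]
      exact ⟨rfl, rfl⟩)
  have hφ0 : φ.c 0 = 0 := by
    rw [← hφ, QT.sub_c, T2_sub_one_zero h0, mul_c_zero]
    simp [proj_c]
  have hs : φ = proj {u | θ u < 0} φ + proj {u | 0 ≤ θ u ∧ u ≠ 0} φ := by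
    ext1 u
    simp only [QT.add_c, proj_c, Set.mem_ofPred_eq]
    by_cases hu : u = 0
    · simp [hu, hφ0]
    · by_cases hθ : θ u < 0
      · simp [hθ, not_le.2 hθ]
      · simp [hθ, not_lt.1 hθ, hu]
  refine ⟨(1 + proj {u | θ u < 0} φ, 1 + proj {u | 0 ≤ θ u ∧ u ≠ 0} φ), by simp [proj_c],
    by simp [proj_c], (supp_one _).add ((supp_proj _ _).mono fun u hu => Or.inr hu),
    (supp_one _).add ((supp_proj _ _).mono fun u hu => hu.1), ?_⟩
  generalize proj {u | θ u < 0} φ = x at hφ hs ⊢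
  generalize proj {u | 0 ≤ θ u ∧ u ≠ 0} φ = y at hφ hs ⊢
  rw [hs, sub_eq_iff_eq_add, sub_eq_iff_eq_add] at hφ
  rw [hφ]
  noncomm_ring

theorem isFac (θ : M →+ ℚ) {g : QT ω A} (h0 : g.c 0 = 1) :
    IsFac θ g (gneg θ g) (gnn θ g) := by
  have h := exists_fac θ h0
  unfold gneg gnn fac
  rw [dif_pos h]
  exact h.choose_spec

theorem gneg_c_zero (θ : M →+ ℚ) {g : QT ω A} (h0 : g.c 0 = 1) : (gneg θ g).c 0 = 1 :=
  (isFac θ h0).1
theorem gnn_c_zero (θ : M →+ ℚ) {g : QT ω A} (h0 : g.c 0 = 1) : (gnn θ g).c 0 = 1 :=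
  (isFac θ h0).2.1
theorem supp_gneg (θ : M →+ ℚ) {g : QT ω A} (h0 : g.c 0 = 1) : Supp (gneg θ g) (negM θ) :=
  (isFac θ h0).2.2.1
theorem supp_gnn (θ : M →+ ℚ) {g : QT ω A} (h0 : g.c 0 = 1) : Supp (gnn θ g) (nnM θ) :=
  (isFac θ h0).2.2.2.1
theorem gneg_mul_gnn (θ : M →+ ℚ) {g : QT ω A} (h0 : g.c 0 = 1) : gneg θ g * gnn θ g = g :=
  (isFac θ h0).2.2.2.2.symm
theorem gzero_c_zero (θ : M →+ ℚ) {g : QT ω A} (h0 : g.c 0 = 1) : (gzero θ g).c 0 = 1 := by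
  rw [gzero, T2_proj_zero, gnn_c_zero θ h0]
theorem supp_gzero (θ : M →+ ℚ) (g : QT ω A) : Supp (gzero θ g) (zeroM θ) := by
  exact supp_proj _ _

/-- Uniqueness on a lower set.  Recipe: replace `a`, `b` by `a' = 1 + proj (S \ {0}) a` etc.
(if `S` meets the cone then `0 ∈ S`); then `inv a' * g_- ≡ b' * inv g_≥` on `S`, the left side is
supported in `negM θ`, the right side in `nnM θ`, so both are `≡ 1` on `S`. -/
theorem fac_unique_on {S : Set M} (hS : Lower A S) (θ : M →+ ℚ) {g a b : QT ω A}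
    (h0 : g.c 0 = 1) (ha0 : a.c 0 = 1) (hb0 : b.c 0 = 1)
    (ha : ∀ u ∈ S, a.c u ≠ 0 → u ∈ negM θ) (hb : ∀ u ∈ S, b.c u ≠ 0 → u ∈ nnM θ)
    (h : Eqv S g (a * b)) :
    Eqv S (gneg θ g) a ∧ Eqv S (gnn θ g) b ∧ Eqv S (gzero θ g) (proj (zeroM θ) b) := by
  obtain ⟨h1, h2, h3, h4, h5⟩ := isFac θ h0
  have key : ∀ d ∈ A.C, d ∈ S → (gneg θ g).c d = a.c d ∧ (gnn θ g).c d = b.c d := by
    refine T2_ind fun d _ ih hdS => ?_
    by_cases hd0 : d = 0
    · rw [hd0, h1, h2, ha0, hb0]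
      exact ⟨rfl, rfl⟩
    have e1 := h d hdS
    have e2 : ((gneg θ g - 1) * (gnn θ g - 1)).c d = ((a - 1) * (b - 1)).c d := by
      refine T2_mul_congr (T2_sub_one_zero h1) (T2_sub_one_zero ha0) (T2_sub_one_zero h2)
        (T2_sub_one_zero hb0) ?_
      rintro u hu v hv hu0 hv0 rfl
      obtain ⟨l1, l2⟩ := T2_lt hu hv hu0 hv0
      simp only [QT.sub_c]
      rw [(ih u hu l1 (hS u hu v hv hdS)).1, (ih v hv l2 (hS v hv u hu (add_comm u v ▸ hdS))).2]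
      exact ⟨rfl, rfl⟩
    have e3 : (gneg θ g * gnn θ g).c d = (a * b).c d := by rw [← h5, e1]
    rw [T2_expand _ _ hd0, T2_expand a b hd0, e2, add_left_inj] at e3
    by_cases hθ : θ d < 0
    · have hb1 : b.c d = 0 := by
        by_contra hc
        exact absurd hθ (not_lt.2 (hb d hdS hc))
      have hb2 : (gnn θ g).c d = 0 := by
        by_contra hc
        exact absurd hθ (not_lt.2 (h4 d hc))
      rw [hb1, hb2, add_zero, add_zero] at e3
      exact ⟨e3, hb2.trans hb1.symm⟩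
    · have ha1 : a.c d = 0 := by
        by_contra hc
        exact (ha d hdS hc).elim hd0 hθ
      have ha2 : (gneg θ g).c d = 0 := by
        by_contra hc
        exact (h3 d hc).elim hd0 hθ
      rw [ha1, ha2, zero_add, zero_add] at e3
      exact ⟨ha2.trans ha1.symm, e3⟩
  have key' : ∀ d ∈ S, (gneg θ g).c d = a.c d ∧ (gnn θ g).c d = b.c d := fun d hd => by
    by_cases hc : d ∈ A.C
    · exact key d hc hd
    · simp only [QT.c_eq_zero _ hc, and_self]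
  refine ⟨fun d hd => (key' d hd).1, fun d hd => (key' d hd).2, fun d hd => ?_⟩
  rw [gzero, proj_c, proj_c, (key' d hd).2]

theorem IsFac.eq {θ : M →+ ℚ} {g a b : QT ω A} (h : IsFac θ g a b) :
    gneg θ g = a ∧ gnn θ g = b ∧ gzero θ g = proj (zeroM θ) b := by
  obtain ⟨h1, h2, h3, h4, h5⟩ := h
  obtain ⟨e1, e2, e3⟩ := fac_unique_on lower_univ θ (g := g) (h5 ▸ T2_mul_zero h1 h2) h1 h2
    (fun u _ => h3 u) (fun u _ => h4 u) (eqv_univ.2 h5)
  exact ⟨eqv_univ.1 e1, eqv_univ.1 e2, eqv_univ.1 e3⟩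

/-- induction on the degree in `g_d = a_d + b_d + Σ lower`, at most one of `a_d`, `b_d` nonzero -/
theorem Supp.gneg {g : QT ω A} {N : AddSubmonoid M} (h : Supp g N) (h0 : g.c 0 = 1)
    (θ : M →+ ℚ) : Supp (gneg θ g) N := by
  exact (T2_supp (isFac θ h0) h).1
theorem Supp.gnn {g : QT ω A} {N : AddSubmonoid M} (h : Supp g N) (h0 : g.c 0 = 1)
    (θ : M →+ ℚ) : Supp (gnn θ g) N := by
  exact (T2_supp (isFac θ h0) h).2
theorem Supp.gzero {g : QT ω A} {N : AddSubmonoid M} (h : Supp g N) (h0 : g.c 0 = 1)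
    (θ : M →+ ℚ) : Supp (gzero θ g) N := by
  exact (h.gnn h0 θ).proj _

/-- `g_+ := inv g_0 * g_≥`; its projection to `θ = 0` is `1` by `proj_mul`, `proj_inv` -/
theorem exists_gpos (θ : M →+ ℚ) {g : QT ω A} (h0 : g.c 0 = 1) :
    ∃ p : QT ω A, p.c 0 = 1 ∧ Supp p (posM θ) ∧ gnn θ g = gzero θ g * p ∧
      ∀ N : AddSubmonoid M, Supp g N → Supp p N := by
  have hz := gzero_c_zero θ h0
  have hi : Supp (inv (gzero θ g)) (zeroM θ) := (supp_gzero θ g).inv hz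
  have hp : proj (zeroM θ) (inv (gzero θ g) * gnn θ g) = 1 := by
    rw [proj_mul θ (T2_zero_nn hi) (supp_gnn θ h0), proj_eq_self hi]
    exact inv_mul_self hz
  refine ⟨inv (gzero θ g) * gnn θ g, T2_mul_zero (inv_c_zero hz) (gnn_c_zero θ h0),
    fun u hu => ?_, by rw [← mul_assoc, mul_inv_self hz, one_mul],
    fun N hN => ((hN.gzero h0 θ).inv hz).mul (hN.gnn h0 θ)⟩
  have h1 : 0 ≤ θ u := (T2_zero_nn hi).mul (supp_gnn θ h0) u hu
  rcases h1.eq_or_lt with h2 | h2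
  · refine mem_posM.2 (Or.inl ?_)
    by_contra hc
    apply hu
    have := congrArg (fun f => QT.c f u) hp
    simp only [proj_c] at this
    rwa [if_pos (show u ∈ (zeroM θ : Set M) from h2.symm), QT.one_c, if_neg hc] at this
  · exact mem_posM.2 (Or.inr h2)

theorem T2_congr {S : Set M} (hS : Lower A S) {θ θ' : M →+ ℚ} {g g' : QT ω A}
    (h0 : g.c 0 = 1) (h0' : g'.c 0 = 1) (h : Eqv S g g')
    (hθ : ∀ u ∈ S, u ∈ A.C → (θ u < 0 ↔ θ' u < 0)) : Eqv S (gneg θ g) (gneg θ' g') ∧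
      Eqv S (gnn θ g) (gnn θ' g') ∧ Eqv S (gzero θ g) (proj (zeroM θ) (gnn θ' g')) :=
  fac_unique_on hS θ h0 (gneg_c_zero θ' h0') (gnn_c_zero θ' h0')
    (fun u hu hc => (supp_gneg θ' h0' u hc).imp id (hθ u hu (QT.supp _ hc)).2)
    (fun u hu hc => not_lt.1 fun hlt =>
      absurd ((hθ u hu (QT.supp _ hc)).1 hlt) (not_lt.2 (supp_gnn θ' h0' u hc)))
    (by rw [gneg_mul_gnn θ' h0']; exact h)

theorem gneg_congr {S : Set M} (hS : Lower A S) {θ θ' : M →+ ℚ} {g g' : QT ω A}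
    (h0 : g.c 0 = 1) (h0' : g'.c 0 = 1) (h : Eqv S g g')
    (hθ : ∀ u ∈ S, u ∈ A.C → (θ u < 0 ↔ θ' u < 0)) : Eqv S (gneg θ g) (gneg θ' g') := by
  exact (T2_congr hS h0 h0' h hθ).1
theorem gzero_congr {S : Set M} (hS : Lower A S) {θ θ' : M →+ ℚ} {g g' : QT ω A}
    (h0 : g.c 0 = 1) (h0' : g'.c 0 = 1) (h : Eqv S g g')
    (hθ : ∀ u ∈ S, u ∈ A.C → SignType.sign (θ u) = SignType.sign (θ' u)) :
    Eqv S (gzero θ g) (gzero θ' g') := by
  refine (T2_congr hS h0 h0' h fun u hu hc => (T2_sign (hθ u hu hc)).1).2.2.trans fun u hu => ?_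
  rw [gzero, proj_c, proj_c]
  by_cases hc : u ∈ A.C
  · exact if_congr (T2_sign (hθ u hu hc)).2 rfl rfl
  · simp only [QT.c_eq_zero _ hc, ite_self]
/-- only the signs on a submonoid containing the support matter -/
theorem fac_congr_supp {θ θ' : M →+ ℚ} {g : QT ω A} (h0 : g.c 0 = 1) {N : AddSubmonoid M}
    (hN : Supp g N) (hθ : ∀ u ∈ N, SignType.sign (θ u) = SignType.sign (θ' u)) :
    gneg θ g = gneg θ' g ∧ gzero θ g = gzero θ' g := by
  have hf : IsFac θ g (gneg θ' g) (gnn θ' g) :=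
    ⟨gneg_c_zero θ' h0, gnn_c_zero θ' h0,
      fun u hu => (supp_gneg θ' h0 u hu).imp id (T2_sign (hθ u (hN.gneg h0 θ' u hu))).1.2,
      fun u hu => not_lt.1 fun hc => absurd ((T2_sign (hθ u (hN.gnn h0 θ' u hu))).1.1 hc)
        (not_lt.2 (supp_gnn θ' h0 u hu)), (gneg_mul_gnn θ' h0).symm⟩
  refine ⟨hf.eq.1, hf.eq.2.2.trans (QT.ext fun u => ?_)⟩
  rw [gzero, proj_c, proj_c]
  by_cases hc : (gnn θ' g).c u = 0
  · simp only [hc, ite_self]
  · exact if_congr (T2_sign (hθ u (hN.gnn h0 θ' u hc))).2 rfl rfl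

theorem fac_neg_mul (θ : M →+ ℚ) {a g : QT ω A} (ha0 : a.c 0 = 1) (h0 : g.c 0 = 1)
    (ha : Supp a (negM θ)) :
    gneg θ (a * g) = a * gneg θ g ∧ gzero θ (a * g) = gzero θ g := by
  have hf : IsFac θ (a * g) (a * gneg θ g) (gnn θ g) :=
    ⟨T2_mul_zero ha0 (gneg_c_zero θ h0), gnn_c_zero θ h0, ha.mul (supp_gneg θ h0), supp_gnn θ h0,
      by rw [mul_assoc, gneg_mul_gnn θ h0]⟩
  exact ⟨hf.eq.1, hf.eq.2.2⟩
theorem fac_mul_nn (θ : M →+ ℚ) {b g : QT ω A} (hb0 : b.c 0 = 1) (h0 : g.c 0 = 1)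
    (hb : Supp b (nnM θ)) :
    gneg θ (g * b) = gneg θ g ∧ gzero θ (g * b) = gzero θ g * proj (zeroM θ) b := by
  have hf : IsFac θ (g * b) (gneg θ g) (gnn θ g * b) :=
    ⟨gneg_c_zero θ h0, T2_mul_zero (gnn_c_zero θ h0) hb0, supp_gneg θ h0, (supp_gnn θ h0).mul hb,
      by rw [← mul_assoc, gneg_mul_gnn θ h0]⟩
  exact ⟨hf.eq.1, hf.eq.2.2.trans (proj_mul θ (supp_gnn θ h0) hb)⟩
theorem gzero_mul_pos (θ : M →+ ℚ) {b g : QT ω A} (hb0 : b.c 0 = 1) (h0 : g.c 0 = 1)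
    (hb : Supp b (posM θ)) : gzero θ (g * b) = gzero θ g := by
  rw [(fac_mul_nn θ hb0 h0 (T2_pos_nn hb)).2, proj_eq_one θ hb0 hb, mul_one]
/-- `a g = (a g_- a⁻¹) (a g_≥)` -/
theorem gzero_zero_mul (θ : M →+ ℚ) {a g : QT ω A} (ha0 : a.c 0 = 1) (h0 : g.c 0 = 1)
    (ha : Supp a (zeroM θ)) : gzero θ (a * g) = a * gzero θ g := by
  have h1 : Supp (gneg θ g - 1) {u | θ u < 0} := fun u hu => by
    have hu0 : u ≠ 0 := fun e => hu (e ▸ T2_sub_one_zero (gneg_c_zero θ h0))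
    rw [T2_sub_one_c _ hu0] at hu
    exact (supp_gneg θ h0 u hu).resolve_left hu0
  have h2 : Supp (a * (gneg θ g - 1) * inv a) (negM θ) := by
    refine (ha.mul' h1 (N₃ := {u | θ u < 0}) fun u hu v hv => ?_).mul' (ha.inv ha0)
      fun u hu v hv => Or.inr ?_
    · have e : θ u = 0 := hu
      have e' : θ v < 0 := hv
      show θ (u + v) < 0
      rw [map_add, e, zero_add]
      exact e'
    · have e : θ v = 0 := hv
      have e' : θ u < 0 := hu
      rw [map_add, e, add_zero]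
      exact e'
  have e : a * gneg θ g * inv a = 1 + a * (gneg θ g - 1) * inv a := by
    rw [mul_sub, sub_mul, mul_one, mul_inv_self ha0, add_sub_cancel]
  have hf : IsFac θ (a * g) (a * gneg θ g * inv a) (a * gnn θ g) :=
    ⟨T2_mul_zero (T2_mul_zero ha0 (gneg_c_zero θ h0)) (inv_c_zero ha0),
      T2_mul_zero ha0 (gnn_c_zero θ h0), e ▸ (supp_one _).add h2,
      (T2_zero_nn ha).mul (supp_gnn θ h0), by
        rw [mul_assoc, ← mul_assoc (inv a), inv_mul_self ha0, one_mul, mul_assoc, gneg_mul_gnn θ h0]⟩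
  rw [hf.eq.2.2, proj_mul θ (T2_zero_nn ha) (supp_gnn θ h0), proj_eq_self ha, gzero]
theorem fac_of_nn (θ : M →+ ℚ) {g : QT ω A} (h0 : g.c 0 = 1) (h : Supp g (nnM θ)) :
    gneg θ g = 1 ∧ gzero θ g = proj (zeroM θ) g := by
  have hf : IsFac θ g 1 g := ⟨one_c_zero, h0, supp_one _, h, (one_mul g).symm⟩
  exact ⟨hf.eq.1, hf.eq.2.2⟩
theorem fac_of_neg (θ : M →+ ℚ) {g : QT ω A} (h0 : g.c 0 = 1) (h : Supp g (negM θ)) :
    gneg θ g = g ∧ gzero θ g = 1 := by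
  have hf : IsFac θ g g 1 := ⟨h0, one_c_zero, h, supp_one _, (mul_one g).symm⟩
  exact ⟨hf.eq.1, hf.eq.2.2.trans (proj_eq_self (supp_one _))⟩
theorem gneg_deg {g : QT ω A} (h0 : g.c 0 = 1) : gneg (qf A.deg) g = 1 := by
  refine (fac_of_nn _ h0 fun u hu => mem_nnM.2 ?_).1
  rw [qf_apply]
  exact_mod_cast A.deg_nonneg (g.supp hu)

/-- lexicographic refinement: `g = g_-^θ · (g_0^θ)_-^φ · (g_0^θ)_≥^φ · g_+^θ`; apply
`fac_unique_on` for `χ` (then `gzero_mul_pos`-type argument on `S` for the middle part). -/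
theorem fac_lex {S : Set M} (hS : Lower A S) {χ θ φ : M →+ ℚ} (hl : LexOn S χ θ φ)
    {g : QT ω A} (h0 : g.c 0 = 1) :
    Eqv S (gneg χ g) (gneg θ g * gneg φ (gzero θ g)) ∧
      Eqv S (gzero χ g) (gzero φ (gzero θ g)) := by
  obtain ⟨p, hp0, hp, he, -⟩ := exists_gpos θ h0
  have hz := gzero_c_zero θ h0
  have hn : Supp (gneg φ (gzero θ g)) (zeroM θ) := (supp_gzero θ g).gneg hz φ
  have hm : Supp (gnn φ (gzero θ g)) (zeroM θ) := (supp_gzero θ g).gnn hz φ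
  have ha : Supp (gneg θ g * gneg φ (gzero θ g)) {u | u = 0 ∨ θ u < 0 ∨ (θ u = 0 ∧ φ u < 0)} := by
    refine (supp_gneg θ h0).mul' (hn.inter (supp_gneg φ hz)) ?_
    rintro u (rfl | hu) v ⟨hv, hv'⟩
    · rw [zero_add]
      exact hv'.imp id fun h => Or.inr ⟨hv, h⟩
    · have e : θ v = 0 := hv
      refine Or.inr (Or.inl ?_)
      rw [map_add, e, add_zero]
      exact hu
  have hb : Supp (gnn φ (gzero θ g) * p) {u | 0 < θ u ∨ (θ u = 0 ∧ 0 ≤ φ u)} := by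
    refine (hm.inter (supp_gnn φ hz)).mul' hp ?_
    rintro u ⟨hu, hu'⟩ v hv
    rcases mem_posM.1 hv with rfl | hv
    · rw [add_zero]
      exact Or.inr ⟨hu, hu'⟩
    · have e : θ u = 0 := hu
      refine Or.inl ?_
      rw [map_add, e, zero_add]
      exact hv
  have hl0 : ∀ u ∈ S, θ u = 0 → SignType.sign (χ u) = SignType.sign (φ u) := fun u hu h => by
    rw [hl u hu, if_pos h]
  have hl1 : ∀ u ∈ S, θ u ≠ 0 → SignType.sign (χ u) = SignType.sign (θ u) := fun u hu h => by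
    rw [hl u hu, if_neg h]
  obtain ⟨e1, -, e3⟩ := fac_unique_on hS χ (a := gneg θ g * gneg φ (gzero θ g))
    (b := gnn φ (gzero θ g) * p) h0 (T2_mul_zero (gneg_c_zero θ h0) (gneg_c_zero φ hz))
    (T2_mul_zero (gnn_c_zero φ hz) hp0)
    (fun u hu hc => by
      rcases ha u hc with h | h | ⟨h, h'⟩
      · exact Or.inl h
      · exact Or.inr ((T2_sign (hl1 u hu h.ne)).1.2 h)
      · exact Or.inr ((T2_sign (hl0 u hu h)).1.2 h'))
    (fun u hu hc => not_lt.1 fun hlt => by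
      rcases hb u hc with h | ⟨h, h'⟩
      · exact absurd ((T2_sign (hl1 u hu h.ne')).1.1 hlt) (not_lt.2 h.le)
      · exact absurd ((T2_sign (hl0 u hu h)).1.1 hlt) (not_lt.2 h'))
    (by
      rw [mul_assoc, ← mul_assoc (gneg φ _), gneg_mul_gnn φ hz, ← he, gneg_mul_gnn θ h0]
      exact Eqv.refl _ _)
  refine ⟨e1, e3.trans fun u hu => ?_⟩
  have e4 : proj (zeroM θ) (gnn φ (gzero θ g) * p) = gnn φ (gzero θ g) := by
    rw [proj_mul θ (T2_zero_nn hm) (T2_pos_nn hp), proj_eq_one θ hp0 hp, mul_one, proj_eq_self hm]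
  have e5 := congrArg (fun f => QT.c f u) e4
  simp only [proj_c] at e5
  change _ = (proj (zeroM φ) (gnn φ (gzero θ g))).c u
  rw [proj_c, proj_c, ← e5]
  by_cases h1 : θ u = 0
  · rw [if_pos (show u ∈ (zeroM θ : Set M) from h1)]
    exact if_congr (T2_sign (hl0 u hu h1)).2 rfl rfl
  · rw [if_neg (show u ∉ (zeroM θ : Set M) from h1), ite_self, if_neg]
    exact fun h => h1 ((T2_sign (hl1 u hu h1)).2.1 h)

/-- the projection to `η = 0` commutes with the factorisation -/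
theorem fac_proj (θ η : M →+ ℚ) {g : QT ω A} (h0 : g.c 0 = 1) (hg : Supp g (nnM η)) :
    gneg θ (proj (zeroM η) g) = proj (zeroM η) (gneg θ g) ∧
    gnn θ (proj (zeroM η) g) = proj (zeroM η) (gnn θ g) ∧
    gzero θ (proj (zeroM η) g) = proj (zeroM η) (gzero θ g) := by
  have hf : IsFac θ (proj (zeroM η) g) (proj (zeroM η) (gneg θ g)) (proj (zeroM η) (gnn θ g)) :=
    ⟨by rw [T2_proj_zero, gneg_c_zero θ h0], by rw [T2_proj_zero, gnn_c_zero θ h0],
      (supp_gneg θ h0).proj _, (supp_gnn θ h0).proj _,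
      by rw [← proj_mul η (hg.gneg h0 θ) (hg.gnn h0 θ), gneg_mul_gnn θ h0]⟩
  refine ⟨hf.eq.1, hf.eq.2.1, hf.eq.2.2.trans (QT.ext fun u => ?_)⟩
  simp only [gzero, proj_c]
  split_ifs <;> rfl

end Crest.Agent.R59
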