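import Crest.Agent.R59.T2

/-! # Row 59, T3: logarithmic coefficients `lam`, attractor data, cluster elements. -/

set_option autoImplicit false

namespace Crest.Agent.R59
open scoped Classical

variable {M : Type} [AddCommGroup M] {ω : Form M} {A : Cone M}

theorem t3_cast_ne_zero {k : ℤ} (hk : k ≠ 0) : (k : K) ≠ 0 := by
  have : CharZero K := algebraRat.charZero K
  exact Int.cast_ne_zero.2 hk

theorem t3_mul_c_eq_zero {f g : QT ω A} {d : M}
    (h : ∀ u v, u + v = d → f.c u ≠ 0 → g.c v = 0) : (f * g).c d = 0 := by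
  by_contra hc
  obtain ⟨u, v, huv, hu, hv⟩ := mul_c_ne_zero hc
  exact hv (h u v huv hu)

theorem t3_pos_of_sub_one {η : M →+ ℤ} {b : QT ω A} (hb0 : b.c 0 = 1) (hb : Supp b (posM (qf η)))
    {u : M} (hu : (b - 1).c u ≠ 0) : 0 < η u := by
  rw [QT.sub_c, QT.one_c] at hu
  by_cases h : u = 0
  · subst h
    simp [hb0] at hu
  · rw [if_neg h, sub_zero] at hu
    exact Int.cast_pos.1 ((mem_posM.1 (hb u hu)).resolve_left h)

theorem t3_mul_c_left (η : M →+ ℤ) {b r : QT ω A} (hb0 : b.c 0 = 1) (hb : Supp b (posM (qf η)))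
    {d : M} (hr : ∀ v, η v < η d → r.c v = 0) : (b * r).c d = r.c d := by
  have h : ((b - 1) * r).c d = 0 := t3_mul_c_eq_zero fun u v huv hu => hr v (by
    have := t3_pos_of_sub_one hb0 hb hu
    rw [← huv, map_add]
    omega)
  rwa [sub_mul, one_mul, QT.sub_c, sub_eq_zero] at h

theorem t3_mul_c_right (η : M →+ ℤ) {b r : QT ω A} (hb0 : b.c 0 = 1) (hb : Supp b (posM (qf η)))
    {d : M} (hr : ∀ v, η v < η d → r.c v = 0) : (r * b).c d = r.c d := by
  have h : (r * (b - 1)).c d = 0 := t3_mul_c_eq_zero fun u v huv hu => by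
    by_contra hv
    refine hu (hr u ?_)
    have := t3_pos_of_sub_one hb0 hb hv
    rw [← huv, map_add]
    omega
  rwa [mul_sub, mul_one, QT.sub_c, sub_eq_zero] at h

theorem t3_supp_deg (f : QT ω A) : Supp f (posM (qf A.deg)) := fun u hu => by
  refine mem_posM.2 ((eq_or_ne u 0).imp_right fun h => ?_)
  exact Int.cast_pos.2 (A.pos u (f.supp hu) h)

theorem t3_der_sub (ℓ : M →+ ℤ) (f g : QT ω A) : der ℓ (f - g) = der ℓ f - der ℓ g := by
  ext1 u
  simp only [der_c, QT.sub_c, mul_sub]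

theorem t3_logder_tri (η : M →+ ℤ) (hη : ∀ u ∈ A.C, 0 ≤ η u) {a a' : QT ω A} (h0 : a.c 0 = 1)
    (h0' : a'.c 0 = 1) (hs' : Supp a' (posM (qf η))) {d : M} (he : Eqv {u | η u < η d} a a') :
    (inv a * der η a).c d - (inv a' * der η a').c d = ((η d : ℤ) : K) * (a.c d - a'.c d) := by
  have e : inv a * der η a - inv a' * der η a' =
      (inv a - inv a') * der η a + inv a' * der η (a - a') := by
    rw [t3_der_sub]
    noncomm_ring
  have h1 : ((inv a - inv a') * der η a).c d = 0 := t3_mul_c_eq_zero fun u v huv hu => by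
    by_contra hv
    have h2 := hη v (QT.supp _ hv)
    have h3 : η v ≠ 0 := fun h => hv (by rw [der_c, h]; simp)
    refine hu (sub_eq_zero.2 (Eqv.inv (lower_lt η hη _) h0 h0' he u ?_))
    rw [Set.mem_ofPred_eq, ← huv, map_add]
    omega
  rw [← QT.sub_c, e, QT.add_c, h1, zero_add, t3_mul_c_left η (inv_c_zero h0') (hs'.inv h0'), der_c,
    QT.sub_c]
  intro v hv
  rw [der_c, QT.sub_c, he v hv, sub_self, mul_zero]

/-- Independence of the degree function.  With `φ_ℓ = a⁻¹ D_ℓ a` one has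
`D_ℓ' φ_ℓ - D_ℓ φ_ℓ' = φ_ℓ φ_ℓ' - φ_ℓ' φ_ℓ` (`der_inv`, `der_der`), whose `d`-coefficient
vanishes by `trace_c`.  (`d = 0` and `d ∉ A.C`: both sides are `0`.) -/
theorem lam_eq {a : QT ω A} (h0 : a.c 0 = 1) {d : M} (ha : Supp a (zeroM (th ω d)))
    (ℓ : M →+ ℤ) : ((ℓ d : ℤ) : K) * lam a d = (inv a * der ℓ a).c d := by
  have hsupp : Supp (inv a * der ℓ a) (zeroM (th ω d)) := (ha.inv h0).mul (ha.diag _)
  have key : der A.deg (inv a * der ℓ a) + (inv a * der A.deg a) * (inv a * der ℓ a) =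
      der ℓ (inv a * der A.deg a) + (inv a * der ℓ a) * (inv a * der A.deg a) := by
    rw [der_mul, der_mul, der_inv _ h0, der_inv _ h0, der_der]
    noncomm_ring
  have h1 := congrArg (fun f : QT ω A => f.c d) key
  simp only [QT.add_c, der_c] at h1
  rw [trace_c (a := inv a * der ℓ a) (fun u hu => by simpa [mem_zeroM] using hsupp u hu),
    add_left_inj] at h1
  unfold lam
  by_cases hd : A.deg d = 0
  · rw [hd, Int.cast_zero, div_zero, mul_zero]
    by_cases hc : d ∈ A.C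
    · have : d = 0 := by
        by_contra hne
        exact (A.pos d hc hne).ne' hd
      rw [this, mul_c_zero, der_c]
      simp
    · exact (QT.c_eq_zero _ hc).symm
  · have hd' : ((A.deg d : ℤ) : K) ≠ 0 := t3_cast_ne_zero hd
    rw [← mul_div_assoc, ← h1, mul_div_cancel_left₀ _ hd']

/-- `(ab)⁻¹ D(ab) = b⁻¹ (a⁻¹ D a) b + b⁻¹ D b`, and `Adi_c_trace` -/
theorem lam_mul {a b : QT ω A} (ha0 : a.c 0 = 1) (hb0 : b.c 0 = 1) {d : M}
    (hb : Supp b (zeroM (th ω d))) : lam (a * b) d = lam a d + lam b d := by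
  have e : inv (a * b) * der A.deg (a * b) = Adi b (inv a * der A.deg a) + inv b * der A.deg b := by
    rw [inv_mul_rev ha0 hb0, der_mul, mul_add, Adi, mul_assoc (inv b) (inv a) (a * _),
      ← mul_assoc (inv a) a, inv_mul_self ha0, one_mul]
    simp only [mul_assoc]
  unfold lam
  rw [e, QT.add_c, Adi_c_trace hb0 hb, add_div]

theorem lam_eq_zero {a : QT ω A} (h0 : a.c 0 = 1) {N : AddSubmonoid M} (ha : Supp a N) {d : M}
    (hd : d ∉ N) : lam a d = 0 := by
  have h : (inv a * der A.deg a).c d = 0 := by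
    by_contra hc
    exact hd (((ha.inv h0).mul (ha.diag _)) d hc)
  rw [lam, h, zero_div]

theorem lam_one (d : M) : lam (1 : QT ω A) d = 0 := by
  rw [lam, der_one, mul_zero, QT.zero_c, zero_div]

theorem lam_congr {S : Set M} (hS : Lower A S) {a a' : QT ω A} (h0 : a.c 0 = 1)
    (h0' : a'.c 0 = 1) (h : Eqv S a a') {d : M} (hd : d ∈ S) : lam a d = lam a' d := by
  have h1 : Eqv S (der A.deg a) (der A.deg a') := fun u hu => by rw [der_c, der_c, h u hu]
  rw [lam, lam, Eqv.mul hS (Eqv.inv hS h0 h0' h) h1 d hd]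

/-- triangularity of `lam` -/
theorem lam_tri {a a' : QT ω A} (h0 : a.c 0 = 1) (h0' : a'.c 0 = 1) {d : M} (hd : d ≠ 0)
    (h : Eqv {u | A.deg u < A.deg d} a a') : lam a d - lam a' d = a.c d - a'.c d := by
  by_cases hc : d ∈ A.C
  · have hd' : ((A.deg d : ℤ) : K) ≠ 0 := t3_cast_ne_zero (A.pos d hc hd).ne'
    rw [lam, lam, ← sub_div, t3_logder_tri A.deg (fun u hu => A.deg_nonneg hu) h0 h0'
      (t3_supp_deg _) h, mul_div_cancel_left₀ _ hd']
  · simp only [lam, QT.c_eq_zero _ hc, zero_div]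

/-- elements are determined by their `lam` on a lower set (truncate to `S`, use `lam_congr`,
`lam_tri`, `eqv_of_deg`); `N` is where the two elements live on `S` -/
theorem eqv_of_lam {S N : Set M} (hS : Lower A S) {a a' : QT ω A} (h0 : a.c 0 = 1)
    (h0' : a'.c 0 = 1) (ha : ∀ u ∈ S, a.c u ≠ 0 → u ∈ N) (ha' : ∀ u ∈ S, a'.c u ≠ 0 → u ∈ N)
    (h : ∀ d ∈ S, d ∈ N → d ≠ 0 → lam a d = lam a' d) : Eqv S a a' := by
  refine eqv_of_deg fun d hc hd he => ?_
  by_cases hd0 : d = 0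
  · rw [hd0, h0, h0']
  by_cases hN : d ∈ N
  · have hz : (0 : M) ∈ S := hS 0 A.C.zero_mem d hc (by rwa [zero_add])
    have hb : (proj S a).c 0 = 1 := (eqv_proj S a 0 hz).trans h0
    have hb' : (proj S a').c 0 = 1 := (eqv_proj S a' 0 hz).trans h0'
    have h1 := lam_tri hb hb' hd0 fun u hu => by
      rw [proj_c, proj_c]
      split_ifs with hu'
      · exact he u ⟨hu', hu⟩
      · rfl
    rw [lam_congr hS hb h0 (eqv_proj S a) hd, lam_congr hS hb' h0' (eqv_proj S a') hd,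
      h d hd hN hd0, sub_self, eqv_proj S a d hd, eqv_proj S a' d hd] at h1
    exact sub_eq_zero.1 h1.symm
  · rw [not_not.1 fun h1 => hN (ha d hd h1), not_not.1 fun h1 => hN (ha' d hd h1)]

/-- `lam (g_0^θ)` of `a` supported in `ω(·,d) = 0`, when `θ d = 0`:
`a = a_- a_0 a_+`, `lam_mul`, `lam_eq_zero` -/
theorem lam_gzero {a : QT ω A} (h0 : a.c 0 = 1) {d : M} (hd : d ≠ 0)
    (ha : Supp a (zeroM (th ω d))) {θ : M →+ ℚ} (hθ : θ d = 0) :
    lam (gzero θ a) d = lam a d := by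
  obtain ⟨p, hp0, hp, hpe, hpN⟩ := exists_gpos θ h0
  conv_rhs => rw [← gneg_mul_gnn θ h0]
  rw [lam_mul (gneg_c_zero θ h0) (gnn_c_zero θ h0) (ha.gnn h0 θ), hpe,
    lam_mul (gzero_c_zero θ h0) hp0 (hpN _ ha),
    lam_eq_zero (gneg_c_zero θ h0) (supp_gneg θ h0) (by simp [mem_negM, hd, hθ]),
    lam_eq_zero hp0 hp (by simp [mem_posM, hd, hθ]), zero_add, add_zero]

/-- Triangularity of the attractor invariant for an auxiliary degree `η`.  Put `r = h - h'`
(supported in `η ≥ η d`), `S = {η ≤ η d}`; `fac_unique_on` shows `h_- ≡ h'_- + r_-`,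
`h_≥ ≡ h'_≥ + r_≥` on `S`; then use `lam_eq` with `ℓ = η`. -/
theorem attr_tri (η : M →+ ℤ) (hη : ∀ u ∈ A.C, 0 ≤ η u) {h h' : QT ω A} (h0 : h.c 0 = 1)
    (h0' : h'.c 0 = 1) (hs : Supp h (posM (qf η))) (hs' : Supp h' (posM (qf η))) {d : M}
    (hd : 0 < η d) (he : Eqv {u | η u < η d} h h') :
    attr h d - attr h' d = h.c d - h'.c d := by
  have hd0 : d ≠ 0 := by
    rintro rfl
    simp at hd
  have hθ : th ω d d = 0 := by simp [ω.alt]
  have hd' : ((η d : ℤ) : K) ≠ 0 := t3_cast_ne_zero hd.ne'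
  obtain ⟨e1, e2, e3⟩ := fac_unique_on (lower_lt η hη (η d)) (th ω d) h0 (gneg_c_zero _ h0')
    (gnn_c_zero _ h0') (fun u _ => supp_gneg _ h0' u) (fun u _ => supp_gnn _ h0' u)
    (by rwa [gneg_mul_gnn _ h0'])
  have hn : ∀ g : QT ω A, g.c 0 = 1 → (gneg (th ω d) g).c d = 0 := fun g hg => by
    by_contra hc
    have := supp_gneg _ hg d hc
    simp [mem_negM, hd0, ω.alt] at this
  have hz : ∀ g : QT ω A, (gzero (th ω d) g).c d = (gnn (th ω d) g).c d := fun g =>
    eqv_proj _ _ d (mem_zeroM.2 hθ)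
  have e4 : h - h' = (gneg (th ω d) h - gneg (th ω d) h') * gnn (th ω d) h +
      gneg (th ω d) h' * (gnn (th ω d) h - gnn (th ω d) h') := by
    rw [sub_mul, mul_sub, gneg_mul_gnn _ h0, gneg_mul_gnn _ h0']
    abel
  refine mul_left_cancel₀ hd' ?_
  rw [mul_sub, attr, attr, lam_eq (gzero_c_zero _ h0) (supp_gzero _ _),
    lam_eq (gzero_c_zero _ h0') (supp_gzero _ _),
    t3_logder_tri η hη (gzero_c_zero _ h0) (gzero_c_zero _ h0') (hs'.gzero h0' _) e3, hz, hz,
    ← QT.sub_c h, e4, QT.add_c,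
    t3_mul_c_right η (gnn_c_zero _ h0) (hs.gnn h0 _) fun v hv => by rw [QT.sub_c, e1 v hv, sub_self],
    t3_mul_c_left η (gneg_c_zero _ h0') (hs'.gneg h0' _) fun v hv => by
      rw [QT.sub_c, e2 v hv, sub_self],
    QT.sub_c, QT.sub_c, hn h h0, hn h' h0', sub_self, zero_add]

theorem attr_eq_zero {g : QT ω A} (h0 : g.c 0 = 1) {N : AddSubmonoid M} (hg : Supp g N) {d : M}
    (hd : d ∉ N) : attr g d = 0 := by
  exact lam_eq_zero (gzero_c_zero _ h0) (hg.gzero h0 _) hd

/-- if `h` is supported in `N` below `η d` and `d ∉ N` then `attr h d = h.c d`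
(compare with the truncation `proj {η < η d} h`) -/
theorem attr_eq_c (η : M →+ ℤ) (hη : ∀ u ∈ A.C, 0 ≤ η u) {h : QT ω A} (h0 : h.c 0 = 1)
    (hs : Supp h (posM (qf η))) {N : AddSubmonoid M} {d : M} (hd : 0 < η d) (hdN : d ∉ N)
    (hN : ∀ u, η u < η d → h.c u ≠ 0 → u ∈ N) : attr h d = h.c d := by
  have hb : (proj {u | η u < η d} h).c 0 = 1 := (eqv_proj _ h 0 (by simpa using hd)).trans h0
  have hbN : Supp (proj {u | η u < η d} h) N := fun u hu =>
    hN u (supp_proj _ _ u hu) fun h1 => hu (by rw [proj_c, h1, ite_self])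
  have h1 := attr_tri η hη h0 hb hs (hs.proj _) hd (eqv_proj _ h).symm
  rwa [attr_eq_zero hb hbN hdN, not_not.1 fun h2 => hdN (hbN d h2), sub_zero, sub_zero] at h1

/-- `exists_fix` for `g ↦ (d ↦ if d = 0 then 1 else g'.c d - attr g' d + dat d)` where `g'` is `g`
with constant term reset to `1` -/
theorem exists_cl (dat : M → K) (hdat : ∀ d, dat d ≠ 0 → d ≠ 0 → d ∈ A.C) :
    ∃ g : QT ω A, IsCl dat g := by
  let R : QT ω A → QT ω A := fun g => 1 + proj {0}ᶜ g
  have hR0 : ∀ g, (R g).c 0 = 1 := fun g => by simp [R, proj_c]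
  have hR : ∀ g u, u ≠ 0 → (R g).c u = g.c u := fun g u hu => by simp [R, proj_c, QT.one_c, hu]
  let Ψ : QT ω A → QT ω A := fun g => QT.mk ω A
    (fun d => if d = 0 then 1 else (R g).c d - attr (R g) d + dat d) (by
      intro d hd
      by_contra hc
      have hd0 : d ≠ 0 := fun h => hc (h ▸ A.C.zero_mem)
      rw [if_neg hd0, QT.c_eq_zero _ hc, attr_eq_zero (hR0 g) (supp_cone _) hc,
        not_not.1 fun h => hc (hdat d h hd0)] at hd
      simp at hd)
  obtain ⟨g, hg, -⟩ := exists_fix Ψ fun f f' d hc he => by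
    by_cases hd0 : d = 0
    · simp [Ψ, hd0]
    have h1 := attr_tri A.deg (fun u hu => A.deg_nonneg hu) (hR0 f) (hR0 f') (t3_supp_deg _)
      (t3_supp_deg _) (A.pos d hc hd0) fun u hu => by
        by_cases hu0 : u = 0
        · rw [hu0, hR0, hR0]
        · rw [hR _ _ hu0, hR _ _ hu0, he u hu]
    simp only [Ψ, QT.mk_c, if_neg hd0]
    linear_combination -h1
  have h0 : g.c 0 = 1 := by
    rw [← hg]
    simp [Ψ]
  have hRg : R g = g := QT.ext fun u => by
    by_cases hu0 : u = 0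
    · rw [hu0, hR0, h0]
    · exact hR g u hu0
  refine ⟨g, h0, fun d hd => ?_⟩
  have h1 := congrArg (fun f : QT ω A => f.c d) hg
  simp only [Ψ, QT.mk_c, if_neg hd, hRg] at h1
  linear_combination -h1

theorem IsCl.unique {dat : M → K} {g g' : QT ω A} (h : IsCl dat g) (h' : IsCl dat g') :
    g = g' := by
  refine ext_deg fun d hc he => ?_
  by_cases hd0 : d = 0
  · rw [hd0, h.1, h'.1]
  have h1 := attr_tri A.deg (fun u hu => A.deg_nonneg hu) h.1 h'.1 (t3_supp_deg _)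
    (t3_supp_deg _) (A.pos d hc hd0) he
  rw [h.2 d hd0, h'.2 d hd0, sub_self] at h1
  exact sub_eq_zero.1 h1.symm

theorem IsCl.congr {dat dat' : M → K} {g : QT ω A} (h : IsCl dat g)
    (hd : ∀ d, d ≠ 0 → dat d = dat' d) : IsCl dat' g := by
  exact ⟨h.1, fun d hd0 => (h.2 d hd0).trans (hd d hd0)⟩

theorem IsCl.supp {dat : M → K} {g : QT ω A} (h : IsCl dat g) {N : AddSubmonoid M}
    (hN : ∀ d, d ≠ 0 → dat d ≠ 0 → d ∈ N) : Supp g N := by
  have e : g = proj N g := ext_deg fun d hc he => by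
    by_cases hd : d ∈ N
    · exact (eqv_proj _ g d hd).symm
    have hd0 : d ≠ 0 := fun h => hd (h ▸ N.zero_mem)
    rw [← attr_eq_c A.deg (fun u hu => A.deg_nonneg hu) h.1 (t3_supp_deg _) (A.pos d hc hd0) hd
      fun u hu hu' => supp_proj _ g u (by rwa [← he u hu]), h.2 d hd0,
      not_not.1 fun h1 => hd (hN d hd0 h1)]
    exact (if_neg hd).symm
  rw [e]
  exact supp_proj _ _

theorem attr_proj (η : M →+ ℚ) {g : QT ω A} (h0 : g.c 0 = 1) (hg : Supp g (nnM η)) {d : M}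
    (hd : η d = 0) : attr (proj (zeroM η) g) d = attr g d := by
  have ha0 := gzero_c_zero (th ω d) h0
  have ha := hg.gzero h0 (th ω d)
  have e : der A.deg (proj (zeroM η) (gzero (th ω d) g)) =
      proj (zeroM η) (der A.deg (gzero (th ω d) g)) := QT.ext fun u => by
    simp only [der_c, proj_c, mul_ite, mul_zero]
  rw [attr, attr, (fac_proj _ η h0 hg).2.2, lam, lam, ← proj_inv η ha0 ha, e,
    ← proj_mul η (g := der _ _) (ha.inv ha0) (ha.diag _), eqv_proj _ _ d (mem_zeroM.2 hd)]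

/-- restriction to a face -/
theorem IsCl.proj {dat : M → K} {g : QT ω A} (h : IsCl dat g) (η : M →+ ℚ)
    (hg : Supp g (nnM η)) :
    IsCl (fun d => if η d = 0 then dat d else 0) (proj (zeroM η) g) := by
  have h0 : (R59.proj (zeroM η) g).c 0 = 1 := (eqv_proj _ g 0 (zeroM η).zero_mem).trans h.1
  refine ⟨h0, fun d hd => ?_⟩
  by_cases hη : η d = 0
  · simp only [if_pos hη]
    rw [attr_proj η h.1 hg hη, h.2 d hd]
  · simp only [if_neg hη]
    exact attr_eq_zero h0 (supp_proj _ _) hη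

end Crest.Agent.R59
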