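import Crest.Agent.R59.TPa

/-! # Row 59, TP: theta functions and theta-positivity. -/

set_option autoImplicit false

namespace Crest.Agent.R59
noncomputable section
open scoped Classical

variable {M : Type} [AddCommGroup M] {ω : Form M} {A : Cone M}

/-- crossing one wall.  `w = gzero θ₀ g ≡ gprod L'` on `S = A.le (deg m)` by `thmP`; the vectors of
`L'` are parallel to `u₀`.  If `ω u₀ m > 0`: `g_-^χ₁ ≡ g_-^θ₀`, `g_-^χ ≡ g_-^θ₀ w` (`fac_lex`,
`fac_of_nn`, `fac_of_neg`), use `pos_Adi_gprod`; if `ω u₀ m < 0` use `pos_Ad_gprod`. -/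
theorem wall_step {g f : QT ω A} (h0 : g.c 0 = 1) {m : M}
    (hW : WallPos g (A.le (A.deg m) : Set M)) {θ₀ χ₁ χ : M →+ ℚ} {u₀ : M} (hu₀C : u₀ ∈ A.C)
    (hu₀ : ω.w u₀ m ≠ 0)
    (hgen : ∀ u ∈ A.le (A.deg m), θ₀ u = 0 → ω.w u₀ m • u = ω.w u m • u₀) (hM : Sep M)
    (h₁ : LexOn (A.le (A.deg m) : Set M) χ₁ θ₀ (th ω m))
    (h₂ : LexOn (A.le (A.deg m) : Set M) χ θ₀ (-th ω m))
    (hlow : ∀ (ψ : M →+ ℚ) (v : M), A.deg v < A.deg m → Pos ((fth g ψ f).c v))
    (hQ : Pos ((fth g χ₁ f).c m)) : Pos ((fth g χ f).c m) := by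
  by_cases hmC : m ∈ A.C
  swap
  · rw [QT.c_eq_zero _ hmC]; exact Pos.zero
  set S : Set M := (A.le (A.deg m) : Set M) with hSdef
  have hS : Lower A S := lower_coe_le _
  have hmS : m ∈ S := by
    rw [hSdef, Finset.mem_coe, A.mem_le]; exact ⟨hmC, le_rfl⟩
  have hu00 : u₀ ≠ 0 := by
    rintro rfl; simp at hu₀
  have hd0 : 0 < A.deg u₀ := A.pos u₀ hu₀C hu00
  have hdeg : ∀ u ∈ S, θ₀ u = 0 → ω.w u₀ m * A.deg u = ω.w u m * A.deg u₀ := by
    intro u hu hθ
    have := congrArg A.deg (hgen u hu hθ)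
    simpa only [map_zsmul, smul_eq_mul] using this
  have hray : ∀ u ∈ S, ∀ v ∈ S, θ₀ u = 0 → θ₀ v = 0 → A.deg v • u = A.deg u • v := by
    intro u hu v hv hθu hθv
    have e1 := hgen u hu hθu
    have e2 := hgen v hv hθv
    have d1 := hdeg u hu hθu
    have d2 := hdeg v hv hθv
    have e3 : A.deg v * ω.w u m = A.deg u * ω.w v m := by
      apply mul_left_cancel₀ hu₀
      linear_combination (ω.w u m) * d2 - (ω.w v m) * d1
    apply sub_eq_zero.1
    apply hM.zsmul_eq_zero hu₀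
    rw [smul_sub, smul_comm (ω.w u₀ m) (A.deg v) u, smul_comm (ω.w u₀ m) (A.deg u) v, e1, e2,
      smul_smul, smul_smul, e3, sub_self]
  obtain ⟨L', hL', hw⟩ := hW θ₀ hray
  have hLu : Valid A Set.univ L' := fun p hp => ⟨(hL' p hp).1, (hL' p hp).2.1, trivial⟩
  have hc : ∀ p ∈ L', ∀ q ∈ L', ω.w p.2 q.2 = 0 := by
    intro p hp q hq
    have e1 := hgen p.2 (hL' p hp).2.2.1 (hL' p hp).2.2.2
    have e2 := hgen q.2 (hL' q hq).2.2.1 (hL' q hq).2.2.2
    have e3 : ω.w (ω.w u₀ m • p.2) (ω.w u₀ m • q.2) = 0 := by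
      rw [e1, e2]
      simp only [map_zsmul, AddMonoidHom.smul_apply, ω.alt, smul_zero]
    simp only [map_zsmul, AddMonoidHom.smul_apply, smul_eq_mul, mul_eq_zero, hu₀, false_or] at e3
    exact e3
  have hz0 := gzero_c_zero θ₀ h0
  have hw0 : (gprod ω A L').c 0 = 1 := gprod_c_zero L'
  have hn0 := gneg_c_zero θ₀ h0
  have hnw0 : (gneg θ₀ g * gprod ω A L').c 0 = 1 := T2_mul_zero hn0 hw0
  have k₁ : Eqv S (gneg χ₁ g) (gneg θ₀ g * gneg (th ω m) (gprod ω A L')) :=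
    (fac_lex hS h₁ h0).1.trans (Eqv.mul hS (Eqv.refl _ _)
      (gneg_congr hS hz0 hw0 hw fun _ _ _ => Iff.rfl))
  have k₂ : Eqv S (gneg χ g) (gneg θ₀ g * gneg (-th ω m) (gprod ω A L')) :=
    (fac_lex hS h₂ h0).1.trans (Eqv.mul hS (Eqv.refl _ _)
      (gneg_congr hS hz0 hw0 hw fun _ _ _ => Iff.rfl))
  rcases lt_or_gt_of_ne hu₀ with hp | hp
  · have hneg : ∀ q ∈ L', ω.w q.2 m < 0 := by
      intro q hq
      have d1 := hdeg q.2 (hL' q hq).2.2.1 (hL' q hq).2.2.2
      have d2 := A.pos q.2 (hL' q hq).1 (hL' q hq).2.1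
      by_contra hc'
      have h3 : 0 ≤ ω.w q.2 m * A.deg u₀ := mul_nonneg (not_lt.1 hc') hd0.le
      have h4 : ω.w u₀ m * A.deg q.2 < 0 := mul_neg_of_neg_of_pos hp d2
      omega
    have s₁ : Supp (gprod ω A L') (negM (th ω m)) := supp_gprod fun q hq => by
      rw [mem_negM, th_apply]; right; exact_mod_cast hneg q hq
    have s₂ : Supp (gprod ω A L') (nnM (-th ω m)) := supp_gprod fun q hq => by
      rw [mem_nnM, AddMonoidHom.neg_apply, th_apply]
      have : (ω.w q.2 m : ℚ) < 0 := by exact_mod_cast hneg q hq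
      linarith
    rw [(fac_of_neg _ hw0 s₁).1] at k₁
    rw [(fac_of_nn _ hw0 s₂).1, mul_one] at k₂
    have e1 : Eqv S (fth g χ₁ f) (Adi (gprod ω A L') (fth g θ₀ f)) := by
      have := Eqv.Adi hS (gneg_c_zero χ₁ h0) hnw0 k₁ (Eqv.refl S f)
      rw [Adi_mul_left hn0 hw0] at this
      exact this
    have e2 : Eqv S (Ad (gprod ω A L') (fth g χ₁ f)) (fth g θ₀ f) := by
      have := Eqv.Ad hS hw0 hw0 (Eqv.refl S _) e1
      rw [Ad_Adi hw0] at this
      exact this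
    have e3 : Eqv S (fth g χ f) (fth g θ₀ f) :=
      Eqv.Adi hS (gneg_c_zero χ h0) hn0 k₂ (Eqv.refl S f)
    rw [e3 m hmS, ← e2 m hmS]
    refine pos_Ad_gprod hLu hc (fun q hq => (hneg q hq).le) ?_
    rintro v (hv | rfl)
    · exact hlow χ₁ v hv
    · exact hQ
  · have hpos : ∀ q ∈ L', 0 < ω.w q.2 m := by
      intro q hq
      have d1 := hdeg q.2 (hL' q hq).2.2.1 (hL' q hq).2.2.2
      have d2 := A.pos q.2 (hL' q hq).1 (hL' q hq).2.1
      by_contra hc'
      have h3 : ω.w q.2 m * A.deg u₀ ≤ 0 := mul_nonpos_of_nonpos_of_nonneg (not_lt.1 hc') hd0.le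
      have h4 : 0 < ω.w u₀ m * A.deg q.2 := mul_pos hp d2
      omega
    have s₁ : Supp (gprod ω A L') (nnM (th ω m)) := supp_gprod fun q hq => by
      rw [mem_nnM, th_apply]; exact_mod_cast (hpos q hq).le
    have s₂ : Supp (gprod ω A L') (negM (-th ω m)) := supp_gprod fun q hq => by
      rw [mem_negM, AddMonoidHom.neg_apply, th_apply]
      have : (0 : ℚ) < ω.w q.2 m := by exact_mod_cast hpos q hq
      right; linarith
    rw [(fac_of_nn _ hw0 s₁).1, mul_one] at k₁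
    rw [(fac_of_neg _ hw0 s₂).1] at k₂
    have e1 : Eqv S (fth g χ f) (Adi (gprod ω A L') (fth g θ₀ f)) := by
      have := Eqv.Adi hS (gneg_c_zero χ h0) hnw0 k₂ (Eqv.refl S f)
      rw [Adi_mul_left hn0 hw0] at this
      exact this
    have e3 : Eqv S (fth g χ₁ f) (fth g θ₀ f) :=
      Eqv.Adi hS (gneg_c_zero χ₁ h0) hn0 k₁ (Eqv.refl S f)
    rw [e1 m hmS]
    refine pos_Adi_gprod hLu hc (fun q hq => (hpos q hq).le) ?_
    rintro v (hv | rfl)
    · exact hlow θ₀ v hv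
    · rw [← e3 v hmS]; exact hQ

/-- TP.  Induction on `deg m`.  Replace `θ` by `θ + ε deg` (same negative set on `S`,
`gneg_congr`), then by a generic perturbation (`exists_generic_all` with
`W = {ω(u₀,m) • u - ω(u,m) • u₀}`); `flow_induction` with `ψ = θ_m`; the end of the flow is
`α_m(f)` by `fac_lex`, `Adi_mul_left`, `Adi_c_trace`. -/
theorem thPos_of_alpha (hM : Sep M) {L : List (ℤ × M)} (hL : Valid A Set.univ L) {g : QT ω A}
    (hg : IsCl (ldat L) g) {f : QT ω A} (hf : ∀ m, Pos (alpha g f m)) : ThPos g f := by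
  have h0 : g.c 0 = 1 := hg.1
  have key : ∀ m ∈ A.C, ∀ θ : M →+ ℚ, Pos ((fth g θ f).c m) := by
    refine T2_ind fun m hmC ih θ => ?_
    have hlow : ∀ (ψ : M →+ ℚ) (v : M), A.deg v < A.deg m → Pos ((fth g ψ f).c v) := by
      intro ψ v hv
      by_cases hvC : v ∈ A.C
      · exact ih v hvC hv ψ
      · rw [QT.c_eq_zero _ hvC]; exact Pos.zero
    set S : Set M := (A.le (A.deg m) : Set M) with hSdef
    have hS : Lower A S := lower_coe_le _
    have hfin : S.Finite := Finset.finite_toSet _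
    have hC : S ⊆ A.C := fun u hu => (A.mem_le.1 (Finset.mem_coe.1 hu)).1
    have hmS : m ∈ S := by
      rw [hSdef, Finset.mem_coe, A.mem_le]; exact ⟨hmC, le_rfl⟩
    have hW : WallPos g S := thmP hM hL hg hS hfin hC
    obtain ⟨ε, -, hlex⟩ := exists_lex hfin θ (qf A.deg)
    set θ₁ : M →+ ℚ := θ + ε • qf A.deg with hθ₁
    have hθ₁ : ∀ u ∈ S, u ≠ 0 → θ₁ u ≠ 0 ∧ (θ₁ u < 0 ↔ θ u < 0) := by
      intro u hu hu0
      have h1 := hlex u hu
      have hd : (0 : ℚ) < qf A.deg u := by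
        rw [qf_apply]; exact_mod_cast A.pos u (hC hu) hu0
      by_cases hθ : θ u = 0
      · rw [if_pos hθ] at h1
        have h2 := T2_sign h1
        refine ⟨fun h => hd.ne' (h2.2.1 h), ?_⟩
        rw [h2.1, hθ]
        constructor
        · intro h; linarith
        · intro h; exact absurd h (lt_irrefl _)
      · rw [if_neg hθ] at h1
        have h2 := T2_sign h1
        exact ⟨fun h => hθ (h2.2.1 h), h2.1⟩
    have hWfin : ((fun p : M × M => ω.w p.2 m • p.1 - ω.w p.1 m • p.2) '' (S ×ˢ S)).Finite :=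
      (hfin.prod hfin).image _
    obtain ⟨θ', hsign, hgen⟩ := exists_generic_all hM hfin hWfin θ₁
    have hθ' : ∀ u ∈ S, u ≠ 0 → θ' u ≠ 0 ∧ (θ' u < 0 ↔ θ u < 0) := by
      intro u hu hu0
      obtain ⟨h1, h2⟩ := hθ₁ u hu hu0
      have h3 := T2_sign (hsign u hu h1)
      exact ⟨fun h => h1 (h3.2.1 h), h3.1.trans h2⟩
    have e0 : Eqv S (fth g θ f) (fth g θ' f) := by
      refine Eqv.Adi hS (gneg_c_zero θ h0) (gneg_c_zero θ' h0)
        (gneg_congr hS h0 h0 (Eqv.refl S g) fun u hu _ => ?_) (Eqv.refl S f)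
      by_cases hu0 : u = 0
      · simp [hu0]
      · exact (hθ' u hu hu0).2.symm
    rw [e0 m hmS]
    have hflow := flow_induction hfin θ' (th ω m)
      (fun s => Pos ((fth g (θ' + s • th ω m) f).c m)) ?_ ?_ 0 ?_
    · simpa only [zero_smul, add_zero] using hflow
    · intro s hl
      have hz0 := gzero_c_zero (th ω m) h0
      have ha0 := gneg_c_zero θ' hz0
      have hn0 := gneg_c_zero (th ω m) h0
      have hs : Supp (gneg θ' (gzero (th ω m) g)) (zeroM (th ω m)) :=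
        (supp_gzero (th ω m) g).gneg hz0 θ'
      have e1 := Eqv.Adi hS (gneg_c_zero _ h0) (T2_mul_zero hn0 ha0) (fac_lex hS hl h0).1
        (Eqv.refl S f) m hmS
      rw [Adi_mul_left hn0 ha0, Adi_c_trace ha0 hs] at e1
      show Pos ((Adi (gneg (θ' + s • th ω m) g) f).c m)
      rw [e1]
      exact hf m
    · rintro s s₀ s₁ ⟨u₀, hu₀S, hψ, hz⟩ h₁ h₂ hQ
      have hu₀ : ω.w u₀ m ≠ 0 := by
        intro h; apply hψ; rw [th_apply, h]; simp
      refine wall_step h0 hW (hC hu₀S) hu₀ ?_ hM h₁ h₂ hlow hQ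
      intro u hu hθu
      apply sub_eq_zero.1
      refine hgen _ ⟨(u, u₀), ⟨hu, hu₀S⟩, rfl⟩ ?_
      simp only [AddMonoidHom.add_apply, AddMonoidHom.smul_apply, th_apply, smul_eq_mul] at hz hθu
      simp only [map_sub, map_zsmul, zsmul_eq_mul]
      linear_combination (ω.w u₀ m : ℚ) * hθu - (ω.w u m : ℚ) * hz
    · intro u hu hψ
      have hu0 : u ≠ 0 := by
        rintro rfl; simp at hψ
      simpa only [zero_smul, add_zero] using (hθ' u hu hu0).1
  intro θ m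
  by_cases hmC : m ∈ A.C
  · exact key m hmC θ
  · rw [QT.c_eq_zero _ hmC]; exact Pos.zero

/-- `f - α_m ϑ_m` is theta-positive -/
theorem fth_c_ne_zero (hM : Sep M) {L : List (ℤ × M)} (hL : Valid A Set.univ L) {g : QT ω A}
    (hg : IsCl (ldat L) g) {f : QT ω A} (hf : ThPos g f) {m : M} (hm : alpha g f m ≠ 0)
    (θ : M →+ ℚ) : (fth g θ f).c m ≠ 0 := by
  have h0 : g.c 0 = 1 := hg.1
  have hmC : m ∈ A.C := QT.supp _ hm
  have hpos : ThPos g (f - alpha g f m • theta g m) := by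
    refine thPos_of_alpha hM hL hg fun m' => ?_
    rw [alpha_sub, alpha_smul, alpha_theta h0 hmC]
    by_cases h : m' = m
    · rw [if_pos h, h, mul_one, sub_self]; exact Pos.zero
    · rw [if_neg h, mul_zero, sub_zero]; exact hf.alpha m'
  intro hz
  have h1 := hpos θ m
  have e : (fth g θ (f - alpha g f m • theta g m)).c m =
      (fth g θ f).c m - alpha g f m * (fth g θ (theta g m)).c m := by
    unfold fth
    rw [Adi_sub, Adi_smul, QT.sub_c, QT.smul_c]
  rw [e, hz, fth_theta_c h0 hmC, mul_one, zero_sub] at h1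
  exact hm ((hf.alpha m).eq_zero_of_neg h1)

theorem thPos_theta (hM : Sep M) {L : List (ℤ × M)} (hL : Valid A Set.univ L) {g : QT ω A}
    (hg : IsCl (ldat L) g) {m : M} (hm : m ∈ A.C) : ThPos g (theta g m) := by
  refine thPos_of_alpha hM hL hg fun m' => ?_
  rw [alpha_theta hg.1 hm]
  split_ifs
  · exact Pos.one
  · exact Pos.zero

end
end Crest.Agent.R59
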