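import Crest.Agent.R59.P2

/-! # Row 59, TP: theta functions and theta-positivity. -/

set_option autoImplicit false

namespace Crest.Agent.R59
noncomputable section
open scoped Classical

variable {M : Type} [AddCommGroup M] {ω : Form M} {A : Cone M}

theorem TPa_low {g f : QT ω A} (h0 : g.c 0 = 1) (θ : M →+ ℚ) {m : M}
    (h : ∀ v, A.deg v < A.deg m → f.c v = 0) : (fth g θ f).c m = f.c m :=
  Adi_c_of_low (gneg_c_zero θ h0) h

theorem alpha_add (g f f' : QT ω A) (m : M) : alpha g (f + f') m = alpha g f m + alpha g f' m := by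
  rw [alpha, alpha, alpha, fth, fth, fth, Adi_add, QT.add_c]
theorem alpha_sub (g f f' : QT ω A) (m : M) : alpha g (f - f') m = alpha g f m - alpha g f' m := by
  rw [alpha, alpha, alpha, fth, fth, fth, Adi_sub, QT.sub_c]
theorem alpha_smul (g f : QT ω A) (a : K) (m : M) : alpha g (a • f) m = a * alpha g f m := by
  rw [alpha, alpha, fth, fth, Adi_smul, QT.smul_c]
theorem alpha_sum {ι : Type*} (g : QT ω A) (s : Finset ι) (f : ι → QT ω A) (m : M) :
    alpha g (∑ i ∈ s, f i) m = ∑ i ∈ s, alpha g (f i) m := by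
  simp only [alpha, fth, Adi_sum, QT.sum_c]
theorem eq_zero_of_alpha {g f : QT ω A} (h0 : g.c 0 = 1) (h : ∀ m, alpha g f m = 0) : f = 0 := by
  refine ext_deg fun d _ hd => ?_
  rw [← TPa_low h0 (th ω d) fun v hv => hd v hv]
  exact h d
/-- `exists_fix` for `f ↦ (m' ↦ φ m' + f m' - α_m'(f))` -/
theorem exists_alpha {g : QT ω A} (h0 : g.c 0 = 1) (φ : QT ω A) :
    ∃ f : QT ω A, ∀ m, alpha g f m = φ.c m := by
  obtain ⟨f, hf, -⟩ := exists_fix (ω := ω) (A := A)
    (fun f => QT.mk ω A (fun m => φ.c m + f.c m - alpha g f m) fun u hu => by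
      by_contra hc
      exact hu (by rw [alpha, QT.c_eq_zero _ hc, QT.c_eq_zero _ hc, QT.c_eq_zero _ hc]; simp))
    fun f f' d _ hd => by
      have h1 : alpha g (f - f') d = (f - f').c d :=
        TPa_low h0 _ fun v hv => by rw [QT.sub_c, hd v hv, sub_self]
      rw [alpha_sub, QT.sub_c] at h1
      simp only [QT.mk_c]
      linear_combination -h1
  refine ⟨f, fun m => ?_⟩
  have := congrArg (fun k : QT ω A => k.c m) hf
  simp only [QT.mk_c] at this
  linear_combination -this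

/-- the theta function `ϑ_m` -/
def theta (g : QT ω A) (m : M) : QT ω A :=
  if h : ∃ f : QT ω A, ∀ m', alpha g f m' = (mono ω A m).c m' then h.choose else 0

theorem alpha_theta {g : QT ω A} (h0 : g.c 0 = 1) {m : M} (hm : m ∈ A.C) (m' : M) :
    alpha g (theta g m) m' = if m' = m then 1 else 0 := by
  have h := exists_alpha h0 (mono ω A m)
  rw [theta, dif_pos h, h.choose_spec, mono_c hm]
/-- `ϑ_m = x^m +` terms of higher degree, in every chamber -/
theorem fth_theta_c {g : QT ω A} (h0 : g.c 0 = 1) {m : M} (hm : m ∈ A.C) (θ : M →+ ℚ) :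
    (fth g θ (theta g m)).c m = 1 := by
  have hlow : Eqv {u | A.deg u < A.deg m} (theta g m) 0 := by
    refine eqv_of_deg fun d _ hd he => ?_
    have hd' : A.deg d < A.deg m := hd
    rw [← TPa_low h0 (th ω d) fun v hv => he v ⟨hv.trans hd', hv⟩]
    refine (alpha_theta h0 hm d).trans (if_neg ?_)
    rintro rfl
    exact lt_irrefl _ hd'
  rw [TPa_low h0 θ fun v hv => hlow v hv, ← TPa_low h0 (th ω m) fun v hv => hlow v hv]
  exact (alpha_theta h0 hm m).trans (if_pos rfl)

theorem ThPos.alpha {g f : QT ω A} (h : ThPos g f) (m : M) : Pos (alpha g f m) := by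
  exact h (th ω m) m
theorem ThPos.mul {g f f' : QT ω A} (h0 : g.c 0 = 1) (h : ThPos g f) (h' : ThPos g f') :
    ThPos g (f * f') := by
  intro θ
  rw [fth, Adi_mul (gneg_c_zero θ h0)]
  exact (h θ).mul (h' θ)
theorem ThPos.one {g : QT ω A} (h0 : g.c 0 = 1) : ThPos g 1 := by
  intro θ
  rw [fth, Adi_one' (gneg_c_zero θ h0)]
  exact QPos.one
theorem ThPos.qpos {g f : QT ω A} (h0 : g.c 0 = 1) (h : ThPos g f) : QPos f := by
  have := h (qf A.deg)
  rwa [fth, gneg_deg h0, Adi_one] at this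

/-- With `a = g_≥^{θ_m'}` supported in `N = {u | ω u m' ≥ 0, ω u z ≤ 0}`: `(Ad g x^z)_θ = Ad a x^z`;
a nonzero coefficient at `m' = z + e` forces `ω e z = 0`, and then it equals `[x^e](a a⁻¹)`
(e.g. via `proj (zeroM (-θ_z))`, which is multiplicative on `N`). -/
theorem alpha_Ad_mono {g : QT ω A} (h0 : g.c 0 = 1) {z : M} (hz : z ∈ A.C)
    (hg : Supp g (nnM (-th ω z))) (m' : M) :
    alpha g (Ad g (mono ω A z)) m' = if m' = z then 1 else 0 := by
  have ha0 := gnn_c_zero (th ω m') h0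
  have h1 := supp_gnn (th ω m') h0
  have h2 := hg.gnn h0 (th ω m')
  have e : fth g (th ω m') (Ad g (mono ω A z)) = Ad (gnn (th ω m') g) (mono ω A z) := by
    have := Ad_mul_left (gneg_c_zero (th ω m') h0) ha0 (mono ω A z)
    rw [gneg_mul_gnn _ h0] at this
    rw [fth, this, Adi_Ad (gneg_c_zero _ h0)]
  rw [alpha, e]
  generalize gnn (th ω m') g = a at ha0 h1 h2
  rw [Ad, mul_assoc, mono_mul_eq_sig hz, ← mul_assoc, mul_mono_c hz]
  have h3 : Supp (sig (ω.w z) (inv a)) (nnM (th ω m')) := (h1.inv ha0).diag _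
  have h4 : Supp (sig (ω.w z) (inv a)) (nnM (-th ω z)) := (h2.inv ha0).diag _
  by_cases he : m' - z ∈ zeroM (-th ω z)
  · have e1 : proj (zeroM (-th ω z)) (sig (ω.w z) (inv a)) = proj (zeroM (-th ω z)) (inv a) := by
      ext1 u
      rw [proj_c, proj_c]
      split_ifs with hu
      · have hu' : ω.w u z = 0 := by simpa [mem_zeroM] using hu
        rw [sig_c, ω.skew, hu']
        simp
      · rfl
    have e2 := congrArg (fun k : QT ω A => k.c (m' - z)) (proj_mul (-th ω z) h2 h4)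
    simp only [e1, ← proj_mul (-th ω z) h2 (h2.inv ha0), mul_inv_self ha0, proj_c,
      SetLike.mem_coe, he, if_true] at e2
    rw [e2, QT.one_c]
    by_cases hm : m' = z
    · simp [hm, ω.alt]
    · simp [hm, sub_eq_zero]
  · have hm : m' ≠ z := by
      rintro rfl
      exact he (by simp)
    rw [if_neg hm]
    refine mul_eq_zero_of_right _ ?_
    by_contra hne
    have a1 : (0 : ℚ) ≤ ω.w (m' - z) m' := h1.mul h3 _ hne
    have a2 : (0 : ℚ) ≤ -ω.w (m' - z) z := h2.mul h4 _ hne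
    refine he (mem_zeroM.2 ?_)
    have a3 : ω.w (m' - z) m' = ω.w (m' - z) z := by
      have := ω.alt (m' - z)
      rw [map_sub] at this
      omega
    change -(ω.w (m' - z) z : ℚ) = 0
    rw [a3] at a1
    linarith

/-- Ext.  For the coefficient at `m` use `S = A.le (deg m)` and `θ + B η` with `B` large
(`exists_lex_big`): `Q g' = g'_- · (g'_≥ · Adi g' Q)`, `fac_unique_on`. -/
theorem ThPos.ext {Q g' f : QT ω A} (η : M →+ ℚ) (hQ0 : Q.c 0 = 1) (h0 : g'.c 0 = 1)
    (hQ : Supp Q (posM η)) (hg : Supp g' (zeroM η)) (h : ThPos (Q * g') f) : ThPos g' f := by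
  intro θ m
  by_cases hm : m ∈ A.C
  · obtain ⟨B, -, hl⟩ := exists_lex_big (A.le (A.deg m)).finite_toSet θ η
    have hG0 : (Q * g').c 0 = 1 := T2_mul_zero hQ0 h0
    have hG := fac_of_nn η hG0 ((T2_pos_nn hQ).mul (T2_zero_nn hg))
    have h1 := (fac_lex (lower_coe_le _) hl hG0).1
    rw [hG.1, hG.2, one_mul, proj_mul η (T2_pos_nn hQ) (T2_zero_nn hg), proj_eq_one η hQ0 hQ,
      one_mul, proj_eq_self hg] at h1
    have h2 := Eqv.Adi (lower_coe_le _) (gneg_c_zero _ hG0) (gneg_c_zero θ h0) h1 (Eqv.refl _ f) m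
      (A.mem_le.2 ⟨hm, le_rfl⟩)
    rw [fth, ← h2]
    exact h _ m
  · rw [QT.c_eq_zero _ hm]
    exact Pos.zero

end
end Crest.Agent.R59
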