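import Crest.Agent.R59.GCone

/-! # Row 59, V0: `e_1` commutes with every `e_k`. -/

set_option autoImplicit false

namespace Crest.Agent.R59
open scoped Classical
open Crest.CombinatoricsR.UnitInterval

variable {n : ℕ} {h : Fin n → ℕ}

/-- the involution -/
noncomputable def v0_phi (h : Fin n → ℕ) (x : Fin n × Finset (Fin n)) : Fin n × Finset (Fin n) :=
  if hx : ∃ b, x.2.filter (IsEdge h x.1) = {b} then (hx.choose, insert x.1 (x.2.erase hx.choose))
  else x

theorem v0_phi_pos {a b : Fin n} {I : Finset (Fin n)} (hb : I.filter (IsEdge h a) = {b}) :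
    v0_phi h (a, I) = (b, insert a (I.erase b)) := by
  have hx : ∃ b, I.filter (IsEdge h a) = {b} := ⟨b, hb⟩
  have e : hx.choose = b := Finset.singleton_injective (hx.choose_spec.symm.trans hb)
  unfold v0_phi
  rw [dif_pos hx, e]

theorem v0_phi_neg {a : Fin n} {I : Finset (Fin n)} (hx : ¬ ∃ b, I.filter (IsEdge h a) = {b}) :
    v0_phi h (a, I) = (a, I) := by
  unfold v0_phi
  rw [dif_neg hx]

theorem v0_spec {a b : Fin n} {I : Finset (Fin n)} (hb : I.filter (IsEdge h a) = {b}) :
    (b ∈ I ∧ IsEdge h a b) ∧ ∀ c ∈ I, IsEdge h a c → c = b := by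
  refine ⟨Finset.mem_filter.1 (hb ▸ Finset.mem_singleton_self b), fun c hc he => ?_⟩
  exact Finset.mem_singleton.1 (hb ▸ Finset.mem_filter.2 ⟨hc, he⟩)

theorem v0_not_mem {a b : Fin n} {I : Finset (Fin n)} (hI : Indep h I)
    (hb : I.filter (IsEdge h a) = {b}) : a ∉ I :=
  fun ha => hI a ha b (v0_spec hb).1.1 (v0_spec hb).1.2

theorem v0_indep {a b : Fin n} {I : Finset (Fin n)} (hI : Indep h I)
    (hb : I.filter (IsEdge h a) = {b}) : Indep h (insert a (I.erase b)) := by
  have key : ∀ c ∈ I.erase b, ¬ IsEdge h a c := fun c hc he =>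
    (Finset.mem_erase.1 hc).1 ((v0_spec hb).2 c (Finset.mem_erase.1 hc).2 he)
  intro c hc d hd
  rcases Finset.mem_insert.1 hc with rfl | hc'
  · rcases Finset.mem_insert.1 hd with rfl | hd'
    · exact not_isEdge_self h _
    · exact key d hd'
  · rcases Finset.mem_insert.1 hd with rfl | hd'
    · exact fun he => key c hc' ((isEdge_symm h).1 he)
    · exact hI c (Finset.mem_erase.1 hc').2 d (Finset.mem_erase.1 hd').2

theorem v0_card {a b : Fin n} {I : Finset (Fin n)} (hI : Indep h I)
    (hb : I.filter (IsEdge h a) = {b}) : (insert a (I.erase b)).card = I.card := by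
  rw [Finset.card_insert_of_notMem fun ha => v0_not_mem hI hb (Finset.mem_erase.1 ha).2,
    Finset.card_erase_add_one (v0_spec hb).1.1]

theorem v0_back {a b : Fin n} {I : Finset (Fin n)} (hI : Indep h I)
    (hb : I.filter (IsEdge h a) = {b}) : (insert a (I.erase b)).filter (IsEdge h b) = {a} := by
  ext c
  rw [Finset.mem_filter, Finset.mem_singleton, Finset.mem_insert]
  constructor
  · rintro ⟨rfl | hc, he⟩
    · rfl
    · exact absurd he (hI b (v0_spec hb).1.1 c (Finset.mem_erase.1 hc).2)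
  · rintro rfl
    exact ⟨Or.inl rfl, (isEdge_symm h).1 (v0_spec hb).1.2⟩

theorem v0_restore {a b : Fin n} {I : Finset (Fin n)} (hI : Indep h I)
    (hb : I.filter (IsEdge h a) = {b}) : insert b ((insert a (I.erase b)).erase a) = I := by
  rw [Finset.erase_insert fun ha => v0_not_mem hI hb (Finset.mem_erase.1 ha).2,
    Finset.insert_erase (v0_spec hb).1.1]

theorem v0_vec {a b : Fin n} {I : Finset (Fin n)} (hI : Indep h I)
    (hb : I.filter (IsEdge h a) = {b}) : ind (insert a (I.erase b)) + ev b = ev a + ind I := by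
  rw [ind_eq_sum, ind_eq_sum,
    Finset.sum_insert fun ha => v0_not_mem hI hb (Finset.mem_erase.1 ha).2, add_assoc,
    Finset.sum_erase_add _ _ (v0_spec hb).1.1]

theorem v0_om (a : Fin n) (I : Finset (Fin n)) :
    (omG h).w (ev a) (ind I) = ∑ c ∈ I.filter (IsEdge h a), adj h a c := by
  rw [ind_eq_sum, map_sum, Finset.sum_filter]
  refine Finset.sum_congr rfl fun c _ => ?_
  rw [omG_ev_ev]
  split_ifs with he
  · rfl
  · unfold adj
    rw [if_neg he]

theorem v0_om_single {a b : Fin n} {I : Finset (Fin n)} (hb : I.filter (IsEdge h a) = {b}) :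
    (omG h).w (ev a) (ind I) = adj h a b := by
  rw [v0_om, hb, Finset.sum_singleton]

theorem v0_om_zero (hh : IsHessenberg h) {a : Fin n} {I : Finset (Fin n)} (hI : Indep h I)
    (hx : ¬ ∃ b, I.filter (IsEdge h a) = {b}) : (omG h).w (ev a) (ind I) = 0 := by
  rw [v0_om]
  set N := I.filter (IsEdge h a) with hN
  have hne : ∀ c ∈ N, c ≠ a := by
    rintro c hc rfl
    exact not_isEdge_self h _ (Finset.mem_filter.1 hc).2
  have hR : (N.filter fun c => a < c).card ≤ 1 := by
    rw [Finset.card_le_one]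
    have key : ∀ c ∈ N.filter (fun c => a < c), ∀ d ∈ N.filter (fun c => a < c), ¬ c < d := by
      intro c hc d hd hcd
      obtain ⟨hc1, hc2⟩ := Finset.mem_filter.1 hc
      obtain ⟨hd1, -⟩ := Finset.mem_filter.1 hd
      exact hI c (Finset.mem_filter.1 hc1).1 d (Finset.mem_filter.1 hd1).1
        (edge_between hh hc2 hcd (Finset.mem_filter.1 hd1).2).2
    intro c hc d hd
    exact le_antisymm (not_lt.1 (key d hd c hc)) (not_lt.1 (key c hc d hd))
  have hL : (N.filter fun c => ¬ a < c).card ≤ 1 := by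
    rw [Finset.card_le_one]
    have key : ∀ c ∈ N.filter (fun c => ¬ a < c), ∀ d ∈ N.filter (fun c => ¬ a < c),
        ¬ c < d := by
      intro c hc d hd hcd
      obtain ⟨hc1, -⟩ := Finset.mem_filter.1 hc
      obtain ⟨hd1, hd2⟩ := Finset.mem_filter.1 hd
      have hda : d < a := lt_of_le_of_ne (not_lt.1 hd2) (hne d hd1)
      exact hI c (Finset.mem_filter.1 hc1).1 d (Finset.mem_filter.1 hd1).1
        (edge_between hh hcd hda ((isEdge_symm h).1 (Finset.mem_filter.1 hc1).2)).1
    intro c hc d hd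
    exact le_antisymm (not_lt.1 (key d hd c hc)) (not_lt.1 (key c hc d hd))
  have hc1 : N.card ≠ 1 := fun e => hx (Finset.card_eq_one.1 e)
  have hsum := Finset.card_filter_add_card_filter_not (s := N) (fun c => a < c)
  have e : ∑ c ∈ N, adj h a c = ∑ c ∈ N, if a < c then (1 : ℤ) else -1 := by
    refine Finset.sum_congr rfl fun c hc => ?_
    unfold adj
    rw [if_pos (Finset.mem_filter.1 hc).2]
  rw [e, Finset.sum_ite, Finset.sum_const, Finset.sum_const]
  simp only [nsmul_eq_mul, mul_one, mul_neg]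
  omega

/-- `e_1 e_k - e_k e_1 = Σ_{a, I} (t^p - t^(-p)) x^(e_a + I)` with `p = ω(e_a, I) = Σ_{b ∈ I} adj a b`.
An independent `I` contains at most one earlier and at most one later neighbour of `a`
(`edge_between`), so `p ∈ {-1, 0, 1}`.  If `p ≠ 0` then `a ∉ I` and `a` has exactly one neighbour
`b` in `I`; `(a, I) ↦ (b, insert a (I.erase b))` is a sign-reversing involution
(`Finset.sum_involution`). -/
theorem ek_one_comm (hh : IsHessenberg h) (k : ℕ) : ek h 1 * ek h k = ek h k * ek h 1 := by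
  rw [ek_one]
  unfold ek
  rw [Finset.sum_mul_sum, Finset.sum_mul_sum, Finset.sum_comm (t := Finset.univ),
    ← Finset.sum_product', ← Finset.sum_product']
  have hS : ∀ x : Fin n × Finset (Fin n), x ∈ (Finset.univ : Finset (Fin n)) ×ˢ
      Finset.univ.filter (fun I : Finset (Fin n) => Indep h I ∧ I.card = k) ↔
      Indep h x.2 ∧ x.2.card = k := by
    intro x
    simp only [Finset.mem_product, Finset.mem_univ, true_and, Finset.mem_filter]
  have hmap : ∀ x : Fin n × Finset (Fin n), Indep h x.2 ∧ x.2.card = k →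
      Indep h (v0_phi h x).2 ∧ (v0_phi h x).2.card = k := by
    rintro ⟨a, I⟩ ⟨hI, hk⟩
    by_cases hx : ∃ b, I.filter (IsEdge h a) = {b}
    · obtain ⟨b, hb⟩ := hx
      rw [v0_phi_pos hb]
      exact ⟨v0_indep hI hb, (v0_card hI hb).trans hk⟩
    · rw [v0_phi_neg hx]
      exact ⟨hI, hk⟩
  have hinv : ∀ x : Fin n × Finset (Fin n), Indep h x.2 → v0_phi h (v0_phi h x) = x := by
    rintro ⟨a, I⟩ hI
    by_cases hx : ∃ b, I.filter (IsEdge h a) = {b}
    · obtain ⟨b, hb⟩ := hx
      rw [v0_phi_pos hb, v0_phi_pos (v0_back hI hb), v0_restore hI hb]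
    · rw [v0_phi_neg hx, v0_phi_neg hx]
  refine Finset.sum_nbij' (v0_phi h) (v0_phi h) ?_ ?_ ?_ ?_ ?_
  · intro x hx
    exact (hS _).2 (hmap x ((hS x).1 hx))
  · intro x hx
    exact (hS _).2 (hmap x ((hS x).1 hx))
  · intro x hx
    exact hinv x ((hS x).1 hx).1
  · intro x hx
    exact hinv x ((hS x).1 hx).1
  · rintro ⟨a, I⟩ hx
    have hI : Indep h I := ((hS _).1 hx).1
    have hind : ∀ J : Finset (Fin n), ind J ∈ (cG n).C := fun J => emb_mem _
    by_cases hx : ∃ b, I.filter (IsEdge h a) = {b}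
    · obtain ⟨b, hb⟩ := hx
      rw [v0_phi_pos hb]
      dsimp only
      rw [mono_mul_mono (ev_mem a) (hind _), mono_mul_mono (hind _) (ev_mem b),
        (omG h).skew (ind _) (ev b), v0_om_single hb, v0_om_single (v0_back hI hb),
        ← adj_skew, v0_vec hI hb]
    · rw [v0_phi_neg hx]
      dsimp only
      rw [mono_mul_mono (ev_mem a) (hind _), mono_mul_mono (hind _) (ev_mem a),
        (omG h).skew (ind _) (ev a), v0_om_zero hh hI hx, neg_zero, add_comm]

theorem ek_one_comm_fmu (hh : IsHessenberg h) (μ : List ℕ) :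
    ek h 1 * fmu h μ = fmu h μ * ek h 1 := by
  unfold fmu
  induction μ with
  | nil => simp
  | cons k μ ih =>
    rw [List.map_cons, List.prod_cons, ← mul_assoc, ek_one_comm hh k, mul_assoc, ih, mul_assoc]

end Crest.Agent.R59
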