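import Crest.Agent.R59.TP
import Crest.Agent.R59.KK2

/-! # Row 59, V1: the three diagrams of a unit interval graph; the `e_k` are theta-positive. -/

set_option autoImplicit false

namespace Crest.Agent.R59
noncomputable section
open scoped Classical
open Crest.CombinatoricsR.UnitInterval

variable {n : ℕ}

/-- the base cluster element, with data `Ψ(e_(a+1) - e_a)` over links -/
def gG (h : Fin n → ℕ) : TG h := if H : ∃ g : TG h, IsCl (ydat h ev) g then H.choose else 1

/-- `Q(δ) = ∏ Ψ(δ + e_a)` -/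
def Qd (h : Fin n → ℕ) : TG h := Qp (omG h) (cG n) fun a => dl n + ev a

variable {h : Fin n → ℕ}

theorem V1_dco_ev (a : Fin n) : dco n (ev a) = 0 := rfl
theorem V1_zco_ev (a : Fin n) : zco n (ev a) = 0 := rfl
theorem V1_dco_dl : dco n (dl n) = 1 := rfl
theorem V1_zco_dl : zco n (dl n) = 0 := rfl
theorem V1_posf_dl : posf n (dl n) = 0 := by simp [posf, dl]
theorem V1_w_ev_dl (h : Fin n → ℕ) (a : Fin n) : (omG h).w (ev a) (dl n) = 0 := by
  rw [omG_dl, V1_zco_ev, neg_zero]
theorem V1_w_dl_ev (h : Fin n → ℕ) (a : Fin n) : (omG h).w (dl n) (ev a) = 0 := by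
  rw [(omG h).skew, V1_w_ev_dl, neg_zero]

theorem V1_sum_mem {M : Type} [AddCommGroup M] {J : Type} [Fintype J] {v : J → M}
    {N : AddSubmonoid M} (hv : ∀ j, v j ∈ N) {d : M} (hd : ∑ j, gdat 1 (v j) d ≠ 0) : d ∈ N := by
  obtain ⟨j, -, hj⟩ := Finset.exists_ne_zero_of_sum_ne_zero hd
  obtain ⟨k, -, rfl⟩ := gdat_ne_zero hj
  exact N.nsmul_mem (hv j) k

theorem V1_link_mem (p : Link h) : ev p.1.2 - ev p.1.1 ∈ (cG n).C :=
  ev_sub_mem (by have := p.2.1; rw [Fin.le_def]; omega)

theorem V1_link_posf (p : Link h) : posf n (ev p.1.2 - ev p.1.1) = 1 := by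
  have := p.2.1
  rw [map_sub, posf_ev, posf_ev]
  omega

theorem V1_link_ne (p : Link h) : ev p.1.2 - ev p.1.1 ≠ 0 := by
  intro h0
  have := V1_link_posf p
  rw [h0, map_zero] at this
  exact absurd this (by norm_num)

theorem V1_de_mem (a : Fin n) : dl n + ev a ∈ (cG n).C := (cG n).C.add_mem dl_mem (ev_mem a)

theorem V1_de_dco (a : Fin n) : dco n (dl n + ev a) = 1 := by
  rw [map_add, V1_dco_dl, V1_dco_ev, add_zero]

theorem V1_de_eta (a : Fin n) : eta n (dl n + ev a) = 0 := by
  rw [map_add, eta_dl, eta_ev]; norm_num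

theorem V1_de_ne (a : Fin n) : dl n + ev a ≠ 0 := by
  intro h0
  have := V1_de_dco a
  rw [h0, map_zero] at this
  exact absurd this (by norm_num)

theorem V1_ev_ne (a : Fin n) : ev a ≠ 0 := by
  intro h0
  have := eta_ev a
  rw [h0, map_zero] at this
  exact absurd this (by norm_num)

theorem V1_add_ne {a b : K} (hab : a + b ≠ 0) : a ≠ 0 ∨ b ≠ 0 := by
  by_contra hc
  push Not at hc
  exact hab (by rw [hc.1, hc.2, add_zero])

theorem V1_ydat_d (d : MM n) : ydat h (fun a => dl n + ev a) d = ydat h ev d := by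
  unfold ydat
  refine Finset.sum_congr rfl fun p _ => ?_
  rw [add_sub_add_left_eq_sub]

theorem V1_supp_Qp {e : Fin n → MM n} {N : AddSubmonoid (MM n)} (he : ∀ a, e a ∈ N) :
    Supp (Qp (omG h) (cG n) e) N := by
  refine supp_gprod fun p hp => ?_
  obtain ⟨a, rfl⟩ := List.mem_ofFn.1 hp
  exact he a

theorem V1_Qp_zero (e : Fin n → MM n) : (Qp (omG h) (cG n) e).c 0 = 1 := gprod_c_zero _

theorem isCl_gG : IsCl (ydat h ev) (gG h) := by
  have H : ∃ g : TG h, IsCl (ydat h ev) g :=
    exists_cl _ fun d hd _ => V1_sum_mem (fun p => V1_link_mem p) hd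
  unfold gG
  rw [dif_pos H]
  exact H.choose_spec
theorem gG_c_zero : (gG h).c 0 = 1 := isCl_gG.1
/-- a finite family of data as a list -/
theorem exists_ldat {M : Type} [AddCommGroup M] {A : Cone M} {J : Type} [Fintype J] (v : J → M)
    (hv : ∀ j, v j ∈ A.C ∧ v j ≠ 0) :
    ∃ L, Valid A Set.univ L ∧ ∀ d, ldat L d = ∑ j, gdat 1 (v j) d := by
  refine ⟨(Finset.univ : Finset J).toList.map fun j => ((1 : ℤ), v j), ?_, fun d => ?_⟩
  · intro p hp
    obtain ⟨j, -, rfl⟩ := List.mem_map.1 hp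
    exact ⟨(hv j).1, (hv j).2, trivial⟩
  · unfold ldat
    rw [List.map_map, ← Finset.sum_map_toList]
    rfl
theorem gG_list : ∃ L, Valid (cG n) Set.univ L ∧ IsCl (ldat L) (gG h) := by
  obtain ⟨L, hL, hd⟩ := exists_ldat (A := cG n) (fun p : Link h => ev p.1.2 - ev p.1.1)
    fun p => ⟨V1_link_mem p, V1_link_ne p⟩
  exact ⟨L, hL, isCl_gG.congr fun d _ => (hd d).symm⟩
/-- `IsCl.supp` -/
theorem supp_gG : Supp (gG h)
    {u | eta n u = 0 ∧ dco n u = 0 ∧ zco n u = 0 ∧ 0 ≤ posf n u} := by
  let N : AddSubmonoid (MM n) :=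
    { carrier := {u | eta n u = 0 ∧ dco n u = 0 ∧ zco n u = 0 ∧ 0 ≤ posf n u}
      zero_mem' := by simp
      add_mem' := by
        rintro a b ⟨h1, h2, h3, h4⟩ ⟨h1', h2', h3', h4'⟩
        simp only [Set.mem_ofPred_eq, map_add]
        omega }
  refine isCl_gG.supp (N := N) fun d _ hd => V1_sum_mem (N := N) (fun p => ?_) hd
  refine ⟨?_, ?_, ?_, ?_⟩
  · rw [map_sub, eta_ev, eta_ev, sub_self]
  · rw [map_sub, V1_dco_ev, V1_dco_ev, sub_self]
  · rw [map_sub, V1_zco_ev, V1_zco_ev, sub_self]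
  · rw [V1_link_posf]; norm_num
/-- `KH.main` for the family `δ + e_a` (no extras, `J = Empty`, `π = posf`, `η = dco`) -/
theorem isCl_Qd (hh : IsHessenberg h) :
    IsCl (fun d => sdat h (fun a => dl n + ev a) d + ydat h ev d) (Qd h * gG h) := by
  have H : KH (omG h) h (fun a => dl n + ev a) (fun l : Empty => (l.elim : MM n)) (posf n)
      (dco n) :=
    { hh := hh
      he := fun a b => by
        simp only [map_add, AddMonoidHom.add_apply, (omG h).alt, V1_w_ev_dl, V1_w_dl_ev, omG_ev_ev,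
          zero_add]
      hw := fun _ l => l.elim
      πe := fun a => by rw [map_add, V1_posf_dl, posf_ev, zero_add]
      πw := fun l => l.elim
      ηe := V1_de_dco
      ηw := fun l => l.elim }
  obtain ⟨g, hg⟩ := exists_cl (ω := omG h) (A := cG n)
    (fun d => sdat h (fun a => dl n + ev a) d + ydat h ev d) (by
      intro d hd _
      rcases V1_add_ne hd with hd | hd
      · exact V1_sum_mem (fun a : {a : Fin n // Start h a} => V1_de_mem a.1) hd
      · exact V1_sum_mem (fun p => V1_link_mem p) hd)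
  have := H.main (A := cG n) V1_de_mem
    (fun p => by rw [add_sub_add_left_eq_sub]; exact V1_link_mem p) (fun l => l.elim)
    (g := g) (g₀ := gG h) (hg.congr fun d _ => by simp [V1_ydat_d])
    (isCl_gG.congr fun d _ => by simp [V1_ydat_d])
  unfold Qd
  rw [← this]
  exact hg
/-- `KH.main` for the family `e_a` with extras `δ + e_c`, `c` a start (`π = posf + dco`,
`η = eta`) -/
theorem isCl_Qp (hh : IsHessenberg h) :
    IsCl (fun d => sdat h ev d + ydat h ev d + sdat h (fun a => dl n + ev a) d)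
      (Qp (omG h) (cG n) ev * (Qd h * gG h)) := by
  have H : KH (omG h) h ev (fun c : {a : Fin n // Start h a} => dl n + ev c.1)
      (posf n + dco n) (eta n) :=
    { hh := hh
      he := omG_ev_ev h
      hw := fun a c => by
        rw [map_add, V1_w_ev_dl, omG_ev_ev, zero_add]
        exact c.2.adj_nonpos hh a
      πe := fun a => by rw [AddMonoidHom.add_apply, posf_ev, V1_dco_ev, add_zero]
      πw := fun c => by
        rw [AddMonoidHom.add_apply, V1_de_dco, map_add, V1_posf_dl, posf_ev]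
        omega
      ηe := eta_ev
      ηw := fun c => V1_de_eta c.1 }
  obtain ⟨g, hg⟩ := exists_cl (ω := omG h) (A := cG n)
    (fun d => sdat h ev d + ydat h ev d + sdat h (fun a => dl n + ev a) d) (by
      intro d hd _
      rcases V1_add_ne hd with hd | hd
      · rcases V1_add_ne hd with hd | hd
        · exact V1_sum_mem (fun a : {a : Fin n // Start h a} => ev_mem a.1) hd
        · exact V1_sum_mem (fun p => V1_link_mem p) hd
      · exact V1_sum_mem (fun a : {a : Fin n // Start h a} => V1_de_mem a.1) hd)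
  have := H.main (A := cG n) ev_mem V1_link_mem (fun c => V1_de_mem c.1)
    (g := g) (g₀ := Qd h * gG h) hg
    ((isCl_Qd hh).congr fun d _ => add_comm _ _)
  rw [← this]
  exact hg
theorem V1_g_zero : (Qd h * gG h).c 0 = 1 := by
  rw [mul_c_zero, gG_c_zero, mul_one]
  exact V1_Qp_zero _

theorem V1_supp_g : Supp (Qd h * gG h) (zeroM (qf (eta n))) := by
  refine Supp.mul (V1_supp_Qp fun a => ?_) (supp_gG.mono fun u hu => ?_)
  · rw [mem_zeroM, qf_apply, V1_de_eta, Int.cast_zero]
  · show qf (eta n) u = 0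
    rw [qf_apply, hu.1, Int.cast_zero]

theorem V1_comm_z {a : TG h} (ha : Supp a (zeroM (qf (eta n)))) :
    a * mono (omG h) (cG n) (zz n) = mono (omG h) (cG n) (zz n) * a := by
  refine commute_of_supp fun u v hu hv => ?_
  have h1 : qf (eta n) u = 0 := ha u hu
  have h2 : v = zz n := supp_mono _ v hv
  rw [qf_apply, Int.cast_eq_zero] at h1
  rw [h2, omG_zz, h1, neg_zero]

theorem V1_list_Qp (hh : IsHessenberg h) : ∃ L, Valid (cG n) Set.univ L ∧
    IsCl (ldat L) (Qp (omG h) (cG n) ev * (Qd h * gG h)) := by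
  obtain ⟨L, hL, hd⟩ := exists_ldat (A := cG n)
    (J := ({a : Fin n // Start h a} ⊕ Link h) ⊕ {a : Fin n // Start h a})
    (Sum.elim (Sum.elim (fun a => ev a.1) fun p => ev p.1.2 - ev p.1.1) fun a => dl n + ev a.1) (by
      rintro ((a | p) | a)
      · exact ⟨ev_mem _, V1_ev_ne _⟩
      · exact ⟨V1_link_mem p, V1_link_ne p⟩
      · exact ⟨V1_de_mem _, V1_de_ne _⟩)
  refine ⟨L, hL, (isCl_Qp hh).congr fun d _ => ?_⟩
  rw [hd, Fintype.sum_sum_type, Fintype.sum_sum_type]
  rfl

theorem V1_eta_ind (I : Finset (Fin n)) : eta n (ind I) = I.card := by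
  rw [ind_eq_sum, map_sum]
  simp [eta_ev]

theorem V1_ind_mem (I : Finset (Fin n)) : ind I ∈ (cG n).C := emb_mem _

/-- `Ad_Qp_mono`; `x^z` commutes with `Qd * gG` (supported in `eta = 0`); `alpha_Ad_mono`,
`thPos_of_alpha`, `ThPos.ext` with `η = eta` -/
theorem thPos_Theta (hh : IsHessenberg h) : ThPos (Qd h * gG h)
    (∑ I ∈ Finset.univ.filter (fun I : Finset (Fin n) => Indep h I),
      mono (omG h) (cG n) (zz n + ind I)) := by
  obtain ⟨L, hL, hg⟩ := V1_list_Qp hh
  have e1 := Ad_Qp_mono (ω := omG h) (A := cG n) (e := ev) hh (omG_ev_ev h) ev_mem zz_mem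
    (fun a => by rw [omG_zz, eta_ev])
  simp only [← ind_eq_sum] at e1
  have e2 : Ad (Qp (omG h) (cG n) ev * (Qd h * gG h)) (mono (omG h) (cG n) (zz n)) =
      Ad (Qp (omG h) (cG n) ev) (mono (omG h) (cG n) (zz n)) := by
    rw [Ad_mul_left (V1_Qp_zero _) V1_g_zero, Ad_of_commute V1_g_zero (V1_comm_z V1_supp_g)]
  have hs : Supp (Qp (omG h) (cG n) ev * (Qd h * gG h)) (nnM (-th (omG h) (zz n))) := by
    refine Supp.mul (V1_supp_Qp fun a => ?_) (V1_supp_g.mono fun u hu => ?_)
    · rw [mem_nnM, AddMonoidHom.neg_apply, th_apply, omG_zz, eta_ev]; norm_num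
    · have h1 : qf (eta n) u = 0 := hu
      rw [qf_apply, Int.cast_eq_zero] at h1
      show 0 ≤ (-th (omG h) (zz n)) u
      rw [AddMonoidHom.neg_apply, th_apply, omG_zz, h1]; norm_num
  rw [← e1, ← e2]
  refine ThPos.ext (qf (eta n)) (V1_Qp_zero ev) V1_g_zero (V1_supp_Qp fun a => ?_) V1_supp_g
    (thPos_of_alpha sep_MM hL hg fun m => ?_)
  · rw [mem_posM, qf_apply, eta_ev]; norm_num
  · rw [alpha_Ad_mono hg.1 zz_mem hs]
    split_ifs
    · exact Pos.one
    · exact Pos.zero
/-- `Θ = x^z Σ_k t^(-k) e_k`; `x^z` commutes with `(Qd gG)_-^θ`, which has `eta`-degree zero, so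
`proj {eta = k}` isolates `e_k` (`proj_mul_left/right`, `mono_mul_c`) -/
theorem thPos_ek_d (hh : IsHessenberg h) (k : ℕ) : ThPos (Qd h * gG h) (ek h k) := by
  intro θ u
  have hΘ := thPos_Theta hh θ
  have ha : Supp (gneg θ (Qd h * gG h)) (zeroM (qf (eta n))) := V1_supp_g.gneg V1_g_zero θ
  have ha0 : (gneg θ (Qd h * gG h)).c 0 = 1 := gneg_c_zero θ V1_g_zero
  have hai := ha.inv ha0
  have conv : ∀ b : TG h, Supp b (zeroM (qf (eta n))) → Supp b {u | eta n u = 0} := by
    intro b hb u hu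
    have h1 : qf (eta n) u = 0 := hb u hu
    rwa [qf_apply, Int.cast_eq_zero] at h1
  have hP : proj {u | eta n u = (k : ℤ)}
      (∑ I ∈ Finset.univ.filter (fun I : Finset (Fin n) => Indep h I),
        mono (omG h) (cG n) (zz n + ind I)) =
      tp (-(k : ℤ)) • (mono (omG h) (cG n) (zz n) * ek h k) := by
    have e : tp (-(k : ℤ)) • (mono (omG h) (cG n) (zz n) * ek h k) =
        ∑ I ∈ Finset.univ.filter (fun I : Finset (Fin n) => Indep h I ∧ I.card = k),
          mono (omG h) (cG n) (zz n + ind I) := by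
      unfold ek
      rw [Finset.mul_sum, Finset.smul_sum]
      refine Finset.sum_congr rfl fun I hI => ?_
      rw [mono_mul_mono zz_mem (V1_ind_mem I), smul_smul, ← tp_add, (omG h).skew, omG_zz, neg_neg,
        V1_eta_ind, (Finset.mem_filter.1 hI).2.2, neg_add_cancel, tp_zero, one_smul]
    rw [e]
    ext1 v
    rw [proj_c, QT.sum_c, QT.sum_c, ← Finset.filter_filter, Finset.sum_filter (p := fun I : Finset (Fin n) => I.card = k)]
    have hI : ∀ I : Finset (Fin n), eta n (zz n + ind I) = I.card := fun I => by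
      rw [map_add, eta_zz, V1_eta_ind, zero_add]
    split_ifs with hv
    · refine Finset.sum_congr rfl fun I _ => ?_
      split_ifs with hc
      · rfl
      · rw [mono_c ((cG n).C.add_mem zz_mem (V1_ind_mem I)), if_neg]
        rintro rfl
        have h1 : eta n (zz n + ind I) = k := hv
        rw [hI] at h1
        exact hc (by exact_mod_cast h1)
    · refine (Finset.sum_eq_zero fun I _ => ?_).symm
      split_ifs with hc
      · rw [mono_c ((cG n).C.add_mem zz_mem (V1_ind_mem I)), if_neg]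
        rintro rfl
        exact hv (by show eta n (zz n + ind I) = k; rw [hI, hc])
      · rfl
  have key : proj {u | eta n u = (k : ℤ)} (fth (Qd h * gG h) θ
      (∑ I ∈ Finset.univ.filter (fun I : Finset (Fin n) => Indep h I),
        mono (omG h) (cG n) (zz n + ind I))) =
      tp (-(k : ℤ)) • (mono (omG h) (cG n) (zz n) * fth (Qd h * gG h) θ (ek h k)) := by
    unfold fth Adi
    rw [proj_mul_right _ _ (conv _ ha), proj_mul_left _ _ (conv _ hai), hP, mul_smul_comm,
      smul_mul_assoc, ← mul_assoc, V1_comm_z hai]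
    simp only [mul_assoc]
  have h1 := congrArg (fun f : TG h => f.c (u + zz n)) key
  simp only [QT.smul_c, mono_mul_c zz_mem, add_sub_cancel_right] at h1
  have h2 : (fth (Qd h * gG h) θ (ek h k)).c u =
      tp (k - (omG h).w (zz n) (u + zz n)) * (tp (-(k : ℤ)) * (tp ((omG h).w (zz n) (u + zz n)) *
        (fth (Qd h * gG h) θ (ek h k)).c u)) := by
    rw [← mul_assoc, ← mul_assoc, ← tp_add, ← tp_add]
    have : (k : ℤ) - (omG h).w (zz n) (u + zz n) + -(k : ℤ) + (omG h).w (zz n) (u + zz n) = 0 := by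
      ring
    rw [this, tp_zero, one_mul]
  rw [h2, ← h1, proj_c]
  refine (Pos.tp _).mul ?_
  split_ifs
  · exact hΘ _
  · exact Pos.zero
theorem thPos_fmu_d (hh : IsHessenberg h) (μ : List ℕ) : ThPos (Qd h * gG h) (fmu h μ) := by
  induction μ with
  | nil => exact ThPos.one V1_g_zero
  | cons k μ ih =>
    unfold fmu
    rw [List.map_cons, List.prod_cons]
    exact ThPos.mul V1_g_zero (thPos_ek_d hh k) ih
/-- `ThPos.ext` with `η = dco` -/
theorem thPos_fmu (hh : IsHessenberg h) (μ : List ℕ) : ThPos (gG h) (fmu h μ) := by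
  refine ThPos.ext (qf (dco n)) (V1_Qp_zero _) gG_c_zero (V1_supp_Qp fun a => ?_)
    (supp_gG.mono fun u hu => ?_) (thPos_fmu_d hh μ)
  · rw [mem_posM, qf_apply, V1_de_dco]; norm_num
  · show qf (dco n) u = 0
    rw [qf_apply, hu.2.1, Int.cast_zero]
theorem thPos_ek (hh : IsHessenberg h) (k : ℕ) : ThPos (gG h) (ek h k) := by
  have := thPos_fmu hh [k]
  simpa [fmu] using this
theorem V1_gen_first {u : MM n} (hu : u ∈ (cG n).C) (h1 : dco n u = 1) :
    Eqv {u | dco n u ≤ 1} (gen (omG h) (cG n) 1 u)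
      (1 + (tp 1 / (1 - tp 2)) • mono (omG h) (cG n) u) := by
  have h0 : u ≠ 0 := by
    rintro rfl
    rw [map_zero] at h1
    exact absurd h1 (by norm_num)
  intro d hd
  rw [QT.add_c, QT.smul_c, QT.one_c, mono_c hu]
  by_cases hd0 : d = 0
  · subst hd0
    rw [gen_c_zero, if_pos rfl, if_neg h0.symm, mul_zero, add_zero]
  · by_cases hd1 : d = u
    · subst hd1
      have := ser_c_nsmul (ω := omG h) hu h0 (Gser 1) 1
      rw [one_smul, Gser_coeff_one] at this
      rw [if_neg hd0, if_pos rfl, mul_one, zero_add]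
      exact this
    · rw [if_neg hd0, if_neg hd1, mul_zero, add_zero]
      by_contra hne
      obtain ⟨k, rfl⟩ := ser_c_ne_zero hne
      have h2 : dco n (k • u) ≤ 1 := hd
      rw [map_nsmul, h1, nsmul_eq_mul, mul_one] at h2
      have h3 : k ≤ 1 := by exact_mod_cast h2
      interval_cases k
      · exact hd0 (zero_smul _ _)
      · exact hd1 (one_smul _ _)

theorem V1_list_first (l : List (Fin n)) :
    Supp (l.map fun a => mono (omG h) (cG n) (dl n + ev a)).sum {u | dco n u = 1} ∧
    Eqv {u | dco n u ≤ 1} (gprod (omG h) (cG n) (l.map fun a => ((1 : ℤ), dl n + ev a)))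
      (1 + (tp 1 / (1 - tp 2)) • (l.map fun a => mono (omG h) (cG n) (dl n + ev a)).sum) := by
  induction l with
  | nil =>
    refine ⟨fun u hu => absurd rfl hu, ?_⟩
    rw [List.map_nil, List.map_nil, gprod_nil, List.sum_nil, smul_zero, add_zero]
    exact Eqv.refl _ _
  | cons a l ih =>
    have hm : Supp (mono (omG h) (cG n) (dl n + ev a)) {u | dco n u = 1} :=
      (supp_mono _).mono (by rintro u rfl; exact V1_de_dco a)
    rw [List.map_cons, List.map_cons, gprod_cons, List.sum_cons]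
    refine ⟨hm.add ih.1, ?_⟩
    refine (Eqv.mul (lower_le (dco n) dco_nonneg 1) (V1_gen_first (V1_de_mem a) (V1_de_dco a))
      ih.2).trans ?_
    have hs : Supp (mono (omG h) (cG n) (dl n + ev a) *
        (l.map fun a => mono (omG h) (cG n) (dl n + ev a)).sum) {u | dco n u = 2} :=
      hm.mul' ih.1 fun u hu v hv => by
        have h1 : dco n u = 1 := hu
        have h2 : dco n v = 1 := hv
        show dco n (u + v) = 2
        rw [map_add, h1, h2]; norm_num
    intro d hd
    have h0 : (mono (omG h) (cG n) (dl n + ev a) *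
        (l.map fun a => mono (omG h) (cG n) (dl n + ev a)).sum).c d = 0 := by
      by_contra hne
      have h1 : dco n d = 2 := hs d hne
      have h2 : dco n d ≤ 1 := hd
      omega
    simp only [mul_add, add_mul, one_mul, mul_one, smul_mul_assoc, mul_smul_comm, QT.add_c,
      QT.smul_c, h0]
    ring

/-- first order in `δ`: each `Ψ(δ + e_a) ≡ 1 + κ x^(δ + e_a)` (`Gser_coeff_one`) and products of two
such monomials vanish on `dco ≤ 1` -/
theorem Qd_first : Eqv {u | dco n u ≤ 1} (Qd h)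
    (1 + (tp 1 / (1 - tp 2)) • (mono (omG h) (cG n) (dl n) * ek h 1)) := by
  have h1 := (V1_list_first (h := h) (List.finRange n)).2
  have e1 : Qd h = gprod (omG h) (cG n)
      ((List.finRange n).map fun a => ((1 : ℤ), dl n + ev a)) := by
    unfold Qd Qp
    rw [List.ofFn_eq_map]
  have e2 : mono (omG h) (cG n) (dl n) * ek h 1 =
      ((List.finRange n).map fun a => mono (omG h) (cG n) (dl n + ev a)).sum := by
    rw [ek_one, Finset.mul_sum, ← Fin.sum_univ_def]
    refine Finset.sum_congr rfl fun a _ => ?_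
    rw [mono_mul_mono dl_mem (ev_mem a), V1_w_dl_ev, tp_zero, one_smul]
  rw [e1, e2]
  exact h1

end
end Crest.Agent.R59
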