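import Crest.Agent.R59.V1
import Crest.Agent.R59.V0

/-! # Row 59, V2: the theta-expansion of `e_μ` is supported on `Z`. -/

set_option autoImplicit false

namespace Crest.Agent.R59
open scoped Classical
open Crest.CombinatoricsR.UnitInterval

variable {n : ℕ} {h : Fin n → ℕ}

/-- the sublattice `dco = 0`, `zco = 0` -/
def V2N (n : ℕ) : AddSubmonoid (MM n) where
  carrier := {u | dco n u = 0 ∧ zco n u = 0}
  zero_mem' := by simp
  add_mem' := by
    rintro a b ⟨ha, ha'⟩ ⟨hb, hb'⟩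
    exact ⟨by rw [map_add, ha, hb, add_zero], by rw [map_add, ha', hb', add_zero]⟩

theorem V2_mem {u : MM n} : u ∈ V2N n ↔ dco n u = 0 ∧ zco n u = 0 := Iff.rfl

theorem V2_supp_gG : Supp (gG h) (V2N n) := fun u hu => ⟨(supp_gG u hu).2.1, (supp_gG u hu).2.2.1⟩

theorem V2_supp_ek (k : ℕ) : Supp (ek h k) (V2N n) := by
  intro u hu
  obtain ⟨I, -, -, rfl⟩ := ek_c_ne_zero hu
  exact ⟨rfl, rfl⟩

theorem V2_supp_fth (θ : MM n →+ ℚ) {f : TG h} (hf : Supp f (V2N n)) :
    Supp (fth (gG h) θ f) (V2N n) := by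
  have ha : Supp (gneg θ (gG h)) (V2N n) := V2_supp_gG.gneg gG_c_zero θ
  exact ((ha.inv (gneg_c_zero θ gG_c_zero)).mul hf).mul ha

theorem V2_dco_dl : dco n (dl n) = 1 := rfl
theorem V2_zco_dl : zco n (dl n) = 0 := rfl

theorem V2_w_dl (x : MM n) : (omG h).w (dl n) x = zco n x := by
  rw [(omG h).skew, omG_dl, neg_neg]

theorem V2_comm {f : TG h} (hf : Supp f (V2N n)) :
    mono (omG h) (cG n) (dl n) * f = f * mono (omG h) (cG n) (dl n) := by
  apply commute_of_supp
  intro u v hu hv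
  have : u = dl n := supp_mono _ u hu
  rw [this, V2_w_dl]
  exact (hf v hv).2

theorem V2_supp_X {f : TG h} {N : Set (MM n)} (hf : Supp f N) (κ : K) :
    Supp (κ • (mono (omG h) (cG n) (dl n) * f)) {u | ∃ v ∈ N, u = dl n + v} := by
  refine Supp.smul ?_ κ
  refine Supp.mul' (supp_mono (dl n)) hf ?_
  rintro u hu v hv
  exact ⟨v, hv, by rw [Set.mem_singleton_iff.1 hu]⟩

theorem V2_supp_X1 {f : TG h} (hf : Supp f (V2N n)) (κ : K) :
    Supp (κ • (mono (omG h) (cG n) (dl n) * f)) {u | dco n u = 1} := by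
  refine (V2_supp_X hf κ).mono ?_
  rintro u ⟨v, hv, rfl⟩
  change dco n (dl n + v) = 1
  rw [map_add, V2_dco_dl, (V2_mem.1 hv).1, add_zero]

theorem V2_supp_deg {p q : TG h} {i j : ℤ} (hp : Supp p {u | dco n u = i})
    (hq : Supp q {u | dco n u = j}) : Supp (p * q) {u | dco n u = i + j} := by
  refine Supp.mul' hp hq ?_
  intro u hu v hv
  change dco n (u + v) = i + j
  rw [map_add, show dco n u = i from hu, show dco n v = j from hv]

theorem V2_c_eq_zero {p : TG h} {i : ℤ} (hp : Supp p {u | dco n u = i}) {u : MM n}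
    (hu : dco n u ≠ i) : p.c u = 0 := by
  by_contra hc
  exact hu (hp u hc)

theorem V2_one_add_c_zero {p : TG h} (hp : Supp p {u | dco n u = 1}) : (1 + p).c 0 = 1 := by
  rw [QT.add_c, one_c_zero, V2_c_eq_zero hp (by simp), add_zero]

theorem V2_eqv_two {p q : TG h} (hq : Supp q {u | dco n u = 1 + 1}) :
    Eqv {u | dco n u ≤ 1} (p + q) p := by
  intro u hu
  have hu' : dco n u ≤ 1 := hu
  rw [QT.add_c, V2_c_eq_zero hq (by omega), add_zero]

theorem V2_alg {R : Type} [Ring R] [Algebra K R] {a b e φ X : R} (κ : K) (h1 : e * a = a * φ)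
    (h2 : X * a = a * X) : (1 + κ • (X * e)) * (a * b) = a * ((1 + κ • (X * φ)) * b) := by
  rw [← mul_assoc, ← mul_assoc, add_mul 1, mul_add a, one_mul, mul_one, smul_mul_assoc,
    mul_smul_comm, mul_assoc X, h1, ← mul_assoc X, h2, mul_assoc a X]

theorem V2_comm_c {M : Type} [AddCommGroup M] {ω : Form M} {A : Cone M} (p q : QT ω A) (r : M) :
    (p * q - q * p).c r =
      ∑ u ∈ A.le (A.deg r), (tp (ω.w u r) - tp (-ω.w u r)) * (p.c u * q.c (r - u)) := by
  rw [QT.sub_c, QT.mul_c_sum p q r le_rfl, t1_mul_c_right,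
    finsum_eq_sum_of_support_subset (s := A.le (A.deg r)), ← Finset.sum_sub_distrib]
  · refine Finset.sum_congr rfl fun u _ => ?_
    rw [t1_w_left, ω.skew r u]
    ring
  · intro u hu
    have h1 : q.c (r - u) ≠ 0 := by intro h0; simp [h0] at hu
    have h2 : p.c u ≠ 0 := by intro h0; simp [h0] at hu
    exact A.mem_le_of_add (p.supp h2) (q.supp h1) le_rfl

/-- First order computation.  `θ = θ_(δ + r)` (`θ u = ω u r` when `zco u = 0`), `g = gG h`,
`φ = (e_1)_θ`, `φ_- = proj {θ < 0} φ`, `κ = t/(1-t²)`, `S = {dco ≤ 1}` (lower by `dco_nonneg`).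
`Qd g ≡ g_- (1 + κ x^δ φ_-) · (1 + κ x^δ φ_≥) g_≥` on `S` (`Qd_first`; `x^δ` commutes with
everything of `zco = 0`), so `(Qd g)_- ≡ g_- (1 + κ x^δ φ_-)` by `fac_unique_on`, and
`f~_θ ≡ f_θ - κ x^δ (φ_- f_θ - f_θ φ_-)`. -/
theorem alpha_delta {f : TG h} (hf : Supp f {u | dco n u = 0 ∧ zco n u = 0}) {r : MM n}
    (hr : dco n r = 0 ∧ zco n r = 0) :
    alpha (Qd h * gG h) f (dl n + r) = -(tp 1 / (1 - tp 2)) *
      (proj {u | (omG h).w u r < 0} (fth (gG h) (th (omG h) (dl n + r)) (ek h 1)) *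
          fth (gG h) (th (omG h) (dl n + r)) f -
        fth (gG h) (th (omG h) (dl n + r)) f *
          proj {u | (omG h).w u r < 0} (fth (gG h) (th (omG h) (dl n + r)) (ek h 1))).c r := by
  set θ := th (omG h) (dl n + r) with hθ
  set κ : K := tp 1 / (1 - tp 2) with hκ
  set X := mono (omG h) (cG n) (dl n) with hX
  have hfN : Supp f (V2N n) := hf
  have hφN : Supp (fth (gG h) θ (ek h 1)) (V2N n) := V2_supp_fth θ (V2_supp_ek 1)
  have hFN : Supp (fth (gG h) θ f) (V2N n) := V2_supp_fth θ hfN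
  have ha0 : (gneg θ (gG h)).c 0 = 1 := gneg_c_zero θ gG_c_zero
  have hb0 : (gnn θ (gG h)).c 0 = 1 := gnn_c_zero θ gG_c_zero
  have haN : Supp (gneg θ (gG h)) (V2N n) := V2_supp_gG.gneg gG_c_zero θ
  have hab : gneg θ (gG h) * gnn θ (gG h) = gG h := gneg_mul_gnn θ gG_c_zero
  have hea : ek h 1 * gneg θ (gG h) = gneg θ (gG h) * fth (gG h) θ (ek h 1) := by
    unfold fth Adi
    rw [← mul_assoc, ← mul_assoc, mul_inv_self ha0, one_mul]
  set φ := fth (gG h) θ (ek h 1) with hφ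
  set φm := proj {u | (omG h).w u r < 0} φ with hφm
  set φp := proj {u | (omG h).w u r < 0}ᶜ φ with hφp
  have hsum : φm + φp = φ := proj_add_proj_compl _ _
  have hφmN : Supp φm (V2N n) := hφN.proj _
  have hφpN : Supp φp (V2N n) := hφN.proj _
  have hS : Lower (cG n) {u | dco n u ≤ 1} := lower_le (dco n) dco_nonneg 1
  have hYm := V2_supp_X1 hφmN κ
  have hYp := V2_supp_X1 hφpN κ
  have hθv : ∀ v ∈ V2N n, θ (dl n + v) = ((omG h).w v r : ℚ) := by
    intro v hv
    rw [hθ, th_apply]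
    congr 1
    simp only [map_add, AddMonoidHom.add_apply, V2_w_dl, omG_dl, V2_zco_dl, hr.2, (V2_mem.1 hv).2]
    ring
  have hQ0 : (Qd h).c 0 = 1 := by
    rw [Qd_first 0 (by simp)]
    exact V2_one_add_c_zero (V2_supp_X1 (V2_supp_ek 1) κ)
  have hm0 : (1 + κ • (X * φm)).c 0 = 1 := V2_one_add_c_zero hYm
  have hp0 : (1 + κ • (X * φp)).c 0 = 1 := V2_one_add_c_zero hYp
  have hQg0 : (Qd h * gG h).c 0 = 1 := T2_mul_zero hQ0 gG_c_zero
  have hsm : Supp (1 + κ • (X * φm)) (negM θ) := by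
    refine (supp_one _).add ((V2_supp_X (hφmN.inter (supp_proj _ φ)) κ).mono ?_)
    rintro u ⟨v, ⟨hv, hv'⟩, rfl⟩
    right
    rw [hθv v hv]
    exact_mod_cast (show (omG h).w v r < 0 from hv')
  have hsp : Supp (1 + κ • (X * φp)) (nnM θ) := by
    refine (supp_one _).add ((V2_supp_X (hφpN.inter (supp_proj _ φ)) κ).mono ?_)
    rintro u ⟨v, ⟨hv, hv'⟩, rfl⟩
    change 0 ≤ θ (dl n + v)
    rw [hθv v hv]
    exact_mod_cast (not_lt.1 (show ¬ (omG h).w v r < 0 from hv'))
  have hE : Eqv {u | dco n u ≤ 1} (Qd h * gG h)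
      ((gneg θ (gG h) * (1 + κ • (X * φm))) * ((1 + κ • (X * φp)) * gnn θ (gG h))) := by
    have h1 : Eqv {u | dco n u ≤ 1} (Qd h * gG h) ((1 + κ • (X * ek h 1)) * gG h) :=
      Eqv.mul hS Qd_first (Eqv.refl _ _)
    have h2 : (1 + κ • (X * ek h 1)) * gG h =
        gneg θ (gG h) * ((1 + κ • (X * φ)) * gnn θ (gG h)) := by
      rw [← V2_alg κ hea (V2_comm haN), hab]
    have h3 : Eqv {u | dco n u ≤ 1} ((1 + κ • (X * φm)) * (1 + κ • (X * φp)))
        (1 + κ • (X * φ)) := by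
      have : (1 + κ • (X * φm)) * (1 + κ • (X * φp)) =
          (1 + κ • (X * φ)) + (κ • (X * φm)) * (κ • (X * φp)) := by
        have h4 : κ • (X * φ) = κ • (X * φm) + κ • (X * φp) := by
          rw [← smul_add, ← mul_add, hsum]
        rw [h4, add_mul, mul_add, mul_add, one_mul, one_mul, mul_one]
        abel
      rw [this]
      exact V2_eqv_two (V2_supp_deg hYm hYp)
    refine h1.trans ?_
    rw [h2, mul_assoc, ← mul_assoc (1 + κ • (X * φm))]
    exact Eqv.mul hS (Eqv.refl _ _) (Eqv.mul hS h3.symm (Eqv.refl _ _))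
  have hneg := (fac_unique_on hS θ hQg0 (T2_mul_zero ha0 hm0) (T2_mul_zero hp0 hb0)
    (fun u _ hu => ((supp_gneg θ gG_c_zero).mul hsm) u hu)
    (fun u _ hu => (hsp.mul (supp_gnn θ gG_c_zero)) u hu) hE).1
  have hd1 : dco n (dl n + r) = 1 := by rw [map_add, V2_dco_dl, hr.1, add_zero]
  have hmem : dl n + r ∈ {u | dco n u ≤ 1} := hd1.le
  have e1 : alpha (Qd h * gG h) f (dl n + r) =
      (Adi (1 + κ • (X * φm)) (fth (gG h) θ f)).c (dl n + r) := by
    unfold alpha
    rw [← hθ]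
    unfold fth
    rw [← Adi_mul_left ha0 hm0]
    exact Eqv.Adi hS (gneg_c_zero θ hQg0) (T2_mul_zero ha0 hm0) hneg (Eqv.refl _ _) _ hmem
  set F := fth (gG h) θ f with hF
  set Y := κ • (X * φm) with hY
  have hinv : Eqv {u | dco n u ≤ 1} (inv (1 + Y)) (1 - Y) := by
    have h1 : Eqv {u | dco n u ≤ 1} ((1 + Y) * (1 - Y)) 1 := by
      have : (1 + Y) * (1 - Y) = 1 + (-1 : K) • (Y * Y) := by
        rw [neg_one_smul]
        noncomm_ring
      rw [this]
      exact V2_eqv_two ((V2_supp_deg hYm hYm).smul _)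
    have h2 := Eqv.mul hS (Eqv.refl {u | dco n u ≤ 1} (inv (1 + Y))) h1
    rw [← mul_assoc, inv_mul_self hm0, one_mul, mul_one] at h2
    exact h2.symm
  have hF0 : Supp F {u | dco n u = 0} := fun u hu => (hFN u hu).1
  have e2 : (Adi (1 + Y) F).c (dl n + r) = ((1 - Y) * F * (1 + Y)).c (dl n + r) :=
    Eqv.mul hS (Eqv.mul hS hinv (Eqv.refl _ _)) (Eqv.refl _ _) _ hmem
  have e3 : (1 - Y) * F * (1 + Y) = F - (Y * F - F * Y) - Y * F * Y := by noncomm_ring
  have e4 : Y * F - F * Y = κ • (X * (φm * F - F * φm)) := by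
    rw [hY, smul_mul_assoc, mul_smul_comm, ← smul_sub, ← mul_assoc F X, ← V2_comm hFN,
      mul_sub, mul_assoc, mul_assoc]
  rw [e1, e2, e3, e4, QT.sub_c, QT.sub_c, V2_c_eq_zero hF0 (by omega),
    V2_c_eq_zero (V2_supp_deg (V2_supp_deg hYm hF0) hYm) (by omega), QT.smul_c,
    mono_mul_c dl_mem, V2_w_dl, map_add, V2_zco_dl, hr.2, add_zero, tp_zero, add_sub_cancel_left]
  ring

/-- With `φ`, `f_θ ≥ 0`: `κ [φ_-, f_θ]_r = Σ_{v, ω v r < 0} φ_v f_(r-v) κ (t^(ω v r) - t^(-ω v r))` is a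
sum of `Pos` terms (`pos_qint`) whose negative is `Pos` (`thPos_fmu_d`), hence zero; since
`[φ, f_θ] = 0` (`ek_one_comm_fmu`, `Adi_mul`), the sum over `ω v r > 0` vanishes too, so each of
its terms does (`Pos.eq_zero_of_sum`). -/
theorem vanish_pos (hh : IsHessenberg h) (μ : List ℕ) {v w : MM n}
    (hr : dco n (v + w) = 0 ∧ zco n (v + w) = 0) (hvw : 0 < (omG h).w v w) :
    (fth (gG h) (th (omG h) (dl n + (v + w))) (ek h 1)).c v *
      (fth (gG h) (th (omG h) (dl n + (v + w))) (fmu h μ)).c w = 0 := by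
  set r := v + w with hrdef
  have hfN : Supp (fmu h μ) {u | dco n u = 0 ∧ zco n u = 0} := by
    intro u hu
    obtain ⟨m, -, rfl⟩ := supp_fmu h μ u hu
    exact ⟨rfl, rfl⟩
  have hal := alpha_delta hfN hr
  have hpos : Pos (alpha (Qd h * gG h) (fmu h μ) (dl n + r)) := (thPos_fmu_d hh μ).alpha _
  set θ := th (omG h) (dl n + r) with hθ
  have hφP : QPos (fth (gG h) θ (ek h 1)) := thPos_ek hh 1 θ
  have hFP : QPos (fth (gG h) θ (fmu h μ)) := thPos_fmu hh μ θ
  have hcomm : fth (gG h) θ (ek h 1) * fth (gG h) θ (fmu h μ) =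
      fth (gG h) θ (fmu h μ) * fth (gG h) θ (ek h 1) := by
    unfold fth
    rw [← Adi_mul (gneg_c_zero θ gG_c_zero), ← Adi_mul (gneg_c_zero θ gG_c_zero),
      ek_one_comm_fmu hh]
  set φ := fth (gG h) θ (ek h 1) with hφ
  set F := fth (gG h) θ (fmu h μ) with hF
  set κ : K := tp 1 / (1 - tp 2) with hκ
  set φm := proj {u | (omG h).w u r < 0} φ with hφm
  set φp := proj {u | (omG h).w u r < 0}ᶜ φ with hφp
  have hsum : φm + φp = φ := proj_add_proj_compl _ _
  have hneg : Pos (κ * (φm * F - F * φm).c r) := by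
    rw [V2_comm_c, Finset.mul_sum]
    refine Pos.sum fun u _ => ?_
    rw [hφm, proj_c]
    split_ifs with hu
    · have hu' : 0 < -(omG h).w u r := by
        have : (omG h).w u r < 0 := hu
        omega
      have := (pos_qint hu').1
      rw [neg_neg] at this
      rw [← mul_assoc]
      exact this.mul ((hφP u).mul (hFP _))
    · simpa using Pos.zero
  have hzero : κ * (φm * F - F * φm).c r = 0 := by
    refine hneg.eq_zero_of_neg ?_
    rw [hal, neg_mul] at hpos
    exact hpos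
  have hp0 : -κ * (φp * F - F * φp).c r = 0 := by
    have : φp * F - F * φp = -(φm * F - F * φm) := by
      have h1 : φp = φ - φm := by rw [← hsum]; abel
      rw [h1, sub_mul, mul_sub, hcomm]
      abel
    rw [this, QT.neg_c, neg_mul_neg, hzero]
  rw [V2_comm_c, Finset.mul_sum] at hp0
  by_contra hne
  have hv : φ.c v ≠ 0 := left_ne_zero_of_mul hne
  have hw : F.c w ≠ 0 := right_ne_zero_of_mul hne
  have hrv : r - v = w := by rw [hrdef]; abel
  have hvr : (omG h).w v r = (omG h).w v w := by rw [hrdef, map_add, (omG h).alt, zero_add]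
  have hvm : v ∈ (cG n).le ((cG n).deg r) :=
    (cG n).mem_le_of_add (φ.supp hv) (by rw [hrv]; exact F.supp hw) le_rfl
  have hterm := Pos.eq_zero_of_sum (fun u _ => ?_) hp0 v hvm
  · rw [hφp, proj_c, if_pos (by simp only [Set.mem_compl_iff, Set.mem_ofPred_eq, hvr]; omega),
      hrv, hvr] at hterm
    apply mul_ne_zero (pos_qint hvw).2 hne
    rw [← hterm]
    ring
  · rw [hφp, proj_c]
    split_ifs with hu
    · have hu' : 0 ≤ (omG h).w u r := not_lt.1 hu
      rcases hu'.lt_or_eq with hlt | heq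
      · have := ((pos_qint hlt).1).mul ((hφP u).mul (hFP (r - u)))
        convert this using 1
        ring
      · rw [← heq]
        simpa using Pos.zero
    · simpa using Pos.zero

/-- `alpha ≠ 0` forces `m ∈ supp f` (`fth_c_ne_zero` with `θ = deg`, `gneg_deg`, `supp_fmu`).
If `max_j ω(e_j, m) > 0` take the least maximiser `j`; `(e_1)_θ` has coefficient `1` at `e_j` for
`θ = θ_(δ + e_j + m)` (`Adi_c_eq` with `N = negM θ ⊓ {posf ≥ 0}`), contradicting `vanish_pos`. -/
theorem alpha_fmu_ne_zero (hh : IsHessenberg h) (μ : List ℕ) {u : MM n}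
    (hu : alpha (gG h) (fmu h μ) u ≠ 0) : ∃ m ∈ Zset h μ.sum, u = emb m := by
  obtain ⟨L, hL, hg⟩ := gG_list (h := h)
  have hne := fth_c_ne_zero sep_MM hL hg (thPos_fmu hh μ) hu
  have h1 := hne (qf (cG n).deg)
  unfold fth at h1
  rw [gneg_deg gG_c_zero, Adi_one] at h1
  obtain ⟨m, hm, rfl⟩ := supp_fmu h μ u h1
  refine ⟨m, ?_, rfl⟩
  unfold Zset
  rw [Finset.mem_filter, Finset.mem_piAntidiag]
  refine ⟨⟨hm, fun i _ => Finset.mem_univ i⟩, ?_⟩
  by_contra hZ
  unfold ZZ at hZ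
  push Not at hZ
  obtain ⟨j₀, hj₀⟩ := hZ
  obtain ⟨j₁, -, hj₁⟩ := Finset.exists_max_image Finset.univ
    (fun j => (omG h).w (ev j) (emb m)) ⟨j₀, Finset.mem_univ _⟩
  obtain ⟨j, hj, hjmin⟩ := Finset.exists_min_image
    (Finset.univ.filter fun j => (omG h).w (ev j) (emb m) = (omG h).w (ev j₁) (emb m))
    (fun j => j) ⟨j₁, by simp⟩
  have hj' : (omG h).w (ev j) (emb m) = (omG h).w (ev j₁) (emb m) := (Finset.mem_filter.1 hj).2
  have hjpos : 0 < (omG h).w (ev j) (emb m) := by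
    rw [hj']
    exact hj₀.trans_le (hj₁ j₀ (Finset.mem_univ _))
  have hlt : ∀ i, i < j → (omG h).w (ev i) (emb m) < (omG h).w (ev j) (emb m) := by
    intro i hi
    rw [hj']
    refine lt_of_le_of_ne (hj₁ i (Finset.mem_univ _)) fun he => ?_
    exact absurd (hjmin i (by simp [he])) (not_le.2 hi)
  have hvan := vanish_pos hh μ (v := ev j) (w := emb m)
    ⟨by rw [map_add]; rfl, by rw [map_add]; rfl⟩ hjpos
  set θ := th (omG h) (dl n + (ev j + emb m)) with hθ
  have hφ : (fth (gG h) θ (ek h 1)).c (ev j) = 1 := by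
    have hposf : Supp (gG h) (nnM (qf (posf n))) := by
      intro u hu
      change (0 : ℚ) ≤ qf (posf n) u
      rw [qf_apply]
      exact_mod_cast (supp_gG u hu).2.2.2
    have hN : Supp (gneg θ (gG h)) (negM θ ⊓ nnM (qf (posf n)) : AddSubmonoid (MM n)) :=
      (supp_gneg θ gG_c_zero).inter (hposf.gneg gG_c_zero θ)
    have hind : ∀ i : Fin n, ind {i} = ev i := fun i => by rw [ind_eq_sum, Finset.sum_singleton]
    unfold fth
    rw [Adi_c_eq (gneg_c_zero θ gG_c_zero) hN]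
    · rw [← hind, ek_c, if_pos]
      refine ⟨?_, Finset.card_singleton j⟩
      intro a ha b hb
      rw [Finset.mem_singleton.1 ha, Finset.mem_singleton.1 hb]
      exact not_isEdge_self h j
    · intro v hvj hv _ hmem
      obtain ⟨I, -, hI, rfl⟩ := ek_c_ne_zero hv
      obtain ⟨i, rfl⟩ := Finset.card_eq_one.1 hI
      rw [hind] at hvj hmem
      obtain ⟨hm1, hm2⟩ := AddSubmonoid.mem_inf.1 hmem
      have hij : i ≤ j := by
        rw [mem_nnM, qf_apply, map_sub, posf_ev, posf_ev] at hm2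
        have : (i.val : ℤ) ≤ j.val := by
          have h3 : (0 : ℤ) ≤ (j.val : ℤ) - i.val := by exact_mod_cast hm2
          omega
        exact_mod_cast this
      have hij' : i < j := lt_of_le_of_ne hij fun he => hvj (by rw [he])
      rcases mem_negM.1 hm1 with h0 | h0
      · exact hvj (sub_eq_zero.1 h0).symm
      · rw [hθ, th_apply] at h0
        have h3 : (omG h).w (ev j - ev i) (dl n + (ev j + emb m)) < 0 := by exact_mod_cast h0
        have hz : ∀ a : Fin n, zco n (ev a) = 0 := fun a => rfl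
        simp only [map_add, map_sub, AddMonoidHom.sub_apply, omG_dl, omG_ev_ev, adj_self,
          hz] at h3
        have h4 := hlt i hij'
        have h5 := adj_le_one h i j
        omega
  rw [hφ, one_mul] at hvan
  exact hne θ hvan

/-- `Adi_c_eq` with `N = negM θ_m`: for `v = emb m'`, `ω(m - v, m) = -Σ m'_j ω(e_j, m) ≥ 0` -/
theorem alpha_of_ZZ {f : TG h} (hf : Supp f (Set.range emb)) {m : Fin n → ℕ} (hm : ZZ h m) :
    alpha (gG h) f (emb m) = f.c (emb m) := by
  unfold alpha fth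
  apply Adi_c_eq (gneg_c_zero _ gG_c_zero) (supp_gneg _ gG_c_zero)
  intro v hv hfv _ hmem
  obtain ⟨m', rfl⟩ := hf v hfv
  rcases mem_negM.1 hmem with h0 | h0
  · exact hv (sub_eq_zero.1 h0).symm
  · rw [th_apply] at h0
    have h1 : (omG h).w (emb m - emb m') (emb m) < 0 := by exact_mod_cast h0
    rw [map_sub, AddMonoidHom.sub_apply, (omG h).alt, emb_eq_sum m', map_sum,
      AddMonoidHom.finsetSum_apply] at h1
    have h2 : ∑ a, (omG h).w (m' a • ev a) (emb m) ≤ 0 := by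
      refine Finset.sum_nonpos fun a _ => ?_
      rw [map_nsmul, AddMonoidHom.nsmul_apply]
      exact nsmul_nonpos (hm a) _
    omega

/-- `eq_zero_of_alpha` -/
theorem fmu_expand (hh : IsHessenberg h) (μ : List ℕ) :
    fmu h μ = ∑ m ∈ Zset h μ.sum, (fmu h μ).c (emb m) • theta (gG h) (emb m) := by
  rw [← sub_eq_zero]
  apply eq_zero_of_alpha (gG_c_zero (h := h))
  intro u
  rw [alpha_sub, alpha_sum]
  simp only [alpha_smul, alpha_theta gG_c_zero (emb_mem _)]
  by_cases hu : ∃ m ∈ Zset h μ.sum, u = emb m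
  · obtain ⟨m, hm, rfl⟩ := hu
    have hf : Supp (fmu h μ) (Set.range emb) := by
      intro u hu
      obtain ⟨m, -, rfl⟩ := supp_fmu h μ u hu
      exact ⟨m, rfl⟩
    rw [alpha_of_ZZ hf (Finset.mem_filter.1 hm).2, Finset.sum_eq_single m]
    · simp
    · intro m' _ hne
      rw [if_neg (fun he => hne (emb_injective he).symm), mul_zero]
    · intro hm'
      exact absurd hm hm'
  · have h0 : alpha (gG h) (fmu h μ) u = 0 := by
      by_contra hc
      exact hu (alpha_fmu_ne_zero hh μ hc)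
    rw [h0, Finset.sum_eq_zero, sub_zero]
    intro m hm
    rw [if_neg (fun he => hu ⟨m, hm, he⟩), mul_zero]

theorem qpos_theta (m : Fin n → ℕ) : QPos (theta (gG h) (emb m)) := by
  obtain ⟨L, hL, hg⟩ := gG_list (h := h)
  exact (thPos_theta sep_MM hL hg (emb_mem m)).qpos gG_c_zero

end Crest.Agent.R59
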