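import Crest.Agent.R59.ZDefs
import Crest.Agent.R59.G1

/-! # Row 59, Z1: the monomial series `Zq`: finiteness, products, invariance. -/

set_option autoImplicit false

namespace Crest.Agent.R59
open scoped Classical

variable {M : Type} [AddCommGroup M] {ω : Form M} {A : Cone M} {B B' : Type}

theorem lau_coeff {f : ℤ → ℚ} (h : BddBelow (Function.support f)) (j : ℤ) :
    (lau f).coeff j = f j := by
  unfold lau
  rw [dif_pos h, HahnSeries.coeff_ofSuppBddBelow]
theorem z1a_iota_even (p : PowerSeries ℚ) (n : ℕ) :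
    (iota p).coeff (2 * (n : ℤ)) = PowerSeries.coeff n p := by
  unfold iota
  rw [RingHom.comp_apply, HahnSeries.embDomainRingHom_apply]
  exact (HahnSeries.embDomain_coeff (a := n)).trans (by simp)

theorem z1a_iota_odd (p : PowerSeries ℚ) (j : ℤ) (hj : ¬ (0 ≤ j ∧ Even j)) :
    (iota p).coeff j = 0 := by
  unfold iota
  rw [RingHom.comp_apply, HahnSeries.embDomainRingHom_apply]
  apply HahnSeries.embDomain_of_notMem_range
  rintro ⟨n, hn⟩
  apply hj
  have hn' : (2 * (n : ℤ)) = j := hn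
  exact ⟨by omega, ⟨n, by omega⟩⟩

theorem z1a_exists {j : ℤ} (hj : 0 ≤ j ∧ Even j) : ∃ n : ℕ, j = 2 * (n : ℤ) := by
  obtain ⟨h0, k, hk⟩ := hj
  exact ⟨k.toNat, by omega⟩

theorem hilb_coeff (f : ℕ → ℕ) (j : ℤ) :
    (hilb f).coeff j = if 0 ≤ j ∧ Even j then (f (j / 2).toNat : ℚ) else 0 := by
  unfold hilb
  split_ifs with hj
  · obtain ⟨n, rfl⟩ := z1a_exists hj
    rw [z1a_iota_even, PowerSeries.coeff_mk]
    simp
  · exact z1a_iota_odd _ _ hj
theorem tp_mul_coeff (k : ℤ) (a : K) (j : ℤ) : (tp k * a).coeff j = a.coeff (j - k) := by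
  have := HahnSeries.coeff_single_mul_add (r := (1 : ℚ)) (x := a) (a := j - k) (b := k)
  rw [sub_add_cancel, one_mul] at this
  exact this
theorem iota_X : iota PowerSeries.X = tp 2 := by
  ext j
  by_cases hj : 0 ≤ j ∧ Even j
  · obtain ⟨n, rfl⟩ := z1a_exists hj
    rw [z1a_iota_even, PowerSeries.coeff_X, tp, HahnSeries.coeff_single]
    by_cases hn : n = 1
    · simp [hn]
    · rw [if_neg hn, if_neg (by omega)]
  · rw [z1a_iota_odd _ _ hj, tp, HahnSeries.coeff_single, if_neg]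
    rintro rfl
    exact hj ⟨by norm_num, by decide⟩
theorem iota_injective : Function.Injective iota := by
  intro p q h
  ext n
  rw [← z1a_iota_even, ← z1a_iota_even, h]

theorem z1a_beta {c : B → M} {s : B → ℤ} (h : LocFin A c s) (k : ℤ) :
    ∃ β : ℤ, 0 ≤ β ∧ ∀ α, A.deg (c α) ≤ k → -β ≤ s α := by
  have hfin : (⋃ u ∈ (A.le k : Set M), {α | c α = u ∧ s α ≤ 0}).Finite :=
    (A.le k).finite_toSet.biUnion fun u _ => h.2 u 0
  obtain ⟨b, hb⟩ := (hfin.image s).bddBelow
  refine ⟨max 0 (-b), le_max_left _ _, fun α hα => ?_⟩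
  by_cases hs : s α ≤ 0
  · have : b ≤ s α := hb ⟨α, Set.mem_biUnion (x := c α)
      (Finset.mem_coe.2 (A.mem_le.2 ⟨(h.1 α).1, hα⟩)) ⟨rfl, hs⟩, rfl⟩
    have := le_max_right 0 (-b)
    omega
  · have := le_max_left 0 (-b)
    omega

theorem z1a_deg {c : B → M} {s : B → ℤ} (h : LocFin A c s) {μ : B →₀ ℕ} {a : M}
    (hμ : (μ.sum fun α k => k • c α) = a) :
    (∑ α ∈ μ.support, (μ α : ℤ)) ≤ A.deg a ∧
      ∀ α ∈ μ.support, A.deg (c α) ≤ A.deg a ∧ (μ α : ℤ) ≤ A.deg a := by
  have e : A.deg a = ∑ α ∈ μ.support, (μ α : ℤ) * A.deg (c α) := by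
    rw [← hμ, Finsupp.sum, map_sum]
    simp
  have hp : ∀ α, 1 ≤ A.deg (c α) := fun α => A.pos _ (h.1 α).1 (h.1 α).2
  refine ⟨?_, fun α hα => ?_⟩
  · rw [e]
    refine Finset.sum_le_sum fun α _ => ?_
    have := hp α
    nlinarith [Int.natCast_nonneg (μ α)]
  · have h1 : (μ α : ℤ) * A.deg (c α) ≤ A.deg a := by
      rw [e]
      exact Finset.single_le_sum (f := fun α => (μ α : ℤ) * A.deg (c α))
        (fun β _ => mul_nonneg (Int.natCast_nonneg _) (by have := hp β; omega)) hα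
    have h2 : (1 : ℤ) ≤ μ α := by
      have := Finsupp.mem_support_iff.1 hα
      omega
    have := hp α
    constructor <;> nlinarith

theorem z1a_bound {c : B → M} {s : B → ℤ} (h : LocFin A c s) (a : M) :
    ∃ γ : ℤ, ∀ j, ∀ μ ∈ monos c s a j, -γ ≤ j ∧ ∀ α ∈ μ.support, s α ≤ j + γ := by
  obtain ⟨β, hβ0, hβ⟩ := z1a_beta h (A.deg a)
  refine ⟨β * A.deg a, fun j μ hμ => ?_⟩
  obtain ⟨-, h2, h3⟩ := hμ
  obtain ⟨d1, d2⟩ := z1a_deg h h2
  have e : ∑ α ∈ μ.support, (μ α : ℤ) * (s α + β) = j + β * ∑ α ∈ μ.support, (μ α : ℤ) := by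
    rw [← h3, Finsupp.sum, Finset.mul_sum, ← Finset.sum_add_distrib]
    exact Finset.sum_congr rfl fun α _ => by ring
  have hnn : ∀ α ∈ μ.support, 0 ≤ (μ α : ℤ) * (s α + β) := fun α hα =>
    mul_nonneg (Int.natCast_nonneg _) (by have := hβ α (d2 α hα).1; omega)
  have e2 : β * ∑ α ∈ μ.support, (μ α : ℤ) ≤ β * A.deg a := mul_le_mul_of_nonneg_left d1 hβ0
  refine ⟨?_, fun α hα => ?_⟩
  · have := Finset.sum_nonneg hnn
    omega
  · have h1 := Finset.single_le_sum hnn hα
    have h4 : (1 : ℤ) ≤ μ α := by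
      have := Finsupp.mem_support_iff.1 hα
      omega
    have h5 := hβ α (d2 α hα).1
    have h6 : s α + β ≤ (μ α : ℤ) * (s α + β) := by nlinarith
    omega

/-- Only the finitely many `c ∈ A.le (deg a)` occur, each weight set `{s α | c α = c}` is bounded
below by some `-β`, and the multiset has at most `deg a` elements; so the weights are bounded below
and every `α` used has `s α ≤ j + β deg a`. -/
theorem monos_finite {c : B → M} {s : B → ℤ} (h : LocFin A c s) (a : M) (j : ℤ) :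
    (monos c s a j).Finite := by
  obtain ⟨γ, hγ⟩ := z1a_bound h a
  have hfin : (⋃ u ∈ (A.le (A.deg a) : Set M), {α | c α = u ∧ s α ≤ j + γ}).Finite :=
    (A.le (A.deg a)).finite_toSet.biUnion fun u _ => h.2 u _
  refine (Finset.finsupp hfin.toFinset
    (fun _ => Finset.range ((A.deg a).toNat + 1))).finite_toSet.subset fun μ hμ => ?_
  obtain ⟨d1, d2⟩ := z1a_deg h hμ.2.1
  rw [Finset.mem_coe, Finset.mem_finsupp_iff]
  refine ⟨fun α hα => ?_, fun α _ => ?_⟩
  · rw [Set.Finite.mem_toFinset]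
    exact Set.mem_biUnion (x := c α)
      (Finset.mem_coe.2 (A.mem_le.2 ⟨(h.1 α).1, (d2 α hα).1⟩)) ⟨rfl, (hγ j μ hμ).2 α hα⟩
  · rw [Finset.mem_range]
    by_cases hα : α ∈ μ.support
    · have := (d2 α hα).2
      omega
    · rw [Finsupp.notMem_support_iff.1 hα]
      omega
theorem monos_bdd {c : B → M} {s : B → ℤ} (h : LocFin A c s) (a : M) :
    BddBelow {j | (monos c s a j).Nonempty} := by
  obtain ⟨γ, hγ⟩ := z1a_bound h a
  exact ⟨-γ, fun j ⟨μ, hμ⟩ => (hγ j μ hμ).1⟩
theorem monos_mem {c : B → M} {s : B → ℤ} {N : AddSubmonoid M} (hN : ∀ α, c α ∈ N) {a : M}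
    {j : ℤ} (h : (monos c s a j).Nonempty) : a ∈ N := by
  obtain ⟨μ, -, h2, -⟩ := h
  rw [← h2, Finsupp.sum]
  exact N.sum_mem fun α _ => N.nsmul_mem (hN α) _
theorem z1a_supp_bdd {c : B → M} {s : B → ℤ} (h : LocFin A c s) (a : M) :
    BddBelow (Function.support fun j => ((monos c s a j).ncard : ℚ)) := by
  refine (monos_bdd h a).mono fun j hj => ?_
  have : (monos c s a j).ncard ≠ 0 := by simpa using hj
  exact Set.nonempty_of_ncard_ne_zero this

theorem z1a_Zc_zero {c : B → M} {s : B → ℤ} {N : AddSubmonoid M} (hN : ∀ α, c α ∈ N) {a : M}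
    (ha : a ∉ N) : Zc c s a = 0 := by
  have : (fun j => ((monos c s a j).ncard : ℚ)) = 0 := by
    funext j
    have : monos c s a j = ∅ := by
      by_contra hne
      exact ha (monos_mem hN (Set.nonempty_iff_ne_empty.2 hne))
    simp [this]
  unfold Zc
  rw [this]
  ext j
  rw [lau_coeff (by simp)]
  simp

theorem z1a_Zq_c {c : B → M} {s : B → ℤ} (h : LocFin A c s) (a : M) :
    (Zq ω A c s).c a = Zc c s a := by
  unfold Zq
  rw [QT.mk_c]
  split_ifs with ha
  · rfl
  · exact (z1a_Zc_zero (fun α => (h.1 α).1) ha).symm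

theorem Zq_coeff {c : B → M} {s : B → ℤ} (h : LocFin A c s) (a : M) (j : ℤ) :
    ((Zq ω A c s).c a).coeff j = ((monos c s a j).ncard : ℚ) := by
  rw [z1a_Zq_c h, Zc, lau_coeff (z1a_supp_bdd h a)]
theorem Zq_c {c : B → M} {s : B → ℤ} (h : LocFin A c s) (a : M) :
    (Zq ω A c s).c a = Zc c s a := by
  exact z1a_Zq_c h a
theorem supp_Zq {c : B → M} {s : B → ℤ} {N : AddSubmonoid M} (hN : ∀ α, c α ∈ N) :
    Supp (Zq ω A c s) N := by
  intro u hu
  by_contra hn
  apply hu
  unfold Zq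
  rw [QT.mk_c]
  split_ifs
  · exact z1a_Zc_zero hN hn
  · rfl
theorem Zq_c_zero {c : B → M} {s : B → ℤ} (h : LocFin A c s) : (Zq ω A c s).c 0 = 1 := by
  ext j
  rw [Zq_coeff h, HahnSeries.coeff_one]
  have key : ∀ μ : B →₀ ℕ, (μ.sum fun α k => k • c α) = 0 → μ = 0 := by
    intro μ hμ
    obtain ⟨-, d2⟩ := z1a_deg h hμ
    ext α
    by_contra hne
    have := (d2 α (Finsupp.mem_support_iff.2 hne)).2
    rw [map_zero] at this
    apply hne
    simp only [Finsupp.coe_zero, Pi.zero_apply]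
    omega
  split_ifs with hj
  · subst hj
    have : monos c s 0 0 = {0} := by
      ext μ
      constructor
      · intro hμ
        exact key μ hμ.2.1
      · rintro rfl
        exact ⟨by simp, by simp, by simp⟩
    simp [this]
  · have : monos c s 0 j = ∅ := by
      ext μ
      simp only [Set.mem_empty_iff_false, iff_false]
      intro hμ
      have h0 := key μ hμ.2.1
      have h3 := hμ.2.2
      rw [h0] at h3
      exact hj (by simpa using h3.symm)
    simp [this]
theorem Zq_empty [IsEmpty B] (c : B → M) (s : B → ℤ) : Zq ω A c s = 1 := by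
  have h : LocFin A c s := ⟨fun α => isEmptyElim α, fun _ _ => Set.toFinite _⟩
  ext1 u
  rw [QT.one_c]
  split_ifs with hu
  · rw [hu, Zq_c_zero h]
  · by_contra hne
    exact hu (supp_Zq (N := ⊥) (fun α => isEmptyElim α) u hne)
/-- `Finsupp.equivMapDomain` -/
theorem Zc_equiv (e : B ≃ B') {c : B → M} {s : B → ℤ} {c' : B' → M} {s' : B' → ℤ}
    (hc : ∀ α, c' (e α) = c α) (hs : ∀ α, s' (e α) = s α) (a : M) : Zc c s a = Zc c' s' a := by
  unfold Zc
  congr 1
  funext j
  congr 1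
  have : monos c' s' a j = (Finsupp.equivCongrLeft e) '' monos c s a j := by
    rw [Equiv.image_eq_preimage_symm]
    ext μ
    obtain ⟨ν, rfl⟩ := (Finsupp.equivCongrLeft (M := ℕ) e).surjective μ
    rw [Set.mem_preimage, Equiv.symm_apply_apply]
    simp only [monos, Set.mem_ofPred_eq, Finsupp.equivCongrLeft_apply,
      Finsupp.sum_equivMapDomain, hc, hs]
    refine and_congr_left fun _ => ?_
    rw [e.surjective.forall]
    simp [hs]
  rw [this, Set.ncard_image_of_injective _ (Equiv.injective _)]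
/-- `Equiv.ofFiberEquiv` for the map `α ↦ (c α, s α)` -/
theorem Zc_fib {c : B → M} {s : B → ℤ} {c' : B' → M} {s' : B' → ℤ} (h : LocFin A c s)
    (h' : LocFin A c' s') (hf : ∀ a j, fib c s a j = fib c' s' a j) (a : M) :
    Zc c s a = Zc c' s' a := by
  have hne : ∀ p : M × ℤ, Nonempty ({α // (c α, s α) = p} ≃ {α // (c' α, s' α) = p}) := by
    rintro ⟨u, j⟩
    have f1 : {α | c α = u ∧ s α = j}.Finite := (h.2 u j).subset fun α hα => ⟨hα.1, hα.2.le⟩
    have f2 : {α | c' α = u ∧ s' α = j}.Finite := (h'.2 u j).subset fun α hα => ⟨hα.1, hα.2.le⟩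
    have := f1.to_subtype
    have := f2.to_subtype
    have e := hf u j
    unfold fib at e
    rw [← Nat.card_coe_set_eq, ← Nat.card_coe_set_eq, Finite.card_eq] at e
    obtain ⟨e⟩ := e
    exact ⟨((Equiv.subtypeEquivRight fun α => by simp).trans e).trans
      (Equiv.subtypeEquivRight fun α => by simp)⟩
  let e : B ≃ B' := Equiv.ofFiberEquiv (f := fun α => (c α, s α)) (g := fun α => (c' α, s' α))
    fun p => (hne p).some
  have he : ∀ α, (c' (e α), s' (e α)) = (c α, s α) := fun α =>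
    Equiv.ofFiberEquiv_map (f := fun α => (c α, s α)) (g := fun α => (c' α, s' α)) _ α
  exact Zc_equiv e (fun α => congrArg Prod.fst (he α)) (fun α => congrArg Prod.snd (he α)) a

end Crest.Agent.R59
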