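import Crest.Agent.R59.Z1
import Crest.Agent.R59.Adm

/-! # Row 59, Z2: chains give the generators; finiteness from admissibility. -/

set_option autoImplicit false

namespace Crest.Agent.R59
open scoped Classical

variable {M : Type} [AddCommGroup M] {ω : Form M} {A : Cone M} {B : Type}

theorem z2a_eq_ser {u : M} (hu : u ∈ A.C) (h0 : u ≠ 0) {f : QT ω A}
    (hf : Supp f (AddSubmonoid.multiples u)) :
    f = ser ω A u (PowerSeries.mk fun k => f.c (k • u)) := by
  ext1 d
  by_cases hd : ∃ k : ℕ, d = k • u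
  · obtain ⟨k, rfl⟩ := hd
    rw [ser_c_nsmul hu h0, PowerSeries.coeff_mk]
  · have h1 : f.c d = 0 := by
      by_contra h
      obtain ⟨k, hk⟩ := (AddSubmonoid.mem_multiples_iff _ _).1 (hf d h)
      exact hd ⟨k, hk.symm⟩
    rw [h1]
    by_contra h
    exact hd (ser_c_ne_zero (Ne.symm h))

theorem z2a_ser_inj {u : M} (hu : u ∈ A.C) (h0 : u ≠ 0) {p q : PowerSeries K}
    (h : ser ω A u p = ser ω A u q) : p = q := by
  ext1 k
  rw [← ser_c_nsmul (ω := ω) hu h0, h, ser_c_nsmul hu h0]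

theorem z2a_supp (u : M) (s : B → ℤ) :
    Supp (Zq ω A (fun _ : B => u) s) (AddSubmonoid.multiples u) :=
  supp_Zq fun _ => AddSubmonoid.mem_multiples u

theorem z2a_mem_monos {u : M} (hu : u ∈ A.C) (h0 : u ≠ 0) {s : B → ℤ} {k : ℕ} {j : ℤ}
    {μ : B →₀ ℕ} : μ ∈ monos (fun _ : B => u) s (k • u) j ↔
      (∀ α, Odd (s α) → μ α ≤ 1) ∧ (μ.sum fun _ k => k) = k ∧
        (μ.sum fun α k => (k : ℤ) * s α) = j := by
  have e : (μ.sum fun _ k => k • u) = (μ.sum fun _ k => k) • u := by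
    simp only [Finsupp.sum, Finset.sum_smul]
  refine and_congr_right fun _ => and_congr_left fun _ => ?_
  rw [e]
  exact ⟨nsmul_inj hu h0, fun h => by rw [h]⟩

theorem z2a_tp_pow (s : ℤ) (k : ℕ) : tp s ^ k = tp (k * s) := by
  induction k with
  | zero => simp
  | succ k ih =>
    rw [pow_succ, ih, ← tp_add]
    congr 1
    push_cast
    ring

theorem z2a_geom (a : K) :
    (1 - PowerSeries.C a * PowerSeries.X : PowerSeries K)⁻¹ = PowerSeries.mk fun k => a ^ k := by
  rw [PowerSeries.inv_eq_iff_mul_eq_one (by simp)]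
  ext1 n
  rw [mul_sub, mul_one, ← mul_assoc, map_sub]
  rcases n with _ | n
  · simp
  · rw [PowerSeries.coeff_succ_mul_X, PowerSeries.coeff_mul_C]
    simp [PowerSeries.coeff_one, pow_succ]

theorem z2a_locFin_point {u : M} (hu : u ∈ A.C) (h0 : u ≠ 0) (s : ℤ) :
    LocFin A (fun _ : Unit => u) (fun _ => s) :=
  ⟨fun _ => ⟨hu, h0⟩, fun _ _ => Set.toFinite _⟩

theorem z2a_equiv {B' : Type} (e : B ≃ B') {c : B → M} {s : B → ℤ} {c' : B' → M} {s' : B' → ℤ}
    (hc : ∀ α, c' (e α) = c α) (hs : ∀ α, s' (e α) = s α) : Zq ω A c s = Zq ω A c' s' := by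
  ext1 a
  simp only [Zq, QT.mk_c, Zc_equiv e hc hs a]

/-- one generator: `1 + t^s x^u` (odd), `(1 - t^s x^u)⁻¹` (even) -/
theorem Zq_point {u : M} (hu : u ∈ A.C) (h0 : u ≠ 0) (s : ℤ) :
    Zq ω A (fun _ : Unit => u) (fun _ => s) = ser ω A u
      (if Even s then (1 - PowerSeries.C (tp s) * PowerSeries.X)⁻¹
       else 1 + PowerSeries.C (tp s) * PowerSeries.X) := by
  have hl := z2a_locFin_point hu h0 s
  rw [z2a_eq_ser hu h0 (z2a_supp u _)]
  congr 1
  ext k j
  rw [PowerSeries.coeff_mk, Zq_coeff hl]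
  have key : monos (fun _ : Unit => u) (fun _ => s) (k • u) j =
      if (Odd s → k ≤ 1) ∧ (k : ℤ) * s = j then {Finsupp.single () k} else ∅ := by
    ext μ
    have e1 : μ = Finsupp.single () (μ ()) := Finsupp.unique_single μ
    have e2 : (μ.sum fun _ k => k) = μ () := by
      rw [Finsupp.sum_fintype _ _ (fun _ => rfl)]
      simp
    have e3 : (μ.sum fun _ k => (k : ℤ) * s) = μ () * s := by
      rw [Finsupp.sum_fintype _ _ (fun _ => by simp)]
      simp
    rw [z2a_mem_monos hu h0, e2, e3]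
    constructor
    · rintro ⟨h1, h2, h3⟩
      rw [if_pos ⟨fun h => h2 ▸ h1 () h, h2 ▸ h3⟩, ← h2]
      exact e1
    · intro h
      split_ifs at h with h1
      · rw [Set.mem_singleton_iff.1 h]
        simp only [Finsupp.single_eq_same, true_and]
        exact ⟨fun _ => h1.1, h1.2⟩
      · exact h.elim
  have key2 : ((monos (fun _ : Unit => u) (fun _ => s) (k • u) j).ncard : ℚ) =
      if Odd s → k ≤ 1 then (tp s ^ k).coeff j else 0 := by
    rw [key, z2a_tp_pow, tp, HahnSeries.coeff_single]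
    by_cases h1 : Odd s → k ≤ 1 <;> by_cases h2 : (k : ℤ) * s = j
    · rw [if_pos ⟨h1, h2⟩, if_pos h1, if_pos h2.symm]
      simp
    · rw [if_neg fun h => h2 h.2, if_pos h1, if_neg (Ne.symm h2)]
      simp
    · rw [if_neg fun h => h1 h.1, if_neg h1]
      simp
    · rw [if_neg fun h => h1 h.1, if_neg h1]
      simp
  rw [key2]
  by_cases hs : Even s
  · rw [if_pos hs, z2a_geom, PowerSeries.coeff_mk,
      if_pos fun h => absurd hs (Int.not_even_iff_odd.2 h)]
  · rw [if_neg hs]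
    have ho := Int.not_even_iff_odd.1 hs
    rcases k with _ | _ | k
    · simp
    · simp [PowerSeries.coeff_one]
    · rw [if_neg fun h => absurd (h ho) (by omega)]
      simp [PowerSeries.coeff_one, PowerSeries.coeff_X]

theorem locFin_chain {u : M} (hu : u ∈ A.C) (h0 : u ≠ 0) (s : ℤ) :
    LocFin A (fun _ : ℕ => u) (fun j => s + 2 * (j : ℤ)) := by
  refine ⟨fun _ => ⟨hu, h0⟩, fun a j => (Set.finite_Iic (j - s).toNat).subset fun n hn => ?_⟩
  have h1 : s + 2 * (n : ℤ) ≤ j := hn.2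
  rw [Set.mem_Iic]
  omega

theorem z2a_shift {u : M} (hu : u ∈ A.C) (h0 : u ≠ 0) {s s' : B → ℤ} (h : ∀ α, s' α = s α + 2)
    (k : ℕ) (j : ℤ) :
    monos (fun _ : B => u) s' (k • u) j = monos (fun _ : B => u) s (k • u) (j - k * 2) := by
  ext μ
  rw [z2a_mem_monos hu h0, z2a_mem_monos hu h0]
  have e : (μ.sum fun α k => (k : ℤ) * s' α) =
      (μ.sum fun α k => (k : ℤ) * s α) + ((μ.sum fun _ k => k : ℕ) : ℤ) * 2 := by
    simp only [Finsupp.sum, h, mul_add, Finset.sum_add_distrib, Nat.cast_sum, Finset.sum_mul]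
  refine and_congr (forall_congr' fun α => ?_) (and_congr_right fun hk => ?_)
  · rw [h, Int.odd_add]
    simp
  · rw [e, hk, eq_sub_iff_add_eq]

/-- `Unit ⊕ ℕ ≃ ℕ` -/
def z2aNat : Unit ⊕ ℕ ≃ ℕ where
  toFun := Sum.elim (fun _ => 0) fun n => n + 1
  invFun n := Nat.casesOn n (Sum.inl ()) Sum.inr
  left_inv := by rintro (_ | _) <;> rfl
  right_inv := by rintro (_ | _) <;> rfl

/-- `ℕ ⊕ Fin k × ℕ ≃ Fin (k+1) × ℕ` -/
def z2aFin (k : ℕ) : ℕ ⊕ Fin k × ℕ ≃ Fin (k + 1) × ℕ where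
  toFun := Sum.elim (fun n => (0, n)) fun x => (x.1.succ, x.2)
  invFun x := Fin.cases (Sum.inl x.2) (fun i => Sum.inr (i, x.2)) x.1
  left_inv := by rintro (_ | _) <;> simp
  right_inv := by
    rintro ⟨i, n⟩
    induction i using Fin.cases <;> simp

/-- Let `p_s = mk (k ↦ Zc … (k • u))`.  `ℕ ≃ Unit ⊕ ℕ` with `Zq_sum`, `Zq_point`, and
`p_(s+2) = rescale t² p_s` (the weight of a monomial with `k` factors moves by `2k`) give the
functional equation; conclude with `eq_Gser`. -/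
theorem Zq_chain {u : M} (hu : u ∈ A.C) (h0 : u ≠ 0) (s : ℤ) :
    Zq ω A (fun _ : ℕ => u) (fun j => s + 2 * (j : ℤ)) = gen ω A s u := by
  obtain ⟨p, hp⟩ : ∃ p : PowerSeries K, p = PowerSeries.mk fun k =>
      (Zq ω A (fun _ : ℕ => u) (fun j => s + 2 * (j : ℤ))).c (k • u) := ⟨_, rfl⟩
  have h1 : Zq ω A (fun _ : ℕ => u) (fun j => s + 2 * (j : ℤ)) = ser ω A u p := by
    rw [hp]
    exact z2a_eq_ser hu h0 (z2a_supp u _)
  have h2 : Zq ω A (fun _ : ℕ => u) (fun j => s + 2 + 2 * (j : ℤ)) =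
      ser ω A u (PowerSeries.rescale (tp 2) p) := by
    rw [z2a_eq_ser hu h0 (z2a_supp u _)]
    congr 1
    ext k j
    rw [PowerSeries.coeff_mk, PowerSeries.coeff_rescale, hp, PowerSeries.coeff_mk, z2a_tp_pow,
      tp_mul_coeff, Zq_coeff (locFin_chain hu h0 s), Zq_coeff (locFin_chain hu h0 (s + 2)),
      z2a_shift hu h0 (s := fun j : ℕ => s + 2 * (j : ℤ)) fun j => by ring]
  have h3 := (z2a_equiv z2aNat (c := Sum.elim (fun _ : Unit => u) fun _ : ℕ => u)
    (s := Sum.elim (fun _ : Unit => s) fun j : ℕ => s + 2 + 2 * (j : ℤ))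
    (c' := fun _ : ℕ => u) (s' := fun j : ℕ => s + 2 * (j : ℤ)) (ω := ω) (A := A)
    (by rintro (_ | _) <;> rfl) (by
      rintro (_ | n)
      · simp [z2aNat]
      · simp only [z2aNat, Equiv.coe_fn_mk, Sum.elim_inr]
        push_cast
        ring)).symm
  rw [Zq_sum (z2a_locFin_point hu h0 s) (locFin_chain hu h0 (s + 2)) (fun _ _ => ω.alt u),
    Zq_point hu h0, h1, h2, ← ser_mul hu h0] at h3
  have h4 := z2a_ser_inj hu h0 h3
  rw [h1, gen]
  congr 1
  refine eq_Gser ?_ ?_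
  · rw [hp, ← PowerSeries.coeff_zero_eq_constantCoeff_apply, PowerSeries.coeff_mk, zero_smul]
    exact Zq_c_zero (locFin_chain hu h0 s)
  · split_ifs at h4 ⊢ with hs
    · conv_lhs => rw [h4]
      rw [← mul_assoc, PowerSeries.mul_inv_cancel _ (by simp), one_mul]
    · exact h4

theorem locFin_chains {L : List (ℤ × M)} (hL : Valid A Set.univ L) :
    LocFin A (fun x : Fin L.length × ℕ => (L.get x.1).2)
      (fun x => (L.get x.1).1 + 2 * (x.2 : ℤ)) := by
  refine ⟨fun x => ⟨(hL _ (List.get_mem L x.1)).1, (hL _ (List.get_mem L x.1)).2.1⟩, fun a j => ?_⟩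
  refine (Set.finite_iUnion fun i : Fin L.length =>
    (Set.finite_Iic (j - (L.get i).1).toNat).image fun n => (i, n)).subset fun x hx => ?_
  have h1 : (L.get x.1).1 + 2 * (x.2 : ℤ) ≤ j := hx.2
  exact Set.mem_iUnion.2 ⟨x.1, x.2, Set.mem_Iic.2 (by omega), rfl⟩

/-- induction on `L`, `Fin (k+1) × ℕ ≃ ℕ ⊕ Fin k × ℕ` -/
theorem Zq_chains {L : List (ℤ × M)} (hL : Valid A Set.univ L)
    (hc : ∀ p ∈ L, ∀ q ∈ L, ω.w p.2 q.2 = 0) :
    Zq ω A (fun x : Fin L.length × ℕ => (L.get x.1).2)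
      (fun x => (L.get x.1).1 + 2 * (x.2 : ℤ)) = gprod ω A L := by
  induction L with
  | nil =>
    have : IsEmpty (Fin ([] : List (ℤ × M)).length × ℕ) := ⟨fun x => x.1.elim0⟩
    rw [gprod_nil, Zq_empty]
  | cons p L ih =>
    have hL' : Valid A Set.univ L := fun q hq => hL q (List.mem_cons_of_mem _ hq)
    obtain ⟨hu, h0, -⟩ := hL p List.mem_cons_self
    rw [gprod_cons, ← ih hL' fun a ha b hb =>
      hc a (List.mem_cons_of_mem _ ha) b (List.mem_cons_of_mem _ hb), ← Zq_chain hu h0,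
      ← Zq_sum (locFin_chain hu h0 _) (locFin_chains hL') fun _ β =>
        hc p List.mem_cons_self _ (List.mem_cons_of_mem _ (List.get_mem L β.1))]
    exact (z2a_equiv (z2aFin L.length) (by rintro (_ | _) <;> rfl)
      (by rintro (_ | _) <;> rfl)).symm

theorem z2a_card {α : Type} (P : α → Bool) (L : List α) :
    (Finset.univ.filter fun i : Fin L.length => P (L.get i) = true).card = (L.filter P).length := by
  induction L with
  | nil => rfl
  | cons p L ih =>
    have e := Fin.card_filter_univ_succ' (n := L.length) fun i => P ((p :: L).get i) = true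
    refine e.trans ?_
    rw [List.filter_cons]
    have e2 : (Finset.univ.filter fun i : Fin L.length => P ((p :: L).get i.succ) = true).card =
        (L.filter P).length := ih
    rw [e2]
    show (if P p = true then 1 else 0) + _ = _
    split_ifs
    · rw [List.length_cons, add_comm]
    · rw [zero_add]

theorem fib_chains (L : List (ℤ × M)) (a : M) (j : ℤ) :
    fib (fun x : Fin L.length × ℕ => (L.get x.1).2) (fun x => (L.get x.1).1 + 2 * (x.2 : ℤ)) a j
      = (L.filter fun p => p.2 = a ∧ p.1 ≤ j ∧ Even (j - p.1)).length := by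
  rw [← z2a_card, fib, ← Set.ncard_coe_finset]
  refine Set.ncard_congr (fun x _ => x.1) ?_ ?_ ?_
  · rintro x ⟨h1, h2⟩
    simp only [Finset.coe_filter, Finset.mem_univ, true_and, Set.mem_ofPred_eq, decide_eq_true_eq]
    exact ⟨h1, by omega, x.2, by omega⟩
  · rintro ⟨i, n⟩ ⟨i', n'⟩ ⟨-, h2⟩ ⟨-, h2'⟩ h
    dsimp only at h h2 h2'
    subst h
    congr 1
    omega
  · intro i hi
    simp only [Finset.coe_filter, Finset.mem_univ, true_and, Set.mem_ofPred_eq,
      decide_eq_true_eq] at hi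
    obtain ⟨h1, h2, n, h3⟩ := hi
    exact ⟨(i, n.toNat), ⟨h1, by dsimp only; omega⟩, rfl⟩

end Crest.Agent.R59
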