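import Crest.Agent.R59.Defs

/-! # Row 59: generating series of free supercommutative monomials; the upstairs torus. -/

set_option autoImplicit false

namespace Crest.Agent.R59
noncomputable section
open scoped Classical

/-- the Laurent series with coefficient function `f` (junk `0` if the support is unbounded
below) -/
def lau (f : ℤ → ℚ) : K :=
  if h : BddBelow (Function.support f) then HahnSeries.ofSuppBddBelow f h else 0

/-- `q ↦ t²` -/
def iota : PowerSeries ℚ →+* K :=
  (HahnSeries.embDomainRingHom (R := ℚ)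
    ({ toFun := fun n : ℕ => (2 * n : ℤ), map_zero' := by simp,
       map_add' := by intro a b; push_cast; ring } : ℕ →+ ℤ)
    (by intro a b hab; simpa using hab) (by intro a b; simp)).comp
    (HahnSeries.toPowerSeries (R := ℚ)).symm.toRingHom

/-- Hilbert series `Σ_m f m · t^(2m)` -/
def hilb (f : ℕ → ℕ) : K := iota (PowerSeries.mk fun m => (f m : ℚ))

variable {M : Type} [AddCommGroup M]

/-- monomials in generators `α` (vector `c α`, weight `s α`, odd iff `s α` is odd) with total
vector `a` and total weight `j` -/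
def monos {B : Type} (c : B → M) (s : B → ℤ) (a : M) (j : ℤ) : Set (B →₀ ℕ) :=
  {μ | (∀ α, Odd (s α) → μ α ≤ 1) ∧ (μ.sum fun α k => k • c α) = a ∧
    (μ.sum fun α k => (k : ℤ) * s α) = j}

/-- local finiteness of a family of generators -/
def LocFin (A : Cone M) {B : Type} (c : B → M) (s : B → ℤ) : Prop :=
  (∀ α, c α ∈ A.C ∧ c α ≠ 0) ∧ ∀ a j, {α | c α = a ∧ s α ≤ j}.Finite

/-- number of generators of vector `a` and weight `j` -/
def fib {B : Type} (c : B → M) (s : B → ℤ) (a : M) (j : ℤ) : ℕ := {α | c α = a ∧ s α = j}.ncard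

/-- coefficient of `x^a` in the generating series of monomials -/
def Zc {B : Type} (c : B → M) (s : B → ℤ) (a : M) : K :=
  lau fun j => ((monos c s a j).ncard : ℚ)

/-- the generating series of monomials -/
def Zq (ω : Form M) (A : Cone M) {B : Type} (c : B → M) (s : B → ℤ) : QT ω A :=
  QT.mk ω A (fun a => if a ∈ A.C then Zc c s a else 0) (by
    intro u hu
    by_contra h
    simp [h] at hu)

/-! ## upstairs -/

variable {I : Type} [Fintype I] [DecidableEq I]

/-- `b(a, a') = Σ a_i a'_j b i j` -/
def bZ (b : I → I → ℕ) (a a' : I → ℤ) : ℤ := ∑ i, ∑ j, a i * a' j * b i j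

/-- the antisymmetrised form -/
def upForm (b : I → I → ℕ) : Form (I → ℤ) where
  w := AddMonoidHom.mk' (fun x => AddMonoidHom.mk' (fun y => bZ b x y - bZ b y x)
      (by
        intro y y'
        simp only [bZ, Pi.add_apply, mul_add, add_mul, Finset.sum_add_distrib]
        ring))
    (by
      intro x x'
      refine AddMonoidHom.ext fun y => ?_
      simp only [bZ, AddMonoidHom.mk'_apply, AddMonoidHom.add_apply, Pi.add_apply, mul_add,
        add_mul, Finset.sum_add_distrib]
      ring)
  alt := by intro x; simp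

theorem upForm_apply (b : I → I → ℕ) (x y : I → ℤ) :
    (upForm b).w x y = bZ b x y - bZ b y x := rfl

/-- the orthant -/
def upCone (I : Type) [Fintype I] [DecidableEq I] : Cone (I → ℤ) where
  C := { carrier := {a | ∀ i, 0 ≤ a i}
         zero_mem' := by simp
         add_mem' := fun ha hb i => add_nonneg (ha i) (hb i) }
  deg := { toFun := fun a => ∑ i, a i, map_zero' := by simp,
           map_add' := by intro a b; simp [Finset.sum_add_distrib] }
  pos := by
    intro u hu h0
    obtain ⟨i, hi⟩ := Function.ne_iff.1 h0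
    exact Finset.sum_pos' (fun j _ => hu j) ⟨i, Finset.mem_univ _, lt_of_le_of_ne (hu i) (Ne.symm hi)⟩
  fin := by
    intro k
    refine Set.Finite.subset (Set.Finite.pi' fun _ : I => Set.finite_Icc (0 : ℤ) k) ?_
    rintro u ⟨hu, hk⟩ i
    exact ⟨hu i, le_trans (Finset.single_le_sum (fun j _ => hu j) (Finset.mem_univ i)) hk⟩

/-- linear extension of `θ : I → ℚ` -/
def upTh (θ : I → ℚ) : (I → ℤ) →+ ℚ where
  toFun a := ∑ i, (a i : ℚ) * θ i
  map_zero' := by simp
  map_add' a b := by simp [add_mul, Finset.sum_add_distrib]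

/-- `ℕ^I → ℤ^I` -/
def upc (a : I → ℕ) : I → ℤ := fun i => (a i : ℤ)

/-- the series `Σ_a t^(s(a) - b(a,a)) hilb(f a) x^a` -/
def hser (b : I → I → ℕ) (s : I → ℤ) (f : (I → ℕ) → ℕ → ℕ) : QT (upForm b) (upCone I) :=
  QT.mk _ _ (fun a => if ∀ i, 0 ≤ a i then
      tp (∑ i, a i * s i - bZ b a a) * hilb (f fun i => (a i).toNat) else 0) (by
    intro u hu
    by_contra h
    have h' : ¬ ∀ i, 0 ≤ u i := h
    simp only [h', if_false] at hu
    exact hu rfl)

end
end Crest.Agent.R59
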